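import Vale.Agent.P137.Basic

/-! Smooth approximation in `W^{1,1}`. -/

open MeasureTheory Metric Set Filter Topology
open scoped RealInnerProductSpace ENNReal Convolution

namespace Vale.Agent.P137

variable {d : ℕ}

/-- mollification -/
noncomputable def mol {V : Type*} [NormedAddCommGroup V] [NormedSpace ℝ V]
    (φ : ContDiffBump (0 : EuclideanSpace ℝ (Fin d))) (F : EuclideanSpace ℝ (Fin d) → V) :
    EuclideanSpace ℝ (Fin d) → V :=
  convolution (φ.normed volume) F (ContinuousLinearMap.lsmul ℝ ℝ) volume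

section mol

variable {V : Type*} [NormedAddCommGroup V] [NormedSpace ℝ V] [CompleteSpace V]

theorem mol_apply (φ : ContDiffBump (0 : EuclideanSpace ℝ (Fin d)))
    (F : EuclideanSpace ℝ (Fin d) → V) (x : EuclideanSpace ℝ (Fin d)) :
    mol φ F x = ∫ t, φ.normed volume t • F (x - t) := rfl

theorem mol_apply' (φ : ContDiffBump (0 : EuclideanSpace ℝ (Fin d)))
    (F : EuclideanSpace ℝ (Fin d) → V) (x : EuclideanSpace ℝ (Fin d)) :
    mol φ F x = ∫ t, φ.normed volume (x - t) • F t := convolution_lsmul_swap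

theorem integrable_normed (φ : ContDiffBump (0 : EuclideanSpace ℝ (Fin d))) :
    Integrable (φ.normed (volume : Measure (EuclideanSpace ℝ (Fin d)))) :=
  φ.continuous_normed.integrable_of_hasCompactSupport φ.hasCompactSupport_normed

theorem mol_exists (φ : ContDiffBump (0 : EuclideanSpace ℝ (Fin d)))
    {F : EuclideanSpace ℝ (Fin d) → V} (hF : Integrable F) :
    ConvolutionExists (φ.normed volume) F (ContinuousLinearMap.lsmul ℝ ℝ) volume :=
  φ.hasCompactSupport_normed.convolutionExists_left _ φ.continuous_normed hF.locallyIntegrable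

theorem mol_integrable (φ : ContDiffBump (0 : EuclideanSpace ℝ (Fin d)))
    {F : EuclideanSpace ℝ (Fin d) → V} (hF : Integrable F) : Integrable (mol φ F) :=
  (integrable_normed φ).integrable_convolution _ hF

theorem mol_norm_le (φ : ContDiffBump (0 : EuclideanSpace ℝ (Fin d)))
    {F : EuclideanSpace ℝ (Fin d) → V} (hF : Integrable F) :
    ∫ x, ‖mol φ F x‖ ≤ ∫ x, ‖F x‖ := by
  have h1 : ∫ x, mol φ (fun y => ‖F y‖) x = ∫ x, ‖F x‖ := by
    unfold mol
    rw [integral_convolution _ (integrable_normed φ) hF.norm, φ.integral_normed]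
    simp
  rw [← h1]
  refine integral_mono (mol_integrable φ hF).norm (mol_integrable φ hF.norm) (fun x => ?_)
  simp only [mol_apply]
  refine (norm_integral_le_integral_norm _).trans (le_of_eq ?_)
  congr 1
  funext t
  rw [norm_smul, Real.norm_of_nonneg (φ.nonneg_normed t), smul_eq_mul]

theorem mol_add (φ : ContDiffBump (0 : EuclideanSpace ℝ (Fin d)))
    {F G : EuclideanSpace ℝ (Fin d) → V} (hF : Integrable F) (hG : Integrable G)
    (x : EuclideanSpace ℝ (Fin d)) : mol φ (F + G) x = mol φ F x + mol φ G x :=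
  (mol_exists φ hF x).distrib_add (mol_exists φ hG x)

/-- mollifications of a continuous function with compact support -/
theorem mol_cont {u : EuclideanSpace ℝ (Fin d) → V} (hu : Continuous u)
    (huc : HasCompactSupport u) (hui : Integrable u) {ε : ℝ} (hε : 0 < ε) :
    ∃ δ : ℝ, 0 < δ ∧ ∀ φ : ContDiffBump (0 : EuclideanSpace ℝ (Fin d)), φ.rOut ≤ δ →
      ∫ x, ‖mol φ u x - u x‖ ≤ ε := by
  let K : Set (EuclideanSpace ℝ (Fin d)) := cthickening 1 (tsupport u)
  have hK : IsCompact K := huc.isCompact.cthickening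
  have hKm : MeasurableSet K := hK.isClosed.measurableSet
  let η : ℝ := ε / (volume.real K + 1)
  have hη : 0 < η := div_pos hε (by positivity)
  have huu : UniformContinuous u := huc.uniformContinuous_of_continuous hu
  obtain ⟨δ, hδ, hδ'⟩ := Metric.uniformContinuous_iff.1 huu η hη
  refine ⟨min δ 1, lt_min hδ one_pos, fun φ hφ => ?_⟩
  have hpt : ∀ x, ‖mol φ u x - u x‖ ≤ K.indicator (fun _ => η) x := by
    intro x
    rw [← dist_eq_norm]
    by_cases hx : x ∈ K
    · rw [indicator_of_mem hx]
      refine φ.dist_normed_convolution_le hu.aestronglyMeasurable (fun y hy => ?_)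
      refine (hδ' ?_).le
      exact lt_of_lt_of_le (mem_ball.1 hy) (hφ.trans (min_le_left _ _))
    · rw [indicator_of_notMem hx]
      have hx0 : ∀ y ∈ ball x φ.rOut, u y = 0 := by
        intro y hy
        by_contra hne
        apply hx
        refine mem_cthickening_of_dist_le x y 1 (tsupport u) (subset_tsupport u hne) ?_
        rw [dist_comm]
        exact (mem_ball.1 hy).le.trans (hφ.trans (min_le_right _ _))
      refine φ.dist_normed_convolution_le hu.aestronglyMeasurable (fun y hy => ?_)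
      rw [hx0 y hy, hx0 x (mem_ball_self φ.rOut_pos), dist_self]
  have hint : Integrable (K.indicator (fun _ => η)) :=
    (integrable_indicator_iff hKm).2 (integrableOn_const hK.measure_lt_top.ne)
  refine (integral_mono ((mol_integrable φ hui).sub hui).norm hint hpt).trans ?_
  rw [integral_indicator hKm, setIntegral_const, smul_eq_mul]
  have h0 : 0 ≤ volume.real K := measureReal_nonneg
  calc volume.real K * η ≤ (volume.real K + 1) * η := by gcongr; linarith
    _ = ε := by
      simp only [η]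
      field_simp

/-- mollifications converge in `L¹` -/
theorem mol_tendsto {F : EuclideanSpace ℝ (Fin d) → V} (hF : Integrable F) {ε : ℝ} (hε : 0 < ε) :
    ∃ δ : ℝ, 0 < δ ∧ ∀ φ : ContDiffBump (0 : EuclideanSpace ℝ (Fin d)), φ.rOut ≤ δ →
      ∫ x, ‖mol φ F x - F x‖ ≤ ε := by
  obtain ⟨u, huc, hu1, hu, hui⟩ := hF.exists_hasCompactSupport_integral_sub_le
    (show (0 : ℝ) < ε / 3 by positivity)
  obtain ⟨δ, hδ, hδ'⟩ := mol_cont hu huc hui (show (0 : ℝ) < ε / 3 by positivity)
  refine ⟨δ, hδ, fun φ hφ => ?_⟩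
  have h1 := hδ' φ hφ
  have h2 := mol_norm_le φ (hF.sub hui)
  have hs : ∀ x, ‖mol φ F x - F x‖ ≤
      ‖mol φ (F - u) x‖ + ‖mol φ u x - u x‖ + ‖F x - u x‖ := by
    intro x
    have e : mol φ F x = mol φ (F - u) x + mol φ u x := by
      rw [← mol_add φ (hF.sub hui) hui, sub_add_cancel]
    have e2 : mol φ F x - F x = mol φ (F - u) x + (mol φ u x - u x) - (F x - u x) := by
      rw [e]
      abel
    rw [e2]
    exact (norm_sub_le _ _).trans (add_le_add (norm_add_le _ _) le_rfl)
  have i1 : Integrable (fun x => ‖mol φ (F - u) x‖) := (mol_integrable φ (hF.sub hui)).norm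
  have i2 : Integrable (fun x => ‖mol φ u x - u x‖) := ((mol_integrable φ hui).sub hui).norm
  have i3 : Integrable (fun x => ‖F x - u x‖) := (hF.sub hui).norm
  have h3 := integral_mono ((mol_integrable φ hF).sub hF).norm ((i1.add i2).add i3) hs
  have e4 : ∫ x, (((fun x => ‖mol φ (F - u) x‖) + fun x => ‖mol φ u x - u x‖) +
      fun x => ‖F x - u x‖) x = (∫ x, ‖mol φ (F - u) x‖) + (∫ x, ‖mol φ u x - u x‖) +
        ∫ x, ‖F x - u x‖ := by
    rw [integral_add' (i1.add i2) i3, integral_add' i1 i2]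
  rw [e4] at h3
  have h5 : ∫ x, ‖(F - u) x‖ = ∫ x, ‖F x - u x‖ := rfl
  rw [h5] at h2
  refine h3.trans ?_
  linarith

end mol

theorem mol_smooth (φ : ContDiffBump (0 : EuclideanSpace ℝ (Fin d)))
    {f : EuclideanSpace ℝ (Fin d) → ℝ} (hf : Integrable f) : ContDiff ℝ (⊤ : ℕ∞) (mol φ f) :=
  φ.hasCompactSupport_normed.contDiff_convolution_left _ φ.contDiff_normed hf.locallyIntegrable

theorem gradient_inner (h : EuclideanSpace ℝ (Fin d) → ℝ) (x v : EuclideanSpace ℝ (Fin d)) :
    ⟪gradient h x, v⟫ = fderiv ℝ h x v := by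
  rw [gradient, InnerProductSpace.toDual_symm_apply]

theorem gradient_sub_norm (h k : EuclideanSpace ℝ (Fin d) → ℝ) (x : EuclideanSpace ℝ (Fin d)) :
    ‖gradient h x - gradient k x‖ = ‖fderiv ℝ h x - fderiv ℝ k x‖ := by
  rw [gradient, gradient, ← map_sub, LinearIsometryEquiv.norm_map]

/-- the gradient of a mollification -/
theorem mol_gradient (φ : ContDiffBump (0 : EuclideanSpace ℝ (Fin d)))
    {f : EuclideanSpace ℝ (Fin d) → ℝ}
    {g : EuclideanSpace ℝ (Fin d) → EuclideanSpace ℝ (Fin d)} (hf : Integrable f)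
    (hg : Integrable g) (hfg : IsWeakGradient f g) (x : EuclideanSpace ℝ (Fin d)) :
    gradient (mol φ f) x = mol φ g x := by
  have hψ : ContDiff ℝ (⊤ : ℕ∞) (φ.normed (volume : Measure (EuclideanSpace ℝ (Fin d)))) :=
    φ.contDiff_normed
  have hψc : HasCompactSupport (φ.normed (volume : Measure (EuclideanSpace ℝ (Fin d)))) :=
    φ.hasCompactSupport_normed
  set ψ := φ.normed (volume : Measure (EuclideanSpace ℝ (Fin d))) with hψdef
  have hmol : mol φ f = convolution f ψ (ContinuousLinearMap.lsmul ℝ ℝ) volume := by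
    funext y
    rw [mol_apply', convolution_def]
    congr 1
    funext t
    rw [ContinuousLinearMap.lsmul_apply, smul_eq_mul, smul_eq_mul, mul_comm]
  have hψ1 : ContDiff ℝ 1 ψ := hψ.of_le (by exact_mod_cast le_top)
  have hder : fderiv ℝ (mol φ f) x =
      convolution f (fderiv ℝ ψ) ((ContinuousLinearMap.lsmul ℝ ℝ : ℝ →L[ℝ] ℝ →L[ℝ] ℝ).precompR
        (EuclideanSpace ℝ (Fin d))) volume x := by
    rw [hmol]
    exact (hψc.hasFDerivAt_convolution_right _ hf.locallyIntegrable hψ1 x).fderiv
  have hsub : ContDiff ℝ (⊤ : ℕ∞) (fun t : EuclideanSpace ℝ (Fin d) => ψ (x - t)) :=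
    hψ.comp (contDiff_const.sub contDiff_id)
  have hsubc : HasCompactSupport (fun t : EuclideanSpace ℝ (Fin d) => ψ (x - t)) :=
    hψc.comp_homeomorph (Homeomorph.subLeft x)
  have htest := hfg (fun t => ψ (x - t)) hsub hsubc
  have hfd : ∀ t v, fderiv ℝ (fun t : EuclideanSpace ℝ (Fin d) => ψ (x - t)) t v =
      -(fderiv ℝ ψ (x - t) v) := by
    intro t v
    have h1 : HasFDerivAt (fun t : EuclideanSpace ℝ (Fin d) => x - t)
        (-ContinuousLinearMap.id ℝ (EuclideanSpace ℝ (Fin d))) t :=
      (hasFDerivAt_id t).const_sub x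
    have h2 := ((hψ1.differentiable (by norm_num)) (x - t)).hasFDerivAt.comp t h1
    have h3 : HasFDerivAt (fun t : EuclideanSpace ℝ (Fin d) => ψ (x - t))
        ((fderiv ℝ ψ (x - t)).comp (-ContinuousLinearMap.id ℝ (EuclideanSpace ℝ (Fin d)))) t := h2
    rw [h3.fderiv]
    simp
  have hcg : Continuous (fun t : EuclideanSpace ℝ (Fin d) =>
      gradient (fun t => ψ (x - t)) t) := by
    unfold gradient
    exact (LinearIsometryEquiv.continuous _).comp
      (hsub.continuous_fderiv (by simp))
  have hi1 : Integrable (fun t => f t • gradient (fun t => ψ (x - t)) t) := by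
    obtain ⟨M, hM⟩ := (hsubc.fderiv (𝕜 := ℝ)).exists_bound_of_continuous
      (hsub.continuous_fderiv (by simp))
    refine hf.smul_bdd M hcg.aestronglyMeasurable (Filter.Eventually.of_forall fun t => ?_)
    rw [gradient, LinearIsometryEquiv.norm_map]
    exact hM t
  have hi2 : Integrable (fun t => ψ (x - t) • g t) := by
    obtain ⟨M, hM⟩ := hsubc.exists_bound_of_continuous hsub.continuous
    exact hg.bdd_smul M hsub.continuous.aestronglyMeasurable
      (Filter.Eventually.of_forall hM)
  refine ext_inner_right ℝ (fun v => ?_)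
  rw [gradient_inner, hder, convolution_precompR_apply _ hf.locallyIntegrable
    (hψc.fderiv (𝕜 := ℝ)) (hψ1.continuous_fderiv (by norm_num)), mol_apply', convolution_def,
    real_inner_comm, ← integral_inner hi2]
  have h5 := congrArg (fun w => ⟪v, w⟫) htest
  simp only [inner_neg_right] at h5
  rw [← integral_inner hi1, ← integral_inner hi2] at h5
  have h6 : ∫ t, ⟪v, f t • gradient (fun t => ψ (x - t)) t⟫ =
      -∫ t, ContinuousLinearMap.lsmul ℝ ℝ (f t) (fderiv ℝ ψ (x - t) v) := by
    rw [← integral_neg]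
    congr 1
    funext t
    rw [inner_smul_right, real_inner_comm, gradient_inner, hfd,
      ContinuousLinearMap.lsmul_apply, smul_eq_mul]
    ring
  rw [h6] at h5
  linarith

/-- cutoff -/
theorem exists_cutoff {h : EuclideanSpace ℝ (Fin d) → ℝ} (hh : ContDiff ℝ (⊤ : ℕ∞) h)
    (hi : Integrable h) (hgi : Integrable (fderiv ℝ h)) {ε : ℝ} (hε : 0 < ε) :
    ∃ k : EuclideanSpace ℝ (Fin d) → ℝ, ContDiff ℝ (⊤ : ℕ∞) k ∧ HasCompactSupport k ∧
      ∫ x, |k x - h x| < ε ∧ ∫ x, ‖fderiv ℝ k x - fderiv ℝ h x‖ < ε := by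
  let χ : ContDiffBump (0 : EuclideanSpace ℝ (Fin d)) := ⟨1, 2, one_pos, one_lt_two⟩
  have hχ : ContDiff ℝ (⊤ : ℕ∞) χ := χ.contDiff
  have hχc : HasCompactSupport χ := χ.hasCompactSupport
  obtain ⟨M, hM⟩ := (hχc.fderiv (𝕜 := ℝ)).exists_bound_of_continuous
    (hχ.continuous_fderiv (by simp))
  have hM0 : 0 ≤ M := (norm_nonneg _).trans (hM 0)
  let c : ℕ → ℝ := fun n => ((n : ℝ) + 1)⁻¹
  have hc0 : ∀ n, 0 < c n := fun n => by positivity
  have hc1 : ∀ n, c n ≤ 1 := fun n => inv_le_one_of_one_le₀ (by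
    have : (0 : ℝ) ≤ n := Nat.cast_nonneg _
    linarith)
  have hct : Tendsto c atTop (𝓝 0) := by
    have := tendsto_one_div_add_atTop_nhds_zero_nat (𝕜 := ℝ)
    refine this.congr (fun n => ?_)
    simp only [c, one_div]
  let k : ℕ → EuclideanSpace ℝ (Fin d) → ℝ := fun n x => χ (c n • x) * h x
  have hkn : ∀ n, ContDiff ℝ (⊤ : ℕ∞) (k n) := fun n =>
    (hχ.comp (contDiff_const_smul (c n))).mul hh
  have hkc : ∀ n, HasCompactSupport (k n) := fun n =>
    (hχc.comp_smul (hc0 n).ne').mul_right
  have hev : ∀ x : EuclideanSpace ℝ (Fin d), ∀ᶠ n in atTop, χ (c n • x) = 1 := by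
    intro x
    have h1 : Tendsto (fun n => c n * ‖x‖) atTop (𝓝 (0 * ‖x‖)) := hct.mul_const _
    rw [zero_mul] at h1
    filter_upwards [h1.eventually (gt_mem_nhds one_pos)] with n hn
    refine χ.one_of_mem_closedBall ?_
    rw [mem_closedBall, dist_zero_right, norm_smul, Real.norm_of_nonneg (hc0 n).le]
    exact hn.le
  have hχ01 : ∀ y, |χ y - 1| ≤ 1 := by
    intro y
    have h1 := χ.nonneg (x := y)
    have h2 := χ.le_one (x := y)
    rw [abs_le]
    constructor <;> linarith
  -- functions
  have t1 : Tendsto (fun n => ∫ x, |k n x - h x|) atTop (𝓝 (∫ x : EuclideanSpace ℝ (Fin d), (0 : ℝ))) := by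
    refine tendsto_integral_of_dominated_convergence (fun x => |h x|)
      (fun n => (((hkn n).continuous.sub hh.continuous).abs).aestronglyMeasurable) hi.abs
      (fun n => Filter.Eventually.of_forall fun x => ?_) (Filter.Eventually.of_forall fun x => ?_)
    · have e : k n x - h x = (χ (c n • x) - 1) * h x := by
        simp only [k]
        ring
      rw [Real.norm_eq_abs, abs_abs, e, abs_mul]
      exact mul_le_of_le_one_left (abs_nonneg _) (hχ01 _)
    · refine tendsto_const_nhds.congr' ?_
      filter_upwards [hev x] with n hn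
      simp only [k, hn, one_mul, sub_self, abs_zero]
  -- derivatives
  have hfk : ∀ n x, fderiv ℝ (k n) x - fderiv ℝ h x =
      (χ (c n • x) - 1) • fderiv ℝ h x + (h x * c n) • fderiv ℝ χ (c n • x) := by
    intro n x
    have d1 : DifferentiableAt ℝ (fun x => χ (c n • x)) x :=
      ((hχ.comp (contDiff_const_smul (c n))).differentiable (by simp)) x
    have d2 : DifferentiableAt ℝ h x := (hh.differentiable (by simp)) x
    have e1 : fderiv ℝ (k n) x = χ (c n • x) • fderiv ℝ h x +
        h x • fderiv ℝ (fun x => χ (c n • x)) x := fderiv_fun_mul d1 d2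
    have e2 : fderiv ℝ (fun x => χ (c n • x)) x = c n • fderiv ℝ χ (c n • x) :=
      fderiv_comp_smul (c n)
    rw [e1, e2, sub_smul, one_smul, smul_smul]
    abel
  have t2 : Tendsto (fun n => ∫ x, ‖fderiv ℝ (k n) x - fderiv ℝ h x‖) atTop
      (𝓝 (∫ x : EuclideanSpace ℝ (Fin d), (0 : ℝ))) := by
    have hbd : Integrable (fun x => ‖fderiv ℝ h x‖ + M * |h x|) :=
      hgi.norm.add (hi.abs.const_mul M)
    refine tendsto_integral_of_dominated_convergence _
      (fun n => ((((hkn n).continuous_fderiv (by simp)).sub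
        (hh.continuous_fderiv (by simp))).norm).aestronglyMeasurable) hbd
      (fun n => Filter.Eventually.of_forall fun x => ?_) (Filter.Eventually.of_forall fun x => ?_)
    · rw [norm_norm, hfk]
      refine (norm_add_le _ _).trans (add_le_add ?_ ?_)
      · rw [norm_smul]
        exact mul_le_of_le_one_left (norm_nonneg _) (hχ01 _)
      · rw [norm_smul, norm_mul, Real.norm_eq_abs, Real.norm_of_nonneg (hc0 n).le]
        calc |h x| * c n * ‖fderiv ℝ χ (c n • x)‖ ≤ |h x| * 1 * M := by
              gcongr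
              · exact hc1 n
              · exact hM _
          _ = M * |h x| := by ring
    · have h1 : Tendsto (fun n => M * |h x| * c n) atTop (𝓝 (M * |h x| * 0)) :=
        hct.const_mul _
      rw [mul_zero] at h1
      refine squeeze_zero' (Filter.Eventually.of_forall fun n => norm_nonneg _) ?_ h1
      filter_upwards [hev x] with n hn
      rw [hfk, hn, sub_self, zero_smul, zero_add, norm_smul, norm_mul, Real.norm_eq_abs,
        Real.norm_of_nonneg (hc0 n).le]
      calc |h x| * c n * ‖fderiv ℝ χ (c n • x)‖ ≤ |h x| * c n * M := by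
            have := (hc0 n).le
            gcongr
            exact hM _
        _ = M * |h x| * c n := by ring
  rw [integral_zero] at t1 t2
  obtain ⟨n, hn1, hn2⟩ := ((t1.eventually (gt_mem_nhds hε)).and
    (t2.eventually (gt_mem_nhds hε))).exists
  exact ⟨k n, hkn n, hkc n, hn1, hn2⟩

/-- mollification (`ContDiffBump`) and cutoff -/
theorem exists_smooth_approx {f : EuclideanSpace ℝ (Fin d) → ℝ}
    {g : EuclideanSpace ℝ (Fin d) → EuclideanSpace ℝ (Fin d)} (hf : Integrable f)
    (hg : Integrable g) (hfg : IsWeakGradient f g) {ε : ℝ} (hε : 0 < ε) :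
    ∃ h : EuclideanSpace ℝ (Fin d) → ℝ, ContDiff ℝ (⊤ : ℕ∞) h ∧ HasCompactSupport h ∧
      ∫ x, |h x - f x| < ε ∧ ∫ x, ‖gradient h x - g x‖ < ε := by
  obtain ⟨δ₁, hδ₁, h1⟩ := mol_tendsto hf (show (0 : ℝ) < ε / 4 by positivity)
  obtain ⟨δ₂, hδ₂, h2⟩ := mol_tendsto hg (show (0 : ℝ) < ε / 4 by positivity)
  have hδ : 0 < min δ₁ δ₂ := lt_min hδ₁ hδ₂
  let φ : ContDiffBump (0 : EuclideanSpace ℝ (Fin d)) :=
    ⟨min δ₁ δ₂ / 2, min δ₁ δ₂, by positivity, by linarith⟩
  have e1 := h1 φ (min_le_left _ _)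
  have e2 := h2 φ (min_le_right _ _)
  have hsm := mol_smooth φ hf
  have hmi := mol_integrable φ hf
  have hmg := mol_integrable φ hg
  have hgr : ∀ x, gradient (mol φ f) x = mol φ g x := mol_gradient φ hf hg hfg
  have hfi : Integrable (fderiv ℝ (mol φ f)) := by
    refine hmg.norm.mono' (hsm.continuous_fderiv (by simp)).aestronglyMeasurable
      (Filter.Eventually.of_forall fun x => ?_)
    rw [← hgr, gradient, LinearIsometryEquiv.norm_map]
  obtain ⟨k, hk1, hk2, hk3, hk4⟩ := exists_cutoff hsm hmi hfi (show (0 : ℝ) < ε / 4 by positivity)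
  refine ⟨k, hk1, hk2, ?_, ?_⟩
  · have hki : Integrable k := hk1.continuous.integrable_of_hasCompactSupport hk2
    have hs : ∀ x, |k x - f x| ≤ |k x - mol φ f x| + ‖mol φ f x - f x‖ := fun x => by
      rw [Real.norm_eq_abs]
      exact abs_sub_le _ _ _
    have i1 : Integrable (fun x => |k x - mol φ f x|) := (hki.sub hmi).abs
    have i2 : Integrable (fun x => ‖mol φ f x - f x‖) := (hmi.sub hf).norm
    have h3 := integral_mono (hki.sub hf).abs (i1.add i2) hs
    rw [integral_add' i1 i2] at h3
    have h4 : ∫ x, |(k - f) x| = ∫ x, |k x - f x| := rfl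
    rw [h4] at h3
    linarith
  · have hki : Integrable (gradient k) := by
      have hc : Continuous (gradient k) := by
        unfold gradient
        exact (LinearIsometryEquiv.continuous _).comp (hk1.continuous_fderiv (by simp))
      refine hc.integrable_of_hasCompactSupport ?_
      refine (hk2.fderiv (𝕜 := ℝ)).mono ?_
      intro z hz
      rw [Function.mem_support] at hz ⊢
      intro h
      apply hz
      rw [gradient, h, map_zero]
    have hs : ∀ x, ‖gradient k x - g x‖ ≤
        ‖fderiv ℝ k x - fderiv ℝ (mol φ f) x‖ + ‖mol φ g x - g x‖ := fun x => by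
      rw [← gradient_sub_norm, hgr]
      exact norm_sub_le_norm_sub_add_norm_sub _ _ _
    have hkf : Integrable (fderiv ℝ k) :=
      (hk1.continuous_fderiv (by simp)).integrable_of_hasCompactSupport (hk2.fderiv (𝕜 := ℝ))
    have i1 : Integrable (fun x => ‖fderiv ℝ k x - fderiv ℝ (mol φ f) x‖) := (hkf.sub hfi).norm
    have i2 : Integrable (fun x => ‖mol φ g x - g x‖) := (hmg.sub hg).norm
    have h3 := integral_mono (hki.sub hg).norm (i1.add i2) hs
    rw [integral_add' i1 i2] at h3
    have h4 : ∫ x, ‖(gradient k - g) x‖ = ∫ x, ‖gradient k x - g x‖ := rfl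
    rw [h4] at h3
    linarith

/-- smooth version of the absolute value: `√(h² + ε²) - ε` -/
theorem exists_smooth_abs {h : EuclideanSpace ℝ (Fin d) → ℝ} (hh : ContDiff ℝ (⊤ : ℕ∞) h)
    (hc : HasCompactSupport h) {ε : ℝ} (hε : 0 < ε) :
    ∃ k : EuclideanSpace ℝ (Fin d) → ℝ, ContDiff ℝ (⊤ : ℕ∞) k ∧ HasCompactSupport k ∧
      (∀ x, 0 ≤ k x) ∧ (∀ x, k x ≤ abs (h x)) ∧ (∀ x, abs (h x) - k x ≤ ε) ∧
      (∀ x, ‖gradient k x‖ ≤ ‖gradient h x‖) ∧ (∫ x, abs (k x - abs (h x))) < ε := by
  let K : Set (EuclideanSpace ℝ (Fin d)) := tsupport h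
  have hK : IsCompact K := hc.isCompact
  have hKm : MeasurableSet K := hK.isClosed.measurableSet
  have hv : 0 ≤ volume.real K := measureReal_nonneg
  let e : ℝ := ε / (volume.real K + 1)
  have he : 0 < e := div_pos hε (by positivity)
  have heε : e ≤ ε := div_le_self hε.le (by linarith)
  have heK : volume.real K * e < ε := by
    have : (volume.real K + 1) * e = ε := by
      simp only [e]
      field_simp
    nlinarith
  let q : ℝ → ℝ := fun t => √(t ^ 2 + e ^ 2) - e
  have hpos : ∀ t : ℝ, 0 < t ^ 2 + e ^ 2 := fun t => by positivity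
  have q0 : q 0 = 0 := by
    simp only [q]
    rw [zero_pow two_ne_zero, zero_add, Real.sqrt_sq he.le, sub_self]
  have q1 : ∀ t, 0 ≤ q t := by
    intro t
    have : e ≤ √(t ^ 2 + e ^ 2) := Real.le_sqrt_of_sq_le (by nlinarith [sq_nonneg t])
    simp only [q]
    linarith
  have q2 : ∀ t, q t ≤ |t| := by
    intro t
    have : √(t ^ 2 + e ^ 2) ≤ |t| + e := by
      rw [Real.sqrt_le_left (by positivity)]
      nlinarith [sq_abs t, abs_nonneg t]
    simp only [q]
    linarith
  have q3 : ∀ t, |t| - q t ≤ e := by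
    intro t
    have : |t| ≤ √(t ^ 2 + e ^ 2) := Real.le_sqrt_of_sq_le (by nlinarith [sq_abs t, sq_nonneg e])
    simp only [q]
    linarith
  have hkd : ContDiff ℝ (⊤ : ℕ∞) (fun x => q (h x)) := by
    simp only [q]
    exact (((hh.pow 2).add contDiff_const).sqrt (fun x => (hpos _).ne')).sub contDiff_const
  refine ⟨fun x => q (h x), hkd, hc.comp_left q0, fun x => q1 _, fun x => q2 _,
    fun x => (q3 _).trans heε, fun x => ?_, ?_⟩
  · have h1 : HasDerivAt q (h x / √(h x ^ 2 + e ^ 2)) (h x) := by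
      have h2 : HasDerivAt (fun t : ℝ => t ^ 2 + e ^ 2) (2 * h x) (h x) := by
        have := (hasDerivAt_pow 2 (h x)).add_const (e ^ 2)
        simpa using this
      have h3 := (h2.sqrt (hpos _).ne').sub_const e
      have h4 : 2 * h x / (2 * √(h x ^ 2 + e ^ 2)) = h x / √(h x ^ 2 + e ^ 2) :=
        mul_div_mul_left _ _ two_ne_zero
      rw [h4] at h3
      exact h3
    have h5 := h1.comp_hasFDerivAt x ((hh.differentiable (by simp)) x).hasFDerivAt
    have h6 : fderiv ℝ (fun x => q (h x)) x = (h x / √(h x ^ 2 + e ^ 2)) • fderiv ℝ h x :=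
      h5.fderiv
    rw [gradient, gradient, LinearIsometryEquiv.norm_map, LinearIsometryEquiv.norm_map, h6,
      norm_smul]
    refine mul_le_of_le_one_left (norm_nonneg _) ?_
    rw [norm_div, Real.norm_of_nonneg (Real.sqrt_nonneg _), Real.norm_eq_abs]
    rw [div_le_one (Real.sqrt_pos.2 (hpos _))]
    exact Real.le_sqrt_of_sq_le (by nlinarith [sq_abs (h x), sq_nonneg e])
  · have hpt : ∀ x, abs (q (h x) - abs (h x)) ≤ K.indicator (fun _ => e) x := by
      intro x
      by_cases hx : x ∈ K
      · rw [indicator_of_mem hx, abs_le]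
        have := q2 (h x)
        have := q3 (h x)
        constructor <;> linarith
      · rw [indicator_of_notMem hx]
        have : h x = 0 := image_eq_zero_of_notMem_tsupport hx
        rw [this, q0]
        simp
    have hki : Integrable (fun x => q (h x)) :=
      hkd.continuous.integrable_of_hasCompactSupport (hc.comp_left q0)
    have hhi : Integrable h := hh.continuous.integrable_of_hasCompactSupport hc
    have hint : Integrable (K.indicator (fun _ => e)) :=
      (integrable_indicator_iff hKm).2 (integrableOn_const hK.measure_lt_top.ne)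
    refine lt_of_le_of_lt (integral_mono (hki.sub hhi.abs).abs hint hpt) ?_
    rw [integral_indicator hKm, setIntegral_const, smul_eq_mul]
    exact heK

end Vale.Agent.P137
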