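import Vale.Agent.P137.BVDefs
import Vale.Agent.P137.Approx

/-! Mollification. -/

open MeasureTheory Metric Set Filter Topology
open scoped RealInnerProductSpace ENNReal Convolution

namespace Vale.Agent.P137

variable {d : ℕ}

/-- the divergence functional -/
noncomputable def bmT (d : ℕ) :
    (EuclideanSpace ℝ (Fin d) →L[ℝ] EuclideanSpace ℝ (Fin d)) →L[ℝ] ℝ :=
  ∑ i, (EuclideanSpace.proj i : EuclideanSpace ℝ (Fin d) →L[ℝ] ℝ).comp
    (ContinuousLinearMap.apply ℝ (EuclideanSpace ℝ (Fin d)) (EuclideanSpace.single i 1))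

theorem bmT_apply (L : EuclideanSpace ℝ (Fin d) →L[ℝ] EuclideanSpace ℝ (Fin d)) :
    bmT d L = ∑ i, (L (EuclideanSpace.single i 1)) i := by
  simp [bmT, ContinuousLinearMap.sum_apply]

/-- smooth functions with integrable gradient -/
theorem bm_weak {h : EuclideanSpace ℝ (Fin d) → ℝ} (hh : ContDiff ℝ (⊤ : ℕ∞) h) :
    IsWeakGradient h (gradient h) := by
  intro χ hχ hχc
  have hgc : ∀ {k : EuclideanSpace ℝ (Fin d) → ℝ}, ContDiff ℝ (⊤ : ℕ∞) k →
      Continuous (gradient k) := by
    intro k hk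
    unfold gradient
    exact (LinearIsometryEquiv.continuous _).comp (hk.continuous_fderiv (by simp))
  have hgs : HasCompactSupport (gradient χ) := by
    refine (hχc.fderiv (𝕜 := ℝ)).mono ?_
    intro z hz
    rw [Function.mem_support] at hz ⊢
    intro h
    apply hz
    rw [gradient, h, map_zero]
  have hi1 : Integrable (fun x => h x • gradient χ x) :=
    (hh.continuous.smul (hgc hχ)).integrable_of_hasCompactSupport hgs.smul_left
  have hi2 : Integrable (fun x => χ x • gradient h x) :=
    (hχ.continuous.smul (hgc hh)).integrable_of_hasCompactSupport hχc.smul_right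
  refine ext_inner_right ℝ (fun v => ?_)
  rw [inner_neg_left, real_inner_comm, real_inner_comm v, ← integral_inner hi1,
    ← integral_inner hi2]
  have hfc : ∀ {k : EuclideanSpace ℝ (Fin d) → ℝ}, ContDiff ℝ (⊤ : ℕ∞) k →
      Continuous (fun x => fderiv ℝ k x v) := fun hk =>
    (hk.continuous_fderiv (by simp)).clm_apply continuous_const
  have hfs : HasCompactSupport (fun x => fderiv ℝ χ x v) :=
    (hχc.fderiv (𝕜 := ℝ)).comp_left (g := fun L : EuclideanSpace ℝ (Fin d) →L[ℝ] ℝ => L v) rfl
  have h1 := integral_mul_fderiv_eq_neg_fderiv_mul_of_integrable (μ := volume) (f := h) (g := χ)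
    (v := v) (((hfc hh).mul hχ.continuous).integrable_of_hasCompactSupport hχc.mul_left)
    ((hh.continuous.mul (hfc hχ)).integrable_of_hasCompactSupport hfs.mul_left)
    ((hh.continuous.mul hχ.continuous).integrable_of_hasCompactSupport hχc.mul_left)
    (fun x _ => hh.differentiable (by simp) x) (fun x _ => hχ.differentiable (by simp) x)
  have e1 : ∀ x, ⟪v, h x • gradient χ x⟫ = h x * fderiv ℝ χ x v := by
    intro x
    rw [inner_smul_right, real_inner_comm, gradient_inner]
  have e2 : ∀ x, ⟪v, χ x • gradient h x⟫ = fderiv ℝ h x v * χ x := by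
    intro x
    rw [inner_smul_right, real_inner_comm, gradient_inner, mul_comm]
  simp only [e1, e2]
  exact h1

/-- the derivative of a mollification is integrable -/
theorem bm_fderiv_int (φ : ContDiffBump (0 : EuclideanSpace ℝ (Fin d)))
    {f : EuclideanSpace ℝ (Fin d) → ℝ} (hf : Integrable f) :
    Integrable (fderiv ℝ (mol φ f)) := by
  have hψ : ContDiff ℝ (⊤ : ℕ∞) (φ.normed (volume : Measure (EuclideanSpace ℝ (Fin d)))) :=
    φ.contDiff_normed
  have hψc : HasCompactSupport (φ.normed (volume : Measure (EuclideanSpace ℝ (Fin d)))) :=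
    φ.hasCompactSupport_normed
  set ψ := φ.normed (volume : Measure (EuclideanSpace ℝ (Fin d))) with hψdef
  have hmol : mol φ f = convolution f ψ (ContinuousLinearMap.lsmul ℝ ℝ) volume := by
    funext y
    rw [mol_apply', convolution_def]
    congr 1
    funext t
    rw [ContinuousLinearMap.lsmul_apply, smul_eq_mul, smul_eq_mul, mul_comm]
  have hψ1 : ContDiff ℝ 1 ψ := hψ.of_le (by exact_mod_cast le_top)
  have hder : fderiv ℝ (mol φ f) =
      convolution f (fderiv ℝ ψ) ((ContinuousLinearMap.lsmul ℝ ℝ : ℝ →L[ℝ] ℝ →L[ℝ] ℝ).precompR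
        (EuclideanSpace ℝ (Fin d))) volume := by
    funext x
    rw [hmol]
    exact (hψc.hasFDerivAt_convolution_right _ hf.locallyIntegrable hψ1 x).fderiv
  rw [hder]
  exact hf.integrable_convolution _
    ((hψ.continuous_fderiv (by simp)).integrable_of_hasCompactSupport (hψc.fderiv (𝕜 := ℝ)))

theorem bm_int0 {W : Type*} [NormedAddCommGroup W] [NormedSpace ℝ W]
    {ψ : EuclideanSpace ℝ (Fin d) → ℝ} (hψ : Continuous ψ)
    (hψc : HasCompactSupport ψ) {L : EuclideanSpace ℝ (Fin d) → W} (hL : Continuous L) :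
    Integrable (fun t => ψ t • L t) :=
  (hψ.smul hL).integrable_of_hasCompactSupport hψc.smul_right

theorem bm_int (φ : ContDiffBump (0 : EuclideanSpace ℝ (Fin d)))
    {Φ : EuclideanSpace ℝ (Fin d) → EuclideanSpace ℝ (Fin d)} (hΦ : ContDiff ℝ (⊤ : ℕ∞) Φ)
    (x : EuclideanSpace ℝ (Fin d)) :
    Integrable (fun t => φ.normed volume t • fderiv ℝ Φ (x - t)) := by
  have h1 : Continuous (fderiv ℝ Φ) := hΦ.continuous_fderiv (by simp)
  exact bm_int0 φ.continuous_normed φ.hasCompactSupport_normed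
    (L := fun t => fderiv ℝ Φ (x - t)) (h1.comp (continuous_const.sub continuous_id))

theorem bm_fd (φ : ContDiffBump (0 : EuclideanSpace ℝ (Fin d)))
    {Φ : EuclideanSpace ℝ (Fin d) → EuclideanSpace ℝ (Fin d)} (hΦ : ContDiff ℝ (⊤ : ℕ∞) Φ)
    (hΦc : HasCompactSupport Φ) (x : EuclideanSpace ℝ (Fin d)) :
    fderiv ℝ (mol φ Φ) x = ∫ t, φ.normed volume t • fderiv ℝ Φ (x - t) := by
  have hψl : LocallyIntegrable (φ.normed (volume : Measure (EuclideanSpace ℝ (Fin d)))) :=
    (integrable_normed φ).locallyIntegrable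
  have hder := (hΦc.hasFDerivAt_convolution_right
    (ContinuousLinearMap.lsmul ℝ ℝ : ℝ →L[ℝ] EuclideanSpace ℝ (Fin d) →L[ℝ]
      EuclideanSpace ℝ (Fin d)) hψl (hΦ.of_le (by exact_mod_cast le_top)) x).fderiv
  ext1 v
  rw [ContinuousLinearMap.integral_apply (bm_int φ hΦ x)]
  have h2 := congrArg (fun L => L v) hder
  simp only at h2
  rw [convolution_precompR_apply _ hψl (hΦc.fderiv (𝕜 := ℝ))
    (hΦ.continuous_fderiv (by simp))] at h2
  exact h2

/-- divergence of the mollification of a field -/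
theorem bm_div (φ : ContDiffBump (0 : EuclideanSpace ℝ (Fin d)))
    {Φ : EuclideanSpace ℝ (Fin d) → EuclideanSpace ℝ (Fin d)} (hΦ : ContDiff ℝ (⊤ : ℕ∞) Φ)
    (hΦc : HasCompactSupport Φ) (x : EuclideanSpace ℝ (Fin d)) :
    bmT d (fderiv ℝ (mol φ Φ) x) = mol φ (fun y => bmT d (fderiv ℝ Φ y)) x := by
  rw [bm_fd φ hΦ hΦc, ← ContinuousLinearMap.integral_comp_comm _ (bm_int φ hΦ x), mol_apply]
  congr 1
  funext t
  exact map_smul (bmT d) _ _

theorem bm_norm_le (φ : ContDiffBump (0 : EuclideanSpace ℝ (Fin d)))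
    {Φ : EuclideanSpace ℝ (Fin d) → EuclideanSpace ℝ (Fin d)} (h1 : ∀ x, ‖Φ x‖ ≤ 1)
    (x : EuclideanSpace ℝ (Fin d)) : ‖mol φ Φ x‖ ≤ 1 := by
  rw [mol_apply]
  refine (norm_integral_le_integral_norm _).trans ?_
  rw [← φ.integral_normed (μ := volume)]
  apply integral_mono_of_nonneg (Eventually.of_forall fun t => norm_nonneg _)
    (integrable_normed φ)
  refine Eventually.of_forall fun t => ?_
  simp only
  rw [norm_smul, Real.norm_of_nonneg (φ.nonneg_normed t)]
  exact mul_le_of_le_one_right (φ.nonneg_normed t) (h1 _)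

/-- the convolution is symmetric -/
theorem bm_swap (φ : ContDiffBump (0 : EuclideanSpace ℝ (Fin d)))
    {f G : EuclideanSpace ℝ (Fin d) → ℝ} (hf : Integrable f) (hG : Integrable G) :
    ∫ x, mol φ f x * G x = ∫ x, f x * mol φ G x := by
  obtain ⟨M, hM⟩ := φ.hasCompactSupport_normed (μ := (volume :
    Measure (EuclideanSpace ℝ (Fin d)))).exists_bound_of_continuous φ.continuous_normed
  have hint : Integrable (Function.uncurry fun (x t : EuclideanSpace ℝ (Fin d)) =>
      φ.normed volume (x - t) * (G x * f t)) (volume.prod volume) := by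
    apply Integrable.bdd_mul (c := M) (hG.mul_prod hf)
    · exact (φ.continuous_normed.comp (by fun_prop)).aestronglyMeasurable
    · exact Eventually.of_forall fun p => hM _
  have h1 : ∫ x, mol φ f x * G x = ∫ x, ∫ t, φ.normed volume (x - t) * (G x * f t) := by
    congr 1
    funext x
    rw [mol_apply', ← integral_mul_const]
    congr 1
    funext t
    rw [smul_eq_mul]
    ring
  have h2 : ∫ x, f x * mol φ G x = ∫ t, ∫ x, φ.normed volume (x - t) * (G x * f t) := by
    congr 1
    funext t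
    rw [mol_apply', ← integral_const_mul]
    congr 1
    funext x
    rw [smul_eq_mul, ← φ.normed_neg, neg_sub]
    ring
  rw [h1, h2]
  exact integral_integral_swap hint

/-- BVA2: mollification (by `ContDiffBump.normed`, which is even) does not increase the variation:
`∫ (f ⋆ η) div φ = ∫ f div (φ ⋆ η)` -/
theorem exists_mollify {f : EuclideanSpace ℝ (Fin d) → ℝ} (hf : Integrable f) {V : ℝ}
    (hV : VarLe f V) {ε : ℝ} (hε : 0 < ε) :
    ∃ h : EuclideanSpace ℝ (Fin d) → ℝ, ContDiff ℝ (⊤ : ℕ∞) h ∧ Integrable h ∧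
      Integrable (gradient h) ∧ IsWeakGradient h (gradient h) ∧ (∫ x, |h x - f x|) ≤ ε ∧
      VarLe h V := by
  obtain ⟨δ, hδ, h1⟩ := mol_tendsto hf hε
  let φ : ContDiffBump (0 : EuclideanSpace ℝ (Fin d)) :=
    ⟨δ / 2, δ, by positivity, by linarith⟩
  have hsm := mol_smooth φ hf
  have hfi := bm_fderiv_int φ hf
  refine ⟨mol φ f, hsm, mol_integrable φ hf, ?_, bm_weak hsm, ?_, ?_⟩
  · refine hfi.norm.mono' ?_ (Eventually.of_forall fun x => ?_)
    · have : Continuous (gradient (mol φ f)) := by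
        unfold gradient
        exact (LinearIsometryEquiv.continuous _).comp (hsm.continuous_fderiv (by simp))
      exact this.aestronglyMeasurable
    · rw [gradient, LinearIsometryEquiv.norm_map]
  · exact h1 φ le_rfl
  · intro Φ hΦ hΦc hΦ1
    have hG : Integrable (fun y => bmT d (fderiv ℝ Φ y)) := by
      have hc : Continuous (fun y => bmT d (fderiv ℝ Φ y)) :=
        (bmT d).continuous.comp (hΦ.continuous_fderiv (by simp))
      refine hc.integrable_of_hasCompactSupport ?_
      exact (hΦc.fderiv (𝕜 := ℝ)).comp_left (g := bmT d) (map_zero _)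
    have hΦi : Integrable Φ := hΦ.continuous.integrable_of_hasCompactSupport hΦc
    have hsmΦ : ContDiff ℝ (⊤ : ℕ∞) (mol φ Φ) :=
      φ.hasCompactSupport_normed.contDiff_convolution_left _ φ.contDiff_normed
        hΦi.locallyIntegrable
    have hcΦ : HasCompactSupport (mol φ Φ) :=
      HasCompactSupport.convolution _ φ.hasCompactSupport_normed hΦc
    have h2 := hV (mol φ Φ) hsmΦ hcΦ (bm_norm_le φ hΦ1)
    simp only [← bmT_apply] at h2 ⊢
    rw [bm_swap φ hf hG]
    simp only [← bm_div φ hΦ hΦc]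
    exact h2

end Vale.Agent.P137
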