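import Vale.Agent.P137.BVDefs

/-! Duality for smooth functions. -/

open MeasureTheory Metric Set Filter Topology
open scoped RealInnerProductSpace ENNReal

namespace Vale.Agent.P137

variable {d : ℕ}

theorem bva3_gradient_contDiff {h : EuclideanSpace ℝ (Fin d) → ℝ}
    (hh : ContDiff ℝ (⊤ : ℕ∞) h) : ContDiff ℝ (⊤ : ℕ∞) (gradient h) := by
  have h1 : ContDiff ℝ (⊤ : ℕ∞) (fderiv ℝ h) := by
    apply hh.fderiv_right
    exact le_rfl
  exact (InnerProductSpace.toDual ℝ (EuclideanSpace ℝ (Fin d))).symm.toContinuousLinearEquiv.contDiff.comp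
    h1

theorem bva3_fderiv_eq {h : EuclideanSpace ℝ (Fin d) → ℝ} (x v : EuclideanSpace ℝ (Fin d)) :
    fderiv ℝ h x v = ⟪gradient h x, v⟫ := by
  unfold gradient
  rw [InnerProductSpace.toDual_symm_apply]

/-- integration by parts -/
theorem bva3_parts {h : EuclideanSpace ℝ (Fin d) → ℝ} (hh : ContDiff ℝ (⊤ : ℕ∞) h)
    {φ : EuclideanSpace ℝ (Fin d) → EuclideanSpace ℝ (Fin d)} (hφ : ContDiff ℝ (⊤ : ℕ∞) φ)
    (hc : HasCompactSupport φ) :
    ∫ x, h x * ∑ i, (fderiv ℝ φ x (EuclideanSpace.single i 1)) i =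
      -∫ x, ⟪gradient h x, φ x⟫ := by
  have hd : Differentiable ℝ h := hh.differentiable (by simp)
  have hφd : Differentiable ℝ φ := hφ.differentiable (by simp)
  have hcomp : ∀ i : Fin d, ContDiff ℝ (⊤ : ℕ∞) (fun x => φ x i) := by
    intro i
    exact (contDiff_euclidean.1 hφ) i
  have hcd : ∀ i : Fin d, Differentiable ℝ (fun x => φ x i) := fun i =>
    (hcomp i).differentiable (by simp)
  have hcc : ∀ i : Fin d, HasCompactSupport (fun x => φ x i) := by
    intro i
    exact hc.comp_left (g := fun v : EuclideanSpace ℝ (Fin d) => v i) rfl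
  have hfd : ∀ (i : Fin d) (x v : EuclideanSpace ℝ (Fin d)),
      fderiv ℝ (fun x => φ x i) x v = (fderiv ℝ φ x v) i := by
    intro i x v
    have h1 : HasFDerivAt (fun x => φ x i)
        ((EuclideanSpace.proj i : EuclideanSpace ℝ (Fin d) →L[ℝ] ℝ).comp (fderiv ℝ φ x)) x :=
      (EuclideanSpace.proj i : EuclideanSpace ℝ (Fin d) →L[ℝ] ℝ).hasFDerivAt.comp x
        (hφd x).hasFDerivAt
    rw [h1.fderiv]
    rfl
  have hhc : Continuous h := hh.continuous
  have hfc : ∀ v, Continuous fun x => fderiv ℝ h x v := by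
    intro v
    exact (hh.continuous_fderiv (by simp)).clm_apply continuous_const
  have hgc : ∀ (i : Fin d) (v : EuclideanSpace ℝ (Fin d)),
      Continuous fun x => fderiv ℝ (fun x => φ x i) x v := by
    intro i v
    exact ((hcomp i).continuous_fderiv (by simp)).clm_apply continuous_const
  have hgs : ∀ (i : Fin d) (v : EuclideanSpace ℝ (Fin d)),
      HasCompactSupport fun x => fderiv ℝ (fun x => φ x i) x v := by
    intro i v
    exact (hcc i).fderiv_apply (𝕜 := ℝ) v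
  have hI1 : ∀ i : Fin d, Integrable fun x =>
      h x * fderiv ℝ (fun x => φ x i) x (EuclideanSpace.single i 1) := by
    intro i
    exact (hhc.mul (hgc i _)).integrable_of_hasCompactSupport (hgs i _).mul_left
  have hI2 : ∀ i : Fin d, Integrable fun x =>
      fderiv ℝ h x (EuclideanSpace.single i 1) * φ x i := by
    intro i
    exact ((hfc _).mul (hcomp i).continuous).integrable_of_hasCompactSupport (hcc i).mul_left
  have hI3 : ∀ i : Fin d, Integrable fun x => h x * φ x i := by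
    intro i
    exact (hhc.mul (hcomp i).continuous).integrable_of_hasCompactSupport (hcc i).mul_left
  have hparts : ∀ i : Fin d, ∫ x, h x * fderiv ℝ (fun x => φ x i) x (EuclideanSpace.single i 1) =
      -∫ x, fderiv ℝ h x (EuclideanSpace.single i 1) * φ x i := fun i =>
    integral_mul_fderiv_eq_neg_fderiv_mul_of_integrable (hI2 i) (hI1 i) (hI3 i)
      (fun x _ => hd x) (fun x _ => hcd i x)
  have e1 : ∀ x, h x * ∑ i, (fderiv ℝ φ x (EuclideanSpace.single i 1)) i =
      ∑ i, h x * fderiv ℝ (fun x => φ x i) x (EuclideanSpace.single i 1) := by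
    intro x
    rw [Finset.mul_sum]
    exact Finset.sum_congr rfl fun i _ => by rw [hfd]
  have e2 : ∀ x, ⟪gradient h x, φ x⟫ =
      ∑ i, fderiv ℝ h x (EuclideanSpace.single i 1) * φ x i := by
    intro x
    rw [← bva3_fderiv_eq]
    have h1 : φ x = ∑ i, φ x i • EuclideanSpace.single i (1 : ℝ) := by
      ext j
      simp [Pi.single_apply]
    conv_lhs => rw [h1]
    rw [map_sum]
    exact Finset.sum_congr rfl fun i _ => by rw [map_smul, smul_eq_mul, mul_comm]
  simp only [e1, e2]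
  rw [integral_finsetSum _ fun i _ => hI1 i, integral_finsetSum _ fun i _ => hI2 i,
    ← Finset.sum_neg_distrib]
  exact Finset.sum_congr rfl fun i _ => hparts i

/-- the tested inequality -/
theorem bva3_step {h : EuclideanSpace ℝ (Fin d) → ℝ} (hh : ContDiff ℝ (⊤ : ℕ∞) h) {V : ℝ}
    (hV : VarLe h V) (χ : ContDiffBump (0 : EuclideanSpace ℝ (Fin d))) {ε : ℝ} (hε : 0 < ε) :
    ∫ x, χ x * (‖gradient h x‖ ^ 2 / Real.sqrt (‖gradient h x‖ ^ 2 + ε ^ 2)) ≤ V := by
  have hg := bva3_gradient_contDiff hh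
  have hpos : ∀ x, 0 < ‖gradient h x‖ ^ 2 + ε ^ 2 := fun x => by positivity
  have hsq : ContDiff ℝ (⊤ : ℕ∞) fun x => Real.sqrt (‖gradient h x‖ ^ 2 + ε ^ 2) :=
    ((hg.norm_sq ℝ).add contDiff_const).sqrt fun x => (hpos x).ne'
  have hsqpos : ∀ x, 0 < Real.sqrt (‖gradient h x‖ ^ 2 + ε ^ 2) := fun x =>
    Real.sqrt_pos.2 (hpos x)
  have hψ : ContDiff ℝ (⊤ : ℕ∞) fun x =>
      -((Real.sqrt (‖gradient h x‖ ^ 2 + ε ^ 2))⁻¹ • gradient h x) :=
    ((hsq.inv fun x => (hsqpos x).ne').smul hg).neg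
  have hχ : ContDiff ℝ (⊤ : ℕ∞) (fun x => χ x) := χ.contDiff
  have hφ := hχ.smul hψ
  have hcφ : HasCompactSupport fun x =>
      χ x • (-((Real.sqrt (‖gradient h x‖ ^ 2 + ε ^ 2))⁻¹ • gradient h x)) :=
    χ.hasCompactSupport.smul_right
  have hn : ∀ x, ‖χ x • (-((Real.sqrt (‖gradient h x‖ ^ 2 + ε ^ 2))⁻¹ • gradient h x))‖ ≤ 1 := by
    intro x
    rw [norm_smul, norm_neg, norm_smul, norm_inv, Real.norm_of_nonneg χ.nonneg,
      Real.norm_of_nonneg (hsqpos x).le]
    have h1 : (Real.sqrt (‖gradient h x‖ ^ 2 + ε ^ 2))⁻¹ * ‖gradient h x‖ ≤ 1 := by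
      rw [inv_mul_le_one₀ (hsqpos x)]
      apply Real.le_sqrt_of_sq_le
      nlinarith [sq_nonneg ε]
    have h2 : 0 ≤ (Real.sqrt (‖gradient h x‖ ^ 2 + ε ^ 2))⁻¹ * ‖gradient h x‖ :=
      mul_nonneg (inv_nonneg.2 (hsqpos x).le) (norm_nonneg _)
    calc χ x * ((Real.sqrt (‖gradient h x‖ ^ 2 + ε ^ 2))⁻¹ * ‖gradient h x‖) ≤ 1 * 1 :=
          mul_le_mul χ.le_one h1 h2 zero_le_one
      _ = 1 := one_mul 1
  have hfin := hV _ hφ hcφ hn
  rw [bva3_parts hh hφ hcφ, ← integral_neg] at hfin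
  refine le_trans (le_of_eq ?_) hfin
  refine integral_congr_ae (Eventually.of_forall fun x => ?_)
  show χ x * (‖gradient h x‖ ^ 2 / Real.sqrt (‖gradient h x‖ ^ 2 + ε ^ 2)) =
    -⟪gradient h x,
      χ x • (-((Real.sqrt (‖gradient h x‖ ^ 2 + ε ^ 2))⁻¹ • gradient h x))⟫
  rw [inner_smul_right, inner_neg_right, inner_smul_right, real_inner_self_eq_norm_sq]
  ring

theorem bva3_point {a ε : ℝ} (ha : 0 ≤ a) (hε : 0 < ε) :
    0 ≤ a ^ 2 / Real.sqrt (a ^ 2 + ε ^ 2) ∧ a ^ 2 / Real.sqrt (a ^ 2 + ε ^ 2) ≤ a ∧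
      a - ε ≤ a ^ 2 / Real.sqrt (a ^ 2 + ε ^ 2) := by
  have hpos : 0 < a ^ 2 + ε ^ 2 := by positivity
  have hs := Real.sqrt_pos.2 hpos
  refine ⟨by positivity, ?_, ?_⟩
  · rw [div_le_iff₀ hs]
    have h1 : a ≤ Real.sqrt (a ^ 2 + ε ^ 2) := by
      apply Real.le_sqrt_of_sq_le
      nlinarith [sq_nonneg ε]
    nlinarith
  · rw [le_div_iff₀ hs]
    have h1 : Real.sqrt (a ^ 2 + ε ^ 2) ≤ a + ε := by
      rw [Real.sqrt_le_iff]
      constructor
      · linarith
      · nlinarith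
    rcases le_or_gt (a - ε) 0 with h2 | h2
    · have h3 : (a - ε) * Real.sqrt (a ^ 2 + ε ^ 2) ≤ 0 := mul_nonpos_of_nonpos_of_nonneg h2 hs.le
      nlinarith [sq_nonneg a]
    · have h3 : (a - ε) * Real.sqrt (a ^ 2 + ε ^ 2) ≤ (a - ε) * (a + ε) :=
        mul_le_mul_of_nonneg_left h1 h2.le
      nlinarith [sq_nonneg ε]

/-- BVA3: duality for smooth functions: test with `φ = χ_R ∇h / √(|∇h|² + ε²)` -/
theorem integral_gradient_le_of_VarLe {h : EuclideanSpace ℝ (Fin d) → ℝ}
    (hh : ContDiff ℝ (⊤ : ℕ∞) h) (hi : Integrable h) (hgi : Integrable (gradient h)) {V : ℝ}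
    (hV : VarLe h V) : ∫ x, ‖gradient h x‖ ≤ V := by
  set χ : ℕ → ContDiffBump (0 : EuclideanSpace ℝ (Fin d)) := fun n =>
    ⟨(n : ℝ) + 1, (n : ℝ) + 2, by positivity, by linarith⟩ with hχ
  set F : ℕ → EuclideanSpace ℝ (Fin d) → ℝ := fun n x =>
    χ n x * (‖gradient h x‖ ^ 2 / Real.sqrt (‖gradient h x‖ ^ 2 + (1 / ((n : ℝ) + 1)) ^ 2)) with hF
  have hgc : Continuous (gradient h) := (bva3_gradient_contDiff hh).continuous
  have hε : ∀ n : ℕ, (0 : ℝ) < 1 / ((n : ℝ) + 1) := fun n => by positivity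
  have hlim : Tendsto (fun n => ∫ x, F n x) atTop (𝓝 (∫ x, ‖gradient h x‖)) := by
    refine tendsto_integral_of_dominated_convergence (fun x => ‖gradient h x‖) ?_ hgi.norm ?_ ?_
    · intro n
      apply Continuous.aestronglyMeasurable
      refine (χ n).continuous.mul ?_
      refine (hgc.norm.pow 2).div ((hgc.norm.pow 2).add continuous_const).sqrt ?_
      intro x
      exact (Real.sqrt_pos.2 (by have := hε n; positivity)).ne'
    · intro n
      refine Eventually.of_forall fun x => ?_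
      obtain ⟨h1, h2, -⟩ := bva3_point (norm_nonneg (gradient h x)) (hε n)
      rw [hF, Real.norm_of_nonneg (mul_nonneg (χ n).nonneg h1)]
      calc χ n x * (‖gradient h x‖ ^ 2 /
            Real.sqrt (‖gradient h x‖ ^ 2 + (1 / ((n : ℝ) + 1)) ^ 2)) ≤ 1 * ‖gradient h x‖ :=
            mul_le_mul (χ n).le_one h2 h1 zero_le_one
        _ = _ := one_mul _
    · refine Eventually.of_forall fun x => ?_
      have hz : Tendsto (fun n : ℕ => ‖gradient h x‖ - 1 / ((n : ℝ) + 1)) atTop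
          (𝓝 (‖gradient h x‖)) := by
        have := (tendsto_const_nhds (x := ‖gradient h x‖)).sub
          (tendsto_one_div_add_atTop_nhds_zero_nat (𝕜 := ℝ))
        simpa using this
      refine tendsto_of_tendsto_of_tendsto_of_le_of_le' hz tendsto_const_nhds ?_ ?_
      · obtain ⟨N, hN⟩ := exists_nat_ge ‖x‖
        filter_upwards [eventually_ge_atTop N] with n hn
        have h1 : χ n x = 1 := by
          apply (χ n).one_of_mem_closedBall
          rw [mem_closedBall, dist_zero_right]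
          have h2 : (N : ℝ) ≤ n := by exact_mod_cast hn
          have h3 : (χ n).rIn = (n : ℝ) + 1 := rfl
          rw [h3]
          linarith
        rw [hF]
        simp only
        rw [h1, one_mul]
        exact (bva3_point (norm_nonneg (gradient h x)) (hε n)).2.2
      · refine Eventually.of_forall fun n => ?_
        obtain ⟨h1, h2, -⟩ := bva3_point (norm_nonneg (gradient h x)) (hε n)
        calc χ n x * (‖gradient h x‖ ^ 2 /
              Real.sqrt (‖gradient h x‖ ^ 2 + (1 / ((n : ℝ) + 1)) ^ 2)) ≤ 1 * ‖gradient h x‖ :=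
              mul_le_mul (χ n).le_one h2 h1 zero_le_one
          _ = _ := one_mul _
  exact le_of_tendsto' hlim fun n => bva3_step hh hV (χ n) (hε n)

end Vale.Agent.P137
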