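import Vale.Agent.P137.MgeBasic

/-! The uncentered maximal function as a supremum of `Mge`. -/

open MeasureTheory Metric Set Filter Topology
open scoped RealInnerProductSpace ENNReal

namespace Vale.Agent.P137

variable {d : ℕ}

theorem ball_ae_eq_cball (c : EuclideanSpace ℝ (Fin d)) {r : ℝ} (hr : 0 < r) :
    (ball c r : Set (EuclideanSpace ℝ (Fin d))) =ᵐ[volume] closedBall c r := by
  refine ae_eq_of_subset_of_measure_ge ball_subset_closedBall ?_
    measurableSet_ball.nullMeasurableSet measure_closedBall_lt_top.ne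
  calc volume (closedBall c r) = volume (ball c r ∪ sphere c r) := by
        rw [ball_union_sphere]
    _ ≤ volume (ball c r) + volume (sphere c r) := measure_union_le _ _
    _ = volume (ball c r) := by
        rw [Measure.addHaar_sphere_of_ne_zero volume c hr.ne', add_zero]

/-- averages over open balls in terms of `av` -/
theorem avg_eq_ofReal_av {f : EuclideanSpace ℝ (Fin d) → ℝ} (hf : Integrable f)
    (c : EuclideanSpace ℝ (Fin d)) {r : ℝ} (hr : 0 < r) :
    (∫⁻ y in ball c r, ‖f y‖ₑ) / volume (ball c r) =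
      ENNReal.ofReal (av (fun y => |f y|) c r) := by
  have h1 : ∫⁻ y in ball c r, ‖f y‖ₑ = ∫⁻ y in closedBall c r, ‖f y‖ₑ := by
    rw [Measure.restrict_congr_set (ball_ae_eq_cball c hr)]
  have h2 : volume (ball c r) = volume (closedBall c r) := measure_congr (ball_ae_eq_cball c hr)
  have h3 : ∫⁻ y in closedBall c r, ‖f y‖ₑ =
      ENNReal.ofReal (∫ y in closedBall c r, |f y|) := by
    rw [← ofReal_integral_norm_eq_lintegral_enorm hf.integrableOn]
    rfl
  have h4 : volume (closedBall c r) = ENNReal.ofReal (volume.real (closedBall c r)) := by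
    rw [Measure.real, ENNReal.ofReal_toReal measure_closedBall_lt_top.ne]
  rw [h1, h2, h3, h4]
  unfold av
  rw [← ENNReal.ofReal_div_of_pos (volR_pos c hr), div_eq_inv_mul]

theorem avg_le_uM {f : EuclideanSpace ℝ (Fin d) → ℝ} {c x : EuclideanSpace ℝ (Fin d)} {r : ℝ}
    (hr : 0 < r) (hx : x ∈ ball c r) :
    (∫⁻ y in ball c r, ‖f y‖ₑ) / volume (ball c r) ≤ uM f x := by
  unfold uM
  exact le_iSup_of_le c (le_iSup_of_le r (le_iSup_of_le hr (le_iSup_of_le hx le_rfl)))

theorem uM_le {f : EuclideanSpace ℝ (Fin d) → ℝ} {x : EuclideanSpace ℝ (Fin d)} {b : ℝ≥0∞}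
    (h : ∀ (c : EuclideanSpace ℝ (Fin d)) (r : ℝ), 0 < r → x ∈ ball c r →
      (∫⁻ y in ball c r, ‖f y‖ₑ) / volume (ball c r) ≤ b) : uM f x ≤ b := by
  unfold uM
  exact iSup_le fun c => iSup_le fun r => iSup_le fun hr => iSup_le fun hx => h c r hr hx

/-- averages over closed balls containing the point (even on the boundary) -/
theorem av_le_uM {f : EuclideanSpace ℝ (Fin d) → ℝ} (hf : Integrable f)
    {c x : EuclideanSpace ℝ (Fin d)} {s : ℝ} (hs : 0 < s) (hx : dist x c ≤ s)
    (htop : uM f x ≠ ⊤) : av (fun y => |f y|) c s ≤ (uM f x).toReal := by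
  set a := av (fun y => |f y|) c s with ha
  have ha0 : 0 ≤ a := av_nonneg (fun _ => abs_nonneg _) c s
  have h1 : ∀ δ : ℝ, 0 < δ → (1 - (d / s) * δ) * a ≤ (uM f x).toReal := by
    intro δ hδ
    have h2 := av_enlarge_bernoulli hf.abs (fun _ => abs_nonneg _) c hs hδ.le
    have h3 : ENNReal.ofReal (av (fun y => |f y|) c (s + δ)) ≤ uM f x := by
      rw [← avg_eq_ofReal_av hf c (show 0 < s + δ by linarith)]
      exact avg_le_uM (by linarith) (by rw [mem_ball]; linarith)
    have h4 := (ENNReal.ofReal_le_iff_le_toReal htop).1 h3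
    exact h2.trans h4
  have h5 : Tendsto (fun δ : ℝ => (1 - (d / s) * δ) * a) (𝓝[>] 0) (𝓝 ((1 - (d / s) * 0) * a)) := by
    refine Tendsto.mono_left (Continuous.tendsto ?_ 0) nhdsWithin_le_nhds
    fun_prop
  rw [mul_zero, sub_zero, one_mul] at h5
  refine le_of_tendsto h5 ?_
  filter_upwards [self_mem_nhdsWithin] with δ hδ
  exact h1 δ hδ

theorem Mge_le_uM {f : EuclideanSpace ℝ (Fin d) → ℝ} (hf : Integrable f)
    {x : EuclideanSpace ℝ (Fin d)} {r : ℝ} (hr : 0 < r) :
    ENNReal.ofReal (Mge (fun y => |f y|) r x) ≤ uM f x := by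
  by_cases htop : uM f x = ⊤
  · rw [htop]; exact le_top
  · rw [ENNReal.ofReal_le_iff_le_toReal htop]
    refine csSup_le (Mge_nonempty r x) ?_
    rintro a ⟨c, s, hs, hx, rfl⟩
    exact av_le_uM hf (hr.trans_le hs) hx htop

/-- open balls and closed balls give the same supremum -/
theorem uM_eq_iSup (_hd : 1 ≤ d) {f : EuclideanSpace ℝ (Fin d) → ℝ} (hf : Integrable f)
    (x : EuclideanSpace ℝ (Fin d)) :
    uM f x = ⨆ n : ℕ, ENNReal.ofReal (Mge (fun y => |f y|) ((2 : ℝ) ^ (-(n : ℤ))) x) := by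
  refine le_antisymm (uM_le fun c r hr hx => ?_) (iSup_le fun n => Mge_le_uM hf (by positivity))
  obtain ⟨n, hn⟩ := exists_pow_lt_of_lt_one hr (show (1 / 2 : ℝ) < 1 by norm_num)
  have hn' : (2 : ℝ) ^ (-(n : ℤ)) ≤ r := by
    rw [zpow_neg, zpow_natCast]
    rw [one_div, inv_pow] at hn
    exact hn.le
  refine le_iSup_of_le n ?_
  rw [avg_eq_ofReal_av hf c hr]
  refine ENNReal.ofReal_le_ofReal ?_
  exact av_le_Mge hf.abs (fun _ => abs_nonneg _) (by positivity) hn' (mem_ball.1 hx).le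

theorem uM_add_le (f f' : EuclideanSpace ℝ (Fin d) → ℝ) (hf : AEStronglyMeasurable f)
    (x : EuclideanSpace ℝ (Fin d)) :
    uM (fun y => f y + f' y) x ≤ uM f x + uM f' x := by
  refine uM_le fun c r hr hx => ?_
  have h1 : ∫⁻ y in ball c r, ‖f y + f' y‖ₑ ≤
      (∫⁻ y in ball c r, ‖f y‖ₑ) + ∫⁻ y in ball c r, ‖f' y‖ₑ := by
    rw [← lintegral_add_left' hf.enorm.restrict]
    exact lintegral_mono fun y => enorm_add_le _ _
  calc (∫⁻ y in ball c r, ‖f y + f' y‖ₑ) / volume (ball c r)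
      ≤ ((∫⁻ y in ball c r, ‖f y‖ₑ) + ∫⁻ y in ball c r, ‖f' y‖ₑ) / volume (ball c r) :=
        ENNReal.div_le_div_right h1 _
    _ = (∫⁻ y in ball c r, ‖f y‖ₑ) / volume (ball c r) +
          (∫⁻ y in ball c r, ‖f' y‖ₑ) / volume (ball c r) := ENNReal.add_div
    _ ≤ _ := add_le_add (avg_le_uM hr hx) (avg_le_uM hr hx)

/-- countable subadditivity: `f - F 0 = ∑ (F (m+1) - F m)` in `L¹` -/
theorem uM_sub_le_tsum {f : EuclideanSpace ℝ (Fin d) → ℝ}
    {F : ℕ → EuclideanSpace ℝ (Fin d) → ℝ} (hf : Integrable f) (hF : ∀ n, Integrable (F n))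
    (hlim : Tendsto (fun n => ∫ y, |F n y - f y|) atTop (𝓝 0)) (n : ℕ)
    (x : EuclideanSpace ℝ (Fin d)) :
    uM (fun y => f y - F n y) x ≤ ∑' m : ℕ, uM (fun y => F (n + m + 1) y - F (n + m) y) x := by
  refine uM_le fun c r hr hx => ?_
  set b : ℕ → ℝ≥0∞ := fun m => ∫⁻ y in ball c r, ‖F (n + m + 1) y - F (n + m) y‖ₑ with hb
  set a : ℕ → ℝ≥0∞ := fun m => ∫⁻ y in ball c r, ‖f y - F (n + m) y‖ₑ with ha
  have hstep : ∀ m, a m ≤ a (m + 1) + b m := by
    intro m
    simp only [ha, hb]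
    have hm : AEMeasurable (fun y => ‖f y - F (n + (m + 1)) y‖ₑ)
        (volume.restrict (ball c r)) :=
      (hf.sub (hF (n + (m + 1)))).aestronglyMeasurable.enorm.restrict
    rw [← lintegral_add_left' hm]
    refine lintegral_mono fun y => ?_
    have h1 : f y - F (n + m) y = (f y - F (n + (m + 1)) y) + (F (n + m + 1) y - F (n + m) y) := by
      rw [← add_assoc]; ring
    rw [h1]
    exact enorm_add_le _ _
  have hsum : ∀ M, a 0 ≤ a M + ∑ m ∈ Finset.range M, b m := by
    intro M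
    induction M with
    | zero => simp
    | succ M ih =>
      refine ih.trans ?_
      rw [Finset.sum_range_succ, add_comm (∑ m ∈ Finset.range M, b m) (b M), ← add_assoc]
      exact add_le_add_left (hstep M) _
  have hlim' : Tendsto a atTop (𝓝 0) := by
    have h1 : Tendsto (fun M => ENNReal.ofReal (∫ y, |F (n + M) y - f y|)) atTop (𝓝 0) := by
      have h2 : Tendsto (fun M => ∫ y, |F (n + M) y - f y|) atTop (𝓝 0) :=
        hlim.comp (tendsto_atTop_mono (fun M => Nat.le_add_left M n) tendsto_id)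
      have h3 := ENNReal.tendsto_ofReal h2
      rwa [ENNReal.ofReal_zero] at h3
    refine tendsto_of_tendsto_of_tendsto_of_le_of_le tendsto_const_nhds h1
      (fun _ => bot_le) fun M => ?_
    simp only [ha]
    refine (setLIntegral_le_lintegral _ _).trans ?_
    have h4 := ofReal_integral_norm_eq_lintegral_enorm ((hF (n + M)).sub hf)
    have h5 : ∫⁻ y, ‖f y - F (n + M) y‖ₑ = ∫⁻ y, ‖(F (n + M) - f) y‖ₑ := by
      refine lintegral_congr fun y => ?_
      rw [Pi.sub_apply, enorm_sub_rev]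
    rw [h5, ← h4]
    rfl
  have hab : a 0 ≤ ∑' m, b m := by
    have h1 : Tendsto (fun M => a M + ∑' m, b m) atTop (𝓝 (0 + ∑' m, b m)) :=
      hlim'.add_const _
    rw [zero_add] at h1
    refine ge_of_tendsto' h1 fun M => ?_
    refine (hsum M).trans ?_
    exact add_le_add_right (ENNReal.sum_le_tsum _) _
  have ha0 : a 0 = ∫⁻ y in ball c r, ‖f y - F n y‖ₑ := rfl
  calc (∫⁻ y in ball c r, ‖f y - F n y‖ₑ) / volume (ball c r)
      ≤ (∑' m, b m) / volume (ball c r) := ENNReal.div_le_div_right hab _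
    _ = ∑' m, b m / volume (ball c r) := by
        simp_rw [div_eq_mul_inv]
        rw [ENNReal.tsum_mul_right]
    _ ≤ _ := ENNReal.tsum_le_tsum fun m => avg_le_uM hr hx

/-- for continuous functions -/
theorem enorm_le_uM {f : EuclideanSpace ℝ (Fin d) → ℝ} (hf : Continuous f)
    (x : EuclideanSpace ℝ (Fin d)) : ‖f x‖ₑ ≤ uM f x := by
  refine le_of_forall_lt fun a ha => ?_
  obtain ⟨b, hab, hb⟩ := exists_between ha
  refine hab.trans_le ?_
  have hopen : IsOpen {y | b < ‖f y‖ₑ} := isOpen_lt continuous_const hf.enorm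
  obtain ⟨δ, hδ, hball⟩ := Metric.isOpen_iff.1 hopen x hb
  refine le_trans ?_ (avg_le_uM hδ (mem_ball_self hδ))
  rw [ENNReal.le_div_iff_mul_le (Or.inl (measure_ball_pos volume x hδ).ne')
    (Or.inl measure_ball_lt_top.ne)]
  calc b * volume (ball x δ) = ∫⁻ _ in ball x δ, b := by rw [setLIntegral_const]
    _ ≤ ∫⁻ y in ball x δ, ‖f y‖ₑ :=
        setLIntegral_mono' measurableSet_ball fun y hy => (hball hy).le

theorem measurable_uM {f : EuclideanSpace ℝ (Fin d) → ℝ} : Measurable (uM f) := by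
  refine measurable_of_Ioi fun a => IsOpen.measurableSet ?_
  rw [isOpen_iff_mem_nhds]
  intro x hx
  have hx' : a < uM f x := hx
  unfold uM at hx'
  simp only [lt_iSup_iff] at hx'
  obtain ⟨c, r, hr, hxc, h⟩ := hx'
  filter_upwards [isOpen_ball.mem_nhds hxc] with y hy
  exact h.trans_le (avg_le_uM hr hy)

end Vale.Agent.P137
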