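import Vale.Agent.P137.GenA
import Vale.Agent.P137.Uncentered
import Vale.Agent.P137.Approx

/-! The estimates for general `f` in `W^{1,1}`. -/

open MeasureTheory Metric Set Filter Topology
open scoped RealInnerProductSpace ENNReal

namespace Vale.Agent.P137

/-- telescoping for the local integrability -/
theorem gen_tele {d : ℕ} {f : EuclideanSpace ℝ (Fin d) → ℝ} (hf : Integrable f)
    (hf0 : ∀ x, 0 ≤ f x) (B : Set (EuclideanSpace ℝ (Fin d))) (n : ℕ) :
    ∫⁻ x in B, ENNReal.ofReal (Mge f ((2 : ℝ) ^ (-(n : ℤ))) x) ≤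
      (∫⁻ x in B, ENNReal.ofReal (Mge f 1 x)) +
        ∑ k ∈ Finset.Icc (1 : ℤ) n, ENNReal.ofReal ((2 : ℝ) ^ k) *
          ∫⁻ x, ENNReal.ofReal (Mge f ((2 : ℝ) ^ (-k)) x - Mge f ((2 : ℝ) ^ (1 - k)) x) := by
  induction n with
  | zero => simp
  | succ n ih =>
    have hIcc : Finset.Icc (1 : ℤ) ((n + 1 : ℕ) : ℤ) =
        insert ((n : ℤ) + 1) (Finset.Icc (1 : ℤ) (n : ℤ)) := by
      ext k
      simp only [Finset.mem_Icc, Finset.mem_insert]
      push_cast
      omega
    have hnot : ((n : ℤ) + 1) ∉ Finset.Icc (1 : ℤ) (n : ℤ) := by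
      simp only [Finset.mem_Icc]; omega
    rw [hIcc, Finset.sum_insert hnot]
    have hm : Measurable (fun x => ENNReal.ofReal (Mge f ((2 : ℝ) ^ (-(n : ℤ))) x)) :=
      (Mge_lipschitz hf hf0 (by positivity)).continuous.measurable.ennreal_ofReal
    have h1 : ∫⁻ x in B, ENNReal.ofReal (Mge f ((2 : ℝ) ^ (-((n + 1 : ℕ) : ℤ))) x) ≤
        (∫⁻ x in B, ENNReal.ofReal (Mge f ((2 : ℝ) ^ (-(n : ℤ))) x)) +
        ∫⁻ x, ENNReal.ofReal (Mge f ((2 : ℝ) ^ (-((n : ℤ) + 1))) x -
          Mge f ((2 : ℝ) ^ (1 - ((n : ℤ) + 1))) x) := by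
      calc ∫⁻ x in B, ENNReal.ofReal (Mge f ((2 : ℝ) ^ (-((n + 1 : ℕ) : ℤ))) x)
          ≤ ∫⁻ x in B, (ENNReal.ofReal (Mge f ((2 : ℝ) ^ (-(n : ℤ))) x) +
            ENNReal.ofReal (Mge f ((2 : ℝ) ^ (-((n : ℤ) + 1))) x -
              Mge f ((2 : ℝ) ^ (1 - ((n : ℤ) + 1))) x)) := by
            refine lintegral_mono fun x => ?_
            refine le_trans (le_of_eq ?_) (ENNReal.ofReal_add_le)
            congr 1
            have e1 : (1 - ((n : ℤ) + 1)) = -(n : ℤ) := by ring
            have e2 : (-((n + 1 : ℕ) : ℤ)) = -((n : ℤ) + 1) := by push_cast; ring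
            rw [e1, e2]
            ring
        _ = (∫⁻ x in B, ENNReal.ofReal (Mge f ((2 : ℝ) ^ (-(n : ℤ))) x)) +
            ∫⁻ x in B, ENNReal.ofReal (Mge f ((2 : ℝ) ^ (-((n : ℤ) + 1))) x -
              Mge f ((2 : ℝ) ^ (1 - ((n : ℤ) + 1))) x) :=
          lintegral_add_left (μ := volume.restrict B) hm _
        _ ≤ _ := add_le_add le_rfl (setLIntegral_le_lintegral _ _)
    have h2 : (1 : ℝ≥0∞) ≤ ENNReal.ofReal ((2 : ℝ) ^ ((n : ℤ) + 1)) := by
      rw [ENNReal.one_le_ofReal]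
      exact one_le_zpow₀ one_le_two (by omega)
    have h3 : ∫⁻ x, ENNReal.ofReal (Mge f ((2 : ℝ) ^ (-((n : ℤ) + 1))) x -
          Mge f ((2 : ℝ) ^ (1 - ((n : ℤ) + 1))) x) ≤
        ENNReal.ofReal ((2 : ℝ) ^ ((n : ℤ) + 1)) *
        ∫⁻ x, ENNReal.ofReal (Mge f ((2 : ℝ) ^ (-((n : ℤ) + 1))) x -
          Mge f ((2 : ℝ) ^ (1 - ((n : ℤ) + 1))) x) := by
      calc _ = 1 * ∫⁻ x, ENNReal.ofReal (Mge f ((2 : ℝ) ^ (-((n : ℤ) + 1))) x -
          Mge f ((2 : ℝ) ^ (1 - ((n : ℤ) + 1))) x) := (one_mul _).symm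
        _ ≤ _ := by gcongr
    calc ∫⁻ x in B, ENNReal.ofReal (Mge f ((2 : ℝ) ^ (-((n + 1 : ℕ) : ℤ))) x) ≤ _ := h1
      _ ≤ ((∫⁻ x in B, ENNReal.ofReal (Mge f 1 x)) +
        ∑ k ∈ Finset.Icc (1 : ℤ) n, ENNReal.ofReal ((2 : ℝ) ^ k) *
          ∫⁻ x, ENNReal.ofReal (Mge f ((2 : ℝ) ^ (-k)) x - Mge f ((2 : ℝ) ^ (1 - k)) x)) +
          ENNReal.ofReal ((2 : ℝ) ^ ((n : ℤ) + 1)) *
        ∫⁻ x, ENNReal.ofReal (Mge f ((2 : ℝ) ^ (-((n : ℤ) + 1))) x -
          Mge f ((2 : ℝ) ^ (1 - ((n : ℤ) + 1))) x) := add_le_add ih h3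
      _ = _ := by rw [add_assoc, add_comm (∑ k ∈ Finset.Icc (1 : ℤ) n, _)]

/-- local integrability: `uM f = Mge 1 + ∑_{k ≥ 1} (Mge 2^-k - Mge 2^(1-k))` -/
theorem uM_lintegral_lt_top (d : ℕ) (hd : 2 ≤ d) (f : EuclideanSpace ℝ (Fin d) → ℝ)
    (g : EuclideanSpace ℝ (Fin d) → EuclideanSpace ℝ (Fin d)) (hf : Integrable f)
    (hg : Integrable g) (hfg : IsWeakGradient f g) (R : ℝ) :
    ∫⁻ x in closedBall 0 R, uM f x < ⊤ := by
  obtain ⟨C, hC, hstar⟩ := star_general d hd
  have hfa : Integrable (fun y => |f y|) := hf.abs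
  have hf0 : ∀ y, 0 ≤ |f y| := fun y => abs_nonneg _
  have h1 : ∫⁻ x in closedBall 0 R, uM f x =
      ⨆ n : ℕ, ∫⁻ x in closedBall 0 R,
        ENNReal.ofReal (Mge (fun y => |f y|) ((2 : ℝ) ^ (-(n : ℤ))) x) := by
    simp_rw [uM_eq_iSup (by omega) hf]
    rw [lintegral_iSup]
    · intro n
      exact (Mge_lipschitz hfa hf0 (by positivity)).continuous.measurable.ennreal_ofReal
    · intro n m hnm x
      apply ENNReal.ofReal_le_ofReal
      refine Mge_anti hfa hf0 (by positivity) ?_ x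
      exact zpow_le_zpow_right₀ one_le_two (by omega)
  rw [h1]
  set A : ℝ := (volume.real (closedBall (0 : EuclideanSpace ℝ (Fin d)) 1))⁻¹ * ∫ y, |f y| with hA
  have h2 : ∫⁻ x in closedBall (0 : EuclideanSpace ℝ (Fin d)) R,
      ENNReal.ofReal (Mge (fun y => |f y|) 1 x) ≤
      ENNReal.ofReal A * volume (closedBall (0 : EuclideanSpace ℝ (Fin d)) R) := by
    calc ∫⁻ x in closedBall (0 : EuclideanSpace ℝ (Fin d)) R,
        ENNReal.ofReal (Mge (fun y => |f y|) 1 x) ≤
        ∫⁻ _x in closedBall (0 : EuclideanSpace ℝ (Fin d)) R, ENNReal.ofReal A :=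
          lintegral_mono fun x => ENNReal.ofReal_le_ofReal (Mge_le hfa hf0 one_pos x)
      _ = _ := by rw [setLIntegral_const]
  refine lt_of_le_of_lt (iSup_le fun n => (gen_tele hfa hf0 _ n).trans
    (add_le_add h2 (hstar f g hf hg hfg 1 n))) ?_
  refine ENNReal.add_lt_top.2 ⟨ENNReal.mul_lt_top ENNReal.ofReal_lt_top ?_, ENNReal.ofReal_lt_top⟩
  exact measure_closedBall_lt_top

/-- a smooth function with compact support has its gradient as weak gradient -/
theorem gen_weak {d : ℕ} {F : EuclideanSpace ℝ (Fin d) → ℝ} (hF : ContDiff ℝ 1 F)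
    (hFc : HasCompactSupport F) : IsWeakGradient F (gradient F) := by
  intro φ hφ hφc
  have hFg : Continuous (gradient F) :=
    (LinearIsometryEquiv.continuous _).comp (hF.continuous_fderiv one_ne_zero)
  have hφg : Continuous (gradient φ) :=
    (LinearIsometryEquiv.continuous _).comp (hφ.continuous_fderiv (by simp))
  have i1 : Integrable (fun x => F x • gradient φ x) :=
    (hF.continuous.smul hφg).integrable_of_hasCompactSupport hFc.smul_right
  have i2 : Integrable (fun x => φ x • gradient F x) :=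
    (hφ.continuous.smul hFg).integrable_of_hasCompactSupport hφc.smul_right
  have hin : ∀ (h : EuclideanSpace ℝ (Fin d) → ℝ) (x v : EuclideanSpace ℝ (Fin d)),
      ⟪v, gradient h x⟫ = fderiv ℝ h x v := by
    intro h x v
    rw [real_inner_comm]
    exact InnerProductSpace.toDual_symm_apply
  refine ext_inner_left ℝ fun v => ?_
  rw [inner_neg_right, ← integral_inner i1, ← integral_inner i2]
  simp only [inner_smul_right, hin]
  have j1 : Integrable (fun x => fderiv ℝ F x v * φ x) := by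
    have : Continuous (fun x => fderiv ℝ F x v * φ x) :=
      ((hF.continuous_fderiv one_ne_zero).clm_apply continuous_const).mul hφ.continuous
    exact this.integrable_of_hasCompactSupport hφc.mul_left
  have j2 : Integrable (fun x => F x * fderiv ℝ φ x v) := by
    have : Continuous (fun x => F x * fderiv ℝ φ x v) :=
      hF.continuous.mul ((hφ.continuous_fderiv (by simp)).clm_apply continuous_const)
    exact this.integrable_of_hasCompactSupport hFc.mul_right
  have j3 : Integrable (fun x => F x * φ x) :=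
    (hF.continuous.mul hφ.continuous).integrable_of_hasCompactSupport hFc.mul_right
  have key := integral_mul_fderiv_eq_neg_fderiv_mul_of_integrable (μ := volume) (v := v) j1 j2 j3
    (fun x _ => (hF.differentiable one_ne_zero).differentiableAt)
    (fun x _ => (hφ.differentiable (by simp)).differentiableAt)
  rw [key]
  congr 1
  refine integral_congr_ae (Eventually.of_forall fun x => ?_)
  simp only
  ring

theorem gen_Mge_le_sup {d : ℕ} {f : EuclideanSpace ℝ (Fin d) → ℝ} (hf : Integrable f)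
    {M : ℝ} (hM : ∀ x, f x ≤ M) {r : ℝ} (hr : 0 < r)
    (x : EuclideanSpace ℝ (Fin d)) : Mge f r x ≤ M := by
  refine csSup_le (Mge_nonempty r x) ?_
  rintro a ⟨c, s, hs, -, rfl⟩
  have hs0 : 0 < s := hr.trans_le hs
  have hv := volR_pos c hs0
  have h1 : ∫ y in closedBall c s, f y ≤ M * volume.real (closedBall c s) := by
    calc ∫ y in closedBall c s, f y ≤ ∫ _y in closedBall c s, M := by
          apply setIntegral_mono hf.integrableOn
          · rw [integrableOn_const_iff]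
            right
            exact isFiniteMeasureOnCompacts_of_isLocallyFiniteMeasure.lt_top_of_isCompact
              (isCompact_closedBall c s)
          · exact hM
      _ = _ := by rw [setIntegral_const, smul_eq_mul, mul_comm]
  unfold av
  rw [inv_mul_le_iff₀ hv]
  linarith

theorem gen_Mge_far {d : ℕ} {f : EuclideanSpace ℝ (Fin d) → ℝ} (hf : Continuous f)
    (hf0 : ∀ x, 0 ≤ f x) {R : ℝ} (hR : 0 ≤ R) (hfR : ∀ x, R < ‖x‖ → f x = 0) (m n : ℕ)
    {x : EuclideanSpace ℝ (Fin d)} (hx : R + 4 * (2 : ℝ) ^ m < ‖x‖) :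
    Mge f ((2 : ℝ) ^ (-(n : ℤ))) x = Mge f ((2 : ℝ) ^ m) x := by
  have step : ∀ j : ℕ, j ≤ m + n →
      Mge f ((2 : ℝ) ^ (-(n : ℤ))) x = Mge f ((2 : ℝ) ^ ((j : ℤ) - n)) x := by
    intro j
    induction j with
    | zero => intro _; simp
    | succ j ih =>
      intro hj
      rw [ih (by omega)]
      have h1 : (2 : ℝ) ^ (((j + 1 : ℕ) : ℤ) - n) = 2 * (2 : ℝ) ^ ((j : ℤ) - n) := by
        rw [show (((j + 1 : ℕ) : ℤ) - n) = ((j : ℤ) - n) + 1 by push_cast; ring,
          zpow_add₀ two_ne_zero, zpow_one, mul_comm]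
      rw [h1]
      refine Mge_eq_of_far hf hf0 hR hfR (by positivity) ?_
      have h2 : (2 : ℝ) ^ ((j : ℤ) - n) ≤ (2 : ℝ) ^ (m : ℤ) :=
        zpow_le_zpow_right₀ one_le_two (by omega)
      rw [zpow_natCast] at h2
      linarith
  rw [step (m + n) le_rfl]
  congr 1
  rw [show (((m + n : ℕ) : ℤ) - n) = (m : ℤ) by push_cast; ring, zpow_natCast]

/-- the maximal function of a smooth function: finite, Lipschitz, vanishing at infinity -/
theorem uM_smooth (d : ℕ) (hd : 2 ≤ d) : ∃ C : ℝ, 0 ≤ C ∧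
    ∀ (F : EuclideanSpace ℝ (Fin d) → ℝ), ContDiff ℝ (⊤ : ℕ∞) F → HasCompactSupport F →
      (∀ x, uM F x ≠ ⊤) ∧ (∃ K : NNReal, LipschitzWith K (fun x => (uM F x).toReal)) ∧
      TV (fun x => (uM F x).toReal) ≤ ENNReal.ofReal (C * ∫ y, ‖gradient F y‖) ∧
      Tendsto (fun x => (uM F x).toReal) (cocompact _) (𝓝 0) ∧
      (∀ x, |F x| ≤ (uM F x).toReal) := by
  obtain ⟨C, hC, hTV⟩ := TV_general d hd
  refine ⟨C, hC, ?_⟩
  intro F hF hFc
  have hF1 : ContDiff ℝ 1 F := hF.of_le (by simp)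
  have hFi : Integrable F := hF.continuous.integrable_of_hasCompactSupport hFc
  obtain ⟨K, hK⟩ := ContDiff.lipschitzWith_of_hasCompactSupport (𝕂 := ℝ) hFc hF1 one_ne_zero
  set f : EuclideanSpace ℝ (Fin d) → ℝ := fun y => |F y| with hf
  have hfK : LipschitzWith K f := by
    have := (lipschitzWith_one_norm (E := ℝ)).comp hK
    rw [one_mul] at this
    exact this
  have hfc : HasCompactSupport f := hFc.norm
  have hfcont : Continuous f := hfK.continuous
  have hf0 : ∀ x, 0 ≤ f x := fun x => abs_nonneg _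
  have hfi : Integrable f := hFi.abs
  obtain ⟨M, hM⟩ := hfc.exists_bound_of_continuous hfcont
  have hM' : ∀ x, f x ≤ M := fun x => (le_abs_self _).trans (hM x)
  have hpos : ∀ n : ℕ, (0 : ℝ) < (2 : ℝ) ^ (-(n : ℤ)) := fun n => by positivity
  have heq : ∀ x, uM F x = ⨆ n : ℕ, ENNReal.ofReal (Mge f ((2 : ℝ) ^ (-(n : ℤ))) x) :=
    fun x => uM_eq_iSup (by omega) hFi x
  have hne : ∀ x, uM F x ≠ ⊤ := by
    intro x
    rw [heq x]
    refine ne_top_of_le_ne_top (ENNReal.ofReal_ne_top (r := M)) (iSup_le fun n => ?_)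
    exact ENNReal.ofReal_le_ofReal (gen_Mge_le_sup hfi hM' (hpos n) x)
  have hmono : ∀ x, Monotone (fun n : ℕ => ENNReal.ofReal (Mge f ((2 : ℝ) ^ (-(n : ℤ))) x)) := by
    intro x n m hnm
    apply ENNReal.ofReal_le_ofReal
    exact Mge_anti hfi hf0 (by positivity) (zpow_le_zpow_right₀ one_le_two (by omega)) x
  have hlim : ∀ x, Tendsto (fun n : ℕ => Mge f ((2 : ℝ) ^ (-(n : ℤ))) x) atTop
      (𝓝 (uM F x).toReal) := by
    intro x
    have h1 := tendsto_atTop_iSup (hmono x)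
    rw [← heq x] at h1
    have h2 := (ENNReal.tendsto_toReal (hne x)).comp h1
    refine h2.congr fun n => ?_
    simp only [Function.comp]
    rw [ENNReal.toReal_ofReal (Mge_nonneg hfi hf0 (hpos n) x)]
  have hgc : HasCompactSupport (gradient F) :=
    (hFc.fderiv ℝ).comp_left (g := (InnerProductSpace.toDual ℝ (EuclideanSpace ℝ (Fin d))).symm)
      (map_zero _)
  have hgi : Integrable (gradient F) := by
    have hcg : Continuous (gradient F) :=
      (LinearIsometryEquiv.continuous _).comp (hF1.continuous_fderiv one_ne_zero)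
    exact hcg.integrable_of_hasCompactSupport hgc
  obtain ⟨hL, hT⟩ := TV_le_of_tendsto (fun n => Mge_lipschitz' hfc hf0 hfK (hpos n)) hlim
    (fun n => hTV F (gradient F) hFi hgi (gen_weak hF1 hFc) n)
  refine ⟨hne, ⟨K, hL⟩, hT, ?_, ?_⟩
  · obtain ⟨R, hR0, hR⟩ := hfc.isCompact.isBounded.exists_pos_norm_le
    have hfR : ∀ x, R < ‖x‖ → f x = 0 := by
      intro x hx
      by_contra h
      have := hR x (subset_tsupport f h)
      linarith
    have hI : 0 ≤ ∫ y, f y := integral_nonneg hf0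
    have hω := volR_one_pos (d := d)
    have hdecay : Tendsto (fun m : ℕ =>
        (volume.real (closedBall (0 : EuclideanSpace ℝ (Fin d)) ((2 : ℝ) ^ m)))⁻¹ * ∫ y, f y)
        atTop (𝓝 0) := by
      have h1 : Tendsto (fun m : ℕ => (((2 : ℝ) ^ m) ^ d *
          volume.real (ball (0 : EuclideanSpace ℝ (Fin d)) 1))) atTop atTop := by
        apply Tendsto.atTop_mul_const hω
        have h2 : Tendsto (fun m : ℕ => (2 : ℝ) ^ m) atTop atTop :=
          tendsto_pow_atTop_atTop_of_one_lt one_lt_two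
        exact (tendsto_pow_atTop (by omega : d ≠ 0)).comp h2
      have h3 := (tendsto_inv_atTop_zero.comp h1).mul_const (∫ y, f y)
      rw [zero_mul] at h3
      refine h3.congr fun m => ?_
      simp only [Function.comp]
      rw [volR _ (by positivity)]
    rw [Metric.tendsto_nhds]
    intro ε hε
    obtain ⟨m, hm⟩ := (hdecay.eventually_lt_const hε).exists
    have hev := (tendsto_norm_cocompact_atTop (E := EuclideanSpace ℝ (Fin d))).eventually_gt_atTop
      (R + 4 * (2 : ℝ) ^ m)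
    filter_upwards [hev] with x hx
    have h1 : (uM F x).toReal = Mge f ((2 : ℝ) ^ m) x := by
      refine tendsto_nhds_unique (hlim x) ?_
      refine tendsto_const_nhds.congr fun n => ?_
      exact (gen_Mge_far hfcont hf0 hR0.le hfR m n hx).symm
    rw [Real.dist_eq, sub_zero, abs_of_nonneg ENNReal.toReal_nonneg, h1]
    exact (Mge_le hfi hf0 (by positivity) x).trans_lt hm
  · intro x
    have h1 := ENNReal.toReal_mono (hne x) (enorm_le_uM hF.continuous x)
    rwa [toReal_enorm, Real.norm_eq_abs] at h1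

end Vale.Agent.P137
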