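import Vale.Agent.P137.BVA2
import Vale.Agent.P137.BVA3
import Vale.Agent.P137.General

/-! Approximation of functions of bounded variation. -/

open MeasureTheory Metric Set Filter Topology
open scoped RealInnerProductSpace ENNReal

namespace Vale.Agent.P137

variable {d : ℕ}

theorem exists_approx_bv {f : EuclideanSpace ℝ (Fin d) → ℝ} (hf : Integrable f) {V : ℝ}
    (hV : VarLe f V) {ε : ℝ} (hε : 0 < ε) :
    ∃ (h : EuclideanSpace ℝ (Fin d) → ℝ) (g : EuclideanSpace ℝ (Fin d) → EuclideanSpace ℝ (Fin d)),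
      Integrable h ∧ Integrable g ∧ IsWeakGradient h g ∧ (∫ x, |h x - f x|) ≤ ε ∧
      ∫ x, ‖g x‖ ≤ V := by
  obtain ⟨h, h1, h2, h3, h4, h5, h6⟩ := exists_mollify hf hV hε
  exact ⟨h, gradient h, h2, h3, h4, h5, integral_gradient_le_of_VarLe h1 h2 h3 h6⟩

end Vale.Agent.P137
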