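import Vale.Agent.P137.BVApprox

/-! The estimates for functions of bounded variation. -/

open MeasureTheory Metric Set Filter Topology
open scoped RealInnerProductSpace ENNReal

namespace Vale.Agent.P137

/-- approximating sequence -/
theorem bvB_approx {d : ℕ} {f : EuclideanSpace ℝ (Fin d) → ℝ} (hf : Integrable f) {V : ℝ}
    (hV : VarLe f V) :
    ∃ (h : ℕ → EuclideanSpace ℝ (Fin d) → ℝ)
      (g : ℕ → EuclideanSpace ℝ (Fin d) → EuclideanSpace ℝ (Fin d)),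
      (∀ j, Integrable (h j)) ∧ (∀ j, Integrable (g j)) ∧ (∀ j, IsWeakGradient (h j) (g j)) ∧
      (∀ j : ℕ, (∫ x, |abs (h j x) - abs (f x)|) ≤ 1 / ((j : ℝ) + 1)) ∧
      (∀ j : ℕ, (∫ x, ‖g j x‖) ≤ V) := by
  have h1 : ∀ j : ℕ, (0 : ℝ) < 1 / ((j : ℝ) + 1) := fun j => by positivity
  choose h g hh hg hw h4 h5 using fun j => exists_approx_bv hf hV (h1 j)
  refine ⟨h, g, hh, hg, hw, fun j => ?_, h5⟩
  refine le_trans ?_ (h4 j)
  apply integral_mono ((hh j).abs.sub hf.abs).abs ((hh j).sub hf).abs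
  intro x
  exact abs_abs_sub_abs_le _ _

theorem bvB_tendsto {d : ℕ} {f : EuclideanSpace ℝ (Fin d) → ℝ}
    {k : ℕ → EuclideanSpace ℝ (Fin d) → ℝ} (hf : Integrable f) (ik : ∀ j, Integrable (k j))
    (hk4 : ∀ j : ℕ, (∫ x, |abs (k j x) - abs (f x)|) ≤ 1 / ((j : ℝ) + 1))
    {r : ℝ} (hr : 0 < r) (x : EuclideanSpace ℝ (Fin d)) :
    Tendsto (fun j => Mge (fun y => |k j y|) r x) atTop (𝓝 (Mge (fun y => |f y|) r x)) := by
  rw [tendsto_iff_dist_tendsto_zero]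
  have h2 : Tendsto (fun j : ℕ => (volume.real (closedBall (0 : EuclideanSpace ℝ (Fin d)) r))⁻¹ *
      (1 / ((j : ℝ) + 1))) atTop (𝓝 0) := by
    have := (tendsto_one_div_add_atTop_nhds_zero_nat (𝕜 := ℝ)).const_mul
      (volume.real (closedBall (0 : EuclideanSpace ℝ (Fin d)) r))⁻¹
    rwa [mul_zero] at this
  refine squeeze_zero (fun j => dist_nonneg) (fun j => ?_) h2
  rw [Real.dist_eq]
  refine (Mge_sub_le (ik j).abs (fun y => abs_nonneg _) hf.abs (fun y => abs_nonneg _) hr x).trans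
    ?_
  gcongr
  exact hk4 j

theorem bvB_lipschitz {d : ℕ} {f : EuclideanSpace ℝ (Fin d) → ℝ}
    {k : ℕ → EuclideanSpace ℝ (Fin d) → ℝ} (hf : Integrable f) (ik : ∀ j, Integrable (k j))
    (hk4 : ∀ j : ℕ, (∫ x, |abs (k j x) - abs (f x)|) ≤ 1 / ((j : ℝ) + 1))
    {r : ℝ} (hr : 0 < r) :
    ∃ K : NNReal, ∀ j, LipschitzWith K (Mge (fun y => |k j y|) r) := by
  refine ⟨Real.toNNReal ((d / r) *
      ((volume.real (closedBall (0 : EuclideanSpace ℝ (Fin d)) r))⁻¹ * ((∫ y, |f y|) + 1))), ?_⟩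
  intro j
  refine (Mge_lipschitz (ik j).abs (fun y => abs_nonneg _) hr).weaken ?_
  apply Real.toNNReal_le_toNNReal
  have h1 : ∫ y, |k j y| ≤ (∫ y, |f y|) + 1 := by
    have h2 : ∫ y, |k j y| ≤ ∫ y, (|f y| + |abs (k j y) - abs (f y)|) := by
      apply integral_mono (ik j).abs (hf.abs.add ((ik j).abs.sub hf.abs).abs)
      intro y
      change |k j y| ≤ |f y| + |abs (k j y) - abs (f y)|
      have := le_abs_self (abs (k j y) - |f y|)
      linarith
    have h3 : ∫ y, (|f y| + |abs (k j y) - abs (f y)|) =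
        (∫ y, |f y|) + ∫ y, |abs (k j y) - abs (f y)| :=
      integral_add hf.abs ((ik j).abs.sub hf.abs).abs
    have h4 : 1 / ((j : ℝ) + 1) ≤ 1 := by
      rw [div_le_one (by positivity)]
      have : (0 : ℝ) ≤ j := Nat.cast_nonneg j
      linarith
    have := hk4 j
    linarith
  gcongr

/-- as `TV_general` (file `GenA`), from `TV_general` and `exists_approx_bv` -/
theorem TV_bv (d : ℕ) (hd : 2 ≤ d) : ∃ C : ℝ, 0 ≤ C ∧
    ∀ (f : EuclideanSpace ℝ (Fin d) → ℝ) (V : ℝ), Integrable f → VarLe f V → ∀ (k : ℤ),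
      TV (Mge (fun y => |f y|) ((2 : ℝ) ^ (-k))) ≤ ENNReal.ofReal (C * V) := by
  obtain ⟨C, hC, h⟩ := TV_general d hd
  refine ⟨C, hC, ?_⟩
  intro f V hf hV m
  obtain ⟨k, g, hk1, hk2, hk3, hk4, hk5⟩ := bvB_approx hf hV
  have hr : (0 : ℝ) < (2 : ℝ) ^ (-m) := by positivity
  obtain ⟨K, hK⟩ := bvB_lipschitz hf hk1 hk4 hr
  refine (TV_le_of_tendsto (v := fun j => Mge (fun y => |k j y|) ((2 : ℝ) ^ (-m))) (K := K)
      (fun j => hK _) (fun x => bvB_tendsto hf hk1 hk4 hr x) (fun j => ?_)).2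
  refine (h (k j) (g j) (hk1 j) (hk2 j) (hk3 j) m).trans ?_
  apply ENNReal.ofReal_le_ofReal
  gcongr
  exact hk5 j

theorem star_bv (d : ℕ) (hd : 2 ≤ d) : ∃ C : ℝ, 0 ≤ C ∧
    ∀ (f : EuclideanSpace ℝ (Fin d) → ℝ) (V : ℝ), Integrable f → VarLe f V → ∀ (m n : ℤ),
      ∑ k ∈ Finset.Icc m n, ENNReal.ofReal ((2 : ℝ) ^ k) *
        ∫⁻ x, ENNReal.ofReal (Mge (fun y => |f y|) ((2 : ℝ) ^ (-k)) x -
          Mge (fun y => |f y|) ((2 : ℝ) ^ (1 - k)) x) ≤ ENNReal.ofReal (C * V) := by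
  obtain ⟨C, hC, h⟩ := star_general d hd
  refine ⟨C, hC, ?_⟩
  intro f V' hf hVar m n
  obtain ⟨k, g, hk1, hk2, hk3, hk4, hk5⟩ := bvB_approx hf hVar
  have hpos : ∀ i : ℤ, (0 : ℝ) < (2 : ℝ) ^ i := fun i => by positivity
  -- the differences
  set U : ℕ → ℤ → EuclideanSpace ℝ (Fin d) → ℝ := fun j i x =>
    Mge (fun y => |k j y|) ((2 : ℝ) ^ (-i)) x - Mge (fun y => |k j y|) ((2 : ℝ) ^ (1 - i)) x with hU
  set V : ℤ → EuclideanSpace ℝ (Fin d) → ℝ := fun i x =>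
    Mge (fun y => |f y|) ((2 : ℝ) ^ (-i)) x - Mge (fun y => |f y|) ((2 : ℝ) ^ (1 - i)) x with hV
  have hUc : ∀ j i, Continuous (U j i) := by
    intro j i
    exact (Mge_lipschitz (hk1 j).abs (fun y => abs_nonneg _) (hpos _)).continuous.sub
      (Mge_lipschitz (hk1 j).abs (fun y => abs_nonneg _) (hpos _)).continuous
  have hVc : ∀ i, Continuous (V i) := by
    intro i
    exact (Mge_lipschitz hf.abs (fun y => abs_nonneg _) (hpos _)).continuous.sub
      (Mge_lipschitz hf.abs (fun y => abs_nonneg _) (hpos _)).continuous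
  have hlim : ∀ i x, Tendsto (fun j => U j i x) atTop (𝓝 (V i x)) := by
    intro i x
    exact (bvB_tendsto hf hk1 hk4 (hpos _) x).sub (bvB_tendsto hf hk1 hk4 (hpos _) x)
  -- the sums
  have hSm : ∀ j, Measurable (fun x => ∑ i ∈ Finset.Icc m n,
      ENNReal.ofReal ((2 : ℝ) ^ i) * ENNReal.ofReal (U j i x)) := by
    intro j
    apply Finset.measurable_fun_sum
    intro i _
    exact ((hUc j i).measurable.ennreal_ofReal).const_mul _
  have hSlim : ∀ x, Tendsto (fun j => ∑ i ∈ Finset.Icc m n,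
      ENNReal.ofReal ((2 : ℝ) ^ i) * ENNReal.ofReal (U j i x)) atTop
      (𝓝 (∑ i ∈ Finset.Icc m n, ENNReal.ofReal ((2 : ℝ) ^ i) * ENNReal.ofReal (V i x))) := by
    intro x
    apply tendsto_finsetSum
    intro i _
    exact ENNReal.Tendsto.const_mul (ENNReal.tendsto_ofReal (hlim i x))
      (Or.inr ENNReal.ofReal_ne_top)
  have hSint : ∀ j, ∫⁻ x, ∑ i ∈ Finset.Icc m n,
      ENNReal.ofReal ((2 : ℝ) ^ i) * ENNReal.ofReal (U j i x) ≤ ENNReal.ofReal (C * V') := by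
    intro j
    rw [lintegral_finsetSum _ (fun i _ => ((hUc j i).measurable.ennreal_ofReal).const_mul _)]
    have h1 : ∀ i ∈ Finset.Icc m n, ∫⁻ x, ENNReal.ofReal ((2 : ℝ) ^ i) *
        ENNReal.ofReal (U j i x) = ENNReal.ofReal ((2 : ℝ) ^ i) *
        ∫⁻ x, ENNReal.ofReal (U j i x) := by
      intro i _
      rw [lintegral_const_mul _ (hUc j i).measurable.ennreal_ofReal]
    rw [Finset.sum_congr rfl h1]
    refine (h (k j) (g j) (hk1 j) (hk2 j) (hk3 j) m n).trans ?_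
    apply ENNReal.ofReal_le_ofReal
    gcongr
    exact hk5 j
  calc ∑ i ∈ Finset.Icc m n, ENNReal.ofReal ((2 : ℝ) ^ i) * ∫⁻ x, ENNReal.ofReal (V i x)
      = ∫⁻ x, ∑ i ∈ Finset.Icc m n, ENNReal.ofReal ((2 : ℝ) ^ i) * ENNReal.ofReal (V i x) := by
        rw [lintegral_finsetSum _ (fun i _ => ((hVc i).measurable.ennreal_ofReal).const_mul _)]
        apply Finset.sum_congr rfl
        intro i _
        rw [lintegral_const_mul _ (hVc i).measurable.ennreal_ofReal]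
    _ = ∫⁻ x, liminf (fun j => ∑ i ∈ Finset.Icc m n,
          ENNReal.ofReal ((2 : ℝ) ^ i) * ENNReal.ofReal (U j i x)) atTop := by
        apply lintegral_congr
        intro x
        exact (hSlim x).liminf_eq.symm
    _ ≤ liminf (fun j => ∫⁻ x, ∑ i ∈ Finset.Icc m n,
          ENNReal.ofReal ((2 : ℝ) ^ i) * ENNReal.ofReal (U j i x)) atTop :=
        lintegral_liminf_le hSm
    _ ≤ liminf (fun _ : ℕ => ENNReal.ofReal (C * V')) atTop :=
        liminf_le_liminf (Eventually.of_forall hSint)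
    _ = ENNReal.ofReal (C * V') := by simp

end Vale.Agent.P137
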