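import Vale.Agent.P137.BVB1

/-! Local integrability for functions of bounded variation. -/

open MeasureTheory Metric Set Filter Topology
open scoped RealInnerProductSpace ENNReal

namespace Vale.Agent.P137

/-- as `uM_lintegral_lt_top` (file `General`) -/
theorem uM_lintegral_lt_top_bv (d : ℕ) (hd : 2 ≤ d) (f : EuclideanSpace ℝ (Fin d) → ℝ) (V : ℝ)
    (hf : Integrable f) (hV : VarLe f V) (R : ℝ) : ∫⁻ x in closedBall 0 R, uM f x < ⊤ := by
  obtain ⟨C, hC, hstar⟩ := star_bv d hd
  have hfa : Integrable (fun y => |f y|) := hf.abs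
  have hf0 : ∀ y, 0 ≤ |f y| := fun y => abs_nonneg _
  have h1 : ∫⁻ x in closedBall 0 R, uM f x =
      ⨆ n : ℕ, ∫⁻ x in closedBall 0 R,
        ENNReal.ofReal (Mge (fun y => |f y|) ((2 : ℝ) ^ (-(n : ℤ))) x) := by
    simp_rw [uM_eq_iSup (by omega) hf]
    rw [lintegral_iSup]
    · intro n
      exact (Mge_lipschitz hfa hf0 (by positivity)).continuous.measurable.ennreal_ofReal
    · intro n m hnm x
      apply ENNReal.ofReal_le_ofReal
      refine Mge_anti hfa hf0 (by positivity) ?_ x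
      exact zpow_le_zpow_right₀ one_le_two (by omega)
  rw [h1]
  set A : ℝ := (volume.real (closedBall (0 : EuclideanSpace ℝ (Fin d)) 1))⁻¹ * ∫ y, |f y| with hA
  have h2 : ∫⁻ x in closedBall (0 : EuclideanSpace ℝ (Fin d)) R,
      ENNReal.ofReal (Mge (fun y => |f y|) 1 x) ≤
      ENNReal.ofReal A * volume (closedBall (0 : EuclideanSpace ℝ (Fin d)) R) := by
    calc ∫⁻ x in closedBall (0 : EuclideanSpace ℝ (Fin d)) R,
        ENNReal.ofReal (Mge (fun y => |f y|) 1 x) ≤
        ∫⁻ _x in closedBall (0 : EuclideanSpace ℝ (Fin d)) R, ENNReal.ofReal A :=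
          lintegral_mono fun x => ENNReal.ofReal_le_ofReal (Mge_le hfa hf0 one_pos x)
      _ = _ := by rw [setLIntegral_const]
  refine lt_of_le_of_lt (iSup_le fun n => (gen_tele hfa hf0 _ n).trans
    (add_le_add h2 (hstar f V hf hV 1 n))) ?_
  refine ENNReal.add_lt_top.2 ⟨ENNReal.mul_lt_top ENNReal.ofReal_lt_top ?_, ENNReal.ofReal_lt_top⟩
  exact measure_closedBall_lt_top

end Vale.Agent.P137
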