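import Vale.Agent.P137.Basic

/-! Lower semicontinuity of the total variation. -/

open MeasureTheory Metric Set Filter Topology
open scoped RealInnerProductSpace ENNReal

namespace Vale.Agent.P137

/-- difference quotients are controlled by the directional variation -/
theorem lsc_diff_le {d : ℕ} {u : EuclideanSpace ℝ (Fin d) → ℝ} {K : NNReal}
    (hu : LipschitzWith K u) (e : EuclideanSpace ℝ (Fin d)) {t : ℝ} (ht : 0 < t) :
    ∫⁻ x, ‖t⁻¹ * (u (x + t • e) - u x)‖ₑ ≤ ∫⁻ x, ‖lineDeriv ℝ u x e‖ₑ := by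
  have hmeas : Measurable (fun x => lineDeriv ℝ u x e) := measurable_lineDeriv hu.continuous
  have h1 : ∀ x, ‖u (x + t • e) - u x‖ₑ ≤
      ∫⁻ s in Ioc (0 : ℝ) t, ‖lineDeriv ℝ u (x + s • e) e‖ₑ := by
    intro x
    have hlip : LipschitzWith (K * ‖e‖₊) (fun s : ℝ => u (x + s • e)) := by
      apply LipschitzWith.of_dist_le_mul
      intro a b
      refine (hu.dist_le_mul _ _).trans ?_
      rw [dist_add_left, dist_eq_norm, ← sub_smul, norm_smul, Real.dist_eq]
      push_cast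
      rw [Real.norm_eq_abs]
      nlinarith [norm_nonneg e, abs_nonneg (a - b), K.coe_nonneg]
    have hac := (hlip.lipschitzOnWith (s := uIcc (0 : ℝ) t)).absolutelyContinuousOnInterval
    have hftc := hac.integral_deriv_eq_sub
    have hd : ∀ s : ℝ, deriv (fun s : ℝ => u (x + s • e)) s = lineDeriv ℝ u (x + s • e) e := by
      intro s
      rw [lineDeriv]
      have : (fun r : ℝ => u (x + s • e + r • e)) = fun r : ℝ => (fun s : ℝ => u (x + s • e)) (s + r) := by
        funext r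
        simp only [add_smul, add_assoc]
      rw [this, deriv_comp_const_add (fun s : ℝ => u (x + s • e)) s 0, add_zero]
    rw [zero_smul, add_zero] at hftc
    rw [← hftc, intervalIntegral.integral_of_le ht.le]
    refine (enorm_integral_le_lintegral_enorm _).trans ?_
    simp only [hd]
    exact le_rfl
  have h2 : ∫⁻ x, ‖u (x + t • e) - u x‖ₑ ≤ ENNReal.ofReal t * ∫⁻ x, ‖lineDeriv ℝ u x e‖ₑ := by
    calc ∫⁻ x, ‖u (x + t • e) - u x‖ₑ
        ≤ ∫⁻ x, ∫⁻ s in Ioc (0 : ℝ) t, ‖lineDeriv ℝ u (x + s • e) e‖ₑ := lintegral_mono h1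
      _ = ∫⁻ s in Ioc (0 : ℝ) t, ∫⁻ x, ‖lineDeriv ℝ u (x + s • e) e‖ₑ := by
          apply lintegral_lintegral_swap
          apply Measurable.aemeasurable
          apply Measurable.enorm
          exact hmeas.comp (by fun_prop)
      _ = ∫⁻ s in Ioc (0 : ℝ) t, ∫⁻ x, ‖lineDeriv ℝ u x e‖ₑ := by
          congr 1
          funext s
          exact lintegral_add_right_eq_self (fun x => ‖lineDeriv ℝ u x e‖ₑ) (s • e)
      _ = ENNReal.ofReal t * ∫⁻ x, ‖lineDeriv ℝ u x e‖ₑ := by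
          rw [lintegral_const, Measure.restrict_apply MeasurableSet.univ, univ_inter,
            Real.volume_Ioc, sub_zero, mul_comm]
  calc ∫⁻ x, ‖t⁻¹ * (u (x + t • e) - u x)‖ₑ
      = ∫⁻ x, ‖t⁻¹‖ₑ * ‖u (x + t • e) - u x‖ₑ := by simp only [enorm_mul]
    _ = ‖t⁻¹‖ₑ * ∫⁻ x, ‖u (x + t • e) - u x‖ₑ := by
        rw [lintegral_const_mul' _ _ (by simp)]
    _ ≤ ‖t⁻¹‖ₑ * (ENNReal.ofReal t * ∫⁻ x, ‖lineDeriv ℝ u x e‖ₑ) := by gcongr
    _ = ∫⁻ x, ‖lineDeriv ℝ u x e‖ₑ := by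
        rw [← mul_assoc]
        have : ‖t⁻¹‖ₑ * ENNReal.ofReal t = 1 := by
          rw [Real.enorm_of_nonneg (by positivity), ← ENNReal.ofReal_mul (by positivity),
            inv_mul_cancel₀ ht.ne', ENNReal.ofReal_one]
        rw [this, one_mul]

/-- the directional variation is lower semicontinuous -/
theorem lsc_dir {d : ℕ} {v : ℕ → EuclideanSpace ℝ (Fin d) → ℝ}
    {w : EuclideanSpace ℝ (Fin d) → ℝ} {K : NNReal} (hv : ∀ n, LipschitzWith K (v n))
    (hw : LipschitzWith K w)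
    (hlim : ∀ x, Tendsto (fun n => v n x) atTop (𝓝 (w x))) (e : EuclideanSpace ℝ (Fin d)) :
    ∫⁻ x, ‖lineDeriv ℝ w x e‖ₑ ≤ liminf (fun n => ∫⁻ x, ‖lineDeriv ℝ (v n) x e‖ₑ) atTop := by
  have hA : ∀ t : ℝ, 0 < t → ∫⁻ x, ‖t⁻¹ * (w (x + t • e) - w x)‖ₑ ≤
      liminf (fun n => ∫⁻ x, ‖lineDeriv ℝ (v n) x e‖ₑ) atTop := by
    intro t ht
    calc ∫⁻ x, ‖t⁻¹ * (w (x + t • e) - w x)‖ₑ
        = ∫⁻ x, liminf (fun n => ‖t⁻¹ * (v n (x + t • e) - v n x)‖ₑ) atTop := by
          congr 1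
          funext x
          refine (Tendsto.liminf_eq ?_).symm
          apply Tendsto.enorm
          exact ((hlim _).sub (hlim _)).const_mul _
      _ ≤ liminf (fun n => ∫⁻ x, ‖t⁻¹ * (v n (x + t • e) - v n x)‖ₑ) atTop := by
          apply lintegral_liminf_le
          intro n
          have := (hv n).continuous.measurable
          fun_prop
      _ ≤ liminf (fun n => ∫⁻ x, ‖lineDeriv ℝ (v n) x e‖ₑ) atTop := by
          exact liminf_le_liminf (Eventually.of_forall fun n => lsc_diff_le (hv n) e ht)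
  have hts : Tendsto (fun k : ℕ => (1 : ℝ) / ((k : ℝ) + 1)) atTop (𝓝[>] 0) := by
    apply tendsto_nhdsWithin_iff.2
    exact ⟨tendsto_one_div_add_atTop_nhds_zero_nat, Eventually.of_forall fun k => by
      simp only [mem_Ioi]; positivity⟩
  calc ∫⁻ x, ‖lineDeriv ℝ w x e‖ₑ
      = ∫⁻ x, liminf (fun k : ℕ => ‖((1 : ℝ) / ((k : ℝ) + 1))⁻¹ *
          (w (x + ((1 : ℝ) / ((k : ℝ) + 1)) • e) - w x)‖ₑ) atTop := by
        apply lintegral_congr_ae
        filter_upwards [hw.ae_lineDifferentiableAt (μ := volume) e] with x hx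
        refine (Tendsto.liminf_eq ?_).symm
        apply Tendsto.enorm
        exact (hx.hasLineDerivAt.tendsto_slope_zero_right).comp hts
    _ ≤ liminf (fun k : ℕ => ∫⁻ x, ‖((1 : ℝ) / ((k : ℝ) + 1))⁻¹ *
          (w (x + ((1 : ℝ) / ((k : ℝ) + 1)) • e) - w x)‖ₑ) atTop := by
        apply lintegral_liminf_le
        intro n
        have := hw.continuous.measurable
        fun_prop
    _ ≤ liminf (fun n => ∫⁻ x, ‖lineDeriv ℝ (v n) x e‖ₑ) atTop := by
        refine (liminf_le_liminf (v := fun _ : ℕ =>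
          liminf (fun n => ∫⁻ x, ‖lineDeriv ℝ (v n) x e‖ₑ) atTop)
          (Eventually.of_forall fun k => hA _ (by positivity))).trans ?_
        simp

/-- rotation invariance: averaging the directional derivatives gives the norm -/
theorem lsc_avg (d : ℕ) (hd : 0 < d) : ∃ κ : ℝ≥0∞, κ ≠ 0 ∧ κ ≠ ⊤ ∧
    ∀ L : EuclideanSpace ℝ (Fin d) →L[ℝ] ℝ,
      ∫⁻ e in ball (0 : EuclideanSpace ℝ (Fin d)) 1, ‖L e‖ₑ = κ * ‖L‖ₑ := by
  obtain ⟨e0, he0⟩ : ∃ e0 : EuclideanSpace ℝ (Fin d), ‖e0‖ = 1 :=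
    ⟨EuclideanSpace.single ⟨0, hd⟩ 1, by simp⟩
  refine ⟨∫⁻ e in ball (0 : EuclideanSpace ℝ (Fin d)) 1, ‖⟪e0, e⟫‖ₑ, ?_, ?_, ?_⟩
  · intro h0
    rw [lintegral_eq_zero_iff (by fun_prop)] at h0
    rw [Filter.EventuallyEq, ae_restrict_iff' measurableSet_ball] at h0
    have hopen : IsOpen {e : EuclideanSpace ℝ (Fin d) | e ∈ ball (0 : EuclideanSpace ℝ (Fin d)) 1 ∧
        0 < ⟪e0, e⟫} := by
      have h2 : IsOpen {e : EuclideanSpace ℝ (Fin d) | 0 < ⟪e0, e⟫} :=
        isOpen_lt continuous_const (by fun_prop)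
      exact IsOpen.inter isOpen_ball h2
    have hne : ({e : EuclideanSpace ℝ (Fin d) | e ∈ ball (0 : EuclideanSpace ℝ (Fin d)) 1 ∧
        0 < ⟪e0, e⟫}).Nonempty := by
      refine ⟨(1 / 2 : ℝ) • e0, ?_, ?_⟩
      · rw [mem_ball_zero_iff, norm_smul, he0]
        norm_num
      · rw [inner_smul_right, real_inner_self_eq_norm_sq, he0]
        norm_num
    have hpos := hopen.measure_pos volume hne
    rw [ae_iff] at h0
    apply hpos.ne'
    refine measure_mono_null ?_ h0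
    intro e he
    simp only [mem_ofPred_eq] at he ⊢
    intro hc
    have := hc he.1
    simp only [Pi.zero_apply, enorm_eq_zero] at this
    linarith [he.2]
  · have : ∫⁻ e in ball (0 : EuclideanSpace ℝ (Fin d)) 1, ‖⟪e0, e⟫‖ₑ ≤
        ∫⁻ e in ball (0 : EuclideanSpace ℝ (Fin d)) 1, 1 := by
      apply setLIntegral_mono measurable_const
      intro e he
      rw [mem_ball_zero_iff] at he
      have h1 := abs_real_inner_le_norm e0 e
      rw [he0, one_mul] at h1
      rw [← ofReal_norm, ← ENNReal.ofReal_one]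
      apply ENNReal.ofReal_le_ofReal
      rw [Real.norm_eq_abs]
      linarith
    refine ne_top_of_le_ne_top ?_ this
    rw [setLIntegral_one]
    exact measure_ball_lt_top.ne
  · intro L
    set G := (InnerProductSpace.toDual ℝ (EuclideanSpace ℝ (Fin d))).symm L with hG
    have hLG : ∀ e, L e = ⟪G, e⟫ := by
      intro e
      rw [hG, InnerProductSpace.toDual_symm_apply]
    have hnorm : ‖G‖ = ‖L‖ := by
      rw [hG, LinearIsometryEquiv.norm_map]
    have henorm : ‖L‖ₑ = ‖(‖G‖ : ℝ)‖ₑ := by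
      rw [hnorm, enorm_norm]
    by_cases hG0 : G = 0
    · have : ‖L‖ₑ = 0 := by rw [henorm, hG0]; simp
      rw [this, mul_zero]
      simp [hLG, hG0]
    have hGpos : 0 < ‖G‖ := norm_pos_iff.2 hG0
    set g := ‖G‖⁻¹ • G with hg
    have hgn : ‖g‖ = 1 := by
      rw [hg, norm_smul, norm_inv, norm_norm, inv_mul_cancel₀ hGpos.ne']
    have hGg : G = ‖G‖ • g := by
      rw [hg, smul_smul, mul_inv_cancel₀ hGpos.ne', one_smul]
    set R := (ℝ ∙ (g - e0))ᗮ.reflection with hR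
    have hRg : R g = e0 := Submodule.reflection_sub (by rw [hgn, he0])
    have hinner : ∀ e, ⟪G, e⟫ = ‖G‖ * ⟪e0, R e⟫ := by
      intro e
      rw [← hRg, LinearIsometryEquiv.inner_map_map]
      conv_lhs => rw [hGg]
      rw [real_inner_smul_left]
    calc ∫⁻ e in ball (0 : EuclideanSpace ℝ (Fin d)) 1, ‖L e‖ₑ
        = ∫⁻ e in ball (0 : EuclideanSpace ℝ (Fin d)) 1, ‖(‖G‖ : ℝ)‖ₑ * ‖⟪e0, R e⟫‖ₑ := by
          simp only [hLG, hinner, enorm_mul]
      _ = ‖(‖G‖ : ℝ)‖ₑ * ∫⁻ e in ball (0 : EuclideanSpace ℝ (Fin d)) 1, ‖⟪e0, R e⟫‖ₑ := by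
          rw [lintegral_const_mul' _ _ (by simp)]
      _ = ‖(‖G‖ : ℝ)‖ₑ * ∫⁻ e in ball (0 : EuclideanSpace ℝ (Fin d)) 1, ‖⟪e0, e⟫‖ₑ := by
          congr 1
          have hpre : R ⁻¹' (ball (0 : EuclideanSpace ℝ (Fin d)) 1) = ball 0 1 := by
            rw [LinearIsometryEquiv.preimage_ball]
            simp
          have := (R.measurePreserving).setLIntegral_comp_preimage
            (s := ball (0 : EuclideanSpace ℝ (Fin d)) 1) measurableSet_ball
            (f := fun e => ‖⟪e0, e⟫‖ₑ) (by fun_prop)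
          rw [hpre] at this
          exact this
      _ = (∫⁻ e in ball (0 : EuclideanSpace ℝ (Fin d)) 1, ‖⟪e0, e⟫‖ₑ) * ‖L‖ₑ := by
          rw [henorm, mul_comm]

/-- joint measurability of the derivative -/
theorem lsc_meas {d : ℕ} (u : EuclideanSpace ℝ (Fin d) → ℝ) :
    Measurable (fun p : EuclideanSpace ℝ (Fin d) × EuclideanSpace ℝ (Fin d) =>
      ‖fderiv ℝ u p.1 p.2‖ₑ) := by
  apply Measurable.enorm
  have h : Measurable (fun p : EuclideanSpace ℝ (Fin d) × EuclideanSpace ℝ (Fin d) =>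
      ⟪(InnerProductSpace.toDual ℝ (EuclideanSpace ℝ (Fin d))).symm (fderiv ℝ u p.1), p.2⟫) := by
    apply Measurable.inner
    · exact (LinearIsometryEquiv.continuous _).measurable.comp
        ((measurable_fderiv ℝ u).comp measurable_fst)
    · exact measurable_snd
  have h2 : (fun p : EuclideanSpace ℝ (Fin d) × EuclideanSpace ℝ (Fin d) =>
      fderiv ℝ u p.1 p.2) = (fun p : EuclideanSpace ℝ (Fin d) × EuclideanSpace ℝ (Fin d) =>
      ⟪(InnerProductSpace.toDual ℝ (EuclideanSpace ℝ (Fin d))).symm (fderiv ℝ u p.1), p.2⟫) := by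
    funext p
    rw [InnerProductSpace.toDual_symm_apply]
  rw [h2]
  exact h

/-- the total variation is the average of the directional variations -/
theorem lsc_TV_eq {d : ℕ} {u : EuclideanSpace ℝ (Fin d) → ℝ} {K : NNReal}
    (hu : LipschitzWith K u) {κ : ℝ≥0∞}
    (hκ : ∀ L : EuclideanSpace ℝ (Fin d) →L[ℝ] ℝ,
      ∫⁻ e in ball (0 : EuclideanSpace ℝ (Fin d)) 1, ‖L e‖ₑ = κ * ‖L‖ₑ) (hκt : κ ≠ ⊤) :
    κ * TV u = ∫⁻ e in ball (0 : EuclideanSpace ℝ (Fin d)) 1, ∫⁻ x, ‖lineDeriv ℝ u x e‖ₑ := by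
  have h1 : ∀ e : EuclideanSpace ℝ (Fin d), ∫⁻ x, ‖lineDeriv ℝ u x e‖ₑ =
      ∫⁻ x, ‖fderiv ℝ u x e‖ₑ := by
    intro e
    apply lintegral_congr_ae
    filter_upwards [hu.ae_differentiableAt (μ := volume)] with x hx
    rw [hx.lineDeriv_eq_fderiv]
  simp only [h1]
  rw [lintegral_lintegral_swap (μ := volume.restrict (ball (0 : EuclideanSpace ℝ (Fin d)) 1))
    (ν := volume) (f := fun e x => ‖fderiv ℝ u x e‖ₑ)]
  · simp only [hκ]
    rw [lintegral_const_mul' _ _ hκt, TV]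
  · exact ((lsc_meas u).comp measurable_swap).aemeasurable

/-- Lower semicontinuity: average of the directional variations, Fatou. -/
theorem TV_le_of_tendsto {d : ℕ} {v : ℕ → EuclideanSpace ℝ (Fin d) → ℝ}
    {w : EuclideanSpace ℝ (Fin d) → ℝ} {K : NNReal} (hv : ∀ n, LipschitzWith K (v n))
    (hlim : ∀ x, Tendsto (fun n => v n x) atTop (𝓝 (w x))) {B : ℝ≥0∞}
    (hB : ∀ n, TV (v n) ≤ B) : LipschitzWith K w ∧ TV w ≤ B := by
  have hw : LipschitzWith K w := by
    apply LipschitzWith.of_dist_le_mul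
    intro x y
    refine le_of_tendsto ((hlim x).dist (hlim y)) (Eventually.of_forall fun n => ?_)
    exact (hv n).dist_le_mul x y
  refine ⟨hw, ?_⟩
  rcases Nat.eq_zero_or_pos d with rfl | hd
  · have : TV w = 0 := by
      rw [TV]
      have : ∀ x : EuclideanSpace ℝ (Fin 0), ‖fderiv ℝ w x‖ₑ = 0 := by
        intro x
        have h0 : fderiv ℝ w x = 0 := by
          ext y
          rw [Subsingleton.elim y 0]
          simp
        rw [← ofReal_norm, h0, norm_zero, ENNReal.ofReal_zero]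
      simp only [this, lintegral_zero]
    rw [this]
    exact bot_le
  obtain ⟨κ, hκ0, hκt, hκ⟩ := lsc_avg d hd
  rw [← ENNReal.mul_le_mul_iff_right hκ0 hκt]
  rw [lsc_TV_eq hw hκ hκt]
  calc ∫⁻ e in ball (0 : EuclideanSpace ℝ (Fin d)) 1, ∫⁻ x, ‖lineDeriv ℝ w x e‖ₑ
      ≤ ∫⁻ e in ball (0 : EuclideanSpace ℝ (Fin d)) 1,
          liminf (fun n => ∫⁻ x, ‖lineDeriv ℝ (v n) x e‖ₑ) atTop :=
        lintegral_mono fun e => lsc_dir hv hw hlim e
    _ ≤ liminf (fun n => ∫⁻ e in ball (0 : EuclideanSpace ℝ (Fin d)) 1,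
          ∫⁻ x, ‖lineDeriv ℝ (v n) x e‖ₑ) atTop := by
        apply lintegral_liminf_le
        intro n
        have h1 : ∀ e : EuclideanSpace ℝ (Fin d), ∫⁻ x, ‖lineDeriv ℝ (v n) x e‖ₑ =
            ∫⁻ x, ‖fderiv ℝ (v n) x e‖ₑ := by
          intro e
          apply lintegral_congr_ae
          filter_upwards [(hv n).ae_differentiableAt (μ := volume)] with x hx
          rw [hx.lineDeriv_eq_fderiv]
        simp only [h1]
        exact ((lsc_meas (v n)).comp measurable_swap).lintegral_prod_right'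
    _ ≤ liminf (fun _ : ℕ => κ * B) atTop := by
        refine liminf_le_liminf (Eventually.of_forall fun n => ?_)
        rw [← lsc_TV_eq (hv n) hκ hκt]
        gcongr
        exact hB n
    _ = κ * B := by simp

end Vale.Agent.P137
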