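import Vale.Agent.P137.BVDefs
import Vale.Agent.P137.Lsc

/-! Lipschitz functions. -/

open MeasureTheory Metric Set Filter Topology
open scoped RealInnerProductSpace ENNReal

namespace Vale.Agent.P137

/-- integration by parts for a Lipschitz function against a test field -/
theorem lipschitz_div_le {d : ℕ} {u : EuclideanSpace ℝ (Fin d) → ℝ} {K : NNReal}
    (hu : LipschitzWith K u) {W : ℝ} (hW : 0 ≤ W) (hTV : TV u ≤ ENNReal.ofReal W) : VarLe u W := by
  intro φ hφ hφc hφ1
  have hdφ : Differentiable ℝ φ := hφ.differentiable (by simp)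
  set c : Fin d → EuclideanSpace ℝ (Fin d) → ℝ := fun i x => (φ x) i with hc
  set e : Fin d → EuclideanSpace ℝ (Fin d) := fun i => EuclideanSpace.single i 1 with he
  have hci : ∀ i, ContDiff ℝ (⊤ : ℕ∞) (c i) := fun i =>
    (EuclideanSpace.proj i : EuclideanSpace ℝ (Fin d) →L[ℝ] ℝ).contDiff.comp hφ
  have hcc : ∀ i, HasCompactSupport (c i) := fun i =>
    hφc.comp_left (g := fun y : EuclideanSpace ℝ (Fin d) => y i) rfl
  have hcd : ∀ i x, fderiv ℝ (c i) x (e i) = (fderiv ℝ φ x (e i)) i := by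
    intro i x
    have h1 : HasFDerivAt (c i) ((EuclideanSpace.proj i : EuclideanSpace ℝ (Fin d) →L[ℝ] ℝ).comp
        (fderiv ℝ φ x)) x :=
      (EuclideanSpace.proj i : EuclideanSpace ℝ (Fin d) →L[ℝ] ℝ).hasFDerivAt.comp x
        (hdφ x).hasFDerivAt
    rw [h1.fderiv]
    rfl
  have hcl : ∀ i, ∃ C, LipschitzWith C (c i) := fun i =>
    (hci i).lipschitzWith_of_hasCompactSupport (hcc i) (by simp)
  have hibp : ∀ i, ∫ x, lineDeriv ℝ u x (e i) * c i x =
      -∫ x, u x * (fderiv ℝ φ x (e i)) i := by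
    intro i
    obtain ⟨C, hC⟩ := hcl i
    rw [hu.integral_lineDeriv_mul_eq hC (hcc i) (e i), ← integral_neg]
    congr 1
    funext x
    have hd : DifferentiableAt ℝ (c i) x := (hci i).differentiable (by simp) x
    rw [hd.lineDeriv_eq_fderiv, map_neg, hcd i x]
    ring
  have hint1 : ∀ i ∈ (Finset.univ : Finset (Fin d)),
      Integrable (fun x => u x * (fderiv ℝ φ x (e i)) i) := by
    intro i _
    have h1 : Continuous (fun x => (fderiv ℝ φ x (e i)) i) := by
      have h2 : Continuous (fun x => fderiv ℝ (c i) x) := (hci i).continuous_fderiv (by simp)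
      have h3 : Continuous (fun x => fderiv ℝ (c i) x (e i)) := h2.clm_apply continuous_const
      simpa only [hcd] using h3
    have h2 : HasCompactSupport (fun x => (fderiv ℝ φ x (e i)) i) := by
      have h3 : HasCompactSupport (fderiv ℝ φ) := hφc.fderiv ℝ
      exact h3.comp_left (g := fun L : EuclideanSpace ℝ (Fin d) →L[ℝ] EuclideanSpace ℝ (Fin d) =>
        (L (e i)) i) (by simp)
    exact (hu.continuous.mul h1).integrable_of_hasCompactSupport (h2.mul_left)
  have hint2 : ∀ i ∈ (Finset.univ : Finset (Fin d)),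
      Integrable (fun x => lineDeriv ℝ u x (e i) * c i x) := by
    intro i _
    apply Integrable.bdd_mul (c := K * ‖e i‖)
      ((hci i).continuous.integrable_of_hasCompactSupport (hcc i))
    · exact (measurable_lineDeriv hu.continuous).aestronglyMeasurable
    · exact Eventually.of_forall fun x => norm_lineDeriv_le_of_lipschitz ℝ hu
  have hmain : ∫ x, u x * ∑ i, (fderiv ℝ φ x (e i)) i =
      ∫ x, -(∑ i, lineDeriv ℝ u x (e i) * c i x) := by
    rw [integral_neg, integral_finsetSum _ hint2]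
    simp only [hibp, Finset.sum_neg_distrib, neg_neg]
    rw [← integral_finsetSum _ hint1]
    simp only [Finset.mul_sum]
  have hae : ∀ᵐ x, ‖-(∑ i, lineDeriv ℝ u x (e i) * c i x)‖ₑ ≤ ‖fderiv ℝ u x‖ₑ := by
    filter_upwards [hu.ae_differentiableAt (μ := volume)] with x hx
    have h1 : ∑ i, lineDeriv ℝ u x (e i) * c i x = fderiv ℝ u x (φ x) := by
      have h2 : φ x = ∑ i, (φ x) i • e i := by
        ext j
        simp [he, Finset.sum_apply, Pi.single_apply]
      conv_rhs => rw [h2]
      rw [map_sum]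
      refine Finset.sum_congr rfl fun i _ => ?_
      rw [hx.lineDeriv_eq_fderiv, map_smul, smul_eq_mul, mul_comm]
    rw [h1, ← ofReal_norm, ← ofReal_norm, norm_neg]
    apply ENNReal.ofReal_le_ofReal
    calc ‖fderiv ℝ u x (φ x)‖ ≤ ‖fderiv ℝ u x‖ * ‖φ x‖ := ContinuousLinearMap.le_opNorm _ _
      _ ≤ ‖fderiv ℝ u x‖ * 1 := mul_le_mul_of_nonneg_left (hφ1 x) (norm_nonneg _)
      _ = ‖fderiv ℝ u x‖ := mul_one _
  have hfin : ‖∫ x, u x * ∑ i, (fderiv ℝ φ x (e i)) i‖ₑ ≤ ENNReal.ofReal W := by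
    rw [hmain]
    refine (enorm_integral_le_lintegral_enorm _).trans ?_
    exact (lintegral_mono_ae hae).trans hTV
  rw [← ofReal_norm, ENNReal.ofReal_le_ofReal_iff hW] at hfin
  exact (le_abs_self _).trans hfin

end Vale.Agent.P137
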