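import Vale.Agent.P137.BVDefs

/-! Limits. -/

open MeasureTheory Metric Set Filter Topology
open scoped RealInnerProductSpace ENNReal

namespace Vale.Agent.P137

/-- `VarLe` passes to increasing limits in `L¹_loc` -/
theorem VarLe_of_tendsto {d : ℕ} {u : ℕ → EuclideanSpace ℝ (Fin d) → ℝ}
    {v : EuclideanSpace ℝ (Fin d) → ℝ} {W : ℝ} (hu : ∀ n, VarLe (u n) W)
    (hm : ∀ n, Continuous (u n)) (hv : LocallyIntegrable v) (h0 : ∀ n x, 0 ≤ u n x)
    (hle : ∀ n, ∀ᵐ x, u n x ≤ v x) (hlim : ∀ᵐ x, Tendsto (fun n => u n x) atTop (𝓝 (v x))) :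
    VarLe v W := by
  intro φ hφ hc h1
  have hGc : Continuous (fun x => ∑ i, (fderiv ℝ φ x (EuclideanSpace.single i 1)) i) := by
    have hd : Continuous (fun x => fderiv ℝ φ x) := hφ.continuous_fderiv (by simp)
    refine continuous_finsetSum _ fun i _ => ?_
    have h2 : Continuous (fun x => fderiv ℝ φ x (EuclideanSpace.single i (1 : ℝ))) :=
      hd.clm_apply continuous_const
    exact (EuclideanSpace.proj (𝕜 := ℝ) i).continuous.comp h2
  have hGs : HasCompactSupport
      (fun x => ∑ i, (fderiv ℝ φ x (EuclideanSpace.single i 1)) i) := by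
    refine (hc.fderiv (𝕜 := ℝ)).mono' ?_
    intro x hx
    by_contra h3
    apply hx
    have h4 : fderiv ℝ φ x = 0 := image_eq_zero_of_notMem_tsupport h3
    simp [h4]
  have hint : Integrable
      (fun x => (∑ i, (fderiv ℝ φ x (EuclideanSpace.single i 1)) i) • v x) :=
    hv.integrable_smul_left_of_hasCompactSupport hGc hGs
  have hlimI : Tendsto
      (fun n => ∫ x, u n x * ∑ i, (fderiv ℝ φ x (EuclideanSpace.single i 1)) i) atTop
      (𝓝 (∫ x, v x * ∑ i, (fderiv ℝ φ x (EuclideanSpace.single i 1)) i)) := by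
    refine tendsto_integral_of_dominated_convergence
      (fun x => ‖(∑ i, (fderiv ℝ φ x (EuclideanSpace.single i 1)) i) • v x‖) ?_ hint.norm ?_ ?_
    · intro n
      exact ((hm n).mul hGc).aestronglyMeasurable
    · intro n
      filter_upwards [hle n] with x hx
      rw [norm_mul, smul_eq_mul, norm_mul, mul_comm]
      refine mul_le_mul_of_nonneg_left ?_ (norm_nonneg _)
      rw [Real.norm_of_nonneg (h0 n x), Real.norm_of_nonneg ((h0 n x).trans hx)]
      exact hx
    · filter_upwards [hlim] with x hx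
      exact hx.mul_const _
  exact le_of_tendsto' hlimI fun n => hu n φ hφ hc h1

end Vale.Agent.P137
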