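import Vale.Agent.P137.Defs

/-! Total variation of an integrable function, by duality. -/

open MeasureTheory Metric Set Filter Topology
open scoped RealInnerProductSpace ENNReal

namespace Vale.Agent.P137

/-- the distributional gradient of `f` has total variation at most `V`: `∫ f div φ ≤ V` for all
smooth compactly supported vector fields with `‖φ‖ ≤ 1` -/
def VarLe {d : ℕ} (f : EuclideanSpace ℝ (Fin d) → ℝ) (V : ℝ) : Prop :=
  ∀ φ : EuclideanSpace ℝ (Fin d) → EuclideanSpace ℝ (Fin d), ContDiff ℝ (⊤ : ℕ∞) φ →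
    HasCompactSupport φ → (∀ x, ‖φ x‖ ≤ 1) →
    ∫ x, f x * ∑ i, (fderiv ℝ φ x (EuclideanSpace.single i 1)) i ≤ V

end Vale.Agent.P137
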