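import Vale.Agent.P137.BVB2
import Vale.Agent.P137.BVC1
import Vale.Agent.P137.BVC2

/-! The uncentered maximal function of a function of bounded variation. -/

open MeasureTheory Metric Set Filter Topology
open scoped RealInnerProductSpace ENNReal

namespace Vale.Agent.P137

theorem BVmain (d : ℕ) (hd : 2 ≤ d) : ∃ C : ℝ, 0 ≤ C ∧
    ∀ (f : EuclideanSpace ℝ (Fin d) → ℝ) (V : ℝ), Integrable f → VarLe f V →
      (∀ᵐ x, uM f x ≠ ⊤) ∧ LocallyIntegrable (fun x => (uM f x).toReal) ∧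
      VarLe (fun x => (uM f x).toReal) (C * V) := by
  obtain ⟨C, hC, hTV⟩ := TV_bv d hd
  refine ⟨C, hC, fun f V hf hV => ?_⟩
  have hV0 : 0 ≤ V := by
    have := hV (fun _ => 0) contDiff_const HasCompactSupport.zero (by simp)
    simpa using this
  have hloc : ∀ R : ℝ, ∫⁻ x in closedBall 0 R, uM f x < ⊤ :=
    uM_lintegral_lt_top_bv d hd f V hf hV
  have hm : Measurable (uM f) := measurable_uM
  have hae : ∀ᵐ x, uM f x ≠ ⊤ := by
    have h1 : ∀ n : ℕ, ∀ᵐ x, x ∈ closedBall (0 : EuclideanSpace ℝ (Fin d)) n → uM f x < ⊤ := by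
      intro n
      have := ae_lt_top hm (hloc n).ne
      rwa [ae_restrict_iff' measurableSet_closedBall] at this
    filter_upwards [ae_all_iff.mpr h1] with x hx
    obtain ⟨n, hn⟩ := exists_nat_ge ‖x‖
    exact (hx n (by simpa using hn)).ne
  have hLI : LocallyIntegrable (fun x => (uM f x).toReal) := by
    rw [locallyIntegrable_iff]
    intro K hK
    obtain ⟨R, hR⟩ := hK.isBounded.subset_closedBall 0
    have : IntegrableOn (fun x => (uM f x).toReal) (closedBall 0 R) :=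
      integrable_toReal_of_lintegral_ne_top hm.aemeasurable (hloc R).ne
    exact this.mono_set hR
  refine ⟨hae, hLI, ?_⟩
  have hfa : Integrable (fun y => |f y|) := hf.abs
  have hf0 : ∀ y, 0 ≤ |f y| := fun y => abs_nonneg _
  have hpos : ∀ n : ℕ, (0 : ℝ) < (2 : ℝ) ^ (-(n : ℤ)) := fun n => by positivity
  have hmono : ∀ x, Monotone (fun n : ℕ => Mge (fun y => |f y|) ((2 : ℝ) ^ (-(n : ℤ))) x) := by
    intro x n m hnm
    exact Mge_anti hfa hf0 (hpos m) (zpow_le_zpow_right₀ one_le_two (by omega)) x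
  have hkey : ∀ x, uM f x ≠ ⊤ → (∀ n : ℕ, Mge (fun y => |f y|) ((2 : ℝ) ^ (-(n : ℤ))) x ≤
      (uM f x).toReal) ∧ Tendsto (fun n : ℕ => Mge (fun y => |f y|) ((2 : ℝ) ^ (-(n : ℤ))) x)
        atTop (𝓝 (uM f x).toReal) := by
    intro x hx
    have hsup := uM_eq_iSup (by omega) hf x
    have h1 : Tendsto (fun n : ℕ => ENNReal.ofReal (Mge (fun y => |f y|)
        ((2 : ℝ) ^ (-(n : ℤ))) x)) atTop (𝓝 (uM f x)) := by
      rw [hsup]
      exact tendsto_atTop_iSup fun n m hnm => ENNReal.ofReal_le_ofReal (hmono x hnm)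
    have h2 := (ENNReal.tendsto_toReal hx).comp h1
    have h3 : ∀ n : ℕ, (ENNReal.ofReal (Mge (fun y => |f y|) ((2 : ℝ) ^ (-(n : ℤ))) x)).toReal =
        Mge (fun y => |f y|) ((2 : ℝ) ^ (-(n : ℤ))) x :=
      fun n => ENNReal.toReal_ofReal (Mge_nonneg hfa hf0 (hpos n) x)
    have h4 : Tendsto (fun n : ℕ => Mge (fun y => |f y|) ((2 : ℝ) ^ (-(n : ℤ))) x)
        atTop (𝓝 (uM f x).toReal) := by
      refine h2.congr fun n => ?_
      exact h3 n
    exact ⟨fun n => (hmono x).ge_of_tendsto h4 n, h4⟩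
  refine VarLe_of_tendsto (u := fun n : ℕ => Mge (fun y => |f y|) ((2 : ℝ) ^ (-(n : ℤ))))
    (fun n => ?_) (fun n => ?_) hLI (fun n x => Mge_nonneg hfa hf0 (hpos n) x) (fun n => ?_) ?_
  · exact lipschitz_div_le (Mge_lipschitz hfa hf0 (hpos n)) (mul_nonneg hC hV0) (hTV f V hf hV n)
  · exact (Mge_lipschitz hfa hf0 (hpos n)).continuous
  · filter_upwards [hae] with x hx using (hkey x hx).1 n
  · filter_upwards [hae] with x hx using (hkey x hx).2

end Vale.Agent.P137
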