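import Vale.Agent.P137.Basic

/-! Adding one ball: the elementary perimeter type inequality. -/

open MeasureTheory Metric Set Filter Topology
open scoped RealInnerProductSpace ENNReal

namespace Vale.Agent.P137

/-- the radial vector field -/
noncomputable def bsX {d : ℕ} (c : EuclideanSpace ℝ (Fin d)) (r : ℝ)
    (y : EuclideanSpace ℝ (Fin d)) : EuclideanSpace ℝ (Fin d) :=
  (max r ‖y - c‖)⁻¹ • (y - c)

theorem bsX_norm_le {d : ℕ} (c : EuclideanSpace ℝ (Fin d)) {r : ℝ} (hr : 0 < r)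
    (y : EuclideanSpace ℝ (Fin d)) : ‖bsX c r y‖ ≤ 1 := by
  unfold bsX
  have h1 : 0 < max r ‖y - c‖ := lt_max_of_lt_left hr
  rw [norm_smul, norm_inv, Real.norm_of_nonneg h1.le, inv_mul_le_iff₀ h1, mul_one]
  exact le_max_right _ _

theorem bsX_lip {d : ℕ} (c : EuclideanSpace ℝ (Fin d)) {r : ℝ} (hr : 0 < r)
    (y z : EuclideanSpace ℝ (Fin d)) : r * ‖bsX c r y - bsX c r z‖ ≤ ‖y - z‖ := by
  obtain ⟨α, hα⟩ : ∃ α, α = max r ‖y - c‖ := ⟨_, rfl⟩
  obtain ⟨β, hβ⟩ : ∃ β, β = max r ‖z - c‖ := ⟨_, rfl⟩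
  have hα0 : r ≤ α := by rw [hα]; exact le_max_left _ _
  have hβ0 : r ≤ β := by rw [hβ]; exact le_max_left _ _
  obtain ⟨X, hX⟩ : ∃ X, X = bsX c r y := ⟨_, rfl⟩
  obtain ⟨Z, hZ⟩ : ∃ Z, Z = bsX c r z := ⟨_, rfl⟩
  have hX1 : ‖X‖ ≤ 1 := by rw [hX]; exact bsX_norm_le c hr y
  have hZ1 : ‖Z‖ ≤ 1 := by rw [hZ]; exact bsX_norm_le c hr z
  have hy : y - c = α • X := by
    rw [hX]; unfold bsX; rw [← hα, smul_smul, mul_inv_cancel₀ (by linarith), one_smul]
  have hz : z - c = β • Z := by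
    rw [hZ]; unfold bsX; rw [← hβ, smul_smul, mul_inv_cancel₀ (by linarith), one_smul]
  have hXα : (α - r) * (‖X‖ ^ 2 - 1) = 0 := by
    rcases le_total ‖y - c‖ r with h | h
    · rw [hα, max_eq_left h, sub_self, zero_mul]
    · have h1 : α = ‖y - c‖ := by rw [hα, max_eq_right h]
      have h2 : ‖y - c‖ = α * ‖X‖ := by
        rw [hy, norm_smul, Real.norm_of_nonneg (by linarith)]
      have h3 : ‖X‖ = 1 := by
        have h4 : α * ‖X‖ = α * 1 := by rw [mul_one, ← h2, h1]
        exact mul_left_cancel₀ (by linarith) h4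
      rw [h3]; ring
  have hZβ : (β - r) * (‖Z‖ ^ 2 - 1) = 0 := by
    rcases le_total ‖z - c‖ r with h | h
    · rw [hβ, max_eq_left h, sub_self, zero_mul]
    · have h1 : β = ‖z - c‖ := by rw [hβ, max_eq_right h]
      have h2 : ‖z - c‖ = β * ‖Z‖ := by
        rw [hz, norm_smul, Real.norm_of_nonneg (by linarith)]
      have h3 : ‖Z‖ = 1 := by
        have h4 : β * ‖Z‖ = β * 1 := by rw [mul_one, ← h2, h1]
        exact mul_left_cancel₀ (by linarith) h4
      rw [h3]; ring
  have hyz : y - z = α • X - β • Z := by rw [← hy, ← hz]; abel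
  have hXZ : ⟪X, Z⟫ ≤ 1 := by
    have := real_inner_le_norm X Z
    have h5 : ‖X‖ * ‖Z‖ ≤ 1 := by
      have := mul_le_mul hX1 hZ1 (norm_nonneg _) zero_le_one
      linarith
    linarith
  have hin : ⟪y - z, X - Z⟫ = α * ‖X‖ ^ 2 + β * ‖Z‖ ^ 2 - (α + β) * ⟪X, Z⟫ := by
    rw [hyz, inner_sub_left, inner_sub_right, inner_sub_right, inner_smul_left, inner_smul_left,
      inner_smul_left, inner_smul_left, real_inner_self_eq_norm_sq, real_inner_self_eq_norm_sq,
      real_inner_comm X Z]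
    simp only [conj_trivial]
    ring
  have hn : ‖X - Z‖ ^ 2 = ‖X‖ ^ 2 - 2 * ⟪X, Z⟫ + ‖Z‖ ^ 2 := norm_sub_sq_real X Z
  have h6 : r * ‖X - Z‖ ^ 2 ≤ ‖y - z‖ * ‖X - Z‖ := by
    have h7 := real_inner_le_norm (y - z) (X - Z)
    nlinarith [mul_nonneg (sub_nonneg.2 hα0) (sub_nonneg.2 hXZ),
      mul_nonneg (sub_nonneg.2 hβ0) (sub_nonneg.2 hXZ)]
  rw [← hX, ← hZ]
  rcases (norm_nonneg (X - Z)).eq_or_lt with h | h
  · rw [← h, mul_zero]; exact norm_nonneg _
  · have h8 : (r * ‖X - Z‖) * ‖X - Z‖ ≤ ‖y - z‖ * ‖X - Z‖ := by linarith [h6, sq (‖X - Z‖)]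
    exact le_of_mul_le_mul_right h8 h

theorem bsX_coord_lip {d : ℕ} (c : EuclideanSpace ℝ (Fin d)) {r : ℝ} (hr : 0 < r) (i : Fin d) :
    LipschitzWith ⟨r⁻¹, (inv_pos.2 hr).le⟩ (fun y => bsX c r y i) := by
  refine LipschitzWith.of_dist_le_mul fun y z => ?_
  have h1 := bsX_lip c hr y z
  have h2 : ‖(bsX c r y - bsX c r z) i‖ ≤ ‖bsX c r y - bsX c r z‖ := PiLp.norm_apply_le _ i
  rw [PiLp.sub_apply] at h2
  rw [Real.dist_eq, dist_eq_norm, ← Real.norm_eq_abs]
  refine h2.trans ?_
  show _ ≤ r⁻¹ * ‖y - z‖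
  rw [le_inv_mul_iff₀ hr]
  exact h1

theorem hcap_anti {d : ℕ} (c : EuclideanSpace ℝ (Fin d)) {r a : ℝ} (hr : 0 < r) (ha : 0 ≤ a)
    {y z : EuclideanSpace ℝ (Fin d)} (h : dist y c ≤ dist z c) : hcap c r a z ≤ hcap c r a y := by
  unfold hcap
  have hdr : 0 ≤ (d : ℝ) / r := by positivity
  refine mul_le_mul_of_nonneg_left ?_ ha
  refine max_le_max le_rfl ?_
  have h1 : max 0 (dist y c - r) ≤ max 0 (dist z c - r) := max_le_max le_rfl (by linarith)
  have := mul_le_mul_of_nonneg_left h1 hdr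
  linarith

theorem hcap_nonneg {d : ℕ} (c : EuclideanSpace ℝ (Fin d)) {r a : ℝ} (ha : 0 ≤ a)
    (y : EuclideanSpace ℝ (Fin d)) : 0 ≤ hcap c r a y := by
  unfold hcap
  exact mul_nonneg ha (le_max_left _ _)

theorem hcap_lip {d : ℕ} (c : EuclideanSpace ℝ (Fin d)) {r a : ℝ} (hr : 0 < r) (ha : 0 ≤ a) :
    LipschitzWith ⟨a * (d / r), by positivity⟩ (hcap c r a) := by
  have hdr : 0 ≤ (d : ℝ) / r := by positivity
  refine LipschitzWith.of_dist_le_mul fun y z => ?_
  show _ ≤ a * (d / r) * dist y z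
  rw [Real.dist_eq]
  unfold hcap
  rw [← mul_sub, abs_mul, abs_of_nonneg ha, mul_assoc]
  refine mul_le_mul_of_nonneg_left ?_ ha
  have h1 := abs_max_sub_max_le_abs (1 - (d : ℝ) / r * max 0 (dist y c - r))
    (1 - (d : ℝ) / r * max 0 (dist z c - r)) 0
  rw [max_comm _ (0 : ℝ), max_comm _ (0 : ℝ)] at h1
  refine h1.trans ?_
  have h2 : 1 - (d : ℝ) / r * max 0 (dist y c - r) - (1 - (d : ℝ) / r * max 0 (dist z c - r)) =
      (d : ℝ) / r * (max 0 (dist z c - r) - max 0 (dist y c - r)) := by ring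
  rw [h2, abs_mul, abs_of_nonneg hdr]
  refine mul_le_mul_of_nonneg_left ?_ hdr
  have h3 := abs_max_sub_max_le_abs (dist z c - r) (dist y c - r) 0
  rw [max_comm _ (0 : ℝ), max_comm _ (0 : ℝ)] at h3
  refine h3.trans ?_
  have h4 : dist z c - r - (dist y c - r) = dist z c - dist y c := by ring
  rw [h4, dist_comm y z]
  exact abs_dist_sub_le z y c

theorem hcap_supp {d : ℕ} (hd : 1 ≤ d) (c : EuclideanSpace ℝ (Fin d)) {r a : ℝ} (hr : 0 < r)
    {y : EuclideanSpace ℝ (Fin d)} (hy : 2 * r ≤ dist y c) : hcap c r a y = 0 := by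
  unfold hcap
  have hd' : (1 : ℝ) ≤ d := by exact_mod_cast hd
  have h1 : max 0 (dist y c - r) = dist y c - r := max_eq_right (by linarith)
  rw [h1]
  have h2 : 1 ≤ (d : ℝ) / r * (dist y c - r) := by
    have h3 : (1 : ℝ) = 1 / r * r := by field_simp
    have h4 : 1 / r ≤ (d : ℝ) / r := div_le_div_of_nonneg_right hd' hr.le
    have h5 : 1 / r * r ≤ (d : ℝ) / r * (dist y c - r) :=
      mul_le_mul h4 (by linarith) hr.le (by positivity)
    linarith
  rw [max_eq_left (by linarith), mul_zero]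

/-- comparison of directional derivatives -/
theorem fderiv_le_of_ev {E : Type*} [NormedAddCommGroup E] [NormedSpace ℝ E] {h : E → ℝ} {x : E}
    (hx : DifferentiableAt ℝ h x) (G Y : E)
    (hev : ∀ᶠ t : ℝ in 𝓝[>] 0, h (x + t • G) ≤ h (x + t • Y)) :
    fderiv ℝ h x G ≤ fderiv ℝ h x Y := by
  have key : ∀ Z : E, HasDerivAt (fun t : ℝ => h (x + t • Z)) (fderiv ℝ h x Z) 0 := by
    intro Z
    have h1 : HasDerivAt (fun t : ℝ => x + t • Z) Z 0 := by
      have := ((hasDerivAt_id (0 : ℝ)).smul_const Z).const_add x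
      simpa using this
    have h2 : HasFDerivAt h (fderiv ℝ h x) (x + (0 : ℝ) • Z) := by
      rw [zero_smul, add_zero]; exact hx.hasFDerivAt
    exact h2.comp_hasDerivAt (0 : ℝ) h1
  have h3 := ((key Y).sub (key G)).tendsto_slope_zero_right
  have h4 : 0 ≤ fderiv ℝ h x Y - fderiv ℝ h x G := by
    refine ge_of_tendsto h3 ?_
    filter_upwards [hev, self_mem_nhdsWithin] with t ht ht0
    have ht0' : (0 : ℝ) < t := ht0
    simp only [Pi.sub_apply, zero_add, zero_smul, add_zero, smul_eq_mul]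
    refine mul_nonneg (inv_pos.2 ht0').le ?_
    linarith
  linarith

theorem hcap_fderiv {d : ℕ} (c : EuclideanSpace ℝ (Fin d)) {r a : ℝ} (hr : 0 < r) (ha : 0 ≤ a)
    {x : EuclideanSpace ℝ (Fin d)} (hx : DifferentiableAt ℝ (hcap c r a) x) :
    ‖fderiv ℝ (hcap c r a) x‖ ≤ -(fderiv ℝ (hcap c r a) x (bsX c r x)) := by
  rcases lt_or_ge (dist x c) r with h | h
  · have h1 : hcap c r a =ᶠ[𝓝 x] fun _ => a := by
      have h2 : ∀ᶠ y in 𝓝 x, dist y c < r :=
        (continuous_id.dist continuous_const).continuousAt.eventually_lt_const h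
      filter_upwards [h2] with y hy
      unfold hcap
      rw [max_eq_left (by linarith : dist y c - r ≤ 0)]
      simp
    rw [h1.fderiv_eq]
    simp
  · obtain ⟨X, hX⟩ : ∃ X, X = bsX c r x := ⟨_, rfl⟩
    obtain ⟨R, hR⟩ : ∃ R, R = dist x c := ⟨_, rfl⟩
    have hR0 : 0 < R := by rw [hR]; linarith
    have hxR : ‖x - c‖ = R := by rw [hR, dist_eq_norm]
    have hXe : x - c = R • X := by
      rw [hX]; unfold bsX
      rw [hxR, max_eq_right (by rw [hR]; exact h), smul_smul, mul_inv_cancel₀ hR0.ne', one_smul]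
    have hX1 : ‖X‖ = 1 := by
      have h2 : ‖x - c‖ = R * ‖X‖ := by rw [hXe, norm_smul, Real.norm_of_nonneg hR0.le]
      rw [hxR] at h2
      have h4 : R * ‖X‖ = R * 1 := by rw [mul_one, ← h2]
      exact mul_left_cancel₀ hR0.ne' h4
    rw [← hX]
    have hcomp : ∀ G : EuclideanSpace ℝ (Fin d), ‖G‖ ≤ 1 →
        fderiv ℝ (hcap c r a) x G ≤ fderiv ℝ (hcap c r a) x (-X) := by
      intro G hG
      refine fderiv_le_of_ev hx G (-X) ?_
      have h5 : ∀ᶠ t : ℝ in 𝓝[>] 0, t < R := by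
        have : ∀ᶠ t : ℝ in 𝓝 0, t < R := continuous_id.continuousAt.eventually_lt_const hR0
        exact nhdsWithin_le_nhds this
      filter_upwards [h5, self_mem_nhdsWithin] with t ht ht0
      have ht0' : (0 : ℝ) < t := ht0
      refine hcap_anti c hr ha ?_
      rw [dist_eq_norm, dist_eq_norm]
      have h6 : x + t • -X - c = (R - t) • X := by
        rw [sub_smul, ← hXe, smul_neg]; abel
      rw [h6, norm_smul, hX1, mul_one, Real.norm_of_nonneg (by linarith)]
      have h7 : ‖x - c‖ ≤ ‖x + t • G - c‖ + ‖t • G‖ := by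
        have : x - c = (x + t • G - c) - t • G := by abel
        calc ‖x - c‖ = ‖(x + t • G - c) - t • G‖ := by rw [← this]
          _ ≤ _ := norm_sub_le _ _
      rw [norm_smul, Real.norm_of_nonneg ht0'.le, hxR] at h7
      have h8 : t * ‖G‖ ≤ t * 1 := mul_le_mul_of_nonneg_left hG ht0'.le
      linarith
    have hM0 : 0 ≤ fderiv ℝ (hcap c r a) x (-X) := by
      have := hcomp 0 (by simp)
      simpa using this
    have hneg : -(fderiv ℝ (hcap c r a) x X) = fderiv ℝ (hcap c r a) x (-X) := by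
      rw [map_neg]
    rw [hneg]
    refine ContinuousLinearMap.opNorm_le_bound _ hM0 ?_
    intro v
    rcases eq_or_ne v 0 with hv | hv
    · rw [hv]; simp
    · have hv0 : 0 < ‖v‖ := norm_pos_iff.2 hv
      have h9 := hcomp (‖v‖⁻¹ • v) (by
        rw [norm_smul, norm_inv, norm_norm, inv_mul_cancel₀ hv0.ne'])
      have h10 := hcomp (-(‖v‖⁻¹ • v)) (by
        rw [norm_neg, norm_smul, norm_inv, norm_norm, inv_mul_cancel₀ hv0.ne'])
      rw [map_neg] at h10
      rw [map_smul, smul_eq_mul] at h9 h10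
      rw [Real.norm_eq_abs, abs_le]
      have h11 : fderiv ℝ (hcap c r a) x v = ‖v‖ * (‖v‖⁻¹ * fderiv ℝ (hcap c r a) x v) := by
        rw [← mul_assoc, mul_inv_cancel₀ hv0.ne', one_mul]
      constructor
      · rw [h11]; nlinarith
      · rw [h11]; nlinarith

theorem ball_step_pt {d : ℕ} {u : EuclideanSpace ℝ (Fin d) → ℝ}
    (c : EuclideanSpace ℝ (Fin d)) {r a : ℝ} (hr : 0 < r) (ha : 0 ≤ a)
    {x : EuclideanSpace ℝ (Fin d)} (hux : DifferentiableAt ℝ u x) (hucx : Continuous u)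
    (hhx : DifferentiableAt ℝ (hcap c r a) x)
    (hwx : DifferentiableAt ℝ (fun y => max (u y) (hcap c r a y) - u y) x) :
    ‖fderiv ℝ (fun y => max (u y) (hcap c r a y)) x‖ ≤ ‖fderiv ℝ u x‖ +
      -(fderiv ℝ (fun y => max (u y) (hcap c r a y) - u y) x (bsX c r x)) := by
  have hmw : (fun y => max (u y) (hcap c r a y)) =
      fun y => u y + (max (u y) (hcap c r a y) - u y) := by
    funext y; ring
  have hm : fderiv ℝ (fun y => max (u y) (hcap c r a y)) x = fderiv ℝ u x +
      fderiv ℝ (fun y => max (u y) (hcap c r a y) - u y) x := by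
    conv_lhs => rw [hmw]
    exact fderiv_fun_add hux hwx
  rcases le_or_gt (hcap c r a x) (u x) with h | h
  · have hw0 : fderiv ℝ (fun y => max (u y) (hcap c r a y) - u y) x = 0 := by
      refine IsLocalMin.fderiv_eq_zero ?_
      refine Filter.Eventually.of_forall fun y => ?_
      simp only
      rw [max_eq_left h, sub_self]
      exact sub_nonneg.2 (le_max_left _ _)
    rw [hm, hw0]
    simp
  · have hev : (fun y => max (u y) (hcap c r a y) - u y) =ᶠ[𝓝 x] fun y => hcap c r a y - u y := by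
      have hch : Continuous (hcap c r a) := (hcap_lip c hr ha).continuous
      have h2 : ∀ᶠ y in 𝓝 x, u y < hcap c r a y :=
        (isOpen_lt hucx hch).mem_nhds h
      filter_upwards [h2] with y hy
      rw [max_eq_right hy.le]
    have hw : fderiv ℝ (fun y => max (u y) (hcap c r a y) - u y) x =
        fderiv ℝ (hcap c r a) x - fderiv ℝ u x := by
      rw [hev.fderiv_eq]
      exact fderiv_fun_sub hhx hux
    rw [hm, hw]
    have h3 := hcap_fderiv c hr ha hhx
    have h4 : fderiv ℝ u x + (fderiv ℝ (hcap c r a) x - fderiv ℝ u x) =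
        fderiv ℝ (hcap c r a) x := by abel
    rw [h4, sub_apply]
    have h5 : |fderiv ℝ u x (bsX c r x)| ≤ ‖fderiv ℝ u x‖ := by
      have := (fderiv ℝ u x).le_opNorm (bsX c r x)
      rw [Real.norm_eq_abs] at this
      have h6 : ‖fderiv ℝ u x‖ * ‖bsX c r x‖ ≤ ‖fderiv ℝ u x‖ * 1 :=
        mul_le_mul_of_nonneg_left (bsX_norm_le c hr x) (norm_nonneg _)
      linarith
    have h7 := (abs_le.1 h5).1
    linarith

theorem integrable_fderiv_of_lip {E : Type*} [NormedAddCommGroup E] [NormedSpace ℝ E]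
    [MeasurableSpace E] [BorelSpace E] [FiniteDimensional ℝ E] (μ : Measure E)
    [μ.IsAddHaarMeasure] {w : E → ℝ} {K : NNReal}
    (hw : LipschitzWith K w) (hc : HasCompactSupport w) :
    Integrable (fderiv ℝ w) μ := by
  refine (integrable_norm_iff (measurable_fderiv ℝ w).aestronglyMeasurable).1 ?_
  have h1 : Function.support (fun x => ‖fderiv ℝ w x‖) ⊆ tsupport w := by
    intro x hx
    refine support_fderiv_subset ℝ ?_
    intro h0
    refine hx ?_
    show ‖fderiv ℝ w x‖ = 0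
    rw [h0]
    exact norm_zero
  refine (integrableOn_iff_integrable_of_support_subset h1).1 ?_
  refine Measure.integrableOn_of_bounded (M := K) hc.measure_lt_top.ne
    (measurable_fderiv ℝ w).norm.aestronglyMeasurable ?_
  refine Filter.Eventually.of_forall fun x => ?_
  rw [norm_norm]
  exact norm_fderiv_le_of_lipschitz ℝ hw

theorem apply_eq_sum {d : ℕ} (L : EuclideanSpace ℝ (Fin d) →L[ℝ] ℝ)
    (X : EuclideanSpace ℝ (Fin d)) :
    L X = ∑ i, L (EuclideanSpace.single i 1) * X i := by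
  have h1 : X = ∑ i, X i • EuclideanSpace.single i (1 : ℝ) := by
    have := (EuclideanSpace.basisFun (Fin d) ℝ).sum_repr X
    simpa using this.symm
  conv_lhs => rw [h1]
  rw [map_sum]
  refine Finset.sum_congr rfl fun i _ => ?_
  rw [map_smul, smul_eq_mul, mul_comm]

theorem ball_step_div {d : ℕ} {w : EuclideanSpace ℝ (Fin d) → ℝ} {K : NNReal}
    (hw : LipschitzWith K w) (hwc : HasCompactSupport w) (hw0 : ∀ x, 0 ≤ w x)
    (c : EuclideanSpace ℝ (Fin d)) {r : ℝ} (hr : 0 < r) :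
    Integrable (fun x => -(fderiv ℝ w x (bsX c r x))) ∧
      ∫ x, -(fderiv ℝ w x (bsX c r x)) ≤ (d / r) * ∫ x, w x := by
  have hint := integrable_fderiv_of_lip (volume : Measure (EuclideanSpace ℝ (Fin d))) hw hwc
  have hXm : ∀ i, Measurable fun x => bsX c r x i :=
    fun i => (bsX_coord_lip c hr i).continuous.measurable
  have hi : ∀ i : Fin d, Integrable
      (fun x => fderiv ℝ w x (EuclideanSpace.single i 1) * bsX c r x i) := by
    intro i
    refine Integrable.mono' hint.norm ?_ ?_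
    · exact (((measurable_fderiv_apply_const ℝ w _)).mul (hXm i)).aestronglyMeasurable
    · refine Filter.Eventually.of_forall fun x => ?_
      rw [norm_mul]
      have h1 := (fderiv ℝ w x).le_opNorm (EuclideanSpace.single i (1 : ℝ))
      rw [PiLp.norm_single, norm_one, mul_one] at h1
      have h2 : ‖bsX c r x i‖ ≤ 1 := (PiLp.norm_apply_le _ i).trans (bsX_norm_le c hr x)
      calc ‖fderiv ℝ w x (EuclideanSpace.single i 1)‖ * ‖bsX c r x i‖ ≤
          ‖fderiv ℝ w x‖ * 1 := mul_le_mul h1 h2 (norm_nonneg _) (norm_nonneg _)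
        _ = ‖fderiv ℝ w x‖ := mul_one _
  have heq : (fun x => -(fderiv ℝ w x (bsX c r x))) =
      fun x => ∑ i, -(fderiv ℝ w x (EuclideanSpace.single i 1) * bsX c r x i) := by
    funext x
    rw [apply_eq_sum, Finset.sum_neg_distrib]
  have hwint : Integrable w := hw.continuous.integrable_of_hasCompactSupport hwc
  have hi' : ∀ i : Fin d, Integrable
      (fun x => -(fderiv ℝ w x (EuclideanSpace.single i 1) * bsX c r x i)) :=
    fun i => (hi i).neg
  refine ⟨?_, ?_⟩
  · rw [heq]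
    exact integrable_finsetSum _ fun i _ => hi' i
  · rw [heq, integral_finsetSum _ fun i _ => hi' i]
    have h3 : ∀ i : Fin d, ∫ x, -(fderiv ℝ w x (EuclideanSpace.single i 1) * bsX c r x i) ≤
        r⁻¹ * ∫ x, w x := by
      intro i
      have h4 := LipschitzWith.integral_lineDeriv_mul_eq
        (μ := (volume : Measure (EuclideanSpace ℝ (Fin d)))) (bsX_coord_lip c hr i) hw hwc
        (EuclideanSpace.single i 1)
      have h5 : ∫ x, -(fderiv ℝ w x (EuclideanSpace.single i 1) * bsX c r x i) =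
          ∫ x, lineDeriv ℝ w x (-(EuclideanSpace.single i 1)) * bsX c r x i := by
        refine integral_congr_ae ?_
        filter_upwards [hw.ae_differentiableAt
          (μ := (volume : Measure (EuclideanSpace ℝ (Fin d))))] with x hx
        rw [hx.lineDeriv_eq_fderiv, map_neg, neg_mul]
      rw [h5, ← h4, ← integral_const_mul]
      have h6 : ∀ x, ‖lineDeriv ℝ (fun y => bsX c r y i) x (EuclideanSpace.single i 1) * w x‖ ≤
          r⁻¹ * w x := by
        intro x
        have h7 := norm_lineDeriv_le_of_lipschitz ℝ (x₀ := x)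
          (v := EuclideanSpace.single i (1 : ℝ)) (bsX_coord_lip c hr i)
        rw [PiLp.norm_single, norm_one, mul_one] at h7
        rw [norm_mul, Real.norm_of_nonneg (hw0 x)]
        exact mul_le_mul_of_nonneg_right h7 (hw0 x)
      have h8 : Integrable (fun x =>
          lineDeriv ℝ (fun y => bsX c r y i) x (EuclideanSpace.single i 1) * w x) := by
        refine Integrable.mono' (hwint.const_mul r⁻¹) ?_ (Filter.Eventually.of_forall h6)
        exact ((measurable_lineDeriv (bsX_coord_lip c hr i).continuous).mul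
          hw.continuous.measurable).aestronglyMeasurable
      refine integral_mono h8 (hwint.const_mul _) ?_
      intro x
      exact (le_abs_self _).trans (h6 x)
    calc ∑ i : Fin d, ∫ x, -(fderiv ℝ w x (EuclideanSpace.single i 1) * bsX c r x i) ≤
        ∑ i : Fin d, r⁻¹ * ∫ x, w x := Finset.sum_le_sum fun i _ => h3 i
      _ = (d / r) * ∫ x, w x := by
        rw [Finset.sum_const, Finset.card_univ, Fintype.card_fin, nsmul_eq_mul]
        ring

/-- `h = hcap c r a`, `w = max u h - u = (h-u)⁺` (Lipschitz, compact support),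
`X y = (1/r) * (projection of y - c on the ball (0,r))`, each coordinate is `1/r`-Lipschitz, so
`div X ≤ d/r` and `‖X‖ ≤ 1`.  a.e.: `∇(max u h) = ∇u` on `{h ≤ u}`, `= ∇h` on `{h > u}`,
`∇w = 0` on `{h ≤ u}`;  `‖∇h‖ ≤ -⟪∇h, X⟫` (compare `h(y + tG/‖G‖) ≤ h(y - tX)`, `G = ∇h y`).
On `{h > u}`: `‖∇h‖ - ‖∇u‖ ≤ -⟪∇h,X⟫ + ⟪∇u,X⟫ = -⟪∇w,X⟫` and `-∫⟪∇w,X⟫ = ∫ w div X ≤ (d/r)∫w`
by `LipschitzWith.integral_lineDeriv_mul_eq` coordinatewise. -/
theorem ball_step {d : ℕ} {u : EuclideanSpace ℝ (Fin d) → ℝ} {K : NNReal}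
    (hu : LipschitzWith K u) (hu0 : ∀ x, 0 ≤ u x) (c : EuclideanSpace ℝ (Fin d)) {r a : ℝ}
    (hr : 0 < r) (ha : 0 ≤ a) :
    TV (fun x => max (u x) (hcap c r a x)) ≤
      TV u + ENNReal.ofReal ((d / r) * ∫ x, (max (u x) (hcap c r a x) - u x)) := by
  rcases Nat.eq_zero_or_pos d with hd | hd
  · subst hd
    have : TV (fun x => max (u x) (hcap c r a x)) = 0 := by
      unfold TV
      rw [lintegral_eq_zero_iff']
      · refine Filter.Eventually.of_forall fun x => ?_
        have : fderiv ℝ (fun x => max (u x) (hcap c r a x)) x = 0 := Subsingleton.elim _ _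
        show ‖fderiv ℝ (fun x => max (u x) (hcap c r a x)) x‖ₑ = 0
        rw [this, ← ofReal_norm, norm_zero, ENNReal.ofReal_zero]
      · exact (measurable_fderiv ℝ _).enorm.aemeasurable
    rw [this]
    exact bot_le
  · have hhl := hcap_lip c hr ha
    have hml := hu.max hhl
    have hwl := hml.sub hu
    have hwl' : LipschitzWith _ (fun y => max (u y) (hcap c r a y) - u y) := hwl
    have hw0 : ∀ x, 0 ≤ (fun y => max (u y) (hcap c r a y) - u y) x :=
      fun x => sub_nonneg.2 (le_max_left _ _)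
    have hwc : HasCompactSupport (fun y => max (u y) (hcap c r a y) - u y) := by
      refine HasCompactSupport.intro (isCompact_closedBall c (2 * r)) ?_
      intro x hx
      rw [mem_closedBall, not_le] at hx
      rw [hcap_supp hd c hr hx.le, max_eq_left (hu0 x), sub_self]
    have hdiv := ball_step_div hwl' hwc hw0 c hr
    by_cases htop : TV u = ⊤
    · rw [htop]; simp
    have huint : Integrable (fderiv ℝ u) := by
      refine ⟨(measurable_fderiv ℝ u).aestronglyMeasurable, ?_⟩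
      show ∫⁻ x, ‖fderiv ℝ u x‖ₑ < ⊤
      exact lt_top_iff_ne_top.2 htop
    have hpt : ∀ᵐ x : EuclideanSpace ℝ (Fin d),
        ‖fderiv ℝ (fun y => max (u y) (hcap c r a y)) x‖ ≤ ‖fderiv ℝ u x‖ +
          -(fderiv ℝ (fun y => max (u y) (hcap c r a y) - u y) x (bsX c r x)) := by
      filter_upwards [hu.ae_differentiableAt
          (μ := (volume : Measure (EuclideanSpace ℝ (Fin d)))), hhl.ae_differentiableAt
          (μ := (volume : Measure (EuclideanSpace ℝ (Fin d)))), hwl'.ae_differentiableAt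
          (μ := (volume : Measure (EuclideanSpace ℝ (Fin d))))] with x h1 h2 h3
      exact ball_step_pt c hr ha h1 hu.continuous h2 h3
    have hmint : Integrable (fderiv ℝ (fun y => max (u y) (hcap c r a y))) := by
      refine Integrable.mono' (huint.norm.add hdiv.1) (measurable_fderiv ℝ _).aestronglyMeasurable
        hpt
    unfold TV
    rw [← ofReal_integral_norm_eq_lintegral_enorm hmint,
      ← ofReal_integral_norm_eq_lintegral_enorm huint, ← ENNReal.ofReal_add
        (integral_nonneg fun _ => norm_nonneg _)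
        (mul_nonneg (by positivity) (integral_nonneg hw0))]
    refine ENNReal.ofReal_le_ofReal ?_
    calc ∫ x, ‖fderiv ℝ (fun y => max (u y) (hcap c r a y)) x‖ ≤
        ∫ x, (‖fderiv ℝ u x‖ +
          -(fderiv ℝ (fun y => max (u y) (hcap c r a y) - u y) x (bsX c r x))) :=
          integral_mono_ae hmint.norm (huint.norm.add hdiv.1) hpt
      _ = (∫ x, ‖fderiv ℝ u x‖) +
          ∫ x, -(fderiv ℝ (fun y => max (u y) (hcap c r a y) - u y) x (bsX c r x)) :=
          integral_add huint.norm hdiv.1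
      _ ≤ _ := by linarith [hdiv.2]

end Vale.Agent.P137
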