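import Vale.Agent.P137.Defs

/-! Working definitions for the project P137. -/

open MeasureTheory Metric Set Filter Topology
open scoped RealInnerProductSpace ENNReal

namespace Vale.Agent.P137

/-- average over a closed ball -/
noncomputable def av {d : ℕ} (f : EuclideanSpace ℝ (Fin d) → ℝ) (c : EuclideanSpace ℝ (Fin d))
    (r : ℝ) : ℝ :=
  (volume.real (closedBall c r))⁻¹ * ∫ y in closedBall c r, f y

/-- maximal function over closed balls of radius at least `r` containing `x` -/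
noncomputable def Mge {d : ℕ} (f : EuclideanSpace ℝ (Fin d) → ℝ) (r : ℝ)
    (x : EuclideanSpace ℝ (Fin d)) : ℝ :=
  sSup {a | ∃ (c : EuclideanSpace ℝ (Fin d)) (s : ℝ), r ≤ s ∧ dist x c ≤ s ∧ a = av f c s}

/-- total variation of a Lipschitz function -/
noncomputable def TV {d : ℕ} (u : EuclideanSpace ℝ (Fin d) → ℝ) : ℝ≥0∞ :=
  ∫⁻ x, ‖fderiv ℝ u x‖ₑ

/-- the half open unit cube -/
def ucube (d : ℕ) : Set (EuclideanSpace ℝ (Fin d)) := {y | ∀ i, 0 ≤ y i ∧ y i < 1}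

/-- corners of the unit cube -/
noncomputable def cor {d : ℕ} (σ : Fin d → Fin 2) : EuclideanSpace ℝ (Fin d) :=
  WithLp.toLp 2 (fun i => ((σ i : ℕ) : ℝ))

/-- average of `g` over the cube with corner `z` and side `l` -/
noncomputable def cav {d : ℕ} {F : Type*} [NormedAddCommGroup F] [NormedSpace ℝ F]
    (g : EuclideanSpace ℝ (Fin d) → F) (z : EuclideanSpace ℝ (Fin d)) (l : ℝ) : F :=
  ∫ y in ucube d, g (z + l • y)

/-- the cancellation of `g` from the cube `(z,l)` to its children -/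
noncomputable def del {d : ℕ} (g : EuclideanSpace ℝ (Fin d) → EuclideanSpace ℝ (Fin d))
    (z : EuclideanSpace ℝ (Fin d)) (l : ℝ) : ℝ :=
  ((2 : ℝ) ^ d)⁻¹ * ∑ σ : Fin d → Fin 2, ‖cav g (z + (l / 2) • cor σ) (l / 2)‖ - ‖cav g z l‖

/-- weighted sum of the cancellations over `N` generations, starting at level `j` -/
noncomputable def tsm {d : ℕ} (g : EuclideanSpace ℝ (Fin d) → EuclideanSpace ℝ (Fin d)) (L : ℝ) :
    ℕ → ℕ → EuclideanSpace ℝ (Fin d) → ℝ
  | 0, _, _ => 0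
  | N + 1, j, z => (2 : ℝ) ^ (-(j : ℝ) / 4) * del g z (L / 2 ^ j) +
      ((2 : ℝ) ^ d)⁻¹ * ∑ σ : Fin d → Fin 2, tsm g L N (j + 1) (z + (L / 2 ^ (j + 1)) • cor σ)

/-- excess of a vector relative to the direction `e` -/
noncomputable def Exc {E : Type*} [NormedAddCommGroup E] [InnerProductSpace ℝ E] (e w : E) : ℝ :=
  ‖w‖ - ⟪w, e⟫

/-- scalar part of the kernel -/
noncomputable def kap {d : ℕ} (ρ : ℝ) (a P : EuclideanSpace ℝ (Fin d)) : ℝ :=
  ∫ s in Icc (1 / 2 : ℝ) 1, s ^ (d - 1) * (if ‖s • P - a‖ ≤ ρ then 1 else 0)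

/-- transport kernel from the ball `(c,ρ)` to the ball `(x + 2ρe, 2ρ)` -/
noncomputable def ker {d : ℕ} (e x c : EuclideanSpace ℝ (Fin d)) (ρ : ℝ)
    (z : EuclideanSpace ℝ (Fin d)) : EuclideanSpace ℝ (Fin d) :=
  ((volume.real (closedBall (0 : EuclideanSpace ℝ (Fin d)) ρ))⁻¹ *
    kap ρ ((x - c) + (2 * ρ) • e) (z - c + ((x - c) + (2 * ρ) • e))) •
      (z - c + ((x - c) + (2 * ρ) • e))

/-- centre of the unit cube -/
noncomputable def ctr0 (d : ℕ) : EuclideanSpace ℝ (Fin d) := WithLp.toLp 2 (fun _ => (1 / 2 : ℝ))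

/-- the Lipschitz cap over the ball `(c,r)` of height `a` -/
noncomputable def hcap {d : ℕ} (c : EuclideanSpace ℝ (Fin d)) (r a : ℝ)
    (y : EuclideanSpace ℝ (Fin d)) : ℝ :=
  a * max 0 (1 - (d / r) * max 0 (dist y c - r))

end Vale.Agent.P137
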