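import Vale.Agent.P137.Basic

/-! Hölder continuity of the kernel. -/

open MeasureTheory Metric Set Filter Topology
open scoped RealInnerProductSpace ENNReal

namespace Vale.Agent.P137

theorem sublevel_subset {α β γ η : ℝ} (hα : 0 < α) :
    {s : ℝ | |α * s ^ 2 + β * s + γ| ≤ η} ⊆
      Icc (-(β / (2 * α)) + √((β ^ 2 / (4 * α) - γ - η) / α))
          (-(β / (2 * α)) + √((β ^ 2 / (4 * α) - γ + η) / α)) ∪
      Icc (-(β / (2 * α)) - √((β ^ 2 / (4 * α) - γ + η) / α))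
          (-(β / (2 * α)) - √((β ^ 2 / (4 * α) - γ - η) / α)) := by
  intro s hs
  rw [mem_setOf_eq, abs_le] at hs
  set q : ℝ := s + β / (2 * α) with hq
  have hq2 : α * s ^ 2 + β * s + γ = α * q ^ 2 - (β ^ 2 / (4 * α) - γ) := by
    rw [hq]
    field_simp
    ring
  rw [hq2] at hs
  have h1 : q ^ 2 ≤ (β ^ 2 / (4 * α) - γ + η) / α := by
    rw [le_div_iff₀ hα]
    linarith [hs.2]
  have h2 : (β ^ 2 / (4 * α) - γ - η) / α ≤ q ^ 2 := by
    rw [div_le_iff₀ hα]
    linarith [hs.1]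
  have h3 : |q| ≤ √((β ^ 2 / (4 * α) - γ + η) / α) := Real.abs_le_sqrt h1
  have h4 : √((β ^ 2 / (4 * α) - γ - η) / α) ≤ |q| := by
    rw [← Real.sqrt_sq_eq_abs]
    exact Real.sqrt_le_sqrt h2
  rcases le_total 0 q with h | h
  · left
    rw [abs_of_nonneg h] at h3 h4
    constructor <;> linarith
  · right
    rw [abs_of_nonpos h] at h3 h4
    constructor <;> linarith

theorem sublevel_finite {α β γ η : ℝ} (hα : 0 < α) :
    volume {s : ℝ | |α * s ^ 2 + β * s + γ| ≤ η} ≠ ⊤ := by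
  refine ne_top_of_le_ne_top ?_ (measure_mono (sublevel_subset hα))
  refine ne_top_of_le_ne_top ?_ (measure_union_le _ _)
  simp

/-- sublevel sets of quadratic polynomials: complete the square -/
theorem sublevel_quad {α β γ η : ℝ} (hα : 0 < α) (hη : 0 ≤ η) :
    volume.real {s : ℝ | |α * s ^ 2 + β * s + γ| ≤ η} ≤ 4 * √(η / α) := by
  set δ : ℝ := β ^ 2 / (4 * α) - γ with hδ
  have hsub := sublevel_subset (β := β) (γ := γ) (η := η) hα
  rw [← hδ] at hsub
  set p : ℝ := √((δ - η) / α) with hp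
  set r : ℝ := √((δ + η) / α) with hr
  have hp0 : 0 ≤ p := Real.sqrt_nonneg _
  have hr0 : 0 ≤ r := Real.sqrt_nonneg _
  have hk0 : 0 ≤ √(η / α) := Real.sqrt_nonneg _
  have hp2 : (δ - η) / α ≤ p ^ 2 := by
    rcases le_total 0 ((δ - η) / α) with h | h
    · rw [hp, Real.sq_sqrt h]
    · exact h.trans (sq_nonneg p)
  have hk2 : √(η / α) ^ 2 = η / α := Real.sq_sqrt (by positivity)
  have hrp : r ≤ p + 2 * √(η / α) := by
    rw [hr]
    apply Real.sqrt_le_iff.mpr
    refine ⟨by positivity, ?_⟩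
    have h1 : (δ + η) / α = (δ - η) / α + 2 * (η / α) := by ring
    rw [h1]
    have h2 : 0 ≤ η / α := by positivity
    nlinarith [mul_nonneg hp0 hk0]
  have hm := measureReal_mono (μ := volume) hsub (by
    refine ne_top_of_le_ne_top ?_ (measure_union_le _ _)
    simp)
  refine hm.trans ((measureReal_union_le _ _).trans ?_)
  rw [Real.volume_real_Icc, Real.volume_real_Icc]
  have e1 : (-(β / (2 * α)) + r - (-(β / (2 * α)) + p)) = r - p := by ring
  have e2 : (-(β / (2 * α)) - p - (-(β / (2 * α)) - r)) = r - p := by ring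
  rw [e1, e2]
  have h3 : max (r - p) 0 ≤ 2 * √(η / α) := max_le (by linarith) (by positivity)
  linarith

variable {d : ℕ}

theorem kap_fun_bound (ρ : ℝ) (a P : EuclideanSpace ℝ (Fin d)) {s : ℝ} (hs : s ∈ Icc (1 / 2 : ℝ) 1) :
    0 ≤ s ^ (d - 1) * (if ‖s • P - a‖ ≤ ρ then (1 : ℝ) else 0) ∧
      s ^ (d - 1) * (if ‖s • P - a‖ ≤ ρ then (1 : ℝ) else 0) ≤ 1 := by
  have h0 : 0 ≤ s := by linarith [hs.1]
  have h1 : s ^ (d - 1) ≤ 1 := pow_le_one₀ h0 hs.2
  have h2 : 0 ≤ s ^ (d - 1) := pow_nonneg h0 _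
  split_ifs
  · rw [mul_one]
    exact ⟨h2, h1⟩
  · rw [mul_zero]
    exact ⟨le_rfl, zero_le_one⟩

theorem kap_nonneg (ρ : ℝ) (a P : EuclideanSpace ℝ (Fin d)) : 0 ≤ kap ρ a P := by
  unfold kap
  exact setIntegral_nonneg measurableSet_Icc fun s hs => (kap_fun_bound ρ a P hs).1

theorem kap_le_one (ρ : ℝ) (a P : EuclideanSpace ℝ (Fin d)) : kap ρ a P ≤ 1 := by
  unfold kap
  have h := norm_setIntegral_le_of_norm_le_const (μ := volume) (s := Icc (1 / 2 : ℝ) 1)
    (f := fun s : ℝ => s ^ (d - 1) * (if ‖s • P - a‖ ≤ ρ then (1 : ℝ) else 0)) (C := 1)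
    (by simp) (fun s hs => by
      rw [Real.norm_of_nonneg (kap_fun_bound ρ a P hs).1]
      exact (kap_fun_bound ρ a P hs).2)
  refine (Real.le_norm_self _).trans (h.trans ?_)
  rw [Real.volume_real_Icc]
  norm_num

theorem kap_ne_zero {ρ : ℝ} {a P : EuclideanSpace ℝ (Fin d)} (h : kap ρ a P ≠ 0) :
    ∃ s : ℝ, 1 / 2 ≤ s ∧ s ≤ 1 ∧ ‖s • P - a‖ ≤ ρ := by
  by_contra hcon
  push Not at hcon
  apply h
  unfold kap
  apply setIntegral_eq_zero_of_forall_eq_zero
  intro s hs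
  rw [if_neg (not_le.mpr (hcon s hs.1 hs.2)), mul_zero]

theorem kap_integrableOn (ρ : ℝ) (a P : EuclideanSpace ℝ (Fin d)) :
    IntegrableOn (fun s : ℝ => s ^ (d - 1) * (if ‖s • P - a‖ ≤ ρ then (1 : ℝ) else 0))
      (Icc (1 / 2 : ℝ) 1) := by
  have hS : MeasurableSet {s : ℝ | ‖s • P - a‖ ≤ ρ} := by
    apply IsClosed.measurableSet
    exact isClosed_le (by fun_prop) continuous_const
  have hmeas : Measurable (fun s : ℝ => s ^ (d - 1) * (if ‖s • P - a‖ ≤ ρ then (1 : ℝ) else 0)) := by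
    apply Measurable.mul (by fun_prop)
    exact Measurable.ite hS measurable_const measurable_const
  refine Measure.integrableOn_of_bounded (M := 1) (by simp) hmeas.aestronglyMeasurable ?_
  rw [ae_restrict_iff' measurableSet_Icc]
  refine Eventually.of_forall fun s hs => ?_
  rw [Real.norm_of_nonneg (kap_fun_bound ρ a P hs).1]
  exact (kap_fun_bound ρ a P hs).2

/-- If the indicators of `‖sP-a‖ ≤ ρ`, `‖sP'-a'‖ ≤ ρ` differ at `s ∈ [1/2,1]` then
`|‖sP'-a'‖² - ρ²| ≤ D(2ρ+D)`, `D = ‖P-P'‖ + ‖a-a'‖`, a quadratic in `s` with leading coefficient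
`‖P'‖²`; use `sublevel_quad`. -/
theorem kap_holder {ρ : ℝ} (hρ : 0 < ρ) (a a' P P' : EuclideanSpace ℝ (Fin d)) :
    ‖kap ρ a P • P - kap ρ a' P' • P'‖ ≤ (‖P - P'‖ + ‖a - a'‖) +
      4 * √((‖P - P'‖ + ‖a - a'‖) * (2 * ρ + (‖P - P'‖ + ‖a - a'‖))) := by
  set D : ℝ := ‖P - P'‖ + ‖a - a'‖ with hD
  have hD0 : 0 ≤ D := by positivity
  have e1 : kap ρ a P • P - kap ρ a' P' • P' =
      kap ρ a P • (P - P') + (kap ρ a P - kap ρ a' P') • P' := by
    rw [smul_sub, sub_smul]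
    abel
  have h1 : ‖kap ρ a P • (P - P')‖ ≤ D := by
    rw [norm_smul, Real.norm_of_nonneg (kap_nonneg ρ a P)]
    have h2 := kap_le_one ρ a P
    have h3 := norm_nonneg (P - P')
    have h4 := norm_nonneg (a - a')
    calc kap ρ a P * ‖P - P'‖ ≤ 1 * ‖P - P'‖ := mul_le_mul_of_nonneg_right h2 h3
      _ ≤ D := by rw [hD]; linarith
  have h2 : ‖(kap ρ a P - kap ρ a' P') • P'‖ ≤ 4 * √(D * (2 * ρ + D)) := by
    rw [norm_smul]
    rcases eq_or_ne P' 0 with hP | hP
    · rw [hP, norm_zero, mul_zero]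
      positivity
    have hPn : 0 < ‖P'‖ := norm_pos_iff.mpr hP
    have hα : 0 < ‖P'‖ ^ 2 := by positivity
    set S : Set ℝ := {s : ℝ | |‖P'‖ ^ 2 * s ^ 2 + (-(2 * ⟪P', a'⟫)) * s + (‖a'‖ ^ 2 - ρ ^ 2)| ≤
      D * (2 * ρ + D)} with hS
    have hdiff : kap ρ a P - kap ρ a' P' = ∫ s in Icc (1 / 2 : ℝ) 1 ∩ S,
        (s ^ (d - 1) * (if ‖s • P - a‖ ≤ ρ then (1 : ℝ) else 0) -
          s ^ (d - 1) * (if ‖s • P' - a'‖ ≤ ρ then (1 : ℝ) else 0)) := by
      unfold kap
      rw [← integral_sub (kap_integrableOn ρ a P) (kap_integrableOn ρ a' P')]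
      apply setIntegral_eq_of_subset_of_forall_diff_eq_zero measurableSet_Icc inter_subset_left
      intro s hs
      obtain ⟨hs1, hs2⟩ := hs
      have hs3 : s ∉ S := fun h => hs2 ⟨hs1, h⟩
      have hs0 : 0 ≤ s := by linarith [hs1.1]
      have hq : ‖P'‖ ^ 2 * s ^ 2 + (-(2 * ⟪P', a'⟫)) * s + (‖a'‖ ^ 2 - ρ ^ 2) =
          ‖s • P' - a'‖ ^ 2 - ρ ^ 2 := by
        rw [norm_sub_sq_real, norm_smul, real_inner_smul_left, Real.norm_of_nonneg hs0]
        ring
      have hdist : |‖s • P - a‖ - ‖s • P' - a'‖| ≤ D := by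
        refine (abs_norm_sub_norm_le _ _).trans ?_
        have e2 : s • P - a - (s • P' - a') = s • (P - P') - (a - a') := by
          rw [smul_sub]; abel
        rw [e2]
        refine (norm_sub_le _ _).trans ?_
        rw [norm_smul, Real.norm_of_nonneg hs0, hD]
        have : s * ‖P - P'‖ ≤ 1 * ‖P - P'‖ := mul_le_mul_of_nonneg_right hs1.2 (norm_nonneg _)
        linarith
      have hkey : (‖s • P - a‖ ≤ ρ ↔ ‖s • P' - a'‖ ≤ ρ) := by
        by_contra hne
        apply hs3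
        rw [hS, mem_setOf_eq, hq]
        rw [abs_le] at hdist
        have hn := norm_nonneg (s • P' - a')
        have hb : |‖s • P' - a'‖ - ρ| ≤ D := by
          rw [abs_le]
          by_cases hc : ‖s • P - a‖ ≤ ρ
          · have hc' : ¬ ‖s • P' - a'‖ ≤ ρ := fun h => hne ⟨fun _ => h, fun _ => hc⟩
            push Not at hc'
            constructor <;> linarith [hdist.1]
          · have hc' : ‖s • P' - a'‖ ≤ ρ := by
              by_contra h
              exact hne ⟨fun h' => absurd h' hc, fun h' => absurd h' h⟩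
            push Not at hc
            constructor <;> linarith [hdist.2]
        have e3 : ‖s • P' - a'‖ ^ 2 - ρ ^ 2 =
            (‖s • P' - a'‖ - ρ) * (‖s • P' - a'‖ + ρ) := by ring
        rw [e3, abs_mul]
        have hb2 : |‖s • P' - a'‖ + ρ| ≤ 2 * ρ + D := by
          rw [abs_of_nonneg (by linarith)]
          have := (abs_le.mp hb).2
          linarith
        exact mul_le_mul hb hb2 (abs_nonneg _) hD0
      simp only [hkey, sub_self]
    have hfin : volume S ≠ ⊤ := sublevel_finite hα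
    have hn : ‖kap ρ a P - kap ρ a' P'‖ ≤ 1 * volume.real (Icc (1 / 2 : ℝ) 1 ∩ S) := by
      rw [hdiff]
      apply norm_setIntegral_le_of_norm_le_const
      · exact lt_of_le_of_lt (measure_mono inter_subset_right) (lt_top_iff_ne_top.mpr hfin)
      · intro s hs
        have b1 := kap_fun_bound ρ a P hs.1
        have b2 := kap_fun_bound ρ a' P' hs.1
        rw [Real.norm_eq_abs, abs_le]
        constructor <;> linarith [b1.1, b1.2, b2.1, b2.2]
    have hm : volume.real (Icc (1 / 2 : ℝ) 1 ∩ S) ≤ 4 * √(D * (2 * ρ + D) / ‖P'‖ ^ 2) :=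
      (measureReal_mono inter_subset_right hfin).trans (sublevel_quad hα (by positivity))
    have hsq : √(D * (2 * ρ + D) / ‖P'‖ ^ 2) = √(D * (2 * ρ + D)) / ‖P'‖ := by
      rw [Real.sqrt_div (by positivity), Real.sqrt_sq hPn.le]
    rw [hsq] at hm
    rw [one_mul] at hn
    calc ‖kap ρ a P - kap ρ a' P'‖ * ‖P'‖ ≤ (4 * (√(D * (2 * ρ + D)) / ‖P'‖)) * ‖P'‖ :=
          mul_le_mul_of_nonneg_right (hn.trans hm) hPn.le
      _ = 4 * √(D * (2 * ρ + D)) := by field_simp
  rw [e1]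
  exact (norm_add_le _ _).trans (add_le_add h1 h2)

end Vale.Agent.P137
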