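import Vale.Agent.P137.Basic
import Vale.Agent.P137.Kernel

/-! Pointwise geometry of the kernel. -/

open MeasureTheory Metric Set Filter Topology
open scoped RealInnerProductSpace ENNReal

namespace Vale.Agent.P137

variable {d : ℕ}

section geom

variable {E : Type*} [NormedAddCommGroup E] [InnerProductSpace ℝ E]

/-- `‖v+ρe‖² ≤ 2ρ(⟪v,e⟫+ρ)` and `⟪v,e⟫+ρ ≥ 0` for `‖v‖ ≤ ρ` -/
theorem cone_half {e v : E} {ρ : ℝ} (he : ‖e‖ = 1) (hv : ‖v‖ ≤ ρ) :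
    ‖v + ρ • e‖ ^ 2 ≤ 2 * ρ * (⟪v, e⟫ + ρ) ∧ 0 ≤ ⟪v, e⟫ + ρ := by
  have hv0 := norm_nonneg v
  constructor
  · rw [norm_add_sq_real, norm_smul, he, real_inner_smul_right, mul_one, Real.norm_eq_abs, sq_abs]
    nlinarith
  · have h1 := abs_real_inner_le_norm v e
    rw [he, mul_one] at h1
    have h2 := (abs_le.mp h1).1
    linarith

/-- with `V = s P`, `v = V - a`, `a = (x-c) + 2ρe`, `t = 1/s - 1 ∈ [0,1]`:
`z = c - a + P = c + v + t V`; `α = ⟪v,e⟫+ρ ≥ 0`, `β = ⟪x-c,e⟫+ρ ≥ 0`, `⟪V,e⟫ = α+β`,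
`‖v+ρe‖² ≤ 2ρα`, `‖x-c+ρe‖² ≤ 2ρβ`, `z - x = (v+ρe) - (x-c+ρe) + tV`. -/
theorem cone_V {e x c V : E} {ρ : ℝ} (he : ‖e‖ = 1) (hρ : 0 < ρ) (hx : ‖x - c‖ ≤ ρ)
    (hV : ‖V - ((x - c) + (2 * ρ) • e)‖ ≤ ρ) :
    ‖V‖ ^ 2 ≤ 4 * ρ * ⟪V, e⟫ ∧ 0 ≤ ⟪V, e⟫ ∧ ‖V‖ ≤ 4 * ρ := by
  set w : E := x - c with hw
  set v : E := V - (w + (2 * ρ) • e) with hv
  obtain ⟨a1, a2⟩ := cone_half he hV
  obtain ⟨b1, b2⟩ := cone_half he hx
  have hVe : V = (v + ρ • e) + (w + ρ • e) := by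
    rw [hv, two_mul, add_smul]
    abel
  have hin : ⟪V, e⟫ = (⟪v, e⟫ + ρ) + (⟪w, e⟫ + ρ) := by
    rw [hVe, inner_add_left, inner_add_left, inner_add_left, real_inner_smul_left,
      real_inner_self_eq_norm_sq, he]
    ring
  have hn : ‖V‖ ≤ ‖v + ρ • e‖ + ‖w + ρ • e‖ := by
    rw [hVe]
    exact norm_add_le _ _
  have hA := norm_nonneg (v + ρ • e)
  have hB := norm_nonneg (w + ρ • e)
  have hV0 := norm_nonneg V
  refine ⟨?_, ?_, ?_⟩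
  · rw [hin]
    have h1 : ‖V‖ ^ 2 ≤ (‖v + ρ • e‖ + ‖w + ρ • e‖) ^ 2 := pow_le_pow_left₀ hV0 hn 2
    nlinarith [sq_nonneg (‖v + ρ • e‖ - ‖w + ρ • e‖)]
  · rw [hin]
    linarith
  · have h1 : V = v + (w + (2 * ρ) • e) := by rw [hv]; abel
    rw [h1]
    refine (norm_add_le _ _).trans ?_
    have h2 := norm_add_le w ((2 * ρ) • e)
    rw [norm_smul, he, Real.norm_of_nonneg (by positivity), mul_one] at h2
    linarith

theorem cone_z {e x c P : E} {ρ s : ℝ} (he : ‖e‖ = 1) (hρ : 0 < ρ) (hx : ‖x - c‖ ≤ ρ)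
    (hs : 1 / 2 ≤ s) (hs1 : s ≤ 1) (hV : ‖s • P - ((x - c) + (2 * ρ) • e)‖ ≤ ρ) :
    ‖(c - ((x - c) + (2 * ρ) • e) + P) - x‖ ^ 2 ≤ 16 * ρ * ⟪s • P, e⟫ ∧
      ‖(c - ((x - c) + (2 * ρ) • e) + P) - x‖ ≤ 6 * ρ := by
  obtain ⟨-, hV2, hV3⟩ := cone_V he hρ hx hV
  set w : E := x - c with hw
  set V : E := s • P with hVdef
  set v : E := V - (w + (2 * ρ) • e) with hv
  obtain ⟨a1, a2⟩ := cone_half he hV
  obtain ⟨b1, b2⟩ := cone_half he hx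
  have hs0 : 0 < s := by linarith
  set t : ℝ := 1 / s - 1 with ht
  have ht0 : 0 ≤ t := by
    rw [ht, sub_nonneg, le_div_iff₀ hs0]
    linarith
  have ht1 : t ≤ 1 := by
    rw [ht, sub_le_iff_le_add, div_le_iff₀ hs0]
    linarith
  have hP : P = V + t • V := by
    rw [ht, sub_smul, one_smul, add_sub_cancel, hVdef, smul_smul, one_div, inv_mul_cancel₀ hs0.ne',
      one_smul]
  have hVe : V = (v + ρ • e) + (w + ρ • e) := by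
    rw [hv, two_mul, add_smul]
    abel
  have hin : ⟪V, e⟫ = (⟪v, e⟫ + ρ) + (⟪w, e⟫ + ρ) := by
    rw [hVe, inner_add_left, inner_add_left, inner_add_left, real_inner_smul_left,
      real_inner_self_eq_norm_sq, he]
    ring
  have hz : (c - (w + (2 * ρ) • e) + P) - x = v - w + t • V := by
    rw [hP, hv, hw]
    abel
  rw [hz]
  have hA := norm_nonneg (v + ρ • e)
  have hB := norm_nonneg (w + ρ • e)
  constructor
  · have h2 : v - w + t • V = (1 + t) • (v + ρ • e) - (1 - t) • (w + ρ • e) := by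
      have h3 : t • V = t • (v + ρ • e) + t • (w + ρ • e) := by
        rw [← smul_add, ← hVe]
      rw [h3]
      clear_value t
      module
    have h4 : ‖v - w + t • V‖ ≤ (1 + t) * ‖v + ρ • e‖ + (1 - t) * ‖w + ρ • e‖ := by
      rw [h2]
      refine (norm_sub_le _ _).trans ?_
      rw [norm_smul, norm_smul, Real.norm_of_nonneg (by linarith : 0 ≤ 1 + t),
        Real.norm_of_nonneg (by linarith : 0 ≤ 1 - t)]
    have h5 : ‖v - w + t • V‖ ^ 2 ≤ ((1 + t) * ‖v + ρ • e‖ + (1 - t) * ‖w + ρ • e‖) ^ 2 :=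
      pow_le_pow_left₀ (norm_nonneg _) h4 2
    have h6 : ((1 + t) * ‖v + ρ • e‖ + (1 - t) * ‖w + ρ • e‖) ^ 2 ≤
        4 * (‖v + ρ • e‖ ^ 2 + ‖w + ρ • e‖ ^ 2) := by
      have h7 : ((1 + t) * ‖v + ρ • e‖ + (1 - t) * ‖w + ρ • e‖) ^ 2 ≤
          ((1 + t) ^ 2 + (1 - t) ^ 2) * (‖v + ρ • e‖ ^ 2 + ‖w + ρ • e‖ ^ 2) := by
        nlinarith [sq_nonneg ((1 + t) * ‖w + ρ • e‖ - (1 - t) * ‖v + ρ • e‖)]
      have h8 : (1 + t) ^ 2 + (1 - t) ^ 2 ≤ 4 := by nlinarith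
      have h9 : 0 ≤ ‖v + ρ • e‖ ^ 2 + ‖w + ρ • e‖ ^ 2 := by positivity
      exact h7.trans (mul_le_mul_of_nonneg_right h8 h9)
    rw [hin]
    rw [hin] at hV2
    nlinarith [mul_nonneg hρ.le hV2]
  · refine (norm_add_le _ _).trans ?_
    have h3 := norm_sub_le v w
    rw [norm_smul, Real.norm_of_nonneg ht0]
    have h4 : t * ‖V‖ ≤ 1 * (4 * ρ) := mul_le_mul ht1 hV3 (norm_nonneg _) zero_le_one
    linarith

/-- for a unit vector `n`, `θ = ‖n-e‖`: `⟪n,V⟫ ≥ ⟪V,e⟫ - θ‖V‖ ≥ -θ²ρ`, and it is `≥ 0` if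
`‖z-x‖ > 8θρ` -/
theorem cone_n {e n x c P : E} {ρ s : ℝ} (he : ‖e‖ = 1) (hn : ‖n‖ = 1) (hρ : 0 < ρ)
    (hx : ‖x - c‖ ≤ ρ) (hs : 1 / 2 ≤ s) (hs1 : s ≤ 1)
    (hV : ‖s • P - ((x - c) + (2 * ρ) • e)‖ ≤ ρ) :
    -(‖n - e‖ ^ 2 * ρ) *
      (if ‖(c - ((x - c) + (2 * ρ) • e) + P) - x‖ ≤ 8 * ‖n - e‖ * ρ then 1 else 0)
      ≤ ⟪n, s • P⟫ := by
  obtain ⟨hV1, hV2, hV3⟩ := cone_V he hρ hx hV
  obtain ⟨hz1, -⟩ := cone_z he hρ hx hs hs1 hV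
  set V : E := s • P with hVdef
  set θ : ℝ := ‖n - e‖ with hθ
  have hθ0 : 0 ≤ θ := norm_nonneg _
  have hm0 : 0 ≤ ‖V‖ := norm_nonneg _
  have h1 : ⟪V, e⟫ - θ * ‖V‖ ≤ ⟪n, V⟫ := by
    have h2 : ⟪n, V⟫ = ⟪V, e⟫ + ⟪n - e, V⟫ := by
      rw [inner_sub_left, real_inner_comm e V]
      ring
    have h3 := (abs_le.mp (abs_real_inner_le_norm (n - e) V)).1
    rw [h2, hθ]
    linarith
  split_ifs with hif
  · rw [mul_one]
    refine le_trans ?_ h1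
    have h4 : 0 ≤ (‖V‖ - 2 * ρ * θ) ^ 2 := sq_nonneg _
    have h5 : 0 ≤ 4 * ρ * (⟪V, e⟫ - θ * ‖V‖ + θ ^ 2 * ρ) := by nlinarith
    have h6 : 0 ≤ ⟪V, e⟫ - θ * ‖V‖ + θ ^ 2 * ρ := by
      by_contra hcon
      push Not at hcon
      have := mul_neg_of_pos_of_neg (by positivity : 0 < 4 * ρ) hcon
      linarith
    linarith
  · rw [mul_zero]
    refine le_trans ?_ h1
    push Not at hif
    have h4 : (8 * θ * ρ) ^ 2 < 16 * ρ * ⟪V, e⟫ :=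
      lt_of_lt_of_le (pow_lt_pow_left₀ hif (by positivity) two_ne_zero) hz1
    have h5 : 4 * θ ^ 2 * ρ < ⟪V, e⟫ := by
      have h6 : 16 * ρ * (4 * θ ^ 2 * ρ) < 16 * ρ * ⟪V, e⟫ := by
        calc 16 * ρ * (4 * θ ^ 2 * ρ) = (8 * θ * ρ) ^ 2 := by ring
          _ < _ := h4
      exact lt_of_mul_lt_mul_left h6 (by positivity)
    have h7 : (θ * ‖V‖) ^ 2 ≤ ⟪V, e⟫ ^ 2 := by
      calc (θ * ‖V‖) ^ 2 = θ ^ 2 * ‖V‖ ^ 2 := by ring
        _ ≤ θ ^ 2 * (4 * ρ * ⟪V, e⟫) := mul_le_mul_of_nonneg_left hV1 (by positivity)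
        _ = (4 * θ ^ 2 * ρ) * ⟪V, e⟫ := by ring
        _ ≤ ⟪V, e⟫ * ⟪V, e⟫ := mul_le_mul_of_nonneg_right h5.le hV2
        _ = ⟪V, e⟫ ^ 2 := by ring
    have h8 := (pow_le_pow_iff_left₀ (by positivity) hV2 two_ne_zero).mp h7
    linarith

end geom

theorem kap_le_half (ρ : ℝ) (a P : EuclideanSpace ℝ (Fin d)) : kap ρ a P ≤ 1 / 2 := by
  unfold kap
  have h := norm_setIntegral_le_of_norm_le_const (μ := volume) (s := Icc (1 / 2 : ℝ) 1)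
    (f := fun s : ℝ => s ^ (d - 1) * (if ‖s • P - a‖ ≤ ρ then (1 : ℝ) else 0)) (C := 1)
    (by simp) (fun s hs => by
      rw [Real.norm_of_nonneg (kap_fun_bound ρ a P hs).1]
      exact (kap_fun_bound ρ a P hs).2)
  refine (Real.le_norm_self _).trans (h.trans ?_)
  rw [Real.volume_real_Icc]
  norm_num

/-- lower bound for the kernel; `z = c - a + P` with `P = z - c + a` -/
theorem ker_lower (hd : 2 ≤ d) {e n x c : EuclideanSpace ℝ (Fin d)} {ρ : ℝ} (he : ‖e‖ = 1)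
    (hn : ‖n‖ = 1) (hρ : 0 < ρ) (hx : ‖x - c‖ ≤ ρ) (z : EuclideanSpace ℝ (Fin d)) :
    -((volume.real (closedBall (0 : EuclideanSpace ℝ (Fin d)) ρ))⁻¹ * (‖n - e‖ ^ 2 * ρ) *
      (if ‖z - x‖ ≤ 8 * ‖n - e‖ * ρ then 1 else 0)) ≤ ⟪n, ker e x c ρ z⟫ := by
  unfold ker
  set vi : ℝ := (volume.real (closedBall (0 : EuclideanSpace ℝ (Fin d)) ρ))⁻¹ with hvi
  have hvi0 : 0 ≤ vi := by positivity
  set a : EuclideanSpace ℝ (Fin d) := (x - c) + (2 * ρ) • e with ha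
  rw [real_inner_smul_right]
  suffices hsuff : -(‖n - e‖ ^ 2 * ρ * (if ‖z - x‖ ≤ 8 * ‖n - e‖ * ρ then 1 else 0)) ≤
      kap ρ a (z - c + a) * ⟪n, z - c + a⟫ by
    have := mul_le_mul_of_nonneg_left hsuff hvi0
    calc _ = vi * -(‖n - e‖ ^ 2 * ρ * (if ‖z - x‖ ≤ 8 * ‖n - e‖ * ρ then 1 else 0)) := by ring
      _ ≤ _ := this
      _ = _ := by ring
  have hI : (0 : ℝ) ≤ (if ‖z - x‖ ≤ 8 * ‖n - e‖ * ρ then 1 else 0) := by
    split_ifs <;> norm_num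
  set I : ℝ := (if ‖z - x‖ ≤ 8 * ‖n - e‖ * ρ then (1 : ℝ) else 0) with hIdef
  have hθ : 0 ≤ ‖n - e‖ ^ 2 * ρ := by positivity
  by_cases hk : kap ρ a (z - c + a) = 0
  · rw [hk, zero_mul]
    have := mul_nonneg hθ hI
    linarith
  obtain ⟨s, hs, hs1, hV⟩ := kap_ne_zero hk
  have hs0 : 0 < s := by linarith
  have h1 := cone_n (n := n) he hn hρ hx hs hs1 hV
  have hz : c - (x - c + (2 * ρ) • e) + (z - c + a) - x = z - x := by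
    rw [ha]; abel
  rw [hz, ← hIdef, real_inner_smul_right] at h1
  have h2 := kap_le_half ρ a (z - c + a)
  have h3 := kap_nonneg ρ a (z - c + a)
  set k : ℝ := kap ρ a (z - c + a) with hkdef
  set g : ℝ := ⟪n, z - c + a⟫ with hg
  set T : ℝ := ‖n - e‖ ^ 2 * ρ * I with hT
  have hT0 : 0 ≤ T := mul_nonneg hθ hI
  have h4 : -T ≤ s * g := by
    have : -(‖n - e‖ ^ 2 * ρ) * I = -T := by rw [hT]; ring
    linarith
  rcases le_total 0 g with hg0 | hg0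
  · have := mul_nonneg h3 hg0
    linarith
  · -- `g ≥ -T/s ≥ -2T`
    have h5 : -(2 * T) ≤ g := by nlinarith
    nlinarith

theorem ker_eq_zero (hd : 1 ≤ d) {e x c : EuclideanSpace ℝ (Fin d)} {ρ : ℝ} (he : ‖e‖ = 1)
    (hρ : 0 < ρ) (hx : ‖x - c‖ ≤ ρ) {z : EuclideanSpace ℝ (Fin d)} (hz : 6 * ρ < ‖z - x‖) :
    ker e x c ρ z = 0 := by
  unfold ker
  set a : EuclideanSpace ℝ (Fin d) := (x - c) + (2 * ρ) • e with ha
  by_cases hk : kap ρ a (z - c + a) = 0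
  · rw [hk, mul_zero, zero_smul]
  · exfalso
    obtain ⟨s, hs, hs1, hV⟩ := kap_ne_zero hk
    have h1 := (cone_z he hρ hx hs hs1 hV).2
    have h2 : c - (x - c + (2 * ρ) • e) + (z - c + a) - x = z - x := by
      rw [ha]; abel
    rw [h2] at h1
    linarith

theorem norm_ker_le (hd : 1 ≤ d) {e x c : EuclideanSpace ℝ (Fin d)} {ρ : ℝ} (he : ‖e‖ = 1)
    (hρ : 0 < ρ) (hx : ‖x - c‖ ≤ ρ) (z : EuclideanSpace ℝ (Fin d)) :
    ‖ker e x c ρ z‖ ≤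
      (volume.real (closedBall (0 : EuclideanSpace ℝ (Fin d)) ρ))⁻¹ * (8 * ρ) := by
  unfold ker
  set vi : ℝ := (volume.real (closedBall (0 : EuclideanSpace ℝ (Fin d)) ρ))⁻¹ with hvi
  have hvi0 : 0 ≤ vi := by positivity
  set a : EuclideanSpace ℝ (Fin d) := (x - c) + (2 * ρ) • e with ha
  have h3 := kap_nonneg ρ a (z - c + a)
  have h2 := kap_le_half ρ a (z - c + a)
  rw [norm_smul, Real.norm_of_nonneg (mul_nonneg hvi0 h3), mul_assoc]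
  apply mul_le_mul_of_nonneg_left _ hvi0
  by_cases hk : kap ρ a (z - c + a) = 0
  · rw [hk, zero_mul]
    positivity
  obtain ⟨s, hs, hs1, hV⟩ := kap_ne_zero hk
  have hs0 : 0 < s := by linarith
  have h4 := (cone_V he hρ hx hV).2.2
  rw [norm_smul, Real.norm_of_nonneg hs0.le] at h4
  have h5 := norm_nonneg (z - c + a)
  have h6 : ‖z - c + a‖ ≤ 8 * ρ := by nlinarith
  nlinarith

end Vale.Agent.P137
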