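import Vale.Agent.P137.Basic

/-! The transport identity. -/

open MeasureTheory Metric Set Filter Topology
open scoped RealInnerProductSpace ENNReal

namespace Vale.Agent.P137

variable {d : ℕ}

theorem tr_affine {F : Type*} [NormedAddCommGroup F] [NormedSpace ℝ F]
    (H : EuclideanSpace ℝ (Fin d) → F) (b : EuclideanSpace ℝ (Fin d)) {l : ℝ} (hl : 0 < l) :
    ∫ z, H z = l ^ d • ∫ v, H (b + l • v) := by
  have h1 := Measure.integral_comp_smul (volume : Measure (EuclideanSpace ℝ (Fin d)))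
    (fun y => H (b + y)) l
  rw [integral_add_left_eq_self (fun y => H y) b] at h1
  rw [h1, finrank_euclideanSpace_fin, abs_of_pos (by positivity), smul_smul,
    mul_inv_cancel₀ (by positivity), one_smul]

theorem tr_av (f : EuclideanSpace ℝ (Fin d) → ℝ) (b : EuclideanSpace ℝ (Fin d)) {l ρ : ℝ}
    (hl : 0 < l) (hρ : 0 < ρ) :
    av f b (l * ρ) = (volume.real (closedBall (0 : EuclideanSpace ℝ (Fin d)) ρ))⁻¹ *
      ∫ v in closedBall (0 : EuclideanSpace ℝ (Fin d)) ρ, f (b + l • v) := by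
  have hvol : volume.real (closedBall b (l * ρ)) =
      l ^ d * volume.real (closedBall (0 : EuclideanSpace ℝ (Fin d)) ρ) := by
    rw [measureReal_def, measureReal_def, Measure.addHaar_closedBall_mul _ _ hl.le hρ.le,
      ENNReal.toReal_mul, ENNReal.toReal_ofReal (by positivity), finrank_euclideanSpace_fin]
  have hint : ∫ y in closedBall b (l * ρ), f y =
      l ^ d * ∫ v in closedBall (0 : EuclideanSpace ℝ (Fin d)) ρ, f (b + l • v) := by
    rw [← integral_indicator measurableSet_closedBall, tr_affine _ b hl,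
      ← integral_indicator measurableSet_closedBall, smul_eq_mul]
    congr 2
    funext v
    have hiff : b + l • v ∈ closedBall b (l * ρ) ↔ v ∈ closedBall (0 : EuclideanSpace ℝ (Fin d)) ρ := by
      rw [mem_closedBall, mem_closedBall, dist_zero_right, dist_eq_norm, add_sub_cancel_left,
        norm_smul, Real.norm_of_nonneg hl.le]
      exact mul_le_mul_iff_right₀ hl
    by_cases h : v ∈ closedBall (0 : EuclideanSpace ℝ (Fin d)) ρ
    · rw [indicator_of_mem h, indicator_of_mem (hiff.2 h)]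
    · rw [indicator_of_notMem h, indicator_of_notMem (fun h' => h (hiff.1 h'))]
  unfold av
  rw [hvol, hint, mul_inv]
  have : l ^ d ≠ 0 := by positivity
  field_simp

/-- the integrand in `s` -/
noncomputable def trF (f : EuclideanSpace ℝ (Fin d) → ℝ) (c a v : EuclideanSpace ℝ (Fin d))
    (s : ℝ) : ℝ := (s ^ 2)⁻¹ * fderiv ℝ f (c - a + s⁻¹ • (a + v)) (a + v)

theorem trF_cont {f : EuclideanSpace ℝ (Fin d) → ℝ} (hf : ContDiff ℝ 1 f)
    (c a : EuclideanSpace ℝ (Fin d)) (B : Set (EuclideanSpace ℝ (Fin d))) :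
    ContinuousOn (Function.uncurry (trF f c a)) (B ×ˢ Icc (1 / 2 : ℝ) 1) := by
  have h0 : ∀ p ∈ B ×ˢ Icc (1 / 2 : ℝ) 1, (p.2 : ℝ) ≠ 0 := by
    rintro p ⟨-, hp⟩
    have := hp.1
    intro h
    rw [h] at this
    norm_num at this
  have h1 : ContinuousOn (fun p : EuclideanSpace ℝ (Fin d) × ℝ => (p.2)⁻¹)
      (B ×ˢ Icc (1 / 2 : ℝ) 1) := continuousOn_snd.inv₀ h0
  have h2 : ContinuousOn (fun p : EuclideanSpace ℝ (Fin d) × ℝ => (p.2 ^ 2)⁻¹)
      (B ×ˢ Icc (1 / 2 : ℝ) 1) :=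
    (continuousOn_snd.pow 2).inv₀ (fun p hp => pow_ne_zero 2 (h0 p hp))
  have h3 : ContinuousOn (fun p : EuclideanSpace ℝ (Fin d) × ℝ =>
      fderiv ℝ f (c - a + (p.2)⁻¹ • (a + p.1))) (B ×ˢ Icc (1 / 2 : ℝ) 1) := by
    refine (hf.continuous_fderiv (by norm_num)).comp_continuousOn ?_
    exact continuousOn_const.add (h1.smul (continuousOn_const.add continuousOn_fst))
  unfold Function.uncurry trF
  exact h2.mul (h3.clm_apply (continuousOn_const.add continuousOn_fst))

theorem trF_ftc {f : EuclideanSpace ℝ (Fin d) → ℝ} (hf : ContDiff ℝ 1 f)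
    (c a v : EuclideanSpace ℝ (Fin d)) :
    f (c + a + (2 : ℝ) • v) - f (c + (1 : ℝ) • v) = ∫ s in Icc (1 / 2 : ℝ) 1, trF f c a v s := by
  rw [integral_Icc_eq_integral_Ioc, ← intervalIntegral.integral_of_le (by norm_num)]
  have hderiv : ∀ s ∈ uIcc (1 / 2 : ℝ) 1,
      HasDerivAt (fun s : ℝ => -f (c - a + s⁻¹ • (a + v))) (trF f c a v s) s := by
    intro s hs
    rw [uIcc_of_le (by norm_num)] at hs
    have hs0 : s ≠ 0 := by
      have := hs.1
      intro h
      rw [h] at this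
      norm_num at this
    have h1 : HasDerivAt (fun s : ℝ => c - a + s⁻¹ • (a + v)) ((-(s ^ 2)⁻¹) • (a + v)) s :=
      ((hasDerivAt_inv hs0).smul_const (a + v)).const_add (c - a)
    have h2 := ((hf.differentiable (by norm_num)) (c - a + s⁻¹ • (a + v))).hasFDerivAt
    have h3 := (h2.comp_hasDerivAt s h1).neg
    have h4 : -(fderiv ℝ f (c - a + s⁻¹ • (a + v))) ((-(s ^ 2)⁻¹) • (a + v)) = trF f c a v s := by
      rw [map_smul, smul_eq_mul]
      unfold trF
      ring
    rw [← h4]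
    exact h3
  rw [intervalIntegral.integral_eq_sub_of_hasDerivAt hderiv]
  · have e1 : c - a + ((1 : ℝ) / 2)⁻¹ • (a + v) = c + a + (2 : ℝ) • v := by
      rw [show ((1 : ℝ) / 2)⁻¹ = 2 by norm_num, smul_add, two_smul ℝ a]
      abel
    have e2 : c - a + (1 : ℝ)⁻¹ • (a + v) = c + (1 : ℝ) • v := by
      rw [inv_one, one_smul, one_smul]
      abel
    rw [e1, e2]
    ring
  · refine ContinuousOn.intervalIntegrable ?_
    rw [uIcc_of_le (by norm_num)]
    have h := trF_cont hf c a {v}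
    have h2 : ContinuousOn (fun s : ℝ => (v, s)) (Icc (1 / 2 : ℝ) 1) :=
      continuousOn_const.prodMk continuousOn_id
    exact h.comp h2 (fun s hs => ⟨rfl, hs⟩)

/-- the second integrand -/
noncomputable def trG (f : EuclideanSpace ℝ (Fin d) → ℝ) (c a : EuclideanSpace ℝ (Fin d)) (ρ : ℝ)
    (s : ℝ) (z : EuclideanSpace ℝ (Fin d)) : ℝ :=
  (s ^ (d - 1) * (if ‖s • (z - c + a) - a‖ ≤ ρ then 1 else 0)) * fderiv ℝ f z (z - c + a)

theorem trG_subst (hd : 1 ≤ d) (f : EuclideanSpace ℝ (Fin d) → ℝ)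
    (c a : EuclideanSpace ℝ (Fin d)) (ρ : ℝ) {s : ℝ} (hs : 0 < s) :
    ∫ v in closedBall (0 : EuclideanSpace ℝ (Fin d)) ρ, trF f c a v s = ∫ z, trG f c a ρ s z := by
  rw [tr_affine (trG f c a ρ s) (c - a + s⁻¹ • a) (inv_pos.2 hs),
    ← integral_indicator measurableSet_closedBall, smul_eq_mul, ← integral_const_mul]
  congr 1
  funext v
  have e1 : c - a + s⁻¹ • a + s⁻¹ • v = c - a + s⁻¹ • (a + v) := by
    rw [smul_add]
    abel
  have e2 : c - a + s⁻¹ • (a + v) - c + a = s⁻¹ • (a + v) := by abel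
  have e3 : s • s⁻¹ • (a + v) - a = v := by
    rw [smul_smul, mul_inv_cancel₀ hs.ne', one_smul]
    abel
  rw [e1]
  unfold trG
  rw [e2, e3, map_smul, smul_eq_mul]
  by_cases h : v ∈ closedBall (0 : EuclideanSpace ℝ (Fin d)) ρ
  · rw [indicator_of_mem h, if_pos (by rwa [mem_closedBall, dist_zero_right] at h)]
    unfold trF
    obtain ⟨k, rfl⟩ : ∃ k, d = k + 1 := ⟨d - 1, by omega⟩
    rw [Nat.add_sub_cancel]
    generalize (fderiv ℝ f (c - a + s⁻¹ • (a + v))) (a + v) = X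
    rw [inv_pow]
    field_simp
    ring
  · rw [indicator_of_notMem h, if_neg (by rwa [mem_closedBall, dist_zero_right] at h)]
    ring

theorem trG_integrable {f : EuclideanSpace ℝ (Fin d) → ℝ} (hf : ContDiff ℝ 1 f)
    (hfc : HasCompactSupport f) (c a : EuclideanSpace ℝ (Fin d)) (ρ : ℝ) :
    Integrable (Function.uncurry (trG f c a ρ))
      ((volume.restrict (Icc (1 / 2 : ℝ) 1)).prod volume) := by
  have h1 : Integrable (fun s : ℝ => s ^ (d - 1)) (volume.restrict (Icc (1 / 2 : ℝ) 1)) :=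
    (continuous_id.pow (d - 1)).continuousOn.integrableOn_compact isCompact_Icc
  have hcont : Continuous (fun z : EuclideanSpace ℝ (Fin d) => fderiv ℝ f z (z - c + a)) :=
    (hf.continuous_fderiv (by norm_num)).clm_apply (by fun_prop)
  have h2 : Integrable (fun z : EuclideanSpace ℝ (Fin d) => fderiv ℝ f z (z - c + a)) := by
    refine hcont.integrable_of_hasCompactSupport ?_
    refine (hfc.fderiv (𝕜 := ℝ)).mono ?_
    intro z hz
    rw [Function.mem_support] at hz ⊢
    intro h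
    exact hz (by rw [h]; rfl)
  have h3 := h1.mul_prod h2
  have hset : MeasurableSet {p : ℝ × EuclideanSpace ℝ (Fin d) | ‖p.1 • (p.2 - c + a) - a‖ ≤ ρ} := by
    refine (isClosed_le ?_ continuous_const).measurableSet
    fun_prop
  have h4 := h3.indicator hset
  refine h4.congr (Filter.Eventually.of_forall fun p => ?_)
  unfold Function.uncurry trG
  by_cases h : ‖p.1 • (p.2 - c + a) - a‖ ≤ ρ
  · rw [indicator_of_mem (show p ∈ {p : ℝ × EuclideanSpace ℝ (Fin d) |
      ‖p.1 • (p.2 - c + a) - a‖ ≤ ρ} from h), if_pos h, mul_one]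
  · rw [indicator_of_notMem (show p ∉ {p : ℝ × EuclideanSpace ℝ (Fin d) |
      ‖p.1 • (p.2 - c + a) - a‖ ≤ ρ} from h), if_neg h, mul_zero, zero_mul]

/-- `A(c+a,2ρ) - A(c,ρ) = avg_{|v|≤ρ} (f(c+a+2v) - f(c+v))`, and
`f(c+a+2v) - f(c+v) = ∫_{1/2}^1 ⟪∇f(c-a+s⁻¹(a+v)), a+v⟫ s⁻² ds`
(derivative in `s` of `-f(c-a+s⁻¹(a+v))`); then Fubini and, for fixed `s`, the substitution
`z = c - a + s⁻¹(a+v)`, i.e. `v = s P - a`, `P = z - c + a`, `dv = s^d dz`. -/
theorem transport (hd : 1 ≤ d) {f : EuclideanSpace ℝ (Fin d) → ℝ} (hf : ContDiff ℝ 1 f)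
    (hfc : HasCompactSupport f) (c a : EuclideanSpace ℝ (Fin d)) {ρ : ℝ} (hρ : 0 < ρ) :
    av f (c + a) (2 * ρ) - av f c ρ =
      ∫ z, ⟪gradient f z, ((volume.real (closedBall (0 : EuclideanSpace ℝ (Fin d)) ρ))⁻¹ *
        kap ρ a (z - c + a)) • (z - c + a)⟫ := by
  have h1 := tr_av f (c + a) (l := 2) (by norm_num) hρ
  have h2 := tr_av f c (l := 1) (by norm_num) hρ
  rw [one_mul] at h2
  rw [h1, h2, ← mul_sub]
  have hc : Continuous f := hf.continuous
  have i1 : IntegrableOn (fun v => f (c + a + (2 : ℝ) • v))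
      (closedBall (0 : EuclideanSpace ℝ (Fin d)) ρ) :=
    (hc.comp (by fun_prop)).continuousOn.integrableOn_compact (isCompact_closedBall _ _)
  have i2 : IntegrableOn (fun v => f (c + (1 : ℝ) • v))
      (closedBall (0 : EuclideanSpace ℝ (Fin d)) ρ) :=
    (hc.comp (by fun_prop)).continuousOn.integrableOn_compact (isCompact_closedBall _ _)
  rw [← integral_sub i1 i2]
  have h3 : ∫ v in closedBall (0 : EuclideanSpace ℝ (Fin d)) ρ,
      (f (c + a + (2 : ℝ) • v) - f (c + (1 : ℝ) • v)) =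
      ∫ v in closedBall (0 : EuclideanSpace ℝ (Fin d)) ρ, ∫ s in Icc (1 / 2 : ℝ) 1,
        trF f c a v s := by
    congr 1
    funext v
    exact trF_ftc hf c a v
  have h4 : ∫ v in closedBall (0 : EuclideanSpace ℝ (Fin d)) ρ, ∫ s in Icc (1 / 2 : ℝ) 1,
        trF f c a v s = ∫ s in Icc (1 / 2 : ℝ) 1,
          ∫ v in closedBall (0 : EuclideanSpace ℝ (Fin d)) ρ, trF f c a v s := by
    refine integral_integral_swap ?_
    rw [Measure.prod_restrict]
    exact (trF_cont hf c a _).integrableOn_compact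
      ((isCompact_closedBall _ _).prod isCompact_Icc)
  have h5 : ∫ s in Icc (1 / 2 : ℝ) 1,
          ∫ v in closedBall (0 : EuclideanSpace ℝ (Fin d)) ρ, trF f c a v s =
      ∫ s in Icc (1 / 2 : ℝ) 1, ∫ z, trG f c a ρ s z := by
    refine setIntegral_congr_fun measurableSet_Icc (fun s hs => ?_)
    exact trG_subst hd f c a ρ (lt_of_lt_of_le (by norm_num) hs.1)
  have h6 : ∫ s in Icc (1 / 2 : ℝ) 1, ∫ z, trG f c a ρ s z =
      ∫ z, ∫ s in Icc (1 / 2 : ℝ) 1, trG f c a ρ s z :=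
    integral_integral_swap (trG_integrable hf hfc c a ρ)
  have h7 : ∀ z, ∫ s in Icc (1 / 2 : ℝ) 1, trG f c a ρ s z =
      kap ρ a (z - c + a) * fderiv ℝ f z (z - c + a) := by
    intro z
    unfold trG kap
    rw [integral_mul_const]
  rw [h3, h4, h5, h6, ← integral_const_mul]
  congr 1
  funext z
  rw [h7, inner_smul_right, gradient, InnerProductSpace.toDual_symm_apply]
  ring

end Vale.Agent.P137
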