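import Vale.Agent.P137.Kernel
import Vale.Agent.P137.Transport
import Vale.Agent.P137.Cone

/-! The averaged kernel `W z = r⁻¹ ∑ i, ∫ x in X i, ker e x (c i) (ρ i) z`. -/

open MeasureTheory Metric Set Filter Topology
open scoped RealInnerProductSpace ENNReal

namespace Vale.Agent.P137

variable {d : ℕ}

theorem continuous_kap_smul {ρ : ℝ} (hρ : 0 < ρ) :
    Continuous (fun q : EuclideanSpace ℝ (Fin d) × EuclideanSpace ℝ (Fin d) =>
      kap ρ q.1 q.2 • q.2) := by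
  rw [continuous_iff_continuousAt]
  intro q0
  rw [ContinuousAt, tendsto_iff_norm_sub_tendsto_zero]
  have h0 : Tendsto (fun q : EuclideanSpace ℝ (Fin d) × EuclideanSpace ℝ (Fin d) =>
      (‖q.2 - q0.2‖ + ‖q.1 - q0.1‖) +
        4 * √((‖q.2 - q0.2‖ + ‖q.1 - q0.1‖) * (2 * ρ + (‖q.2 - q0.2‖ + ‖q.1 - q0.1‖))))
      (𝓝 q0) (𝓝 0) := by
    have hc : Continuous (fun q : EuclideanSpace ℝ (Fin d) × EuclideanSpace ℝ (Fin d) =>
      (‖q.2 - q0.2‖ + ‖q.1 - q0.1‖) +
        4 * √((‖q.2 - q0.2‖ + ‖q.1 - q0.1‖) *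
          (2 * ρ + (‖q.2 - q0.2‖ + ‖q.1 - q0.1‖)))) := by
      fun_prop
    have := hc.tendsto q0
    simpa using this
  refine squeeze_zero (fun q => norm_nonneg _) (fun q => ?_) h0
  exact kap_holder hρ q.1 q0.1 q.2 q0.2

theorem ker_eq (e x c : EuclideanSpace ℝ (Fin d)) (ρ : ℝ) (z : EuclideanSpace ℝ (Fin d)) :
    ker e x c ρ z = (volume.real (closedBall (0 : EuclideanSpace ℝ (Fin d)) ρ))⁻¹ •
      (kap ρ ((x - c) + (2 * ρ) • e) (z - c + ((x - c) + (2 * ρ) • e)) •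
        (z - c + ((x - c) + (2 * ρ) • e))) := by
  rw [ker, smul_smul]

theorem continuous_ker {ρ : ℝ} (hρ : 0 < ρ) (e c : EuclideanSpace ℝ (Fin d)) :
    Continuous (fun q : EuclideanSpace ℝ (Fin d) × EuclideanSpace ℝ (Fin d) =>
      ker e q.2 c ρ q.1) := by
  simp_rw [ker_eq]
  have h1 : Continuous (fun q : EuclideanSpace ℝ (Fin d) × EuclideanSpace ℝ (Fin d) =>
      ((((q.2 - c) + (2 * ρ) • e), (q.1 - c + ((q.2 - c) + (2 * ρ) • e))) :
        EuclideanSpace ℝ (Fin d) × EuclideanSpace ℝ (Fin d))) := by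
    fun_prop
  have h2 := (continuous_kap_smul (d := d) hρ).comp h1
  simp only [Function.comp_def] at h2
  exact h2.const_smul (volume.real (closedBall (0 : EuclideanSpace ℝ (Fin d)) ρ))⁻¹

theorem volr_pos (d : ℕ) {r : ℝ} (hr : 0 < r) :
    0 < volume.real (closedBall (0 : EuclideanSpace ℝ (Fin d)) r) := by
  rw [Measure.real, ENNReal.toReal_pos_iff]
  exact ⟨measure_closedBall_pos volume _ hr, measure_closedBall_lt_top⟩

theorem volr_scale (z : EuclideanSpace ℝ (Fin d)) {t r : ℝ} (ht : 0 ≤ t) (hr : 0 ≤ r) :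
    volume.real (closedBall z (t * r)) =
      t ^ d * volume.real (closedBall (0 : EuclideanSpace ℝ (Fin d)) r) := by
  rw [Measure.real, Measure.real, Measure.addHaar_closedBall volume z (mul_nonneg ht hr),
    Measure.addHaar_closedBall volume 0 hr, ENNReal.toReal_mul, ENNReal.toReal_mul,
    ENNReal.toReal_ofReal (by positivity), ENNReal.toReal_ofReal (by positivity)]
  simp only [finrank_euclideanSpace, Fintype.card_fin]
  ring

theorem volr_mono {r s : ℝ} (h : r ≤ s) :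
    volume.real (closedBall (0 : EuclideanSpace ℝ (Fin d)) r) ≤
      volume.real (closedBall (0 : EuclideanSpace ℝ (Fin d)) s) := by
  refine measureReal_mono (closedBall_subset_closedBall h) ?_
  exact measure_closedBall_lt_top.ne

section setup

variable {e ctr : EuclideanSpace ℝ (Fin d)} {r : ℝ} {n : ℕ}
  {c : Fin n → EuclideanSpace ℝ (Fin d)} {ρ : Fin n → ℝ}
  {X : Fin n → Set (EuclideanSpace ℝ (Fin d))}

theorem vol_X_lt_top (hX : ∀ i, X i ⊆ ball ctr (16 * r)) (i : Fin n) :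
    volume (X i) < ∞ :=
  lt_of_le_of_lt (measure_mono (hX i)) measure_ball_lt_top

theorem sum_vol_inter (hXm : ∀ i, MeasurableSet (X i))
    (hdisj : ∀ i j, i ≠ j → Disjoint (X i) (X j)) (B : Set (EuclideanSpace ℝ (Fin d)))
    (hB : MeasurableSet B) (hBf : volume B ≠ ∞) :
    ∑ i, volume.real (X i ∩ B) ≤ volume.real B := by
  have h1 : volume.real (⋃ i, (X i ∩ B)) = ∑ i, volume.real (X i ∩ B) := by
    refine measureReal_iUnion_fintype ?_ (fun i => (hXm i).inter hB) (fun i => ?_)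
    · intro i j hij
      exact (hdisj i j hij).mono inter_subset_left inter_subset_left
    · exact ne_top_of_le_ne_top hBf (measure_mono inter_subset_right)
  rw [← h1]
  exact measureReal_mono (iUnion_subset fun i => inter_subset_right) hBf

theorem sum_vol (hr : 0 < r) (hXm : ∀ i, MeasurableSet (X i))
    (hdisj : ∀ i j, i ≠ j → Disjoint (X i) (X j)) (hX : ∀ i, X i ⊆ ball ctr (16 * r)) :
    ∑ i, volume.real (X i) ≤
      16 ^ d * volume.real (closedBall (0 : EuclideanSpace ℝ (Fin d)) r) := by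
  rw [← volr_scale ctr (by norm_num : (0 : ℝ) ≤ 16) hr.le]
  refine le_trans (le_of_eq ?_) (sum_vol_inter hXm hdisj (closedBall ctr (16 * r))
    measurableSet_closedBall measure_closedBall_lt_top.ne)
  refine Finset.sum_congr rfl fun i _ => ?_
  rw [inter_eq_left.mpr ((hX i).trans ball_subset_closedBall)]

theorem integrableOn_ker (hX : ∀ i, X i ⊆ ball ctr (16 * r)) (i : Fin n) {s : ℝ} (hs : 0 < s)
    (e z c : EuclideanSpace ℝ (Fin d)) :
    IntegrableOn (fun x => ker e x c s z) (X i) := by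
  have h1 : Continuous (fun x : EuclideanSpace ℝ (Fin d) =>
      ((z, x) : EuclideanSpace ℝ (Fin d) × EuclideanSpace ℝ (Fin d))) := by fun_prop
  have hc := (continuous_ker hs e c).comp h1
  simp only [Function.comp_def] at hc
  have h2 : IntegrableOn (fun x => ker e x c s z) (closedBall ctr (16 * r)) :=
    hc.continuousOn.integrableOn_compact (isCompact_closedBall _ _)
  exact h2.mono_set ((hX i).trans ball_subset_closedBall)

/-- the averaged kernel -/
noncomputable def WW (e : EuclideanSpace ℝ (Fin d)) (r : ℝ) (c : Fin n → EuclideanSpace ℝ (Fin d))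
    (ρ : Fin n → ℝ) (X : Fin n → Set (EuclideanSpace ℝ (Fin d)))
    (z : EuclideanSpace ℝ (Fin d)) : EuclideanSpace ℝ (Fin d) :=
  r⁻¹ • ∑ i, ∫ x in X i, ker e x (c i) (ρ i) z

theorem WW_lower_unit (hd : 2 ≤ d) (he : ‖e‖ = 1) (hr : 0 < r)
    (hρ : ∀ i, r ≤ ρ i ∧ ρ i ≤ 2 * r)
    (hXm : ∀ i, MeasurableSet (X i)) (hdisj : ∀ i j, i ≠ j → Disjoint (X i) (X j))
    (hXc : ∀ i, X i ⊆ closedBall (c i) (ρ i)) (hX : ∀ i, X i ⊆ ball ctr (16 * r))
    {m : EuclideanSpace ℝ (Fin d)} (hm : ‖m‖ = 1) (z : EuclideanSpace ℝ (Fin d)) :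
    -(2 * 32 ^ d * ‖m - e‖ ^ 4) ≤ ⟪m, WW e r c ρ X z⟫ := by
  have hV : 0 < volume.real (closedBall (0 : EuclideanSpace ℝ (Fin d)) r) := volr_pos d hr
  set V := volume.real (closedBall (0 : EuclideanSpace ℝ (Fin d)) r) with hVdef
  set θ := ‖m - e‖ with hθ
  have hθ0 : 0 ≤ θ := norm_nonneg _
  have hθ2 : θ ≤ 2 := by
    calc θ ≤ ‖m‖ + ‖e‖ := norm_sub_le _ _
      _ = 2 := by rw [hm, he]; norm_num
  have hterm : ∀ i, -(V⁻¹ * θ ^ 2 * (2 * r)) *
      volume.real (X i ∩ closedBall z ((16 * θ) * r)) ≤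
      ⟪m, ∫ x in X i, ker e x (c i) (ρ i) z⟫ := by
    intro i
    have hρi : 0 < ρ i := lt_of_lt_of_le hr (hρ i).1
    have hint := integrableOn_ker hX i hρi e z (c i)
    rw [← integral_inner hint.integrable]
    have h1 : ∫ x in X i, (closedBall z ((16 * θ) * r)).indicator
        (fun _ => -(V⁻¹ * θ ^ 2 * (2 * r))) x =
        -(V⁻¹ * θ ^ 2 * (2 * r)) * volume.real (X i ∩ closedBall z ((16 * θ) * r)) := by
      rw [setIntegral_indicator measurableSet_closedBall, setIntegral_const, smul_eq_mul, mul_comm]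
    rw [← h1]
    refine setIntegral_mono_on ?_ ?_ (hXm i) ?_
    · refine IntegrableOn.indicator ?_ measurableSet_closedBall
      exact integrableOn_const (vol_X_lt_top hX i).ne
    · exact hint.const_inner m
    · intro x hx
      have hxc : ‖x - c i‖ ≤ ρ i := by
        have := hXc i hx
        rwa [mem_closedBall, dist_eq_norm] at this
      refine le_trans ?_ (ker_lower hd he hm hρi hxc z)
      have hVi : V ≤ volume.real (closedBall (0 : EuclideanSpace ℝ (Fin d)) (ρ i)) :=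
        volr_mono (hρ i).1
      by_cases hz : ‖z - x‖ ≤ 8 * θ * ρ i
      · have hz2 : x ∈ closedBall z ((16 * θ) * r) := by
          rw [mem_closedBall, dist_comm, dist_eq_norm]
          refine hz.trans ?_
          have : 8 * θ * ρ i ≤ 8 * θ * (2 * r) :=
            mul_le_mul_of_nonneg_left (hρ i).2 (by positivity)
          linarith
        rw [indicator_of_mem hz2, if_pos hz, mul_one, neg_le_neg_iff]
        have h3 : (volume.real (closedBall (0 : EuclideanSpace ℝ (Fin d)) (ρ i)))⁻¹ ≤ V⁻¹ :=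
          inv_anti₀ hV hVi
        calc (volume.real (closedBall (0 : EuclideanSpace ℝ (Fin d)) (ρ i)))⁻¹ * (θ ^ 2 * ρ i)
            ≤ V⁻¹ * (θ ^ 2 * (2 * r)) := by
              refine mul_le_mul h3 ?_ (by positivity) (by positivity)
              exact mul_le_mul_of_nonneg_left (hρ i).2 (by positivity)
          _ = V⁻¹ * θ ^ 2 * (2 * r) := by ring
      · rw [if_neg hz, mul_zero, neg_zero]
        by_cases hz2 : x ∈ closedBall z ((16 * θ) * r)
        · rw [indicator_of_mem hz2]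
          have : 0 ≤ V⁻¹ * θ ^ 2 * (2 * r) := by positivity
          linarith
        · rw [indicator_of_notMem hz2]
  have hsum : ⟪m, WW e r c ρ X z⟫ = r⁻¹ * ∑ i, ⟪m, ∫ x in X i, ker e x (c i) (ρ i) z⟫ := by
    rw [WW, real_inner_smul_right, inner_sum]
  rw [hsum]
  have h5 : -(V⁻¹ * θ ^ 2 * (2 * r)) * (V * (16 * θ) ^ d) ≤
      ∑ i, ⟪m, ∫ x in X i, ker e x (c i) (ρ i) z⟫ := by
    refine le_trans ?_ (Finset.sum_le_sum fun i _ => hterm i)
    rw [← Finset.mul_sum]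
    have h6 : ∑ i, volume.real (X i ∩ closedBall z ((16 * θ) * r)) ≤ V * (16 * θ) ^ d := by
      refine (sum_vol_inter hXm hdisj _ measurableSet_closedBall
        measure_closedBall_lt_top.ne).trans ?_
      rw [volr_scale z (by positivity) hr.le, mul_comm]
    exact mul_le_mul_of_nonpos_left h6 (neg_nonpos.mpr (by positivity))
  have h7 : -(V⁻¹ * θ ^ 2 * (2 * r)) * (V * (16 * θ) ^ d) = -(2 * 16 ^ d * θ ^ (d + 2)) * r := by
    have : V⁻¹ * V = 1 := inv_mul_cancel₀ hV.ne'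
    calc -(V⁻¹ * θ ^ 2 * (2 * r)) * (V * (16 * θ) ^ d)
        = -((V⁻¹ * V) * θ ^ 2 * (2 * r)) * (16 * θ) ^ d := by ring
      _ = -(2 * 16 ^ d * θ ^ (d + 2)) * r := by rw [this, mul_pow]; ring
  rw [h7] at h5
  have h8 : -(2 * 16 ^ d * θ ^ (d + 2)) ≤
      r⁻¹ * ∑ i, ⟪m, ∫ x in X i, ker e x (c i) (ρ i) z⟫ := by
    rw [inv_mul_eq_div, le_div_iff₀ hr]
    exact h5
  refine le_trans ?_ h8
  rw [neg_le_neg_iff]
  obtain ⟨k, rfl⟩ : ∃ k, d = k + 2 := ⟨d - 2, by omega⟩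
  have h9 : θ ^ (k + 2 + 2) ≤ 2 ^ (k + 2) * θ ^ 4 := by
    have : θ ^ k ≤ 2 ^ k := pow_le_pow_left₀ hθ0 hθ2 k
    calc θ ^ (k + 2 + 2) = θ ^ k * θ ^ 4 := by ring
      _ ≤ 2 ^ k * θ ^ 4 := mul_le_mul_of_nonneg_right this (by positivity)
      _ ≤ 2 ^ (k + 2) * θ ^ 4 := by
        refine mul_le_mul_of_nonneg_right ?_ (by positivity)
        exact pow_le_pow_right₀ (by norm_num) (by omega)
  calc 2 * 16 ^ (k + 2) * θ ^ (k + 2 + 2) ≤ 2 * 16 ^ (k + 2) * (2 ^ (k + 2) * θ ^ 4) :=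
        mul_le_mul_of_nonneg_left h9 (by positivity)
    _ = 2 * (16 * 2) ^ (k + 2) * θ ^ 4 := by rw [mul_pow]; ring
    _ = 2 * 32 ^ (k + 2) * θ ^ 4 := by norm_num

theorem WW_lower (hd : 2 ≤ d) (he : ‖e‖ = 1) (hr : 0 < r)
    (hρ : ∀ i, r ≤ ρ i ∧ ρ i ≤ 2 * r)
    (hXm : ∀ i, MeasurableSet (X i)) (hdisj : ∀ i j, i ≠ j → Disjoint (X i) (X j))
    (hXc : ∀ i, X i ⊆ closedBall (c i) (ρ i)) (hX : ∀ i, X i ⊆ ball ctr (16 * r))
    (z w : EuclideanSpace ℝ (Fin d)) :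
    -(8 * 32 ^ d * Exc e w ^ 2) ≤ ⟪w, WW e r c ρ X z⟫ * ‖w‖ := by
  by_cases hw : w = 0
  · subst hw
    simp [Exc]
  have hw0 : 0 < ‖w‖ := norm_pos_iff.mpr hw
  set m : EuclideanSpace ℝ (Fin d) := ‖w‖⁻¹ • w with hm
  have hwm : w = ‖w‖ • m := by rw [hm, smul_smul, mul_inv_cancel₀ hw0.ne', one_smul]
  have hm1 : ‖m‖ = 1 := by
    rw [hm, norm_smul, norm_inv, norm_norm, inv_mul_cancel₀ hw0.ne']
  have h := WW_lower_unit hd he hr hρ hXm hdisj hXc hX hm1 z
  have hexc : Exc e w = ‖w‖ * (1 - ⟪m, e⟫) := by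
    rw [Exc]
    conv_lhs => rw [hwm]
    rw [norm_smul, norm_norm, hm1, real_inner_smul_left]
    ring
  have hth : ‖m - e‖ ^ 2 = 2 * (1 - ⟪m, e⟫) := by
    rw [norm_sub_sq_real, hm1, he]
    ring
  have h4 : ‖m - e‖ ^ 4 = 4 * (1 - ⟪m, e⟫) ^ 2 := by
    calc ‖m - e‖ ^ 4 = (‖m - e‖ ^ 2) ^ 2 := by ring
      _ = _ := by rw [hth]; ring
  have hin : ⟪w, WW e r c ρ X z⟫ = ‖w‖ * ⟪m, WW e r c ρ X z⟫ := by
    conv_lhs => rw [hwm]
    rw [real_inner_smul_left]
  rw [hin, hexc]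
  rw [h4] at h
  have h10 := mul_le_mul_of_nonneg_left h (mul_self_nonneg ‖w‖)
  calc -(8 * 32 ^ d * (‖w‖ * (1 - ⟪m, e⟫)) ^ 2)
      = ‖w‖ * ‖w‖ * -(2 * 32 ^ d * (4 * (1 - ⟪m, e⟫) ^ 2)) := by ring
    _ ≤ ‖w‖ * ‖w‖ * ⟪m, WW e r c ρ X z⟫ := h10
    _ = ‖w‖ * ⟪m, WW e r c ρ X z⟫ * ‖w‖ := by ring

theorem norm_WW_le (hd : 2 ≤ d) (he : ‖e‖ = 1) (hr : 0 < r)
    (hρ : ∀ i, r ≤ ρ i ∧ ρ i ≤ 2 * r)
    (hXm : ∀ i, MeasurableSet (X i)) (hdisj : ∀ i j, i ≠ j → Disjoint (X i) (X j))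
    (hXc : ∀ i, X i ⊆ closedBall (c i) (ρ i)) (hX : ∀ i, X i ⊆ ball ctr (16 * r))
    (z : EuclideanSpace ℝ (Fin d)) :
    ‖WW e r c ρ X z‖ ≤ 16 * 16 ^ d := by
  have hV : 0 < volume.real (closedBall (0 : EuclideanSpace ℝ (Fin d)) r) := volr_pos d hr
  set V := volume.real (closedBall (0 : EuclideanSpace ℝ (Fin d)) r) with hVdef
  have h1 : ∀ i, ‖∫ x in X i, ker e x (c i) (ρ i) z‖ ≤ (V⁻¹ * (16 * r)) * volume.real (X i) := by
    intro i
    have hρi : 0 < ρ i := lt_of_lt_of_le hr (hρ i).1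
    have hVi : V ≤ volume.real (closedBall (0 : EuclideanSpace ℝ (Fin d)) (ρ i)) :=
      volr_mono (hρ i).1
    refine norm_setIntegral_le_of_norm_le_const (vol_X_lt_top hX i) fun x hx => ?_
    have hxc : ‖x - c i‖ ≤ ρ i := by
      have := hXc i hx
      rwa [mem_closedBall, dist_eq_norm] at this
    refine (norm_ker_le (by omega) he hρi hxc z).trans ?_
    refine mul_le_mul (inv_anti₀ hV hVi) ?_ (by positivity) (by positivity)
    linarith [(hρ i).2]
  have h2 : ‖∑ i, ∫ x in X i, ker e x (c i) (ρ i) z‖ ≤ (V⁻¹ * (16 * r)) * (16 ^ d * V) := by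
    refine (norm_sum_le _ _).trans ?_
    refine (Finset.sum_le_sum fun i _ => h1 i).trans ?_
    rw [← Finset.mul_sum]
    exact mul_le_mul_of_nonneg_left (sum_vol hr hXm hdisj hX) (by positivity)
  rw [WW, norm_smul, norm_inv, Real.norm_of_nonneg hr.le, inv_mul_le_iff₀ hr]
  refine h2.trans (le_of_eq ?_)
  have : V⁻¹ * V = 1 := inv_mul_cancel₀ hV.ne'
  calc V⁻¹ * (16 * r) * (16 ^ d * V) = (V⁻¹ * V) * (16 * r) * 16 ^ d := by ring
    _ = r * (16 * 16 ^ d) := by rw [this]; ring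

theorem WW_holder (hd : 2 ≤ d) (he : ‖e‖ = 1) (hr : 0 < r)
    (hρ : ∀ i, r ≤ ρ i ∧ ρ i ≤ 2 * r)
    (hXm : ∀ i, MeasurableSet (X i)) (hdisj : ∀ i j, i ≠ j → Disjoint (X i) (X j))
    (hXc : ∀ i, X i ⊆ closedBall (c i) (ρ i)) (hX : ∀ i, X i ⊆ ball ctr (16 * r))
    (z z' : EuclideanSpace ℝ (Fin d)) :
    ‖WW e r c ρ X z - WW e r c ρ X z'‖ ≤ 256 * 16 ^ d * √(‖z - z'‖ / (64 * r)) := by
  have hV : 0 < volume.real (closedBall (0 : EuclideanSpace ℝ (Fin d)) r) := volr_pos d hr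
  set V := volume.real (closedBall (0 : EuclideanSpace ℝ (Fin d)) r) with hVdef
  set D := ‖z - z'‖ with hD
  have hD0 : 0 ≤ D := norm_nonneg _
  have hsq : √(D / (64 * r)) = √(D / r) / 8 := by
    rw [show D / (64 * r) = (D / r) / 8 ^ 2 by field_simp; ring, Real.sqrt_div (by positivity),
      Real.sqrt_sq (by norm_num)]
  rw [hsq]
  by_cases hDr : D ≤ r
  · have h1 : ∀ i, ‖(∫ x in X i, ker e x (c i) (ρ i) z) - ∫ x in X i, ker e x (c i) (ρ i) z'‖ ≤
        (V⁻¹ * (10 * (r * √(D / r)))) * volume.real (X i) := by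
      intro i
      have hρi : 0 < ρ i := lt_of_lt_of_le hr (hρ i).1
      have hVi : V ≤ volume.real (closedBall (0 : EuclideanSpace ℝ (Fin d)) (ρ i)) :=
        volr_mono (hρ i).1
      rw [← integral_sub (integrableOn_ker hX i hρi e z (c i)).integrable
        (integrableOn_ker hX i hρi e z' (c i)).integrable]
      refine norm_setIntegral_le_of_norm_le_const (vol_X_lt_top hX i) fun x hx => ?_
      rw [ker_eq, ker_eq, ← smul_sub, norm_smul, norm_inv,
        Real.norm_of_nonneg (volr_pos d hρi).le]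
      refine mul_le_mul (inv_anti₀ hV hVi) ?_ (norm_nonneg _) (by positivity)
      have hk := kap_holder hρi ((x - c i) + (2 * ρ i) • e) ((x - c i) + (2 * ρ i) • e)
        (z - c i + ((x - c i) + (2 * ρ i) • e)) (z' - c i + ((x - c i) + (2 * ρ i) • e))
      refine hk.trans ?_
      rw [sub_self, norm_zero, add_zero,
        show (z - c i + ((x - c i) + (2 * ρ i) • e)) - (z' - c i + ((x - c i) + (2 * ρ i) • e)) =
          z - z' by abel, ← hD]
      -- D + 4 √(D (2ρ + D)) ≤ 10 r √(D/r)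
      set q := √(D / r) with hq
      have hq0 : 0 ≤ q := Real.sqrt_nonneg _
      have hq1 : q ≤ 1 := by
        rw [hq, Real.sqrt_le_one]
        rw [div_le_one hr]
        exact hDr
      have hqD : D = r * q ^ 2 := by
        rw [hq, Real.sq_sqrt (by positivity)]
        field_simp
      have h3 : √(D * (2 * ρ i + D)) ≤ 9 / 4 * (r * q) := by
        rw [Real.sqrt_le_left (by positivity)]
        rw [hqD]
        have h4 : 2 * ρ i + r * q ^ 2 ≤ 5 * r := by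
          have : q ^ 2 ≤ 1 := pow_le_one₀ hq0 hq1
          nlinarith [(hρ i).2]
        calc r * q ^ 2 * (2 * ρ i + r * q ^ 2) ≤ r * q ^ 2 * (5 * r) :=
              mul_le_mul_of_nonneg_left h4 (by positivity)
          _ ≤ (9 / 4 * (r * q)) ^ 2 := by nlinarith [sq_nonneg (r * q)]
      have h5 : D ≤ r * q := by
        rw [hqD, pow_two]
        nlinarith [mul_nonneg hr.le hq0]
      linarith
    have h2 : ‖∑ i, ((∫ x in X i, ker e x (c i) (ρ i) z) - ∫ x in X i, ker e x (c i) (ρ i) z')‖ ≤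
        (V⁻¹ * (10 * (r * √(D / r)))) * (16 ^ d * V) := by
      refine (norm_sum_le _ _).trans ?_
      refine (Finset.sum_le_sum fun i _ => h1 i).trans ?_
      rw [← Finset.mul_sum]
      exact mul_le_mul_of_nonneg_left (sum_vol hr hXm hdisj hX) (by positivity)
    rw [WW, WW, ← smul_sub, ← Finset.sum_sub_distrib, norm_smul, norm_inv,
      Real.norm_of_nonneg hr.le, inv_mul_le_iff₀ hr]
    refine h2.trans ?_
    have : V⁻¹ * V = 1 := inv_mul_cancel₀ hV.ne'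
    calc V⁻¹ * (10 * (r * √(D / r))) * (16 ^ d * V)
        = (V⁻¹ * V) * (10 * (r * √(D / r))) * 16 ^ d := by ring
      _ = r * (10 * 16 ^ d * √(D / r)) := by rw [this]; ring
      _ ≤ r * (256 * 16 ^ d * (√(D / r) / 8)) := by
        refine mul_le_mul_of_nonneg_left ?_ hr.le
        have : 0 ≤ (16 : ℝ) ^ d * √(D / r) := by positivity
        nlinarith
  · have h1 : 1 ≤ √(D / r) := by
      rw [Real.one_le_sqrt, one_le_div hr]
      exact (not_le.mp hDr).le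
    have h2 := norm_WW_le hd he hr hρ hXm hdisj hXc hX z
    have h3 := norm_WW_le hd he hr hρ hXm hdisj hXc hX z'
    have h4 := norm_sub_le (WW e r c ρ X z) (WW e r c ρ X z')
    have h5 : (0 : ℝ) ≤ 16 ^ d := by positivity
    nlinarith [mul_le_mul_of_nonneg_left h1 h5]

theorem WW_eq_zero (hd : 2 ≤ d) (he : ‖e‖ = 1) (hr : 0 < r)
    (hρ : ∀ i, r ≤ ρ i ∧ ρ i ≤ 2 * r)
    (hXc : ∀ i, X i ⊆ closedBall (c i) (ρ i)) (hX : ∀ i, X i ⊆ ball ctr (16 * r))
    (z : EuclideanSpace ℝ (Fin d)) (hz : 28 * r ≤ dist z ctr) : WW e r c ρ X z = 0 := by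
  rw [WW, Finset.sum_eq_zero, smul_zero]
  intro i _
  refine setIntegral_eq_zero_of_forall_eq_zero fun x hx => ?_
  have hρi : 0 < ρ i := lt_of_lt_of_le hr (hρ i).1
  have hxc : ‖x - c i‖ ≤ ρ i := by
    have := hXc i hx
    rwa [mem_closedBall, dist_eq_norm] at this
  refine ker_eq_zero (by omega) he hρi hxc ?_
  have h1 : dist x ctr < 16 * r := hX i hx
  have h2 : dist z ctr ≤ dist z x + dist x ctr := dist_triangle _ _ _
  rw [← dist_eq_norm]
  linarith [(hρ i).2]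

theorem continuous_gradient {f : EuclideanSpace ℝ (Fin d) → ℝ} (hf : ContDiff ℝ 1 f) :
    Continuous (gradient f) := by
  unfold gradient
  exact (LinearIsometryEquiv.continuous _).comp (hf.continuous_fderiv one_ne_zero)

theorem gradient_eq_zero_of_notMem {f : EuclideanSpace ℝ (Fin d) → ℝ}
    {z : EuclideanSpace ℝ (Fin d)} (hz : z ∉ tsupport f) : gradient f z = 0 := by
  unfold gradient
  rw [fderiv_of_notMem_tsupport (𝕜 := ℝ) hz, map_zero]

theorem fubini_ker (hd : 2 ≤ d) (hr : 0 < r)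
    (hρ : ∀ i, r ≤ ρ i ∧ ρ i ≤ 2 * r)
    (hXm : ∀ i, MeasurableSet (X i)) (hX : ∀ i, X i ⊆ ball ctr (16 * r))
    {f : EuclideanSpace ℝ (Fin d) → ℝ} (hf : ContDiff ℝ 1 f) (hfc : HasCompactSupport f)
    (i : Fin n) :
    Integrable (fun z => ⟪gradient f z, ∫ x in X i, ker e x (c i) (ρ i) z⟫) ∧
    ∫ z, ⟪gradient f z, ∫ x in X i, ker e x (c i) (ρ i) z⟫ =
      ∫ x in X i, (av f (x + (2 * ρ i) • e) (2 * ρ i) - av f (c i) (ρ i)) := by
  have hρi : 0 < ρ i := lt_of_lt_of_le hr (hρ i).1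
  have hcont : Continuous (fun q : EuclideanSpace ℝ (Fin d) × EuclideanSpace ℝ (Fin d) =>
      (⟪gradient f q.1, ker e q.2 (c i) (ρ i) q.1⟫ : ℝ)) :=
    Continuous.inner ((continuous_gradient hf).comp continuous_fst) (continuous_ker hρi e (c i))
  have hint0 : IntegrableOn (fun q : EuclideanSpace ℝ (Fin d) × EuclideanSpace ℝ (Fin d) =>
      (⟪gradient f q.1, ker e q.2 (c i) (ρ i) q.1⟫ : ℝ)) (tsupport f ×ˢ closedBall ctr (16 * r))
      (volume.prod volume) :=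
    hcont.continuousOn.integrableOn_compact (hfc.isCompact.prod (isCompact_closedBall _ _))
  have hint1 : IntegrableOn (fun q : EuclideanSpace ℝ (Fin d) × EuclideanSpace ℝ (Fin d) =>
      (⟪gradient f q.1, ker e q.2 (c i) (ρ i) q.1⟫ : ℝ)) (tsupport f ×ˢ X i)
      (volume.prod volume) :=
    hint0.mono_set (prod_mono subset_rfl ((hX i).trans ball_subset_closedBall))
  have hint2 : IntegrableOn (fun q : EuclideanSpace ℝ (Fin d) × EuclideanSpace ℝ (Fin d) =>
      (⟪gradient f q.1, ker e q.2 (c i) (ρ i) q.1⟫ : ℝ)) (univ ×ˢ X i)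
      (volume.prod volume) := by
    refine hint1.of_forall_sdiff_eq_zero (MeasurableSet.univ.prod (hXm i)) ?_
    rintro ⟨z, x⟩ ⟨⟨_, hx⟩, hq⟩
    have hz : z ∉ tsupport f := fun hz => hq ⟨hz, hx⟩
    simp only
    rw [gradient_eq_zero_of_notMem hz, inner_zero_left]
  have hint : Integrable (fun q : EuclideanSpace ℝ (Fin d) × EuclideanSpace ℝ (Fin d) =>
      (⟪gradient f q.1, ker e q.2 (c i) (ρ i) q.1⟫ : ℝ)) (volume.prod (volume.restrict (X i))) := by
    have h1 := hint2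
    rw [IntegrableOn, ← Measure.prod_restrict, Measure.restrict_univ] at h1
    exact h1
  have hin : ∀ z, (⟪gradient f z, ∫ x in X i, ker e x (c i) (ρ i) z⟫ : ℝ) =
      ∫ x in X i, ⟪gradient f z, ker e x (c i) (ρ i) z⟫ := by
    intro z
    rw [← integral_inner (integrableOn_ker hX i hρi e z (c i)).integrable]
  constructor
  · simp_rw [hin]
    exact hint.integral_prod_left
  · simp_rw [hin]
    rw [integral_integral_swap hint]
    refine integral_congr_ae (Eventually.of_forall fun x => ?_)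
    have ht := transport (by omega) hf hfc (c i) ((x - c i) + (2 * ρ i) • e) hρi
    have h3 : c i + ((x - c i) + (2 * ρ i) • e) = x + (2 * ρ i) • e := by abel
    rw [h3] at ht
    exact ht.symm

end setup

/-- (b) for a unit vector `n`, `θ = ‖n-e‖`, `ker_lower` and disjointness of the `X i` give
`⟪n,W z⟫ ≥ -r⁻¹ |B_r|⁻¹ 2r θ² |B_{16θr}| = -2·16^d θ^(d+2) ≥ -2·32^d θ^4`, `θ² = 2 Exc e n`;
(c) `kap_holder` (same `a`) for `‖z-z'‖ ≤ r`, `norm_ker_le` otherwise, `|⋃ X i| ≤ 16^d |B_r|`;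
identity: Fubini and `transport` (`c + a = x + 2ρe`). -/
theorem calW (d : ℕ) (hd : 2 ≤ d) : ∃ K H : ℝ, 0 ≤ K ∧ 0 ≤ H ∧
    ∀ (e ctr : EuclideanSpace ℝ (Fin d)) (r : ℝ) (n : ℕ)
      (c : Fin n → EuclideanSpace ℝ (Fin d)) (ρ : Fin n → ℝ)
      (X : Fin n → Set (EuclideanSpace ℝ (Fin d))),
      ‖e‖ = 1 → 0 < r → (∀ i, r ≤ ρ i ∧ ρ i ≤ 2 * r) → (∀ i, MeasurableSet (X i)) →
      (∀ i j, i ≠ j → Disjoint (X i) (X j)) → (∀ i, X i ⊆ closedBall (c i) (ρ i)) →
      (∀ i, X i ⊆ ball ctr (16 * r)) →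
      ∃ W : EuclideanSpace ℝ (Fin d) → EuclideanSpace ℝ (Fin d),
        (∀ z w : EuclideanSpace ℝ (Fin d), -(K * Exc e w ^ 2) ≤ ⟪w, W z⟫ * ‖w‖) ∧
        (∀ z z' : EuclideanSpace ℝ (Fin d), ‖W z - W z'‖ ≤ H * √(‖z - z'‖ / (64 * r))) ∧
        (∀ z : EuclideanSpace ℝ (Fin d), 28 * r ≤ dist z ctr → W z = 0) ∧
        ∀ f : EuclideanSpace ℝ (Fin d) → ℝ, ContDiff ℝ 1 f → HasCompactSupport f →
          ∫ z, ⟪gradient f z, W z⟫ =
            r⁻¹ * ∑ i, ∫ x in X i,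
              (av f (x + (2 * ρ i) • e) (2 * ρ i) - av f (c i) (ρ i)) := by
  refine ⟨8 * 32 ^ d, 256 * 16 ^ d, by positivity, by positivity, ?_⟩
  intro e ctr r n c ρ X he hr hρ hXm hdisj hXc hX
  refine ⟨WW e r c ρ X, WW_lower hd he hr hρ hXm hdisj hXc hX,
    WW_holder hd he hr hρ hXm hdisj hXc hX, WW_eq_zero hd he hr hρ hXc hX, ?_⟩
  intro f hf hfc
  have h1 : ∀ z, (⟪gradient f z, WW e r c ρ X z⟫ : ℝ) =
      r⁻¹ * ∑ i, ⟪gradient f z, ∫ x in X i, ker e x (c i) (ρ i) z⟫ := by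
    intro z
    rw [WW, real_inner_smul_right, inner_sum]
  simp_rw [h1]
  rw [integral_const_mul, integral_finsetSum]
  · congr 1
    exact Finset.sum_congr rfl fun i _ => (fubini_ker hd hr hρ hXm hX hf hfc i).2
  · intro i _
    exact (fubini_ker hd hr hρ hXm hX hf hfc i).1

end Vale.Agent.P137
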