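import Vale.Agent.P137.Basic

/-! The unit cube and dyadic splitting. -/

open MeasureTheory Metric Set Filter Topology
open scoped RealInnerProductSpace ENNReal

namespace Vale.Agent.P137

variable {d : ℕ} {F : Type*} [NormedAddCommGroup F] [NormedSpace ℝ F]

theorem measurableSet_ucube : MeasurableSet (ucube d) := by
  have : ucube d = ⋂ i, (fun y : EuclideanSpace ℝ (Fin d) => y i) ⁻¹' Set.Ico 0 1 := by
    ext y; simp [ucube]
  rw [this]
  refine MeasurableSet.iInter fun i => ?_
  have hc : Continuous fun y : EuclideanSpace ℝ (Fin d) => y i := by fun_prop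
  exact hc.measurable measurableSet_Ico

theorem volume_ucube : volume (ucube d) = 1 := by
  have h : ucube d = (WithLp.ofLp : EuclideanSpace ℝ (Fin d) → Fin d → ℝ) ⁻¹'
      (Set.univ.pi fun _ => Set.Ico (0 : ℝ) 1) := by
    ext y; simp [ucube]
  rw [h, (PiLp.volume_preserving_ofLp (Fin d)).measure_preimage]
  · rw [Real.volume_pi_Ico]
    simp
  · exact (MeasurableSet.univ_pi fun _ => measurableSet_Ico).nullMeasurableSet

/-- the cube is contained in a ball -/
theorem norm_le_of_mem_ucube {y : EuclideanSpace ℝ (Fin d)} (hy : y ∈ ucube d) :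
    ‖y‖ ≤ Real.sqrt d := by
  rw [EuclideanSpace.norm_eq]
  apply Real.sqrt_le_sqrt
  calc ∑ i, ‖y i‖ ^ 2 ≤ ∑ _i : Fin d, (1 : ℝ) := by
        refine Finset.sum_le_sum fun i _ => ?_
        have := hy i
        rw [Real.norm_eq_abs, sq_abs]
        nlinarith
    _ = d := by simp

/-- the ball of radius `1/2` around the centre is contained in the cube -/
theorem ball_subset_ucube :
    ball (ctr0 d) (1 / 2) ⊆ ucube d := by
  intro y hy i
  have h1 : ‖y - ctr0 d‖ < 1 / 2 := by rw [← dist_eq_norm]; exact hy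
  have h2 : ‖(y - ctr0 d) i‖ ≤ ‖y - ctr0 d‖ := PiLp.norm_apply_le _ i
  have h3 : (y - ctr0 d) i = y i - 1 / 2 := by simp [ctr0]
  rw [h3, Real.norm_eq_abs] at h2
  have h4 := abs_lt.1 (lt_of_le_of_lt h2 h1)
  constructor <;> linarith [h4.1, h4.2]

theorem integrableOn_cube {g : EuclideanSpace ℝ (Fin d) → F} (hg : LocallyIntegrable g)
    (z : EuclideanSpace ℝ (Fin d)) {l : ℝ} (hl : 0 < l) :
    IntegrableOn (fun y => g (z + l • y)) (ucube d) := by
  have hK : IntegrableOn g (closedBall z (l * Real.sqrt d)) :=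
    hg.integrableOn_isCompact (isCompact_closedBall _ _)
  have hG : Integrable ((closedBall z (l * Real.sqrt d)).indicator g) :=
    (integrable_indicator_iff measurableSet_closedBall).2 hK
  have h1 : Integrable fun y => (closedBall z (l * Real.sqrt d)).indicator g (z + l • y) :=
    (hG.comp_add_left z).comp_smul hl.ne'
  refine (h1.integrableOn (s := ucube d)).congr_fun ?_ measurableSet_ucube
  intro y hy
  have : z + l • y ∈ closedBall z (l * Real.sqrt d) := by
    rw [mem_closedBall, dist_eq_norm, add_sub_cancel_left, norm_smul, Real.norm_of_nonneg hl.le]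
    exact mul_le_mul_of_nonneg_left (norm_le_of_mem_ucube hy) hl.le
  exact indicator_of_mem this g

/-- the children of the unit cube -/
def chd (d : ℕ) (σ : Fin d → Fin 2) : Set (EuclideanSpace ℝ (Fin d)) :=
  {y | (2 : ℝ) • y - cor σ ∈ ucube d}

theorem measurableSet_chd (σ : Fin d → Fin 2) : MeasurableSet (chd d σ) := by
  have hc : Continuous fun y : EuclideanSpace ℝ (Fin d) => (2 : ℝ) • y - cor σ := by fun_prop
  exact hc.measurable measurableSet_ucube

theorem mem_chd {σ : Fin d → Fin 2} {y : EuclideanSpace ℝ (Fin d)} :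
    y ∈ chd d σ ↔ ∀ i, ((σ i : ℕ) : ℝ) ≤ 2 * y i ∧ 2 * y i < ((σ i : ℕ) : ℝ) + 1 := by
  unfold chd ucube cor
  simp only [mem_ofPred_eq, PiLp.sub_apply, PiLp.smul_apply, smul_eq_mul, sub_nonneg]
  refine forall_congr' fun i => and_congr Iff.rfl ?_
  rw [sub_lt_iff_lt_add']

theorem iUnion_chd : ⋃ σ, chd d σ = ucube d := by
  ext y
  rw [mem_iUnion]
  constructor
  · rintro ⟨σ, h⟩ i
    have h1 := mem_chd.1 h i
    have h2 : ((σ i : ℕ) : ℝ) ≤ 1 := by
      have := (σ i).2
      have : (σ i : ℕ) ≤ 1 := by omega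
      exact_mod_cast this
    have h3 : (0 : ℝ) ≤ ((σ i : ℕ) : ℝ) := Nat.cast_nonneg _
    constructor <;> linarith [h1.1, h1.2]
  · intro h
    refine ⟨fun i => if 1 ≤ 2 * y i then 1 else 0, mem_chd.2 fun i => ?_⟩
    have h1 := h i
    by_cases hc : 1 ≤ 2 * y i
    · simp only [hc, if_true]
      constructor
      · simpa using hc
      · simp; linarith [h1.2]
    · simp only [hc, if_false]
      push Not at hc
      constructor
      · simp; exact h1.1
      · simpa using hc

theorem disjoint_chd : Pairwise (Function.onFun Disjoint (chd d)) := by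
  intro σ τ hne
  rw [Function.onFun, Set.disjoint_left]
  intro y h1 h2
  apply hne
  funext i
  have a1 := mem_chd.1 h1 i
  have a2 := mem_chd.1 h2 i
  have b1 : ((σ i : ℕ) : ℝ) < ((τ i : ℕ) : ℝ) + 1 := by linarith [a1.1, a2.2]
  have b2 : ((τ i : ℕ) : ℝ) < ((σ i : ℕ) : ℝ) + 1 := by linarith [a2.1, a1.2]
  have c1 : (σ i : ℕ) < (τ i : ℕ) + 1 := by exact_mod_cast b1
  have c2 : (τ i : ℕ) < (σ i : ℕ) + 1 := by exact_mod_cast b2
  exact Fin.ext (by omega)

theorem integral_chd (h : EuclideanSpace ℝ (Fin d) → F) (σ : Fin d → Fin 2) :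
    ∫ y in chd d σ, h y = ((2 : ℝ) ^ d)⁻¹ • ∫ v in ucube d, h ((1 / 2 : ℝ) • (v + cor σ)) := by
  rw [← integral_indicator (measurableSet_chd σ), ← integral_indicator measurableSet_ucube]
  have e1 : (fun y => (chd d σ).indicator h y) =
      fun y => (fun u => (ucube d).indicator
        (fun v => h ((1 / 2 : ℝ) • (v + cor σ))) (u - cor σ)) ((2 : ℝ) • y) := by
    funext y
    by_cases hy : y ∈ chd d σ
    · have hy' : (2 : ℝ) • y - cor σ ∈ ucube d := hy
      rw [indicator_of_mem hy]
      show _ = (ucube d).indicator (fun v => h ((1 / 2 : ℝ) • (v + cor σ))) ((2 : ℝ) • y - cor σ)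
      rw [indicator_of_mem hy', sub_add_cancel, smul_smul]
      norm_num
    · have hy' : (2 : ℝ) • y - cor σ ∉ ucube d := hy
      rw [indicator_of_notMem hy]
      show _ = (ucube d).indicator (fun v => h ((1 / 2 : ℝ) • (v + cor σ))) ((2 : ℝ) • y - cor σ)
      rw [indicator_of_notMem hy']
  have e2 := Measure.integral_comp_smul (volume : Measure (EuclideanSpace ℝ (Fin d)))
    (fun u => (ucube d).indicator (fun v => h ((1 / 2 : ℝ) • (v + cor σ))) (u - cor σ)) (2 : ℝ)
  have e3 := integral_sub_right_eq_self (μ := (volume : Measure (EuclideanSpace ℝ (Fin d))))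
    (fun u => (ucube d).indicator (fun v => h ((1 / 2 : ℝ) • (v + cor σ))) u) (cor σ)
  rw [e1, e2, e3, finrank_euclideanSpace_fin]
  congr 1
  exact abs_of_pos (by positivity)

/-- splitting of the unit cube in its `2^d` children -/
theorem cav_split [CompleteSpace F] {g : EuclideanSpace ℝ (Fin d) → F} (hg : LocallyIntegrable g)
    (z : EuclideanSpace ℝ (Fin d)) {l : ℝ} (hl : 0 < l) :
    cav g z l = ((2 : ℝ) ^ d)⁻¹ •
      ∑ σ : Fin d → Fin 2, cav g (z + (l / 2) • cor σ) (l / 2) := by
  have hint := integrableOn_cube hg z hl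
  have h1 : cav g z l = ∑ σ : Fin d → Fin 2, ∫ y in chd d σ, g (z + l • y) := by
    unfold cav
    rw [← iUnion_chd]
    exact integral_iUnion_fintype (fun σ => measurableSet_chd σ) disjoint_chd fun σ =>
      hint.mono_set (by rw [← iUnion_chd]; exact subset_iUnion _ σ)
  rw [h1, Finset.smul_sum]
  refine Finset.sum_congr rfl fun σ _ => ?_
  rw [integral_chd]
  congr 1
  unfold cav
  refine integral_congr_ae (Eventually.of_forall fun v => ?_)
  show g (z + l • ((1 / 2 : ℝ) • (v + cor σ))) = g (z + (l / 2) • cor σ + (l / 2) • v)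
  congr 1
  rw [smul_smul, smul_add, add_assoc, add_comm ((l / 2) • cor σ)]
  congr 2 <;> · congr 1; ring

end Vale.Agent.P137
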