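import Vale.Agent.P137.MgeBasic

/-! The total variation of the maximal function over large balls tends to zero. -/

open MeasureTheory Metric Set Filter Topology
open scoped RealInnerProductSpace ENNReal

namespace Vale.Agent.P137

variable {d : ℕ} {f : EuclideanSpace ℝ (Fin d) → ℝ}

theorem Mge_iter (hf : Continuous f) (hf0 : ∀ x, 0 ≤ f x) {R0 R : ℝ} (hR0 : 0 ≤ R0)
    (hfR : ∀ x, R0 < ‖x‖ → f x = 0) (hR : 0 < R) (k : ℕ) :
    ∀ y : EuclideanSpace ℝ (Fin d), R0 + 2 * (2 ^ k * R) < ‖y‖ →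
      Mge f R y = Mge f (2 ^ k * R) y := by
  induction k with
  | zero => intro y _; rw [pow_zero, one_mul]
  | succ k ih =>
    intro y hy
    have hk : 0 < 2 ^ k * R := by positivity
    have e : (2 : ℝ) ^ (k + 1) * R = 2 * (2 ^ k * R) := by rw [pow_succ]; ring
    rw [e] at hy
    rw [ih y (by linarith), e]
    exact Mge_eq_of_far hf hf0 hR0 hfR hk (by linarith)

/-- the constant in the gradient bound -/
noncomputable def dcC (f : EuclideanSpace ℝ (Fin d) → ℝ) : ℝ :=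
  d * ((volume.real (closedBall (0 : EuclideanSpace ℝ (Fin d)) 1))⁻¹ * ∫ y, f y)

theorem dcC_nonneg (hf0 : ∀ x, 0 ≤ f x) : 0 ≤ dcC f := by
  have : 0 ≤ ∫ y, f y := integral_nonneg hf0
  unfold dcC; positivity

theorem fderiv_Mge_le (hf : Integrable f) (hf0 : ∀ x, 0 ≤ f x) {r : ℝ} (hr : 0 < r)
    (x : EuclideanSpace ℝ (Fin d)) : ‖fderiv ℝ (Mge f r) x‖ ≤ dcC f * (r ^ (d + 1))⁻¹ := by
  have h1 := norm_fderiv_le_of_lipschitz ℝ (x₀ := x) (Mge_lipschitz hf hf0 hr)
  have h2 : 0 ≤ ∫ y, f y := integral_nonneg fun x => hf0 x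
  rw [Real.coe_toNNReal _ (by positivity)] at h1
  refine h1.trans (le_of_eq ?_)
  rw [Measure.addHaar_real_closedBall' _ _ hr.le, finrank_euclideanSpace_fin]
  unfold dcC
  rw [mul_inv, pow_succ, mul_inv, div_eq_mul_inv]
  ring

theorem fderiv_Mge_decay (hf : Continuous f) (hfi : Integrable f) (hf0 : ∀ x, 0 ≤ f x) {R0 R : ℝ}
    (hR0 : 0 ≤ R0) (hfR : ∀ x, R0 < ‖x‖ → f x = 0) (hR : 0 < R) (hRR : R0 ≤ R)
    (x : EuclideanSpace ℝ (Fin d)) :
    ‖fderiv ℝ (Mge f R) x‖ ≤ dcC f * 6 ^ (d + 1) * ((R + ‖x‖) ^ (d + 1))⁻¹ := by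
  have hC := dcC_nonneg hf0
  have hx0 := norm_nonneg x
  have hfin : ∀ s : ℝ, 0 < s → R + ‖x‖ ≤ 6 * s → dcC f * (s ^ (d + 1))⁻¹ ≤
      dcC f * 6 ^ (d + 1) * ((R + ‖x‖) ^ (d + 1))⁻¹ := by
    intro s hs h
    rw [mul_assoc]
    refine mul_le_mul_of_nonneg_left ?_ hC
    rw [← div_eq_mul_inv, inv_eq_one_div, div_le_div_iff₀ (by positivity) (by positivity), one_mul,
      ← mul_pow]
    exact pow_le_pow_left₀ (by positivity) h _
  rcases le_or_gt ‖x‖ (3 * R) with h | h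
  · exact (fderiv_Mge_le hfi hf0 hR x).trans (hfin R hR (by linarith))
  · classical
    -- the first scale that is too large
    have hex : ∃ k : ℕ, ‖x‖ ≤ R0 + 2 * (2 ^ k * R) := by
      obtain ⟨k, hk⟩ := pow_unbounded_of_one_lt (‖x‖ / R) (by norm_num : (1 : ℝ) < 2)
      refine ⟨k, ?_⟩
      rw [div_lt_iff₀ hR] at hk
      nlinarith
    set m := Nat.find hex with hm
    have hm1 : ‖x‖ ≤ R0 + 2 * (2 ^ m * R) := Nat.find_spec hex
    have hm0 : m ≠ 0 := by
      intro h0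
      rw [h0, pow_zero, one_mul] at hm1
      linarith
    obtain ⟨k, hk⟩ : ∃ k, m = k + 1 := ⟨m - 1, by omega⟩
    have hk1 : R0 + 2 * (2 ^ k * R) < ‖x‖ := by
      have := Nat.find_min hex (m := k) (by omega)
      exact not_le.1 this
    have hs : 0 < 2 ^ k * R := by positivity
    have hs1 : R ≤ 2 ^ k * R := by
      have : (1 : ℝ) ≤ 2 ^ k := one_le_pow₀ (by norm_num)
      nlinarith
    have heq : Mge f R =ᶠ[𝓝 x] Mge f (2 ^ k * R) := by
      have ho : {y : EuclideanSpace ℝ (Fin d) | R0 + 2 * (2 ^ k * R) < ‖y‖} ∈ 𝓝 x :=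
        IsOpen.mem_nhds (isOpen_lt continuous_const continuous_norm) hk1
      filter_upwards [ho] with y hy
      exact Mge_iter hf hf0 hR0 hfR hR k y hy
    rw [heq.fderiv_eq]
    refine (fderiv_Mge_le hfi hf0 hs x).trans (hfin _ hs ?_)
    have e : (2 : ℝ) ^ (k + 1) * R = 2 * (2 ^ k * R) := by rw [pow_succ]; ring
    rw [hk, e] at hm1
    linarith

/-- for `f` supported in the ball of radius `R₀ ≤ R`: `‖∇(Mge f R)(x)‖ ≤ C ∫f (R+‖x‖)^(-d-1)`. -/
theorem TV_Mge_tendsto {d : ℕ} (hd : 1 ≤ d) {f : EuclideanSpace ℝ (Fin d) → ℝ}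
    (hf : Continuous f) (hfc : HasCompactSupport f) (hf0 : ∀ x, 0 ≤ f x) :
    Tendsto (fun R : ℝ => TV (Mge f R)) atTop (𝓝 0) := by
  have hfi : Integrable f := hf.integrable_of_hasCompactSupport hfc
  obtain ⟨R0, hR0, hfR⟩ : ∃ R0 : ℝ, 0 ≤ R0 ∧ ∀ x, R0 < ‖x‖ → f x = 0 := by
    obtain ⟨R0, h⟩ := hfc.isCompact.isBounded.subset_closedBall (0 : EuclideanSpace ℝ (Fin d))
    refine ⟨max R0 0, le_max_right _ _, fun x hx => ?_⟩
    by_contra hne
    have h1 := h (subset_tsupport f (Function.mem_support.2 hne))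
    rw [mem_closedBall_zero_iff] at h1
    exact absurd (lt_of_le_of_lt (le_max_left _ _) hx) (not_lt.2 h1)
  set C1 := dcC f * 6 ^ (d + 1) with hC1
  have hC0 : 0 ≤ C1 := mul_nonneg (dcC_nonneg hf0) (by positivity)
  have hbi : Integrable fun x : EuclideanSpace ℝ (Fin d) => C1 * ((1 + ‖x‖) ^ (d + 1))⁻¹ := by
    refine Integrable.const_mul ?_ _
    have := integrable_one_add_norm (E := EuclideanSpace ℝ (Fin d)) (μ := volume)
      (r := ((d + 1 : ℕ) : ℝ)) (by rw [finrank_euclideanSpace_fin]; push_cast; linarith)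
    refine this.congr (Eventually.of_forall fun x => ?_)
    show (1 + ‖x‖) ^ (-((d + 1 : ℕ) : ℝ)) = ((1 + ‖x‖) ^ (d + 1))⁻¹
    rw [Real.rpow_neg (by positivity), Real.rpow_natCast]
  have key := tendsto_lintegral_filter_of_dominated_convergence (μ := volume) (l := atTop)
    (F := fun (R : ℝ) (x : EuclideanSpace ℝ (Fin d)) => ‖fderiv ℝ (Mge f R) x‖ₑ)
    (f := fun _ => 0) (fun x => ENNReal.ofReal (C1 * ((1 + ‖x‖) ^ (d + 1))⁻¹)) ?_ ?_ ?_ ?_
  · simpa [TV] using key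
  · exact Eventually.of_forall fun R => (measurable_fderiv ℝ (Mge f R)).enorm
  · filter_upwards [eventually_ge_atTop (max 1 R0)] with R hR
    refine Eventually.of_forall fun x => ?_
    have hR1 : 1 ≤ R := (le_max_left _ _).trans hR
    have hR2 : R0 ≤ R := (le_max_right _ _).trans hR
    rw [← ofReal_norm]
    apply ENNReal.ofReal_le_ofReal
    refine (fderiv_Mge_decay hf hfi hf0 hR0 hfR (by linarith) hR2 x).trans ?_
    refine mul_le_mul_of_nonneg_left ?_ hC0
    exact inv_anti₀ (by positivity) (pow_le_pow_left₀ (by positivity) (by linarith) _)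
  · have := hbi.lintegral_lt_top
    exact this.ne
  · refine Eventually.of_forall fun x => ?_
    have h1 : Tendsto (fun R : ℝ => ENNReal.ofReal (C1 * ((R + ‖x‖) ^ (d + 1))⁻¹)) atTop
        (𝓝 0) := by
      have h2 : Tendsto (fun R : ℝ => C1 * ((R + ‖x‖) ^ (d + 1))⁻¹) atTop (𝓝 (C1 * 0)) := by
        refine Tendsto.const_mul _ (tendsto_inv_atTop_zero.comp ?_)
        exact (tendsto_pow_atTop (by omega)).comp (tendsto_atTop_add_const_right _ _ tendsto_id)
      rw [mul_zero] at h2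
      have h3 := ENNReal.tendsto_ofReal h2
      rwa [ENNReal.ofReal_zero] at h3
    refine tendsto_of_tendsto_of_tendsto_of_le_of_le' tendsto_const_nhds h1
      (Eventually.of_forall fun _ => bot_le) ?_
    filter_upwards [eventually_ge_atTop (max 1 R0)] with R hR
    have hR1 : 1 ≤ R := (le_max_left _ _).trans hR
    have hR2 : R0 ≤ R := (le_max_right _ _).trans hR
    rw [← ofReal_norm]
    exact ENNReal.ofReal_le_ofReal (fderiv_Mge_decay hf hfi hf0 hR0 hfR (by linarith) hR2 x)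

end Vale.Agent.P137
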