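import Vale.Agent.P137.LineLemmas

/-! The precise representative on almost every line. -/

open MeasureTheory Metric Set Filter Topology
open scoped RealInnerProductSpace ENNReal

namespace Vale.Agent.P137

variable {d : ℕ}

theorem fsl_continuous_gradient {F : EuclideanSpace ℝ (Fin d) → ℝ}
    (hF : ContDiff ℝ (⊤ : ℕ∞) F) : Continuous (gradient F) := by
  unfold gradient
  exact (InnerProductSpace.toDual ℝ (EuclideanSpace ℝ (Fin d))).symm.continuous.comp
    (hF.continuous_fderiv (by simp))

theorem fsl_hasCompactSupport_gradient {F : EuclideanSpace ℝ (Fin d) → ℝ}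
    (hc : HasCompactSupport F) : HasCompactSupport (gradient F) := by
  have h1 : HasCompactSupport (fderiv ℝ F) := hc.fderiv ℝ
  have h2 : gradient F = (InnerProductSpace.toDual ℝ (EuclideanSpace ℝ (Fin d))).symm ∘
      fderiv ℝ F := rfl
  rw [h2]
  exact h1.comp_left (map_zero _)

theorem fsl_hasDerivAt {F : EuclideanSpace ℝ (Fin d) → ℝ} (hF : ContDiff ℝ (⊤ : ℕ∞) F)
    (x e : EuclideanSpace ℝ (Fin d)) (s : ℝ) :
    HasDerivAt (fun t : ℝ => F (x + t • e)) ⟪gradient F (x + s • e), e⟫ s := by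
  have hd : DifferentiableAt ℝ F (x + s • e) :=
    (hF.differentiable (by simp)).differentiableAt
  have h1 : HasFDerivAt F (fderiv ℝ F (x + s • e)) (x + s • e) := hd.hasFDerivAt
  have h2 : HasDerivAt (fun t : ℝ => x + t • e) e s := by
    have := ((hasDerivAt_id s).smul_const e).const_add x
    simpa using this
  have h3 := h1.comp_hasDerivAt s h2
  have h4 : ⟪gradient F (x + s • e), e⟫ = fderiv ℝ F (x + s • e) e := by
    unfold gradient
    rw [InnerProductSpace.toDual_symm_apply]
  rw [h4]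
  exact h3

/-- the precise representative is an indefinite integral on almost every line -/
theorem fs_line_aux {g : EuclideanSpace ℝ (Fin d) → EuclideanSpace ℝ (Fin d)}
    {F : ℕ → EuclideanSpace ℝ (Fin d) → ℝ} (hg : Integrable g)
    (hF : ∀ n, ContDiff ℝ (⊤ : ℕ∞) (F n)) (hFc : ∀ n, HasCompactSupport (F n))
    (h2 : ∀ n, ∫ x, ‖gradient (F n) x - g x‖ ≤ (1 / 4 : ℝ) ^ n)
    {e : EuclideanSpace ℝ (Fin d)} (he : ‖e‖ = 1) :
    ∀ᵐ x, ∀ L : EuclideanSpace ℝ (Fin d) → ℝ,
      (∀ s : ℝ, Tendsto (fun n => F n (x + s • e)) atTop (𝓝 (L (x + s • e)))) → ∀ a b : ℝ,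
      IntervalIntegrable (fun s => ⟪g (x + s • e), e⟫) volume a b ∧
      L (x + b • e) = L (x + a • e) + ∫ s in a..b, ⟪g (x + s • e), e⟫ := by
  set g' := hg.1.mk g with hg'def
  have hg'm : Measurable g' := hg.1.stronglyMeasurable_mk.measurable
  have hgg' : g =ᵐ[volume] g' := hg.1.ae_eq_mk
  have hgc : ∀ n, Continuous (gradient (F n)) := fun n => fsl_continuous_gradient (hF n)
  have hgi : ∀ n, Integrable (gradient (F n)) := fun n =>
    (hgc n).integrable_of_hasCompactSupport (fsl_hasCompactSupport_gradient (hFc n))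
  have hφm : ∀ n, Measurable (fun y => ‖gradient (F n) y - g' y‖ₑ) := fun n =>
    ((hgc n).measurable.sub hg'm).enorm
  have hφi : ∀ n, ∫⁻ y, ‖gradient (F n) y - g' y‖ₑ ≤ ENNReal.ofReal ((1 / 4 : ℝ) ^ n) := by
    intro n
    have e1 : ∫⁻ y, ‖gradient (F n) y - g' y‖ₑ = ∫⁻ y, ‖gradient (F n) y - g y‖ₑ := by
      apply lintegral_congr_ae
      filter_upwards [hgg'] with y hy
      rw [hy]
    have e2 : ENNReal.ofReal (∫ y, ‖gradient (F n) y - g y‖) = ∫⁻ y, ‖gradient (F n) y - g y‖ₑ :=
      ofReal_integral_norm_eq_lintegral_enorm ((hgi n).sub hg)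
    rw [e1, ← e2]
    exact ENNReal.ofReal_le_ofReal (h2 n)
  have hsum : ∑' n, ∫⁻ y, ‖gradient (F n) y - g' y‖ₑ ≠ ⊤ := by
    have h3 : ∑' n, ∫⁻ y, ‖gradient (F n) y - g' y‖ₑ ≤ ∑' n, ENNReal.ofReal ((1 / 4 : ℝ) ^ n) :=
      ENNReal.tsum_le_tsum hφi
    refine ne_top_of_le_ne_top ?_ h3
    rw [← ENNReal.ofReal_tsum_of_nonneg (fun n => by positivity)
      (summable_geometric_of_lt_one (by norm_num) (by norm_num))]
    exact ENNReal.ofReal_ne_top
  filter_upwards [ae_line_tsum hφm he hsum, ae_line hgg' e] with x hx1 hx2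
  intro L hL a b
  -- the functions on the line
  have hline : Continuous (fun t : ℝ => x + t • e) := by fun_prop
  set γ : ℝ → ℝ := fun s => ⟪g (x + s • e), e⟫ with hγ
  set γ' : ℝ → ℝ := fun s => ⟪g' (x + s • e), e⟫ with hγ'
  have hγm : Measurable γ' := by
    have h3 : Measurable (fun s : ℝ => g' (x + s • e)) := hg'm.comp hline.measurable
    exact h3.inner measurable_const
  have hγγ : γ =ᵐ[volume] γ' := by
    filter_upwards [hx2] with t ht
    simp only [hγ, hγ']
    rw [ht]
  have hγae : AEStronglyMeasurable γ volume := ⟨γ', hγm.stronglyMeasurable, hγγ⟩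
  set G : ℕ → ℝ → ℝ := fun n s => ⟪gradient (F n) (x + s • e), e⟫ with hG
  have hGc : ∀ n, Continuous (G n) := by
    intro n
    exact ((hgc n).comp hline).inner continuous_const
  have hdiff : ∀ n, ∫⁻ t, ‖G n t - γ t‖ₑ ≤ ∫⁻ t : ℝ, ‖gradient (F n) (x + t • e) - g' (x + t • e)‖ₑ := by
    intro n
    apply lintegral_mono_ae
    filter_upwards [hx2] with t ht
    have h3 : G n t - γ t = ⟪gradient (F n) (x + t • e) - g' (x + t • e), e⟫ := by
      simp only [hG, hγ]
      rw [ht, inner_sub_left]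
    rw [h3]
    have h4 : ‖⟪gradient (F n) (x + t • e) - g' (x + t • e), e⟫‖ ≤
        ‖gradient (F n) (x + t • e) - g' (x + t • e)‖ := by
      have := norm_inner_le_norm (𝕜 := ℝ) (gradient (F n) (x + t • e) - g' (x + t • e)) e
      rw [he, mul_one] at this
      exact this
    exact enorm_le_iff_norm_le.mpr h4
  have htend : Tendsto (fun n => ∫⁻ t, ‖G n t - γ t‖ₑ) atTop (𝓝 0) := by
    have h3 := ENNReal.tendsto_atTop_zero_of_tsum_ne_top hx1
    exact tendsto_of_tendsto_of_tendsto_of_le_of_le tendsto_const_nhds h3 (fun _ => bot_le) hdiff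
  have hint : Integrable (fun t => G 0 t - γ t) := by
    refine ⟨(hGc 0).aestronglyMeasurable.sub hγae, ?_⟩
    unfold HasFiniteIntegral
    refine lt_of_le_of_lt (hdiff 0) ?_
    exact lt_top_iff_ne_top.mpr (ENNReal.ne_top_of_tsum_ne_top hx1 0)
  have hγi : ∀ a b : ℝ, IntervalIntegrable γ volume a b := by
    intro a b
    have h3 : γ = fun t => G 0 t - (G 0 t - γ t) := by
      funext t
      ring
    rw [h3]
    exact ((hGc 0).intervalIntegrable a b).sub (hint.intervalIntegrable)
  refine ⟨hγi a b, ?_⟩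
  have hset : ∀ a b : ℝ, Tendsto (fun n => ∫ t in Ioc a b, G n t) atTop (𝓝 (∫ t in Ioc a b, γ t)) := by
    intro a b
    apply tendsto_integral_of_L1
    · exact hγae.restrict
    · apply Eventually.of_forall
      intro n
      rcases le_total a b with hab | hab
      · exact (intervalIntegrable_iff_integrableOn_Ioc_of_le hab).mp ((hGc n).intervalIntegrable a b)
      · rw [Ioc_eq_empty (not_lt.mpr hab), Measure.restrict_empty]
        exact integrable_zero_measure
    · refine tendsto_of_tendsto_of_tendsto_of_le_of_le tendsto_const_nhds htend (fun _ => bot_le) ?_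
      intro n
      exact lintegral_mono' Measure.restrict_le_self le_rfl
  have hint2 : Tendsto (fun n => ∫ t in a..b, G n t) atTop (𝓝 (∫ t in a..b, γ t)) := by
    unfold intervalIntegral
    exact (hset a b).sub (hset b a)
  have hftc : ∀ n, ∫ t in a..b, G n t = F n (x + b • e) - F n (x + a • e) := by
    intro n
    exact intervalIntegral.integral_eq_sub_of_hasDerivAt
      (fun s _ => fsl_hasDerivAt (hF n) x e s) ((hGc n).intervalIntegrable a b)
  have hlim : Tendsto (fun n => F n (x + b • e) - F n (x + a • e)) atTop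
      (𝓝 (L (x + b • e) - L (x + a • e))) := (hL b).sub (hL a)
  have huniq : ∫ t in a..b, γ t = L (x + b • e) - L (x + a • e) := by
    refine tendsto_nhds_unique hint2 ?_
    simp only [hftc]
    exact hlim
  rw [huniq]
  ring

end Vale.Agent.P137
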