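import Vale.Agent.P137.Smooth
import Vale.Agent.P137.Uncentered
import Vale.Agent.P137.Approx

/-! The estimates for general `f` in `W^{1,1}`: total variation and sum over the scales. -/

open MeasureTheory Metric Set Filter Topology
open scoped RealInnerProductSpace ENNReal

namespace Vale.Agent.P137

theorem genA_grad_integrable {d : ℕ} {h : EuclideanSpace ℝ (Fin d) → ℝ} (hh : ContDiff ℝ 1 h)
    (hc : HasCompactSupport h) : Integrable (gradient h) := by
  have hgc : Continuous (gradient h) := by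
    have h1 : Continuous (fun x => fderiv ℝ h x) := hh.continuous_fderiv one_ne_zero
    exact (InnerProductSpace.toDual ℝ (EuclideanSpace ℝ (Fin d))).symm.continuous.comp h1
  have hgs : HasCompactSupport (gradient h) := by
    have h1 : HasCompactSupport (fderiv ℝ h) := hc.fderiv ℝ
    exact h1.comp_left (g := (InnerProductSpace.toDual ℝ (EuclideanSpace ℝ (Fin d))).symm)
      (map_zero _)
  exact hgc.integrable_of_hasCompactSupport hgs

/-- one approximation of `|f|` -/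
theorem genA_approx_one {d : ℕ} {f : EuclideanSpace ℝ (Fin d) → ℝ}
    {g : EuclideanSpace ℝ (Fin d) → EuclideanSpace ℝ (Fin d)} (hf : Integrable f)
    (hg : Integrable g) (hfg : IsWeakGradient f g) {ε : ℝ} (hε : 0 < ε) :
    ∃ k : EuclideanSpace ℝ (Fin d) → ℝ, ContDiff ℝ 1 k ∧ HasCompactSupport k ∧
      (∀ x, 0 ≤ k x) ∧ (∫ x, |k x - abs (f x)|) ≤ ε ∧
      (∫ x, ‖gradient k x‖) ≤ (∫ x, ‖g x‖) + ε := by
  obtain ⟨h, hh1, hh2, hh3, hh4⟩ := exists_smooth_approx hf hg hfg (half_pos hε)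
  obtain ⟨k, hk1, hk2, hk3, -, -, hk6, hk7⟩ := exists_smooth_abs hh1 hh2 (half_pos hε)
  have hk1' : ContDiff ℝ 1 k := hk1.of_le (by exact_mod_cast le_top)
  have hh1' : ContDiff ℝ 1 h := hh1.of_le (by exact_mod_cast le_top)
  have ik : Integrable k := hk1.continuous.integrable_of_hasCompactSupport hk2
  have ih : Integrable h := hh1.continuous.integrable_of_hasCompactSupport hh2
  have igk := genA_grad_integrable hk1' hk2
  have igh := genA_grad_integrable hh1' hh2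
  refine ⟨k, hk1', hk2, hk3, ?_, ?_⟩
  · have i1 : Integrable (fun x => |k x - abs (h x)|) := (ik.sub ih.abs).abs
    have i2 : Integrable (fun x => |h x - f x|) := (ih.sub hf).abs
    have h1 : ∫ x, |k x - abs (f x)| ≤ ∫ x, (|k x - abs (h x)| + |h x - f x|) := by
      apply integral_mono ((ik.sub hf.abs).abs) (i1.add i2)
      intro x
      change |k x - abs (f x)| ≤ |k x - abs (h x)| + |h x - f x|
      have h2 : k x - abs (f x) = (k x - abs (h x)) + (abs (h x) - abs (f x)) := by ring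
      rw [h2]
      refine (abs_add_le _ _).trans ?_
      have h3 := abs_abs_sub_abs_le (h x) (f x)
      linarith
    rw [integral_add i1 i2] at h1
    linarith
  · have h1 : ∫ x, ‖gradient k x‖ ≤ ∫ x, (‖g x‖ + ‖gradient h x - g x‖) := by
      apply integral_mono igk.norm (hg.norm.add (igh.sub hg).norm)
      intro x
      change ‖gradient k x‖ ≤ ‖g x‖ + ‖gradient h x - g x‖
      refine (hk6 x).trans ?_
      have := norm_add_le (g x) (gradient h x - g x)
      rwa [add_sub_cancel] at this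
    have h2 : ∫ x, (‖g x‖ + ‖gradient h x - g x‖) =
        (∫ x, ‖g x‖) + ∫ x, ‖gradient h x - g x‖ := integral_add hg.norm (igh.sub hg).norm
    rw [h2] at h1
    linarith

/-- approximating sequence -/
theorem genA_approx {d : ℕ} {f : EuclideanSpace ℝ (Fin d) → ℝ}
    {g : EuclideanSpace ℝ (Fin d) → EuclideanSpace ℝ (Fin d)} (hf : Integrable f)
    (hg : Integrable g) (hfg : IsWeakGradient f g) :
    ∃ k : ℕ → EuclideanSpace ℝ (Fin d) → ℝ, (∀ j, ContDiff ℝ 1 (k j)) ∧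
      (∀ j, HasCompactSupport (k j)) ∧ (∀ j x, 0 ≤ k j x) ∧
      (∀ j : ℕ, (∫ x, |k j x - abs (f x)|) ≤ 1 / ((j : ℝ) + 1)) ∧
      (∀ j : ℕ, (∫ x, ‖gradient (k j) x‖) ≤ (∫ x, ‖g x‖) + 1 / ((j : ℝ) + 1)) := by
  have h1 : ∀ j : ℕ, (0 : ℝ) < 1 / ((j : ℝ) + 1) := fun j => by positivity
  choose k hk using fun j => genA_approx_one hf hg hfg (h1 j)
  exact ⟨k, fun j => (hk j).1, fun j => (hk j).2.1, fun j => (hk j).2.2.1,
    fun j => (hk j).2.2.2.1, fun j => (hk j).2.2.2.2⟩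

theorem genA_tendsto {d : ℕ} {f : EuclideanSpace ℝ (Fin d) → ℝ}
    {k : ℕ → EuclideanSpace ℝ (Fin d) → ℝ} (hf : Integrable f)
    (hk1 : ∀ j, ContDiff ℝ 1 (k j)) (hk2 : ∀ j, HasCompactSupport (k j))
    (hk3 : ∀ j x, 0 ≤ k j x) (hk4 : ∀ j : ℕ, (∫ x, |k j x - abs (f x)|) ≤ 1 / ((j : ℝ) + 1))
    {r : ℝ} (hr : 0 < r) (x : EuclideanSpace ℝ (Fin d)) :
    Tendsto (fun j => Mge (k j) r x) atTop (𝓝 (Mge (fun y => |f y|) r x)) := by
  have ik : ∀ j, Integrable (k j) :=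
    fun j => (hk1 j).continuous.integrable_of_hasCompactSupport (hk2 j)
  rw [tendsto_iff_dist_tendsto_zero]
  have h2 : Tendsto (fun j : ℕ => (volume.real (closedBall (0 : EuclideanSpace ℝ (Fin d)) r))⁻¹ *
      (1 / ((j : ℝ) + 1))) atTop (𝓝 0) := by
    have := (tendsto_one_div_add_atTop_nhds_zero_nat (𝕜 := ℝ)).const_mul
      (volume.real (closedBall (0 : EuclideanSpace ℝ (Fin d)) r))⁻¹
    rwa [mul_zero] at this
  refine squeeze_zero (fun j => dist_nonneg) (fun j => ?_) h2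
  rw [Real.dist_eq]
  refine (Mge_sub_le (ik j) (hk3 j) hf.abs (fun y => abs_nonneg _) hr x).trans ?_
  gcongr
  exact hk4 j

theorem genA_lipschitz {d : ℕ} {f : EuclideanSpace ℝ (Fin d) → ℝ}
    {k : ℕ → EuclideanSpace ℝ (Fin d) → ℝ} (hf : Integrable f)
    (hk1 : ∀ j, ContDiff ℝ 1 (k j)) (hk2 : ∀ j, HasCompactSupport (k j))
    (hk3 : ∀ j x, 0 ≤ k j x) (hk4 : ∀ j : ℕ, (∫ x, |k j x - abs (f x)|) ≤ 1 / ((j : ℝ) + 1))
    {r : ℝ} (hr : 0 < r) : ∃ K : NNReal, ∀ j, LipschitzWith K (Mge (k j) r) := by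
  have ik : ∀ j, Integrable (k j) :=
    fun j => (hk1 j).continuous.integrable_of_hasCompactSupport (hk2 j)
  refine ⟨Real.toNNReal ((d / r) *
      ((volume.real (closedBall (0 : EuclideanSpace ℝ (Fin d)) r))⁻¹ * ((∫ y, |f y|) + 1))), ?_⟩
  intro j
  refine (Mge_lipschitz (ik j) (hk3 j) hr).weaken ?_
  apply Real.toNNReal_le_toNNReal
  have h1 : ∫ y, k j y ≤ (∫ y, |f y|) + 1 := by
    have h2 : ∫ y, k j y ≤ ∫ y, (|f y| + |k j y - abs (f y)|) := by
      apply integral_mono (ik j) (hf.abs.add ((ik j).sub hf.abs).abs)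
      intro y
      change k j y ≤ |f y| + |k j y - abs (f y)|
      have := le_abs_self (k j y - |f y|)
      linarith
    have h3 : ∫ y, (|f y| + |k j y - abs (f y)|) = (∫ y, |f y|) + ∫ y, |k j y - abs (f y)| :=
      integral_add hf.abs ((ik j).sub hf.abs).abs
    have h4 : 1 / ((j : ℝ) + 1) ≤ 1 := by
      rw [div_le_one (by positivity)]
      have : (0 : ℝ) ≤ j := Nat.cast_nonneg j
      linarith
    have := hk4 j
    linarith
  gcongr

/-- `TV_smooth` for `k_j → |f|` in `L¹` with `∫ ‖∇k_j‖ ≤ ∫ ‖g‖ + 1/j`, `Mge k_j r → Mge |f| r`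
uniformly, `TV_le_of_tendsto` -/
theorem TV_general (d : ℕ) (hd : 2 ≤ d) : ∃ C : ℝ, 0 ≤ C ∧
    ∀ (f : EuclideanSpace ℝ (Fin d) → ℝ) (g : EuclideanSpace ℝ (Fin d) → EuclideanSpace ℝ (Fin d)),
      Integrable f → Integrable g → IsWeakGradient f g → ∀ (k : ℤ),
      TV (Mge (fun y => |f y|) ((2 : ℝ) ^ (-k))) ≤ ENNReal.ofReal (C * ∫ y, ‖g y‖) := by
  obtain ⟨C, hC, h⟩ := TV_smooth d hd
  refine ⟨C, hC, ?_⟩
  intro f g hf hg hfg m
  obtain ⟨k, hk1, hk2, hk3, hk4, hk5⟩ := genA_approx hf hg hfg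
  have hr : (0 : ℝ) < (2 : ℝ) ^ (-m) := by positivity
  obtain ⟨K, hK⟩ := genA_lipschitz hf hk1 hk2 hk3 hk4 hr
  have hlim := fun x => genA_tendsto hf hk1 hk2 hk3 hk4 hr x
  have hN : ∀ N : ℕ, TV (Mge (fun y => |f y|) ((2 : ℝ) ^ (-m))) ≤
      ENNReal.ofReal (C * ((∫ y, ‖g y‖) + 1 / ((N : ℝ) + 1))) := by
    intro N
    refine (TV_le_of_tendsto (v := fun j => Mge (k (j + N)) ((2 : ℝ) ^ (-m))) (K := K)
      (fun j => hK _) (fun x => ?_) (fun j => ?_)).2
    · exact (tendsto_add_atTop_iff_nat (f := fun j => Mge (k j) ((2 : ℝ) ^ (-m)) x) N).mpr (hlim x)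
    · refine (h (k (j + N)) (hk1 _) (hk2 _) (hk3 _) m).trans ?_
      apply ENNReal.ofReal_le_ofReal
      have h1 := hk5 (j + N)
      have h2 : 1 / (((j + N : ℕ) : ℝ) + 1) ≤ 1 / ((N : ℝ) + 1) := by
        apply one_div_le_one_div_of_le (by positivity)
        push_cast
        have : (0 : ℝ) ≤ j := Nat.cast_nonneg j
        linarith
      gcongr
      linarith
  have h1 : Tendsto (fun N : ℕ => ENNReal.ofReal (C * ((∫ y, ‖g y‖) + 1 / ((N : ℝ) + 1)))) atTop
      (𝓝 (ENNReal.ofReal (C * ((∫ y, ‖g y‖) + 0)))) :=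
    ENNReal.tendsto_ofReal
      (((tendsto_one_div_add_atTop_nhds_zero_nat (𝕜 := ℝ)).const_add _).const_mul C)
  rw [add_zero] at h1
  exact ge_of_tendsto' h1 hN

/-- `star` and Fatou -/
theorem star_general (d : ℕ) (hd : 2 ≤ d) : ∃ C : ℝ, 0 ≤ C ∧
    ∀ (f : EuclideanSpace ℝ (Fin d) → ℝ) (g : EuclideanSpace ℝ (Fin d) → EuclideanSpace ℝ (Fin d)),
      Integrable f → Integrable g → IsWeakGradient f g → ∀ (m n : ℤ),
      ∑ k ∈ Finset.Icc m n, ENNReal.ofReal ((2 : ℝ) ^ k) *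
        ∫⁻ x, ENNReal.ofReal (Mge (fun y => |f y|) ((2 : ℝ) ^ (-k)) x -
          Mge (fun y => |f y|) ((2 : ℝ) ^ (1 - k)) x) ≤ ENNReal.ofReal (C * ∫ y, ‖g y‖) := by
  obtain ⟨C, hC, h⟩ := star d hd
  refine ⟨C, hC, ?_⟩
  intro f g hf hg hfg m n
  obtain ⟨k, hk1, hk2, hk3, hk4, hk5⟩ := genA_approx hf hg hfg
  have ik : ∀ j, Integrable (k j) :=
    fun j => (hk1 j).continuous.integrable_of_hasCompactSupport (hk2 j)
  have hpos : ∀ i : ℤ, (0 : ℝ) < (2 : ℝ) ^ i := fun i => by positivity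
  -- the differences
  set U : ℕ → ℤ → EuclideanSpace ℝ (Fin d) → ℝ := fun j i x =>
    Mge (k j) ((2 : ℝ) ^ (-i)) x - Mge (k j) ((2 : ℝ) ^ (1 - i)) x with hU
  set V : ℤ → EuclideanSpace ℝ (Fin d) → ℝ := fun i x =>
    Mge (fun y => |f y|) ((2 : ℝ) ^ (-i)) x - Mge (fun y => |f y|) ((2 : ℝ) ^ (1 - i)) x with hV
  have h21 : ∀ i : ℤ, (2 : ℝ) ^ (1 - i) = 2 * (2 : ℝ) ^ (-i) := by
    intro i
    rw [sub_eq_add_neg, zpow_add₀ (by norm_num), zpow_one]
  have hU0 : ∀ j i x, 0 ≤ U j i x := by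
    intro j i x
    simp only [hU, sub_nonneg]
    rw [h21]
    exact Mge_anti (ik j) (hk3 j) (hpos _) (by linarith [hpos (-i)]) x
  have hUi : ∀ j i, Integrable (U j i) := by
    intro j i
    simp only [hU]
    rw [h21]
    exact integrable_Mge_sub (hk1 j).continuous (hk2 j) (hk3 j) (hpos _)
  have hUc : ∀ j i, Continuous (U j i) := by
    intro j i
    exact (Mge_lipschitz (ik j) (hk3 j) (hpos _)).continuous.sub
      (Mge_lipschitz (ik j) (hk3 j) (hpos _)).continuous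
  have hVc : ∀ i, Continuous (V i) := by
    intro i
    exact (Mge_lipschitz hf.abs (fun y => abs_nonneg _) (hpos _)).continuous.sub
      (Mge_lipschitz hf.abs (fun y => abs_nonneg _) (hpos _)).continuous
  have hlim : ∀ i x, Tendsto (fun j => U j i x) atTop (𝓝 (V i x)) := by
    intro i x
    exact (genA_tendsto hf hk1 hk2 hk3 hk4 (hpos _) x).sub
      (genA_tendsto hf hk1 hk2 hk3 hk4 (hpos _) x)
  -- the sums
  have hSm : ∀ j, Measurable (fun x => ∑ i ∈ Finset.Icc m n,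
      ENNReal.ofReal ((2 : ℝ) ^ i) * ENNReal.ofReal (U j i x)) := by
    intro j
    apply Finset.measurable_fun_sum
    intro i _
    exact ((hUc j i).measurable.ennreal_ofReal).const_mul _
  have hSlim : ∀ x, Tendsto (fun j => ∑ i ∈ Finset.Icc m n,
      ENNReal.ofReal ((2 : ℝ) ^ i) * ENNReal.ofReal (U j i x)) atTop
      (𝓝 (∑ i ∈ Finset.Icc m n, ENNReal.ofReal ((2 : ℝ) ^ i) * ENNReal.ofReal (V i x))) := by
    intro x
    apply tendsto_finsetSum
    intro i _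
    exact ENNReal.Tendsto.const_mul (ENNReal.tendsto_ofReal (hlim i x))
      (Or.inr ENNReal.ofReal_ne_top)
  have hSint : ∀ j, ∫⁻ x, ∑ i ∈ Finset.Icc m n,
      ENNReal.ofReal ((2 : ℝ) ^ i) * ENNReal.ofReal (U j i x) ≤
      ENNReal.ofReal (C * ((∫ y, ‖g y‖) + 1 / ((j : ℝ) + 1))) := by
    intro j
    rw [lintegral_finsetSum _ (fun i _ => ((hUc j i).measurable.ennreal_ofReal).const_mul _)]
    have h1 : ∀ i ∈ Finset.Icc m n, ∫⁻ x, ENNReal.ofReal ((2 : ℝ) ^ i) *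
        ENNReal.ofReal (U j i x) = ENNReal.ofReal ((2 : ℝ) ^ i * ∫ x, U j i x) := by
      intro i _
      rw [lintegral_const_mul _ (hUc j i).measurable.ennreal_ofReal,
        ← ofReal_integral_eq_lintegral_ofReal (hUi j i) (ae_of_all _ (hU0 j i)),
        ENNReal.ofReal_mul (hpos i).le]
    rw [Finset.sum_congr rfl h1, ← ENNReal.ofReal_sum_of_nonneg]
    · apply ENNReal.ofReal_le_ofReal
      refine (h (k j) (hk1 j) (hk2 j) (hk3 j) m n).trans ?_
      gcongr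
      exact hk5 j
    · intro i _
      exact mul_nonneg (hpos i).le (integral_nonneg (hU0 j i))
  have hlimC : Tendsto (fun N : ℕ => ENNReal.ofReal (C * ((∫ y, ‖g y‖) + 1 / ((N : ℝ) + 1))))
      atTop (𝓝 (ENNReal.ofReal (C * ((∫ y, ‖g y‖) + 0)))) :=
    ENNReal.tendsto_ofReal
      (((tendsto_one_div_add_atTop_nhds_zero_nat (𝕜 := ℝ)).const_add _).const_mul C)
  rw [add_zero] at hlimC
  calc ∑ i ∈ Finset.Icc m n, ENNReal.ofReal ((2 : ℝ) ^ i) * ∫⁻ x, ENNReal.ofReal (V i x)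
      = ∫⁻ x, ∑ i ∈ Finset.Icc m n, ENNReal.ofReal ((2 : ℝ) ^ i) * ENNReal.ofReal (V i x) := by
        rw [lintegral_finsetSum _ (fun i _ => ((hVc i).measurable.ennreal_ofReal).const_mul _)]
        apply Finset.sum_congr rfl
        intro i _
        rw [lintegral_const_mul _ (hVc i).measurable.ennreal_ofReal]
    _ = ∫⁻ x, liminf (fun j => ∑ i ∈ Finset.Icc m n,
          ENNReal.ofReal ((2 : ℝ) ^ i) * ENNReal.ofReal (U j i x)) atTop := by
        apply lintegral_congr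
        intro x
        exact (hSlim x).liminf_eq.symm
    _ ≤ liminf (fun j => ∫⁻ x, ∑ i ∈ Finset.Icc m n,
          ENNReal.ofReal ((2 : ℝ) ^ i) * ENNReal.ofReal (U j i x)) atTop :=
        lintegral_liminf_le hSm
    _ ≤ liminf (fun j : ℕ => ENNReal.ofReal (C * ((∫ y, ‖g y‖) + 1 / ((j : ℝ) + 1)))) atTop :=
        liminf_le_liminf (Eventually.of_forall hSint)
    _ = ENNReal.ofReal (C * ∫ y, ‖g y‖) := hlimC.liminf_eq

end Vale.Agent.P137
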