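import Vale.Agent.P137.LineA

/-! Absolute continuity on lines gives the weak gradient. -/

open MeasureTheory Metric Set Filter Topology
open scoped RealInnerProductSpace ENNReal

namespace Vale.Agent.P137

/-- the translation along a line is quasi measure preserving -/
theorem wl_qmp {d : ℕ} (e : EuclideanSpace ℝ (Fin d)) (ν : Measure ℝ) [SFinite ν] :
    Measure.QuasiMeasurePreserving (fun p : ℝ × EuclideanSpace ℝ (Fin d) => p.2 + p.1 • e)
      (ν.prod volume) volume := by
  have hm : Measurable (fun p : ℝ × EuclideanSpace ℝ (Fin d) => p.2 + p.1 • e) := by fun_prop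
  refine ⟨hm, Measure.AbsolutelyContinuous.mk ?_⟩
  intro N hNm hN
  rw [Measure.map_apply hm hNm, Measure.measure_prod_null (hm hNm)]
  refine Eventually.of_forall fun s => ?_
  have : Prod.mk s ⁻¹' ((fun p : ℝ × EuclideanSpace ℝ (Fin d) => p.2 + p.1 • e) ⁻¹' N) =
      (fun x => x + s • e) ⁻¹' N := rfl
  change volume (Prod.mk s ⁻¹' ((fun p : ℝ × EuclideanSpace ℝ (Fin d) => p.2 + p.1 • e) ⁻¹' N)) = 0
  rw [this, measure_preimage_add_right]
  exact hN

/-- integrability on the product -/
theorem wl_int {d : ℕ} {q : EuclideanSpace ℝ (Fin d) → ℝ} (hq : Integrable q)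
    (e : EuclideanSpace ℝ (Fin d)) (t : ℝ) :
    Integrable (fun p : ℝ × EuclideanSpace ℝ (Fin d) => q (p.2 + p.1 • e))
      ((volume.restrict (Ioc 0 t)).prod volume) := by
  have hae : AEStronglyMeasurable (fun p : ℝ × EuclideanSpace ℝ (Fin d) => q (p.2 + p.1 • e))
      ((volume.restrict (Ioc 0 t)).prod volume) :=
    hq.1.comp_quasiMeasurePreserving (wl_qmp e _)
  rw [integrable_prod_iff hae]
  refine ⟨Eventually.of_forall fun s => hq.comp_add_right (s • e), ?_⟩
  have : (fun s : ℝ => ∫ y, ‖q (((s, y) : ℝ × EuclideanSpace ℝ (Fin d)).2 +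
      ((s, y) : ℝ × EuclideanSpace ℝ (Fin d)).1 • e)‖) = fun _ => ∫ y, ‖q y‖ := by
    funext s
    exact integral_add_right_eq_self (fun y => ‖q y‖) (s • e)
  rw [this]
  exact integrable_const _

theorem wl_key {d : ℕ} {q φ : EuclideanSpace ℝ (Fin d) → ℝ} (hq : Integrable q) {C : NNReal}
    (hφ : LipschitzWith C φ) {M : ℝ} (hM : ∀ x, ‖φ x‖ ≤ M)
    {e : EuclideanSpace ℝ (Fin d)} (he : ‖e‖ = 1) {t : ℝ} (ht : 0 < t) :
    |t⁻¹ * (∫ x, φ x * (∫ s in (0 : ℝ)..t, q (x + s • e))) - ∫ x, φ x * q x| ≤
      C * t * ∫ x, ‖q x‖ := by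
  have hint : Integrable (Function.uncurry fun (s : ℝ) (x : EuclideanSpace ℝ (Fin d)) =>
      φ x * q (x + s • e)) ((volume.restrict (Ioc 0 t)).prod volume) := by
    apply Integrable.bdd_mul (c := M) (wl_int hq e t)
    · exact (hφ.continuous.comp continuous_snd).aestronglyMeasurable
    · exact Eventually.of_forall fun p => hM p.2
  have hswap : ∫ x, φ x * (∫ s in (0 : ℝ)..t, q (x + s • e)) =
      ∫ s in (0 : ℝ)..t, ∫ x, φ x * q (x + s • e) := by
    rw [intervalIntegral.integral_of_le ht.le]
    rw [integral_integral_swap hint]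
    congr 1
    funext x
    rw [intervalIntegral.integral_of_le ht.le, integral_const_mul]
  have hA : IntervalIntegrable (fun s : ℝ => ∫ x, φ x * q (x + s • e)) volume 0 t := by
    rw [intervalIntegrable_iff_integrableOn_Ioc_of_le ht.le]
    exact hint.integral_prod_left
  have hbd : ∀ s ∈ uIoc 0 t, ‖(∫ x, φ x * q (x + s • e)) - ∫ x, φ x * q x‖ ≤
      C * t * ∫ x, ‖q x‖ := by
    intro s hs
    rw [uIoc_of_le ht.le] at hs
    have h1 : ∫ x, φ x * q (x + s • e) = ∫ x, φ (x - s • e) * q x := by
      rw [← integral_add_right_eq_self (fun x => φ (x - s • e) * q x) (s • e)]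
      simp only [add_sub_cancel_right]
    rw [h1, ← integral_sub]
    · refine (norm_integral_le_integral_norm _).trans ?_
      rw [← integral_const_mul]
      apply integral_mono_of_nonneg
      · exact Eventually.of_forall fun x => norm_nonneg _
      · exact hq.norm.const_mul _
      · refine Eventually.of_forall fun x => ?_
        simp only
        rw [← sub_mul, norm_mul]
        apply mul_le_mul_of_nonneg_right _ (norm_nonneg _)
        have := hφ.dist_le_mul (x - s • e) x
        rw [dist_eq_norm] at this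
        refine this.trans ?_
        rw [dist_eq_norm, sub_sub_cancel_left, norm_neg, norm_smul, he, mul_one, Real.norm_eq_abs,
          abs_of_pos hs.1]
        exact mul_le_mul_of_nonneg_left hs.2 C.coe_nonneg
    · apply Integrable.bdd_mul (c := M) hq
      · exact (hφ.continuous.comp (by fun_prop)).aestronglyMeasurable
      · exact Eventually.of_forall fun p => hM _
    · apply Integrable.bdd_mul (c := M) hq
      · exact hφ.continuous.aestronglyMeasurable
      · exact Eventually.of_forall fun p => hM _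
  have hfin := intervalIntegral.norm_integral_le_of_norm_le_const hbd
  rw [intervalIntegral.integral_sub hA intervalIntegrable_const, intervalIntegral.integral_const,
    sub_zero, abs_of_pos ht, smul_eq_mul, ← hswap, Real.norm_eq_abs] at hfin
  have h2 : t⁻¹ * (∫ x, φ x * (∫ s in (0 : ℝ)..t, q (x + s • e))) - ∫ x, φ x * q x =
      t⁻¹ * ((∫ x, φ x * (∫ s in (0 : ℝ)..t, q (x + s • e))) - t * ∫ x, φ x * q x) := by
    rw [mul_sub, ← mul_assoc t⁻¹ t, inv_mul_cancel₀ ht.ne', one_mul]
  rw [h2, abs_mul, abs_of_pos (inv_pos.2 ht)]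
  calc t⁻¹ * |(∫ x, φ x * (∫ s in (0 : ℝ)..t, q (x + s • e))) - t * ∫ x, φ x * q x|
      ≤ t⁻¹ * (C * t * (∫ x, ‖q x‖) * t) := by
        apply mul_le_mul_of_nonneg_left hfin (inv_pos.2 ht).le
    _ = C * t * ∫ x, ‖q x‖ := by
        field_simp

theorem wl_comp {d : ℕ} {u q : EuclideanSpace ℝ (Fin d) → ℝ} (hu : LocallyIntegrable u)
    (hq : Integrable q) {e : EuclideanSpace ℝ (Fin d)} (he : ‖e‖ = 1)
    (h : ∀ᵐ x, ∀ t ∈ Icc (0 : ℝ) 1, u (x + t • e) - u x = ∫ s in (0 : ℝ)..t, q (x + s • e))
    {φ : EuclideanSpace ℝ (Fin d) → ℝ} (hφ : ContDiff ℝ (⊤ : ℕ∞) φ) (hφc : HasCompactSupport φ) :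
    ∫ x, fderiv ℝ φ x e * u x = - ∫ x, φ x * q x := by
  obtain ⟨C, hC⟩ := hφ.lipschitzWith_of_hasCompactSupport hφc (by simp)
  obtain ⟨M, hM⟩ := hφ.continuous.bounded_above_of_compact_support hφc
  set S := cthickening 1 (tsupport φ) with hS
  have hScomp : IsCompact S := hφc.isCompact.cthickening
  set g := S.indicator u with hg
  have hgint : Integrable g :=
    (hu.integrableOn_isCompact hScomp).integrable_indicator hScomp.isClosed.measurableSet
  have hout : ∀ x ∉ S, ∀ t ∈ Icc (0 : ℝ) 1, φ (x + t • (-e)) = 0 := by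
    intro x hx t ht
    by_contra hne
    apply hx
    have h1 : x + t • (-e) ∈ tsupport φ := subset_tsupport _ hne
    refine mem_cthickening_of_dist_le x _ 1 _ h1 ?_
    rw [dist_eq_norm, sub_add_cancel_left, norm_neg, norm_smul, norm_neg, he, mul_one,
      Real.norm_eq_abs, abs_of_nonneg ht.1]
    exact ht.2
  have hlim1 := LipschitzWith.integral_inv_smul_sub_mul_tendsto_integral_lineDeriv_mul hC hgint (-e)
  -- identification of the limit
  have hL1 : ∫ x, lineDeriv ℝ φ x (-e) * g x = - ∫ x, fderiv ℝ φ x e * u x := by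
    rw [← integral_neg]
    congr 1
    funext x
    have hd : DifferentiableAt ℝ φ x := (hφ.differentiable (by simp)) x
    rw [hd.lineDeriv_eq_fderiv, map_neg]
    by_cases hx : x ∈ S
    · rw [hg, indicator_of_mem hx]; ring
    · have h0 : fderiv ℝ φ x = 0 := by
        have hx' : x ∉ tsupport φ := fun hx' => hx (self_subset_cthickening _ hx')
        exact image_eq_zero_of_notMem_tsupport
          (fun hc => hx' ((tsupport_fderiv_subset ℝ) hc))
      rw [h0]; simp
  -- identification of the approximants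
  have hL2 : ∀ t ∈ Ioc (0 : ℝ) 1, ∫ x, t⁻¹ • (φ (x + t • (-e)) - φ x) * g x =
      t⁻¹ * ∫ x, φ x * (∫ s in (0 : ℝ)..t, q (x + s • e)) := by
    intro t ht
    have htI : t ∈ Icc (0 : ℝ) 1 := ⟨ht.1.le, ht.2⟩
    have hi1 : Integrable (fun x => φ (x + t • (-e)) * u x) := by
      have hc : HasCompactSupport (fun x => φ (x + t • (-e))) := by
        have := hφc.comp_homeomorph (Homeomorph.addRight (t • (-e)))
        exact this
      have := hu.integrable_smul_left_of_hasCompactSupport
        (g := fun x => φ (x + t • (-e))) (hφ.continuous.comp (by fun_prop)) hc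
      simpa only [smul_eq_mul] using this
    have hi2 : Integrable (fun x => φ x * u x) := by
      have := hu.integrable_smul_left_of_hasCompactSupport hφ.continuous hφc
      simpa only [smul_eq_mul] using this
    have hi3 : Integrable (fun x => φ x * u (x + t • e)) := by
      have := hi1.comp_add_right (t • e)
      simpa only [smul_neg, add_neg_cancel_right] using this
    calc ∫ x, t⁻¹ • (φ (x + t • (-e)) - φ x) * g x
        = ∫ x, t⁻¹ * (φ (x + t • (-e)) * u x - φ x * u x) := by
          congr 1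
          funext x
          by_cases hx : x ∈ S
          · rw [hg, indicator_of_mem hx, smul_eq_mul]; ring
          · have h0 := hout x hx t htI
            have h1 := hout x hx 0 ⟨le_rfl, zero_le_one⟩
            rw [zero_smul, add_zero] at h1
            rw [h0, h1]; simp
      _ = t⁻¹ * ((∫ x, φ (x + t • (-e)) * u x) - ∫ x, φ x * u x) := by
          rw [integral_const_mul, integral_sub hi1 hi2]
      _ = t⁻¹ * ((∫ x, φ x * u (x + t • e)) - ∫ x, φ x * u x) := by
          congr 2
          rw [← integral_add_right_eq_self (fun x => φ (x + t • (-e)) * u x) (t • e)]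
          simp only [smul_neg, add_neg_cancel_right]
      _ = t⁻¹ * ∫ x, φ x * (∫ s in (0 : ℝ)..t, q (x + s • e)) := by
          rw [← integral_sub hi3 hi2]
          congr 1
          apply integral_congr_ae
          filter_upwards [h] with x hx
          rw [← hx t htI]; ring
  have hlim2 : Tendsto (fun t : ℝ => t⁻¹ * ∫ x, φ x * (∫ s in (0 : ℝ)..t, q (x + s • e)))
      (𝓝[>] 0) (𝓝 (∫ x, φ x * q x)) := by
    rw [tendsto_iff_norm_sub_tendsto_zero]
    have hz : Tendsto (fun t : ℝ => C * t * ∫ x, ‖q x‖) (𝓝[>] 0) (𝓝 0) := by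
      have : Tendsto (fun t : ℝ => C * t * ∫ x, ‖q x‖) (𝓝 0) (𝓝 (C * 0 * ∫ x, ‖q x‖)) := by
        apply Continuous.tendsto
        fun_prop
      rw [mul_zero, zero_mul] at this
      exact this.mono_left nhdsWithin_le_nhds
    refine squeeze_zero' (Eventually.of_forall fun t => norm_nonneg _) ?_ hz
    filter_upwards [self_mem_nhdsWithin] with t ht
    rw [Real.norm_eq_abs]
    exact wl_key hq hC hM he ht
  have hlim3 : Tendsto (fun t : ℝ => ∫ x, t⁻¹ • (φ (x + t • (-e)) - φ x) * g x)
      (𝓝[>] 0) (𝓝 (∫ x, φ x * q x)) := by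
    refine hlim2.congr' ?_
    have : Ioc (0 : ℝ) 1 ∈ 𝓝[>] (0 : ℝ) := Ioc_mem_nhdsGT one_pos
    filter_upwards [this] with t ht
    exact (hL2 t ht).symm
  have := tendsto_nhds_unique hlim1 hlim3
  rw [hL1] at this
  linarith

/-- a locally integrable function which on almost every line parallel to each axis is an
indefinite integral of the corresponding component of `G` has weak gradient `G`. -/
theorem weak_of_lines {d : ℕ} {u : EuclideanSpace ℝ (Fin d) → ℝ}
    {G : EuclideanSpace ℝ (Fin d) → EuclideanSpace ℝ (Fin d)} (hu : LocallyIntegrable u)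
    (hG : Integrable G)
    (h : ∀ i : Fin d, ∀ᵐ x, ∀ t ∈ Icc (0 : ℝ) 1,
      u (x + t • EuclideanSpace.single i 1) - u x =
        ∫ s in (0 : ℝ)..t, (G (x + s • EuclideanSpace.single i 1)) i) :
    IsWeakGradient u G := by
  intro φ hφ hφc
  obtain ⟨C, hC⟩ := hφ.lipschitzWith_of_hasCompactSupport hφc (by simp)
  obtain ⟨M, hM⟩ := hφ.continuous.bounded_above_of_compact_support hφc
  have hgc : Continuous (fun x => gradient φ x) := by
    have h1 : Continuous (fun x => fderiv ℝ φ x) := hφ.continuous_fderiv (by simp)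
    exact (LinearIsometryEquiv.continuous _).comp h1
  have hgs : HasCompactSupport (fun x => gradient φ x) := by
    have h1 : HasCompactSupport (fderiv ℝ φ) := hφc.fderiv ℝ
    exact h1.comp_left (g := (InnerProductSpace.toDual ℝ (EuclideanSpace ℝ (Fin d))).symm)
      (map_zero _)
  have hi1 : Integrable (fun x => u x • gradient φ x) :=
    hu.integrable_smul_right_of_hasCompactSupport hgc hgs
  have hi2 : Integrable (fun x => φ x • G x) := by
    exact Integrable.bdd_smul (C := M) hG hφ.continuous.aestronglyMeasurable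
      (Eventually.of_forall hM)
  ext i
  have h1 := (EuclideanSpace.proj i : EuclideanSpace ℝ (Fin d) →L[ℝ] ℝ).integral_comp_comm hi1
  have h2 := (EuclideanSpace.proj i : EuclideanSpace ℝ (Fin d) →L[ℝ] ℝ).integral_comp_comm hi2
  have hGi : Integrable (fun x => (G x) i) :=
    (EuclideanSpace.proj i : EuclideanSpace ℝ (Fin d) →L[ℝ] ℝ).integrable_comp hG
  have hc := wl_comp hu hGi (e := EuclideanSpace.single i 1) (by simp) (h i) hφ hφc
  simp only [EuclideanSpace.coe_proj, PiLp.smul_apply, smul_eq_mul] at h1 h2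
  rw [PiLp.neg_apply, ← h1, ← h2, ← hc]
  congr 1
  funext x
  rw [mul_comm]
  congr 1
  have : fderiv ℝ φ x (EuclideanSpace.single i 1) = ⟪gradient φ x, EuclideanSpace.single i 1⟫ := by
    rw [gradient, InnerProductSpace.toDual_symm_apply]
  rw [this, EuclideanSpace.inner_single_right]
  simp

end Vale.Agent.P137
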