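import Vale.Agent.P137.General
import Vale.Agent.P137.LineLemmas

/-! Almost every line is good (abstract form). -/

open MeasureTheory Metric Set Filter Topology
open scoped RealInnerProductSpace ENNReal

namespace Vale.Agent.P137

variable {d : ℕ}

theorem goodA_grad {g : EuclideanSpace ℝ (Fin d) → EuclideanSpace ℝ (Fin d)}
    {F : ℕ → EuclideanSpace ℝ (Fin d) → ℝ} (hg : Integrable g)
    (hF : ∀ n, ContDiff ℝ (⊤ : ℕ∞) (F n)) (hFc : ∀ n, HasCompactSupport (F n))
    (h2 : ∀ n, ∫ x, ‖gradient (F n) x - g x‖ ≤ (1 / 4 : ℝ) ^ n) (n : ℕ) :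
    ∫ y, ‖gradient (fun y => F (n + 1) y - F n y) y‖ ≤ 2 * (1 / 4 : ℝ) ^ n := by
  have hint : ∀ n, Integrable (fun x => gradient (F n) x) := by
    intro n
    have hc : Continuous (fun x => gradient (F n) x) := by
      unfold gradient
      exact (LinearIsometryEquiv.continuous _).comp ((hF n).continuous_fderiv (by simp))
    refine hc.integrable_of_hasCompactSupport ?_
    have h3 := (hFc n).fderiv (𝕜 := ℝ)
    refine h3.mono' ?_
    intro x hx
    by_contra hx'
    have : fderiv ℝ (F n) x = 0 := image_eq_zero_of_notMem_tsupport hx'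
    apply hx
    change (InnerProductSpace.toDual ℝ (EuclideanSpace ℝ (Fin d))).symm (fderiv ℝ (F n) x) = 0
    rw [this, map_zero]
  have hgr : ∀ y, gradient (fun y => F (n + 1) y - F n y) y =
      gradient (F (n + 1)) y - gradient (F n) y := by
    intro y
    unfold gradient
    rw [fderiv_fun_sub ((hF (n + 1)).differentiable (by simp) y)
      ((hF n).differentiable (by simp) y), map_sub]
  calc ∫ y, ‖gradient (fun y => F (n + 1) y - F n y) y‖
      ≤ ∫ y, (‖gradient (F (n + 1)) y - g y‖ + ‖gradient (F n) y - g y‖) := by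
        apply integral_mono
        · have : (fun y => ‖gradient (fun y => F (n + 1) y - F n y) y‖) =
            fun y => ‖gradient (F (n + 1)) y - gradient (F n) y‖ := by
            funext y; rw [hgr]
          rw [this]
          exact ((hint (n + 1)).sub (hint n)).norm
        · exact ((hint (n + 1)).sub hg).norm.add ((hint n).sub hg).norm
        · intro y
          simp only [hgr]
          have : gradient (F (n + 1)) y - gradient (F n) y =
            (gradient (F (n + 1)) y - g y) - (gradient (F n) y - g y) := by abel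
          rw [this]
          exact norm_sub_le _ _
    _ = (∫ y, ‖gradient (F (n + 1)) y - g y‖) + ∫ y, ‖gradient (F n) y - g y‖ :=
        integral_add ((hint (n + 1)).sub hg).norm ((hint n).sub hg).norm
    _ ≤ (1 / 4 : ℝ) ^ (n + 1) + (1 / 4 : ℝ) ^ n := add_le_add (h2 _) (h2 _)
    _ ≤ 2 * (1 / 4 : ℝ) ^ n := by
        have : (0 : ℝ) ≤ (1 / 4 : ℝ) ^ n := by positivity
        rw [pow_succ]; linarith

theorem goodA_lim {f : EuclideanSpace ℝ (Fin d) → ℝ}
    {F : ℕ → EuclideanSpace ℝ (Fin d) → ℝ}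
    (h1 : ∀ n, ∫ x, |F n x - f x| ≤ (1 / 4 : ℝ) ^ n) :
    Tendsto (fun n => ∫ y, |F n y - f y|) atTop (𝓝 0) := by
  refine squeeze_zero (fun n => integral_nonneg fun y => abs_nonneg _) h1 ?_
  exact tendsto_pow_atTop_nhds_zero_of_lt_one (by norm_num) (by norm_num)

theorem goodA_line (hd : 2 ≤ d) {f : EuclideanSpace ℝ (Fin d) → ℝ}
    {g : EuclideanSpace ℝ (Fin d) → EuclideanSpace ℝ (Fin d)}
    {F : ℕ → EuclideanSpace ℝ (Fin d) → ℝ} (hf : Integrable f) (hg : Integrable g)
    (hF : ∀ n, ContDiff ℝ (⊤ : ℕ∞) (F n)) (hFc : ∀ n, HasCompactSupport (F n))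
    (h1 : ∀ n, ∫ x, |F n x - f x| ≤ (1 / 4 : ℝ) ^ n)
    (h2 : ∀ n, ∫ x, ‖gradient (F n) x - g x‖ ≤ (1 / 4 : ℝ) ^ n)
    {e : EuclideanSpace ℝ (Fin d)} (he : ‖e‖ = 1) :
    ∀ᵐ x, ∃ ζ : ℕ → ℝ, Tendsto ζ atTop (𝓝 0) ∧
      (∀ (n : ℕ) (s : ℝ), uM (fun y => f y - F n y) (x + s • e) ≤ ENNReal.ofReal (ζ n)) ∧
      (∀ (n m : ℕ) (s : ℝ), n ≤ m → |F m (x + s • e) - F n (x + s • e)| ≤ ζ n) := by
  obtain ⟨C, hC, H⟩ := uM_smooth d hd
  have hD : ∀ n, ContDiff ℝ (⊤ : ℕ∞) (fun y => F (n + 1) y - F n y) :=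
    fun n => (hF (n + 1)).sub (hF n)
  have hDc : ∀ n, HasCompactSupport (fun y => F (n + 1) y - F n y) :=
    fun n => (hFc (n + 1)).sub (hFc n)
  have H' := fun n => H _ (hD n) (hDc n)
  set Y : ℕ → EuclideanSpace ℝ (Fin d) → ℝ :=
    fun n x => (uM (fun y => F (n + 1) y - F n y) x).toReal with hY
  have hYK : ∀ n, ∃ K : NNReal, LipschitzWith K (Y n) := fun n => (H' n).2.1
  choose K hK using hYK
  have hφm : ∀ n, Measurable (fun y => ‖fderiv ℝ (Y n) y‖ₑ) := fun n =>
    (measurable_fderiv ℝ (Y n)).enorm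
  have hsum : ∑' n, ∫⁻ y, (fun n y => ‖fderiv ℝ (Y n) y‖ₑ) n y ≠ ⊤ := by
    have hb : ∀ n, ∫⁻ y, ‖fderiv ℝ (Y n) y‖ₑ ≤ ENNReal.ofReal (C * (2 * (1 / 4 : ℝ) ^ n)) := by
      intro n
      refine ((H' n).2.2.1).trans ?_
      exact ENNReal.ofReal_le_ofReal (mul_le_mul_of_nonneg_left (goodA_grad hg hF hFc h2 n) hC)
    have hs : Summable (fun n : ℕ => C * (2 * (1 / 4 : ℝ) ^ n)) := by
      apply Summable.mul_left
      apply Summable.mul_left
      exact summable_geometric_of_lt_one (by norm_num) (by norm_num)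
    refine ne_top_of_le_ne_top ?_ (ENNReal.tsum_le_tsum hb)
    rw [← ENNReal.ofReal_tsum_of_nonneg (fun n => by positivity) hs]
    exact ENNReal.ofReal_ne_top
  have hA := ae_line_tsum hφm he hsum
  have hB : ∀ᵐ x, ∀ n, ∀ s : ℝ, ENNReal.ofReal |Y n (x + s • e)| ≤
      ∫⁻ t : ℝ, ‖fderiv ℝ (Y n) (x + t • e)‖ₑ :=
    ae_all_iff.2 fun n => line_sup (hK n) ((H' n).2.2.2.1) he
  filter_upwards [hA, hB] with x hxA hxB
  set I : ℕ → ℝ≥0∞ := fun n => ∫⁻ t : ℝ, ‖fderiv ℝ (Y n) (x + t • e)‖ₑ with hI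
  have hItop : ∀ n, ∑' m, I (m + n) ≠ ⊤ := by
    intro n
    refine ne_top_of_le_ne_top hxA ?_
    exact ENNReal.tsum_comp_le_tsum_of_injective (add_left_injective n) I
  have huM : ∀ (n : ℕ) (s : ℝ), uM (fun y => F (n + 1) y - F n y) (x + s • e) ≤ I n := by
    intro n s
    refine le_trans ?_ (hxB n s)
    have h0 : |Y n (x + s • e)| = Y n (x + s • e) := abs_of_nonneg ENNReal.toReal_nonneg
    rw [h0]
    simp only [hY]
    rw [ENNReal.ofReal_toReal ((H' n).1 _)]
  refine ⟨fun n => (∑' m, I (m + n)).toReal, ?_, ?_, ?_⟩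
  · have h3 := ENNReal.tendsto_sum_nat_add I hxA
    have h4 := (ENNReal.tendsto_toReal ENNReal.zero_ne_top).comp h3
    rw [ENNReal.toReal_zero] at h4
    exact h4
  · intro n s
    rw [ENNReal.ofReal_toReal (hItop n)]
    refine (uM_sub_le_tsum hf (fun n => (hF n).continuous.integrable_of_hasCompactSupport (hFc n))
      (goodA_lim h1) n _).trans ?_
    refine ENNReal.tsum_le_tsum fun m => ?_
    have := huM (n + m) s
    rw [add_comm m n]
    exact this
  · intro n m s hnm
    rw [← ENNReal.ofReal_le_iff_le_toReal (hItop n)]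
    have h5 : ∀ k, ENNReal.ofReal |F (n + k) (x + s • e) - F n (x + s • e)| ≤
        ∑ j ∈ Finset.range k, I (j + n) := by
      intro k
      induction k with
      | zero => simp
      | succ k ih =>
        rw [Finset.sum_range_succ]
        have h6 : |F (n + (k + 1)) (x + s • e) - F n (x + s • e)| ≤
            |F (n + k) (x + s • e) - F n (x + s • e)| +
            |F (n + k + 1) (x + s • e) - F (n + k) (x + s • e)| := by
          have : F (n + (k + 1)) (x + s • e) - F n (x + s • e) =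
            (F (n + k) (x + s • e) - F n (x + s • e)) +
            (F (n + k + 1) (x + s • e) - F (n + k) (x + s • e)) := by
            rw [← add_assoc]; ring
          rw [this]
          exact abs_add_le _ _
        refine (ENNReal.ofReal_le_ofReal h6).trans ?_
        rw [ENNReal.ofReal_add (abs_nonneg _) (abs_nonneg _)]
        refine add_le_add ih ?_
        have h7 := (H' (n + k)).2.2.2.2 (x + s • e)
        refine (ENNReal.ofReal_le_ofReal h7).trans ?_
        rw [ENNReal.ofReal_toReal ((H' (n + k)).1 _), add_comm k n]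
        exact huM (n + k) s
    have h8 := h5 (m - n)
    rw [Nat.add_sub_cancel' hnm] at h8
    exact h8.trans (ENNReal.sum_le_tsum _)

end Vale.Agent.P137
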