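import Vale.Agent.P137.Basic

/-! Lemmas on almost every line, by Tonelli and translation invariance only. -/

open MeasureTheory Metric Set Filter Topology
open scoped RealInnerProductSpace ENNReal

namespace Vale.Agent.P137

variable {d : ℕ}

theorem lineA_meas (e : EuclideanSpace ℝ (Fin d)) :
    Measurable (fun p : EuclideanSpace ℝ (Fin d) × ℝ => p.1 + p.2 • e) := by
  fun_prop

theorem lineA_section {e : EuclideanSpace ℝ (Fin d)} (he : ‖e‖ = 1) {R : ℝ} (hR : 0 ≤ R)
    (y : EuclideanSpace ℝ (Fin d)) :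
    ∫⁻ t : ℝ, (closedBall (0 : EuclideanSpace ℝ (Fin d)) R).indicator (fun _ => (1 : ℝ≥0∞))
      (y - t • e) ≤ ENNReal.ofReal (2 * R) := by
  have h1 : ∀ t : ℝ, (closedBall (0 : EuclideanSpace ℝ (Fin d)) R).indicator
      (fun _ => (1 : ℝ≥0∞)) (y - t • e) ≤
      (Icc (⟪y, e⟫ - R) (⟪y, e⟫ + R)).indicator (fun _ => (1 : ℝ≥0∞)) t := by
    intro t
    by_cases ht : y - t • e ∈ closedBall (0 : EuclideanSpace ℝ (Fin d)) R
    · have h2 : |⟪y, e⟫ - t| ≤ R := by
        have h3 : ⟪y, e⟫ - t = ⟪y - t • e, e⟫ := by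
          rw [inner_sub_left, real_inner_smul_left, real_inner_self_eq_norm_sq, he]
          ring
        rw [h3]
        refine le_trans (abs_real_inner_le_norm _ _) ?_
        rw [he, mul_one]
        simpa using ht
      rw [abs_le] at h2
      have h4 : t ∈ Icc (⟪y, e⟫ - R) (⟪y, e⟫ + R) := ⟨by linarith [h2.2], by linarith [h2.1]⟩
      rw [indicator_of_mem ht, indicator_of_mem h4]
    · rw [indicator_of_notMem ht]
      exact zero_le
  calc ∫⁻ t : ℝ, (closedBall (0 : EuclideanSpace ℝ (Fin d)) R).indicator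
        (fun _ => (1 : ℝ≥0∞)) (y - t • e)
      ≤ ∫⁻ t : ℝ, (Icc (⟪y, e⟫ - R) (⟪y, e⟫ + R)).indicator (fun _ => (1 : ℝ≥0∞)) t :=
        lintegral_mono h1
    _ = volume (Icc (⟪y, e⟫ - R) (⟪y, e⟫ + R)) := by
        rw [lintegral_indicator measurableSet_Icc, setLIntegral_one]
    _ = ENNReal.ofReal (2 * R) := by
        rw [Real.volume_Icc]
        congr 1
        ring
    _ ≤ _ := le_rfl

/-- `∫_{x ∈ B_R} ∫_t φ(x+te) dt dx = ∫_y φ(y) |{t : y - te ∈ B_R}| dy ≤ 2R ∫ φ` -/
theorem line_lintegral {φ : EuclideanSpace ℝ (Fin d) → ℝ≥0∞} (hφ : Measurable φ)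
    {e : EuclideanSpace ℝ (Fin d)} (he : ‖e‖ = 1) {R : ℝ} (hR : 0 ≤ R) :
    ∫⁻ x in closedBall (0 : EuclideanSpace ℝ (Fin d)) R, ∫⁻ t : ℝ, φ (x + t • e) ≤
      ENNReal.ofReal (2 * R) * ∫⁻ y, φ y := by
  set B : Set (EuclideanSpace ℝ (Fin d)) := closedBall (0 : EuclideanSpace ℝ (Fin d)) R with hB
  have hBm : MeasurableSet B := measurableSet_closedBall
  have hI : Measurable (B.indicator (fun _ => (1 : ℝ≥0∞))) :=
    measurable_const.indicator hBm
  have hm1 : Measurable (fun p : EuclideanSpace ℝ (Fin d) × ℝ => φ (p.1 + p.2 • e)) :=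
    hφ.comp (lineA_meas e)
  have hm2 : Measurable (fun p : ℝ × EuclideanSpace ℝ (Fin d) =>
      B.indicator (fun _ => (1 : ℝ≥0∞)) (p.2 - p.1 • e) * φ p.2) := by
    have h3 : Measurable (fun p : ℝ × EuclideanSpace ℝ (Fin d) => p.2 - p.1 • e) := by fun_prop
    exact (hI.comp h3).mul (hφ.comp measurable_snd)
  calc ∫⁻ x in B, ∫⁻ t : ℝ, φ (x + t • e)
      = ∫⁻ t : ℝ, ∫⁻ x in B, φ (x + t • e) :=
        lintegral_lintegral_swap hm1.aemeasurable
    _ = ∫⁻ t : ℝ, ∫⁻ y, B.indicator (fun _ => (1 : ℝ≥0∞)) (y - t • e) * φ y := by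
        apply lintegral_congr
        intro t
        have h4 := lintegral_add_right_eq_self
          (μ := (volume : Measure (EuclideanSpace ℝ (Fin d))))
          (fun y => B.indicator (fun _ => (1 : ℝ≥0∞)) (y - t • e) * φ y) (t • e)
        rw [← h4, ← lintegral_indicator hBm]
        apply lintegral_congr
        intro x
        rw [add_sub_cancel_right]
        by_cases hx : x ∈ B
        · rw [indicator_of_mem hx, indicator_of_mem hx, one_mul]
        · rw [indicator_of_notMem hx, indicator_of_notMem hx, zero_mul]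
    _ = ∫⁻ y, ∫⁻ t : ℝ, B.indicator (fun _ => (1 : ℝ≥0∞)) (y - t • e) * φ y :=
        lintegral_lintegral_swap hm2.aemeasurable
    _ ≤ ∫⁻ y, ENNReal.ofReal (2 * R) * φ y := by
        apply lintegral_mono
        intro y
        have h5 : Measurable (fun t : ℝ => B.indicator (fun _ => (1 : ℝ≥0∞)) (y - t • e)) := by
          have h6 : Measurable (fun t : ℝ => y - t • e) := by fun_prop
          exact hI.comp h6
        change ∫⁻ t : ℝ, B.indicator (fun _ => (1 : ℝ≥0∞)) (y - t • e) * φ y ≤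
          ENNReal.ofReal (2 * R) * φ y
        rw [lintegral_mul_const _ h5]
        gcongr
        exact lineA_section he hR y
    _ = ENNReal.ofReal (2 * R) * ∫⁻ y, φ y := lintegral_const_mul _ hφ

/-- a null set is missed by almost every line in almost every parameter -/
theorem ae_line {p : EuclideanSpace ℝ (Fin d) → Prop} (hp : ∀ᵐ x, p x)
    (e : EuclideanSpace ℝ (Fin d)) : ∀ᵐ x, ∀ᵐ t : ℝ, p (x + t • e) := by
  obtain ⟨N, hN1, hN2, hN3⟩ := exists_measurable_superset_of_null (ae_iff.mp hp)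
  have hNp : ∀ x, x ∉ N → p x := by
    intro x hx
    by_contra h
    exact hx (hN1 h)
  have hm : MeasurableSet ((fun p : EuclideanSpace ℝ (Fin d) × ℝ => p.1 + p.2 • e) ⁻¹' N) :=
    lineA_meas e hN2
  have h0 : (volume : Measure (EuclideanSpace ℝ (Fin d))).prod (volume : Measure ℝ)
      ((fun p : EuclideanSpace ℝ (Fin d) × ℝ => p.1 + p.2 • e) ⁻¹' N) = 0 := by
    rw [Measure.prod_apply_symm hm]
    rw [lintegral_eq_zero_iff (measurable_measure_prodMk_right hm)]
    filter_upwards with t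
    have h1 : (fun x => (x, t)) ⁻¹'
        ((fun p : EuclideanSpace ℝ (Fin d) × ℝ => p.1 + p.2 • e) ⁻¹' N) =
        (fun x => x + t • e) ⁻¹' N := rfl
    rw [h1, measure_preimage_add_right, hN3]
    rfl
  have h1 := (Measure.measure_prod_null hm).mp h0
  filter_upwards [h1] with x hx
  have hx' : volume (Prod.mk x ⁻¹'
    ((fun p : EuclideanSpace ℝ (Fin d) × ℝ => p.1 + p.2 • e) ⁻¹' N)) = 0 := hx
  rw [ae_iff]
  refine measure_mono_null ?_ hx'
  intro t ht
  simp only [mem_ofPred_eq] at ht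
  simp only [mem_preimage]
  by_contra hc
  exact ht (hNp _ hc)

/-- summable `L¹` norms are summable on almost every line -/
theorem ae_line_tsum {φ : ℕ → EuclideanSpace ℝ (Fin d) → ℝ≥0∞} (hφ : ∀ n, Measurable (φ n))
    {e : EuclideanSpace ℝ (Fin d)} (he : ‖e‖ = 1) (hsum : ∑' n, ∫⁻ y, φ n y ≠ ⊤) :
    ∀ᵐ x, ∑' n, ∫⁻ t : ℝ, φ n (x + t • e) ≠ ⊤ := by
  have hm : ∀ n, Measurable (fun x : EuclideanSpace ℝ (Fin d) => ∫⁻ t : ℝ, φ n (x + t • e)) :=
    fun n => ((hφ n).comp (lineA_meas e)).lintegral_prod_right'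
  have hms : Measurable (fun x : EuclideanSpace ℝ (Fin d) =>
      ∑' n, ∫⁻ t : ℝ, φ n (x + t • e)) := Measurable.tsum hm
  have hk : ∀ k : ℕ, ∀ᵐ x, x ∈ closedBall (0 : EuclideanSpace ℝ (Fin d)) (k : ℝ) →
      ∑' n, ∫⁻ t : ℝ, φ n (x + t • e) ≠ ⊤ := by
    intro k
    have h1 : ∫⁻ x in closedBall (0 : EuclideanSpace ℝ (Fin d)) (k : ℝ),
        ∑' n, ∫⁻ t : ℝ, φ n (x + t • e) ≠ ⊤ := by
      rw [lintegral_tsum (fun n => (hm n).aemeasurable)]
      have h2 : ∑' n, ∫⁻ x in closedBall (0 : EuclideanSpace ℝ (Fin d)) (k : ℝ),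
          ∫⁻ t : ℝ, φ n (x + t • e) ≤ ENNReal.ofReal (2 * k) * ∑' n, ∫⁻ y, φ n y := by
        rw [← ENNReal.tsum_mul_left]
        exact ENNReal.tsum_le_tsum fun n => line_lintegral (hφ n) he (Nat.cast_nonneg k)
      exact ne_top_of_le_ne_top (ENNReal.mul_ne_top ENNReal.ofReal_ne_top hsum) h2
    have h3 := ae_lt_top hms h1
    rw [ae_restrict_iff' measurableSet_closedBall] at h3
    filter_upwards [h3] with x hx hxk
    exact (hx hxk).ne
  rw [← ae_all_iff] at hk
  filter_upwards [hk] with x hx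
  obtain ⟨k, hk'⟩ := exists_nat_ge ‖x‖
  exact hx k (by simpa using hk')

theorem lineA_one {v : EuclideanSpace ℝ (Fin d) → ℝ} {K : NNReal} (hv : LipschitzWith K v)
    {e : EuclideanSpace ℝ (Fin d)} (he : ‖e‖ = 1) {x : EuclideanSpace ℝ (Fin d)}
    (hx : ∀ᵐ t : ℝ, DifferentiableAt ℝ v (x + t • e)) {a s : ℝ} (has : a ≤ s) :
    ENNReal.ofReal |v (x + s • e)| ≤ ENNReal.ofReal |v (x + a • e)| +
      ∫⁻ t : ℝ, ‖fderiv ℝ v (x + t • e)‖ₑ := by
  set w : ℝ → ℝ := fun t => v (x + t • e) with hw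
  have hwL : LipschitzWith K w := by
    apply LipschitzWith.of_dist_le_mul
    intro t t'
    have h1 := hv.dist_le_mul (x + t • e) (x + t' • e)
    refine h1.trans (le_of_eq ?_)
    congr 1
    rw [dist_add_left, dist_eq_norm, ← sub_smul, norm_smul, he, mul_one, Real.dist_eq,
      Real.norm_eq_abs]
  have hac : AbsolutelyContinuousOnInterval w a s :=
    (hwL.lipschitzOnWith).absolutelyContinuousOnInterval
  have h2 := hac.integral_deriv_eq_sub
  have h3 : |w s| ≤ |w a| + |∫ t in a..s, deriv w t| := by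
    rw [h2]
    have := abs_add_le (w a) (w s - w a)
    rwa [add_sub_cancel] at this
  have h4 : ENNReal.ofReal |∫ t in a..s, deriv w t| ≤
      ∫⁻ t : ℝ, ‖fderiv ℝ v (x + t • e)‖ₑ := by
    rw [intervalIntegral.integral_of_le has, ← Real.norm_eq_abs, ofReal_norm]
    refine (enorm_integral_le_lintegral_enorm _).trans ?_
    refine (setLIntegral_le_lintegral _ _).trans ?_
    apply lintegral_mono_ae
    filter_upwards [hx] with t ht
    have h5 : HasDerivAt w (fderiv ℝ v (x + t • e) e) t := by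
      have h6 : HasDerivAt (fun t : ℝ => x + t • e) e t := by
        have := ((hasDerivAt_id t).smul_const e).const_add x
        simpa using this
      exact ht.hasFDerivAt.comp_hasDerivAt t h6
    rw [h5.deriv, ← ofReal_norm, ← ofReal_norm]
    apply ENNReal.ofReal_le_ofReal
    have := (fderiv ℝ v (x + t • e)).le_opNorm e
    rwa [he, mul_one] at this
  calc ENNReal.ofReal |w s| ≤ ENNReal.ofReal (|w a| + |∫ t in a..s, deriv w t|) :=
        ENNReal.ofReal_le_ofReal h3
    _ = ENNReal.ofReal |w a| + ENNReal.ofReal |∫ t in a..s, deriv w t| :=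
        ENNReal.ofReal_add (abs_nonneg _) (abs_nonneg _)
    _ ≤ _ := by gcongr

/-- Lipschitz functions vanishing at infinity are bounded by their variation on almost every
line -/
theorem line_sup {v : EuclideanSpace ℝ (Fin d) → ℝ} {K : NNReal} (hv : LipschitzWith K v)
    (hv0 : Tendsto v (cocompact _) (𝓝 0)) {e : EuclideanSpace ℝ (Fin d)} (he : ‖e‖ = 1) :
    ∀ᵐ x, ∀ s : ℝ, ENNReal.ofReal |v (x + s • e)| ≤
      ∫⁻ t : ℝ, ‖fderiv ℝ v (x + t • e)‖ₑ := by
  have h1 := ae_line (hv.ae_differentiableAt (μ := volume)) e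
  filter_upwards [h1] with x hx s
  have hlim : Tendsto (fun a : ℝ => x + a • e) atBot (cocompact _) := by
    rw [← Metric.cobounded_eq_cocompact, ← comap_norm_atTop (E := EuclideanSpace ℝ (Fin d)),
      tendsto_comap_iff]
    have h2 : ∀ a : ℝ, |a| - ‖x‖ ≤ ‖x + a • e‖ := by
      intro a
      have h3 : ‖a • e‖ = |a| := by rw [norm_smul, he, mul_one, Real.norm_eq_abs]
      have h4 : ‖a • e‖ ≤ ‖x + a • e‖ + ‖x‖ := by
        have := norm_sub_le (x + a • e) x
        rwa [add_sub_cancel_left] at this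
      linarith
    refine tendsto_atTop_mono h2 ?_
    exact tendsto_atTop_add_const_right _ _ tendsto_abs_atBot_atTop
  have h5 : Tendsto (fun a : ℝ => ENNReal.ofReal |v (x + a • e)| +
      ∫⁻ t : ℝ, ‖fderiv ℝ v (x + t • e)‖ₑ) atBot
      (𝓝 (ENNReal.ofReal |(0 : ℝ)| + ∫⁻ t : ℝ, ‖fderiv ℝ v (x + t • e)‖ₑ)) := by
    have h6 : Tendsto (fun a : ℝ => |v (x + a • e)|) atBot (𝓝 |(0 : ℝ)|) :=
      (hv0.comp hlim).abs
    exact (ENNReal.tendsto_ofReal h6).add_const _
  rw [abs_zero, ENNReal.ofReal_zero, zero_add] at h5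
  refine ge_of_tendsto h5 ?_
  filter_upwards [eventually_le_atBot s] with a ha
  exact lineA_one hv he hx ha

end Vale.Agent.P137
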