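import Vale.Agent.P137.Basic

/-! Basic properties of `av` and `Mge`. -/

open MeasureTheory Metric Set Filter Topology
open scoped RealInnerProductSpace ENNReal

namespace Vale.Agent.P137

variable {d : ℕ} {f : EuclideanSpace ℝ (Fin d) → ℝ}

theorem volR (c : EuclideanSpace ℝ (Fin d)) {r : ℝ} (hr : 0 ≤ r) :
    volume.real (closedBall c r) =
      r ^ d * volume.real (ball (0 : EuclideanSpace ℝ (Fin d)) 1) := by
  have h := Measure.addHaar_real_closedBall (volume : Measure (EuclideanSpace ℝ (Fin d))) c hr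
  rw [finrank_euclideanSpace_fin] at h
  exact h

theorem volR_one_pos : 0 < volume.real (ball (0 : EuclideanSpace ℝ (Fin d)) 1) :=
  ENNReal.toReal_pos (measure_ball_pos volume 0 one_pos).ne' measure_ball_lt_top.ne

theorem volR_pos (c : EuclideanSpace ℝ (Fin d)) {r : ℝ} (hr : 0 < r) :
    0 < volume.real (closedBall c r) := by
  rw [volR c hr.le]
  exact mul_pos (pow_pos hr d) volR_one_pos

theorem volR_mono (c : EuclideanSpace ℝ (Fin d)) {r s : ℝ} (hr : 0 ≤ r) (hs : r ≤ s) :
    volume.real (closedBall (0 : EuclideanSpace ℝ (Fin d)) r) ≤ volume.real (closedBall c s) := by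
  rw [volR _ hr, volR _ (hr.trans hs)]
  have := pow_le_pow_left₀ hr hs d
  exact mul_le_mul_of_nonneg_right this volR_one_pos.le

theorem av_nonneg (hf0 : ∀ x, 0 ≤ f x) (c : EuclideanSpace ℝ (Fin d)) (r : ℝ) :
    0 ≤ av f c r :=
  mul_nonneg (inv_nonneg.2 measureReal_nonneg) (integral_nonneg fun x => hf0 x)

theorem av_le (hf : Integrable f) (hf0 : ∀ x, 0 ≤ f x) (c : EuclideanSpace ℝ (Fin d)) {r s : ℝ}
    (hr : 0 < r) (hs : r ≤ s) :
    av f c s ≤ (volume.real (closedBall (0 : EuclideanSpace ℝ (Fin d)) r))⁻¹ * ∫ y, f y := by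
  unfold av
  refine mul_le_mul ?_ ?_ (integral_nonneg fun x => hf0 x) (inv_nonneg.2 measureReal_nonneg)
  · exact inv_anti₀ (volR_pos 0 hr) (volR_mono c hr.le hs)
  · exact setIntegral_le_integral hf (Eventually.of_forall hf0)

/-- averages over larger concentric balls -/
theorem av_enlarge (hf : Integrable f) (hf0 : ∀ x, 0 ≤ f x) (c : EuclideanSpace ℝ (Fin d))
    {r s : ℝ} (hr : 0 < r) (hs : r ≤ s) : (r / s) ^ d * av f c r ≤ av f c s := by
  have hs0 : 0 < s := hr.trans_le hs
  have hω : 0 < volume.real (ball (0 : EuclideanSpace ℝ (Fin d)) 1) := volR_one_pos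
  have h1 : (r / s) ^ d * av f c r =
      (volume.real (closedBall c s))⁻¹ * ∫ y in closedBall c r, f y := by
    unfold av
    rw [volR c hr.le, volR c hs0.le, div_pow]
    have : r ^ d ≠ 0 := (pow_pos hr d).ne'
    have : s ^ d ≠ 0 := (pow_pos hs0 d).ne'
    field_simp
  rw [h1]
  unfold av
  refine mul_le_mul_of_nonneg_left ?_ (inv_nonneg.2 measureReal_nonneg)
  exact setIntegral_mono_set hf.integrableOn (Eventually.of_forall hf0)
    (Eventually.of_forall (closedBall_subset_closedBall hs))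

theorem continuousOn_av (_hd : 1 ≤ d) (hf : Integrable f) :
    ContinuousOn (fun p : EuclideanSpace ℝ (Fin d) × ℝ => av f p.1 p.2) {p | 0 < p.2} := by
  intro p hp
  have hp' : 0 < p.2 := hp
  refine ContinuousAt.continuousWithinAt ?_
  have hI : ContinuousAt (fun q : EuclideanSpace ℝ (Fin d) × ℝ =>
      ∫ y in closedBall q.1 q.2, f y) p := by
    have e : (fun q : EuclideanSpace ℝ (Fin d) × ℝ => ∫ y in closedBall q.1 q.2, f y) =
        fun q => ∫ y, (closedBall q.1 q.2).indicator f y := by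
      funext q
      rw [integral_indicator measurableSet_closedBall]
    rw [e]
    unfold ContinuousAt
    refine tendsto_integral_filter_of_dominated_convergence (fun y => ‖f y‖) ?_ ?_ hf.norm ?_
    · exact Eventually.of_forall fun q =>
        hf.aestronglyMeasurable.indicator measurableSet_closedBall
    · exact Eventually.of_forall fun q => Eventually.of_forall fun y =>
        norm_indicator_le_norm_self _ _
    · have hns : ∀ᵐ y : EuclideanSpace ℝ (Fin d), y ∉ sphere p.1 p.2 := by
        rw [ae_iff]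
        have h0 := Measure.addHaar_sphere_of_ne_zero volume p.1 hp'.ne'
        refine measure_mono_null (fun y hy => ?_) h0
        exact not_not.1 hy
      filter_upwards [hns] with y hy
      have hcont : Continuous fun q : EuclideanSpace ℝ (Fin d) × ℝ => dist y q.1 - q.2 := by
        fun_prop
      have hy' : dist y p.1 ≠ p.2 := hy
      rcases lt_or_gt_of_ne hy' with h | h
      · have h1 : ∀ᶠ q : EuclideanSpace ℝ (Fin d) × ℝ in 𝓝 p, dist y q.1 - q.2 < 0 :=
          hcont.continuousAt.eventually_lt_const (by simpa using h)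
        refine Tendsto.congr' (h1.mono fun q hq => ?_) tendsto_const_nhds
        show (closedBall p.1 p.2).indicator f y = (closedBall q.1 q.2).indicator f y
        rw [indicator_of_mem (show y ∈ closedBall p.1 p.2 from h.le),
          indicator_of_mem (show y ∈ closedBall q.1 q.2 from (by
            rw [mem_closedBall]; linarith))]
      · have h1 : ∀ᶠ q : EuclideanSpace ℝ (Fin d) × ℝ in 𝓝 p, 0 < dist y q.1 - q.2 :=
          hcont.continuousAt.eventually_const_lt (by simpa using h)
        refine Tendsto.congr' (h1.mono fun q hq => ?_) tendsto_const_nhds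
        show (closedBall p.1 p.2).indicator f y = (closedBall q.1 q.2).indicator f y
        rw [indicator_of_notMem (show y ∉ closedBall p.1 p.2 from (by
            rw [mem_closedBall]; linarith)),
          indicator_of_notMem (show y ∉ closedBall q.1 q.2 from (by
            rw [mem_closedBall]; linarith))]
  have hV : ContinuousAt (fun q : EuclideanSpace ℝ (Fin d) × ℝ =>
      (volume.real (closedBall q.1 q.2))⁻¹) p := by
    have h0 : ContinuousAt (fun q : EuclideanSpace ℝ (Fin d) × ℝ =>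
        (q.2 ^ d * volume.real (ball (0 : EuclideanSpace ℝ (Fin d)) 1))⁻¹) p := by
      refine ContinuousAt.inv₀ (by fun_prop) ?_
      exact (mul_pos (pow_pos hp' d) volR_one_pos).ne'
    refine h0.congr ?_
    have h1 : ∀ᶠ q : EuclideanSpace ℝ (Fin d) × ℝ in 𝓝 p, 0 < q.2 :=
      continuousAt_snd.eventually_const_lt hp'
    filter_upwards [h1] with q hq
    rw [volR q.1 hq.le]
  exact hV.mul hI

theorem av_sub_le {f' : EuclideanSpace ℝ (Fin d) → ℝ} (hf : Integrable f) (hf' : Integrable f')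
    (c : EuclideanSpace ℝ (Fin d)) {r s : ℝ} (hr : 0 < r) (hs : r ≤ s) :
    |av f c s - av f' c s| ≤
      (volume.real (closedBall (0 : EuclideanSpace ℝ (Fin d)) r))⁻¹ * ∫ y, |f y - f' y| := by
  have h1 : av f c s - av f' c s = av (fun y => f y - f' y) c s := by
    unfold av
    rw [← mul_sub, integral_sub hf.integrableOn hf'.integrableOn]
  have h2 : |av (fun y => f y - f' y) c s| ≤ av (fun y => |f y - f' y|) c s := by
    unfold av
    rw [abs_mul, abs_of_nonneg (inv_nonneg.2 measureReal_nonneg)]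
    exact mul_le_mul_of_nonneg_left (abs_integral_le_integral_abs)
      (inv_nonneg.2 measureReal_nonneg)
  rw [h1]
  refine h2.trans ?_
  exact av_le (hf.sub hf').abs (fun _ => abs_nonneg _) c hr hs

theorem Mge_bdd (hf : Integrable f) (hf0 : ∀ x, 0 ≤ f x) {r : ℝ} (hr : 0 < r)
    (x : EuclideanSpace ℝ (Fin d)) :
    BddAbove {a | ∃ (c : EuclideanSpace ℝ (Fin d)) (s : ℝ), r ≤ s ∧ dist x c ≤ s ∧
      a = av f c s} := by
  refine ⟨(volume.real (closedBall (0 : EuclideanSpace ℝ (Fin d)) r))⁻¹ * ∫ y, f y, ?_⟩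
  rintro a ⟨c, s, hs, -, rfl⟩
  exact av_le hf hf0 c hr hs

theorem Mge_nonempty (r : ℝ) (x : EuclideanSpace ℝ (Fin d)) :
    {a | ∃ (c : EuclideanSpace ℝ (Fin d)) (s : ℝ), r ≤ s ∧ dist x c ≤ s ∧
      a = av f c s}.Nonempty :=
  ⟨_, x, max r 0, le_max_left _ _, by simp, rfl⟩

theorem av_le_Mge (hf : Integrable f) (hf0 : ∀ x, 0 ≤ f x) {r s : ℝ} (hr : 0 < r) (hs : r ≤ s)
    {x c : EuclideanSpace ℝ (Fin d)} (hx : dist x c ≤ s) : av f c s ≤ Mge f r x :=
  le_csSup (Mge_bdd hf hf0 hr x) ⟨c, s, hs, hx, rfl⟩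

theorem exists_av_gt (_hf : Integrable f) (_hf0 : ∀ x, 0 ≤ f x) {r : ℝ} (_hr : 0 < r)
    (x : EuclideanSpace ℝ (Fin d)) {b : ℝ} (hb : b < Mge f r x) :
    ∃ (c : EuclideanSpace ℝ (Fin d)) (s : ℝ), r ≤ s ∧ dist x c ≤ s ∧ b < av f c s := by
  obtain ⟨a, ⟨c, s, hs, hx, rfl⟩, hab⟩ := exists_lt_of_lt_csSup (Mge_nonempty r x) hb
  exact ⟨c, s, hs, hx, hab⟩

theorem Mge_nonneg (hf : Integrable f) (hf0 : ∀ x, 0 ≤ f x) {r : ℝ} (hr : 0 < r)
    (x : EuclideanSpace ℝ (Fin d)) : 0 ≤ Mge f r x :=
  (av_nonneg hf0 x r).trans (av_le_Mge hf hf0 hr le_rfl (by simpa using hr.le))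

theorem Mge_le (hf : Integrable f) (hf0 : ∀ x, 0 ≤ f x) {r : ℝ} (hr : 0 < r)
    (x : EuclideanSpace ℝ (Fin d)) :
    Mge f r x ≤ (volume.real (closedBall (0 : EuclideanSpace ℝ (Fin d)) r))⁻¹ * ∫ y, f y := by
  refine csSup_le (Mge_nonempty r x) ?_
  rintro a ⟨c, s, hs, -, rfl⟩
  exact av_le hf hf0 c hr hs

theorem Mge_anti (hf : Integrable f) (hf0 : ∀ x, 0 ≤ f x) {r s : ℝ} (hr : 0 < r) (hs : r ≤ s)
    (x : EuclideanSpace ℝ (Fin d)) : Mge f s x ≤ Mge f r x := by
  refine csSup_le (Mge_nonempty s x) ?_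
  rintro a ⟨c, t, ht, hx, rfl⟩
  exact av_le_Mge hf hf0 hr (hs.trans ht) hx

/-- Bernoulli: enlarging the radius from `s` to `s + δ` loses at most the factor `1 - d δ/s` -/
theorem av_enlarge_bernoulli (hf : Integrable f) (hf0 : ∀ x, 0 ≤ f x)
    (c : EuclideanSpace ℝ (Fin d)) {s δ : ℝ} (hs : 0 < s) (hδ : 0 ≤ δ) :
    (1 - (d / s) * δ) * av f c s ≤ av f c (s + δ) := by
  have h1 := av_enlarge hf hf0 c hs (show s ≤ s + δ by linarith)
  refine le_trans (mul_le_mul_of_nonneg_right ?_ (av_nonneg hf0 c s)) h1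
  have hsδ : 0 < s + δ := by linarith
  have h2 : 1 + (d : ℝ) * (-(δ / (s + δ))) ≤ (1 + -(δ / (s + δ))) ^ d := by
    refine one_add_mul_le_pow ?_ d
    have : δ / (s + δ) ≤ 1 := by rw [div_le_one hsδ]; linarith
    linarith
  have h3 : (1 + -(δ / (s + δ))) = s / (s + δ) := by field_simp; ring
  rw [h3] at h2
  refine le_trans ?_ h2
  have h4 : δ / (s + δ) ≤ δ / s := div_le_div_of_nonneg_left hδ hs (by linarith)
  have h5 : (d : ℝ) * (δ / (s + δ)) ≤ d * (δ / s) :=
    mul_le_mul_of_nonneg_left h4 (Nat.cast_nonneg d)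
  have h6 : (d : ℝ) / s * δ = d * (δ / s) := by ring
  rw [h6]
  linarith

/-- from `av_enlarge`: `Mge f r y ≥ (1 + ‖x-y‖/r)^{-d} Mge f r x ≥ (1 - d‖x-y‖/r) Mge f r x` -/
theorem Mge_lipschitz (hf : Integrable f) (hf0 : ∀ x, 0 ≤ f x) {r : ℝ} (hr : 0 < r) :
    LipschitzWith (Real.toNNReal ((d / r) *
      ((volume.real (closedBall (0 : EuclideanSpace ℝ (Fin d)) r))⁻¹ * ∫ y, f y)))
      (Mge f r) := by
  have hI : 0 ≤ ∫ y, f y := integral_nonneg fun x => hf0 x
  have hK : 0 ≤ (volume.real (closedBall (0 : EuclideanSpace ℝ (Fin d)) r))⁻¹ * ∫ y, f y :=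
    mul_nonneg (inv_nonneg.2 measureReal_nonneg) hI
  refine LipschitzWith.of_le_add_mul _ fun x y => ?_
  rw [Real.coe_toNNReal _ (mul_nonneg (div_nonneg (Nat.cast_nonneg d) hr.le) hK)]
  refine csSup_le (Mge_nonempty r x) ?_
  rintro a ⟨c, s, hs, hx, rfl⟩
  have hs0 : 0 < s := hr.trans_le hs
  have h1 := av_enlarge_bernoulli hf hf0 c hs0 (dist_nonneg (x := x) (y := y))
  have h2 : av f c (s + dist x y) ≤ Mge f r y :=
    av_le_Mge hf hf0 hr (by have := dist_nonneg (x := x) (y := y); linarith) (by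
      have := dist_triangle_left y c x
      linarith)
  have h3 := av_le hf hf0 c hr hs
  have h4 := av_nonneg hf0 c s
  have h5 : (d : ℝ) / s ≤ d / r := div_le_div_of_nonneg_left (Nat.cast_nonneg d) hr hs
  have h6 : (d : ℝ) / s * av f c s ≤ d / r *
      ((volume.real (closedBall (0 : EuclideanSpace ℝ (Fin d)) r))⁻¹ * ∫ y, f y) :=
    mul_le_mul h5 h3 h4 (div_nonneg (Nat.cast_nonneg d) hr.le)
  have h7 := mul_le_mul_of_nonneg_right h6 (dist_nonneg (x := x) (y := y))
  nlinarith [h1, h2, h7]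

theorem Mge_sub_le {f' : EuclideanSpace ℝ (Fin d) → ℝ} (hf : Integrable f)
    (hf0 : ∀ x, 0 ≤ f x) (hf' : Integrable f') (hf0' : ∀ x, 0 ≤ f' x) {r : ℝ} (hr : 0 < r)
    (x : EuclideanSpace ℝ (Fin d)) :
    |Mge f r x - Mge f' r x| ≤
      (volume.real (closedBall (0 : EuclideanSpace ℝ (Fin d)) r))⁻¹ * ∫ y, |f y - f' y| := by
  rw [abs_sub_le_iff]
  constructor
  · rw [sub_le_iff_le_add]
    refine csSup_le (Mge_nonempty r x) ?_
    rintro a ⟨c, s, hs, hx, rfl⟩
    have h1 := (abs_sub_le_iff.1 (av_sub_le hf hf' c hr hs)).1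
    have h2 := av_le_Mge hf' hf0' hr hs hx
    linarith
  · rw [sub_le_iff_le_add]
    refine csSup_le (Mge_nonempty r x) ?_
    rintro a ⟨c, s, hs, hx, rfl⟩
    have h1 := (abs_sub_le_iff.1 (av_sub_le hf hf' c hr hs)).2
    have h2 := av_le_Mge hf hf0 hr hs hx
    linarith

theorem av_translate (c v : EuclideanSpace ℝ (Fin d)) (s : ℝ) :
    av f (c + v) s = av (fun y => f (y + v)) c s := by
  unfold av
  have hv : volume.real (closedBall (c + v) s) = volume.real (closedBall c s) := by
    rw [Measure.addHaar_real_closedBall_center, Measure.addHaar_real_closedBall_center _ c]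
  rw [hv]
  congr 1
  rw [← integral_indicator measurableSet_closedBall, ← integral_indicator measurableSet_closedBall,
    ← integral_add_right_eq_self _ v]
  congr 1
  funext y
  by_cases h : y ∈ closedBall c s
  · rw [indicator_of_mem h, indicator_of_mem]
    simpa [mem_closedBall] using h
  · rw [indicator_of_notMem h, indicator_of_notMem]
    simpa [mem_closedBall] using h

/-- if `f` is `K`-Lipschitz so is `Mge f r` -/
theorem Mge_lipschitz' {K : NNReal} (hfc : HasCompactSupport f) (hf0 : ∀ x, 0 ≤ f x)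
    (hK : LipschitzWith K f) {r : ℝ} (hr : 0 < r) : LipschitzWith K (Mge f r) := by
  have hf : Integrable f := hK.continuous.integrable_of_hasCompactSupport hfc
  refine LipschitzWith.of_le_add_mul _ fun x y => ?_
  refine csSup_le (Mge_nonempty r x) ?_
  rintro a ⟨c, s, hs, hx, rfl⟩
  have hs0 : 0 < s := hr.trans_le hs
  have h2 : av f (c + (y - x)) s ≤ Mge f r y := av_le_Mge hf hf0 hr hs (by
    rw [dist_eq_norm] at hx ⊢
    convert hx using 2
    abel)
  have h3 : av f c s ≤ av f (c + (y - x)) s + K * dist x y := by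
    rw [av_translate]
    have hf' : Integrable fun z => f (z + (y - x)) := hf.comp_add_right (y - x)
    have h4 : K * dist x y = av (fun _ => (K * dist x y : ℝ)) c s := by
      unfold av
      rw [setIntegral_const, smul_eq_mul, inv_mul_cancel_left₀ (volR_pos c hs0).ne']
    have h5 : av (fun z => f (z + (y - x))) c s + av (fun _ => (K * dist x y : ℝ)) c s =
        av (fun z => f (z + (y - x)) + K * dist x y) c s := by
      unfold av
      rw [← mul_add, integral_add hf'.integrableOn]
      exact integrableOn_const (measure_closedBall_lt_top.ne)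
    rw [h4, h5]
    unfold av
    refine mul_le_mul_of_nonneg_left ?_ (inv_nonneg.2 measureReal_nonneg)
    refine setIntegral_mono hf.integrableOn
      (hf'.integrableOn.add (integrableOn_const (measure_closedBall_lt_top.ne))) fun z => ?_
    have h6 := hK.dist_le_mul z (z + (y - x))
    have h7 : dist z (z + (y - x)) = dist x y := by
      rw [dist_eq_norm, dist_eq_norm]
      congr 1
      abel
    rw [h7, Real.dist_eq] at h6
    have h8 := (abs_sub_le_iff.1 h6).1
    linarith
  linarith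

/-- far away the balls with radius in `[r,2r]` do not meet the support -/
theorem Mge_eq_of_far (hf : Continuous f) (hf0 : ∀ x, 0 ≤ f x) {R r : ℝ} (_hR : 0 ≤ R)
    (hfR : ∀ x, R < ‖x‖ → f x = 0) (hr : 0 < r) {x : EuclideanSpace ℝ (Fin d)}
    (hx : R + 4 * r < ‖x‖) : Mge f r x = Mge f (2 * r) x := by
  have hfc : HasCompactSupport f := HasCompactSupport.intro (isCompact_closedBall 0 R)
    fun x hx => hfR x (by simpa using hx)
  have hfi : Integrable f := hf.integrable_of_hasCompactSupport hfc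
  refine le_antisymm ?_ (Mge_anti hfi hf0 hr (by linarith) x)
  refine csSup_le (Mge_nonempty r x) ?_
  rintro a ⟨c, s, hs, hxc, rfl⟩
  rcases le_total (2 * r) s with h | h
  · exact av_le_Mge hfi hf0 (by linarith) h hxc
  · have h0 : av f c s = 0 := by
      unfold av
      rw [setIntegral_eq_zero_of_forall_eq_zero, mul_zero]
      intro y hy
      apply hfR
      rw [mem_closedBall] at hy
      have h1 : ‖x‖ ≤ ‖y‖ + dist x y := by
        rw [dist_eq_norm]
        have := norm_add_le y (x - y)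
        simpa using this
      have h2 : dist x y ≤ dist x c + dist y c := by
        have := dist_triangle_right x y c
        linarith
      linarith
    rw [h0]
    exact Mge_nonneg hfi hf0 (by linarith) x

theorem integrable_Mge_sub (hf : Continuous f) (hfc : HasCompactSupport f) (hf0 : ∀ x, 0 ≤ f x)
    {r : ℝ} (hr : 0 < r) : Integrable (fun x => Mge f r x - Mge f (2 * r) x) := by
  have hfi : Integrable f := hf.integrable_of_hasCompactSupport hfc
  have hc : Continuous (fun x => Mge f r x - Mge f (2 * r) x) :=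
    (Mge_lipschitz hfi hf0 hr).continuous.sub
      (Mge_lipschitz hfi hf0 (show 0 < 2 * r by linarith)).continuous
  obtain ⟨R, hR0, hR⟩ := hfc.isCompact.isBounded.exists_pos_norm_le
  refine hc.integrable_of_hasCompactSupport ?_
  refine HasCompactSupport.intro (isCompact_closedBall 0 (R + 4 * r)) fun x hx => ?_
  have hx' : R + 4 * r < ‖x‖ := by simpa using hx
  rw [Mge_eq_of_far hf hf0 hR0.le (fun y hy => ?_) hr hx', sub_self]
  by_contra hne
  exact absurd (hR y (subset_tsupport f hne)) (not_le.2 hy)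

/-- the caps are below the maximal function (Bernoulli) -/
theorem hcap_le_Mge (hf : Integrable f) (hf0 : ∀ x, 0 ≤ f x) {r s : ℝ} (hr : 0 < r)
    (hs : r ≤ s) (c x : EuclideanSpace ℝ (Fin d)) : hcap c s (av f c s) x ≤ Mge f r x := by
  have hs0 : 0 < s := hr.trans_le hs
  have ha := av_nonneg hf0 c s
  unfold hcap
  rw [mul_max_of_nonneg _ _ ha, mul_zero]
  refine max_le (Mge_nonneg hf hf0 hr x) ?_
  have h1 := av_enlarge_bernoulli hf hf0 c hs0 (le_max_left 0 (dist x c - s))
  rw [mul_comm]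
  refine h1.trans ?_
  refine av_le_Mge hf hf0 hr ?_ ?_
  · have := le_max_left 0 (dist x c - s)
    linarith
  · have := le_max_right 0 (dist x c - s)
    linarith

end Vale.Agent.P137
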