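import Mathlib

/-! One dimensional lemmas on absolutely continuous functions. -/

open MeasureTheory Metric Set Filter Topology

namespace Vale.Agent.P137

/-- comparison principle for absolute continuity -/
theorem ac_of_local {F w : ℝ → ℝ} {a b C δ : ℝ} (hδ : 0 < δ) (hC : 0 ≤ C)
    (hF : AbsolutelyContinuousOnInterval F a b)
    (h : ∀ x ∈ uIcc a b, ∀ y ∈ uIcc a b, dist x y < δ →
      dist (w x) (w y) ≤ C * dist (F x) (F y)) :
    AbsolutelyContinuousOnInterval w a b := by
  rw [absolutelyContinuousOnInterval_iff] at hF ⊢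
  intro ε hε
  obtain ⟨δ1, hδ1, H⟩ := hF (ε / (C + 1)) (by positivity)
  refine ⟨min δ δ1, lt_min hδ hδ1, fun E hE hlen => ?_⟩
  have h1 := H E hE (lt_of_lt_of_le hlen (min_le_right _ _))
  have h2 : ∑ i ∈ Finset.range E.1, dist (w (E.2 i).1) (w (E.2 i).2) ≤
      ∑ i ∈ Finset.range E.1, C * dist (F (E.2 i).1) (F (E.2 i).2) := by
    refine Finset.sum_le_sum fun i hi => ?_
    refine h _ (hE.1 i hi).1 _ (hE.1 i hi).2 ?_
    refine lt_of_le_of_lt ?_ (lt_of_lt_of_le hlen (min_le_left _ _))
    exact Finset.single_le_sum (f := fun i => dist (E.2 i).1 (E.2 i).2)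
      (fun _ _ => dist_nonneg) hi
  rw [← Finset.mul_sum] at h2
  refine lt_of_le_of_lt h2 ?_
  have h3 : 0 ≤ ∑ i ∈ Finset.range E.1, dist (F (E.2 i).1) (F (E.2 i).2) :=
    Finset.sum_nonneg fun _ _ => dist_nonneg
  calc C * ∑ i ∈ Finset.range E.1, dist (F (E.2 i).1) (F (E.2 i).2)
      ≤ (C + 1) * ∑ i ∈ Finset.range E.1, dist (F (E.2 i).1) (F (E.2 i).2) := by
        nlinarith
    _ < (C + 1) * (ε / (C + 1)) := mul_lt_mul_of_pos_left h1 (by positivity)
    _ = ε := by field_simp

theorem ac_of_integral {q κ : ℝ → ℝ} {a b : ℝ} (hab : a ≤ b)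
    (hκ : IntervalIntegrable κ volume a b)
    (hq : ∀ t ∈ Icc a b, q t = q a + ∫ s in a..t, κ s) :
    AbsolutelyContinuousOnInterval q a b ∧ ∀ᵐ t, t ∈ Ioo a b → HasDerivAt q (κ t) t := by
  constructor
  · refine ac_of_local one_pos zero_le_one
      (hκ.absolutelyContinuousOnInterval_intervalIntegral left_mem_uIcc) ?_
    intro x hx y hy _
    rw [uIcc_of_le hab] at hx hy
    rw [hq x hx, hq y hy, one_mul, dist_add_left]
  · filter_upwards [hκ.ae_hasDerivAt_integral] with t ht hto
    have h1 := ht (by rw [uIcc_of_le hab]; exact Ioo_subset_Icc_self hto) a left_mem_uIcc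
    have h2 : HasDerivAt (fun x => q a + ∫ s in a..x, κ s) (κ t) t := by
      simpa using h1.const_add (q a)
    refine h2.congr_of_eventuallyEq ?_
    filter_upwards [Ioo_mem_nhds hto.1 hto.2] with x hx
    exact hq x (Ioo_subset_Icc_self hx)

theorem ac_ftc {w κ : ℝ → ℝ} {a b : ℝ} (hab : a ≤ b)
    (hw : AbsolutelyContinuousOnInterval w a b)
    (hκ : ∀ᵐ t, t ∈ Ioo a b → deriv w t = κ t) :
    IntervalIntegrable κ volume a b ∧ w b - w a = ∫ s in a..b, κ s := by
  have hne : ∀ᵐ t : ℝ, t ≠ b := by simp [ae_iff, measure_singleton]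
  have h1 : ∀ᵐ t, t ∈ uIoc a b → deriv w t = κ t := by
    filter_upwards [hκ, hne] with t ht htb h
    rw [uIoc_of_le hab] at h
    exact ht ⟨h.1, lt_of_le_of_ne h.2 htb⟩
  have h2 : (fun t => deriv w t) =ᵐ[volume.restrict (uIoc a b)] κ := by
    rw [Filter.EventuallyEq, ae_restrict_iff' measurableSet_uIoc]
    exact h1
  constructor
  · exact hw.intervalIntegrable_deriv.congr_ae h2
  · rw [← hw.integral_deriv_eq_sub]
    exact intervalIntegral.integral_congr_ae h1

/-- `q` is an indefinite integral of `κ`; then `φ ∘ q` is an indefinite integral of `φ'(q) κ` for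
`φ` of class `C¹`. (Approximate `κ` in `L¹(a,b)` by continuous functions.) -/
theorem ac_comp {φ φ' : ℝ → ℝ} (hφ : ∀ t, HasDerivAt φ (φ' t) t) (hφ' : Continuous φ')
    {q κ : ℝ → ℝ} {a b : ℝ} (hab : a ≤ b) (hκ : IntervalIntegrable κ volume a b)
    (hq : ∀ t ∈ Icc a b, q t = q a + ∫ s in a..t, κ s) :
    φ (q b) - φ (q a) = ∫ s in a..b, φ' (q s) * κ s := by
  obtain ⟨hac, hder⟩ := ac_of_integral hab hκ hq
  obtain ⟨M, hM⟩ := hac.exists_bound
  obtain ⟨C, hC⟩ := (isCompact_Icc (a := -M) (b := M)).exists_bound_of_continuousOn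
    hφ'.continuousOn
  have hAC : AbsolutelyContinuousOnInterval (fun t => φ (q t)) a b := by
    refine ac_of_local one_pos (abs_nonneg C) hac ?_
    intro x hx y hy _
    have hx' : q x ∈ Icc (-M) M := by
      have := hM x hx
      rwa [Real.norm_eq_abs, abs_le] at this
    have hy' : q y ∈ Icc (-M) M := by
      have := hM y hy
      rwa [Real.norm_eq_abs, abs_le] at this
    rw [dist_eq_norm, dist_eq_norm]
    exact Convex.norm_image_sub_le_of_norm_hasDerivWithin_le (f := φ) (f' := φ')
      (s := Icc (-M) M) (fun t _ => (hφ t).hasDerivWithinAt)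
      (fun t ht => (hC t ht).trans (le_abs_self C)) (convex_Icc _ _) hy' hx'
  refine (ac_ftc hab hAC ?_).2
  filter_upwards [hder] with t ht hto
  exact ((hφ (q t)).comp t (ht hto)).deriv

/-- the positive part: full version -/
theorem ac_pos' {q κ : ℝ → ℝ} {a b : ℝ} (hab : a ≤ b)
    (hac : AbsolutelyContinuousOnInterval q a b)
    (hder : ∀ᵐ t, t ∈ Ioo a b → HasDerivAt q (κ t) t) :
    IntervalIntegrable (fun s => if 0 < q s then κ s else 0) volume a b ∧
    max (q b) 0 - max (q a) 0 = ∫ s in a..b, (if 0 < q s then κ s else 0) := by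
  have hAC : AbsolutelyContinuousOnInterval (fun t => max (q t) 0) a b := by
    refine ac_of_local one_pos zero_le_one hac ?_
    intro x _ y _ _
    rw [one_mul, Real.dist_eq, Real.dist_eq]
    exact abs_max_sub_max_le_abs (q x) (q y) 0
  refine ac_ftc hab hAC ?_
  filter_upwards [hder, hAC.ae_differentiableAt] with t ht hd hto
  have hq := ht hto
  have hcont : ContinuousAt q t := hq.continuousAt
  rcases lt_trichotomy (q t) 0 with h | h | h
  · rw [if_neg (not_lt.mpr h.le)]
    have h1 : (fun t => max (q t) 0) =ᶠ[𝓝 t] fun _ => 0 := by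
      filter_upwards [hcont.eventually (gt_mem_nhds h)] with x hx
      exact max_eq_right hx.le
    rw [h1.deriv_eq, deriv_const]
  · rw [if_neg (by rw [h]; exact lt_irrefl _)]
    have hmin : IsLocalMin (fun t => max (q t) 0) t := by
      refine Filter.Eventually.of_forall fun x => ?_
      simp only [h, max_self]
      exact le_max_right _ _
    exact hmin.deriv_eq_zero
  · rw [if_pos h]
    have h1 : (fun t => max (q t) 0) =ᶠ[𝓝 t] q := by
      filter_upwards [hcont.eventually (lt_mem_nhds h)] with x hx
      exact max_eq_left hx.le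
    rw [h1.deriv_eq, hq.deriv]

/-- positive part (a `C¹` approximation of the positive part whose derivative tends to
`1_{t > 0}`) -/
theorem ac_pos {q κ : ℝ → ℝ} {a b : ℝ} (hab : a ≤ b) (hκ : IntervalIntegrable κ volume a b)
    (hq : ∀ t ∈ Icc a b, q t = q a + ∫ s in a..t, κ s) :
    max (q b) 0 - max (q a) 0 = ∫ s in a..b, (if 0 < q s then κ s else 0) := by
  obtain ⟨hac, hder⟩ := ac_of_integral hab hκ hq
  exact (ac_pos' hab hac hder).2

/-- `φ_ε(t) = √(t²+ε²)` and dominated convergence -/
theorem ac_abs {q κ : ℝ → ℝ} {a b : ℝ} (hab : a ≤ b) (hκ : IntervalIntegrable κ volume a b)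
    (hq : ∀ t ∈ Icc a b, q t = q a + ∫ s in a..t, κ s) :
    |q b| - |q a| = ∫ s in a..b, SignType.sign (q s) * κ s := by
  obtain ⟨hac, hder⟩ := ac_of_integral hab hκ hq
  have h1 := ac_pos' hab hac hder
  have h2 := ac_pos' (q := fun t => -q t) (κ := fun t => -κ t) hab hac.fun_neg (by
    filter_upwards [hder] with t ht hto
    exact (ht hto).neg)
  have habs : ∀ x : ℝ, |x| = max x 0 + max (-x) 0 := by
    intro x
    rcases le_total 0 x with h | h
    · rw [abs_of_nonneg h, max_eq_left h, max_eq_right (by linarith)]; ring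
    · rw [abs_of_nonpos h, max_eq_right h, max_eq_left (by linarith)]; ring
  have h3 : ∀ s, ((SignType.sign (q s) : ℝ)) * κ s =
      (if 0 < q s then κ s else 0) + (if 0 < -q s then -κ s else 0) := by
    intro s
    rcases lt_trichotomy (q s) 0 with h | h | h
    · rw [sign_neg h, if_neg (not_lt.mpr h.le), if_pos (by linarith)]; simp
    · rw [h]; simp
    · rw [sign_pos h, if_pos h, if_neg (by linarith)]; simp
  simp_rw [h3]
  rw [intervalIntegral.integral_add h1.1 h2.1, ← h1.2, ← h2.2, habs, habs]
  ring

/-- Gluing. `U ≥ V` continuous on `[a,b]`, `V` indefinite integral of `γ`, and for every `η > 0`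
there is a Lipschitz `P` with `U = P` on `{U > V + η}` and `D = P'` a.e. there. Proof: for `η > 0`
cut `[a,b]` in small intervals on each of which `U - V > η/2` or `U - V < η`; get
`(U-V-η)⁺(b) - (U-V-η)⁺(a) = ∫_{U-V>η} (D-γ)` from `ac_pos`; `η → 0`. -/
theorem ac_glue {U V γ D : ℝ → ℝ} {a b : ℝ} (hab : a ≤ b) (hU : Continuous U)
    (hV : Continuous V) (hVU : ∀ t, V t ≤ U t) (hγ : IntervalIntegrable γ volume a b)
    (hVγ : ∀ t ∈ Icc a b, V t = V a + ∫ s in a..t, γ s)
    (hD : IntervalIntegrable D volume a b)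
    (hP : ∀ η > 0, ∃ (P : ℝ → ℝ) (K : NNReal), LipschitzWith K P ∧
      (∀ t ∈ Icc a b, V t + η < U t → U t = P t) ∧
      (∀ᵐ t, t ∈ Icc a b → V t + η < U t → D t = deriv P t)) :
    U b - U a = ∫ s in a..b, (if V s < U s then D s else γ s) := by
  obtain ⟨hVac, hVder⟩ := ac_of_integral hab hγ hVγ
  -- step 1: for every `η > 0`
  have key : ∀ η : ℝ, 0 < η → max (U b - V b - η) 0 - max (U a - V a - η) 0 =
      ∫ s in a..b, (if η < U s - V s then D s - γ s else 0) := by
    intro η hη
    obtain ⟨P, K, hPK, hPU, hPD⟩ := hP (η / 2) (by positivity)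
    have huc : UniformContinuousOn (fun t => U t - V t) (uIcc a b) :=
      isCompact_uIcc.uniformContinuousOn_of_continuous (hU.sub hV).continuousOn
    rw [Metric.uniformContinuousOn_iff] at huc
    obtain ⟨δ, hδ, hδη⟩ := huc (η / 2) (by positivity)
    have hPac : AbsolutelyContinuousOnInterval P a b :=
      (hPK.lipschitzOnWith (s := uIcc a b)).absolutelyContinuousOnInterval
    have hAC : AbsolutelyContinuousOnInterval (fun t => max (U t - V t - η) 0) a b := by
      refine ac_of_local hδ zero_le_one (hPac.fun_sub hVac) ?_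
      intro x hx y hy hxy
      rw [one_mul]
      have hd := hδη x hx y hy hxy
      rw [Real.dist_eq, abs_lt] at hd
      rw [uIcc_of_le hab] at hx hy
      by_cases hcase : V x + η / 2 < U x ∧ V y + η / 2 < U y
      · rw [hPU x hx hcase.1, hPU y hy hcase.2, Real.dist_eq, Real.dist_eq]
        refine (abs_max_sub_max_le_abs _ _ 0).trans (le_of_eq ?_)
        congr 1
        ring
      · have h1 : U x - V x - η ≤ 0 ∧ U y - V y - η ≤ 0 := by
          rw [not_and_or, not_lt, not_lt] at hcase
          rcases hcase with h | h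
          · constructor <;> linarith [hd.1, hd.2]
          · constructor <;> linarith [hd.1, hd.2]
        rw [max_eq_right h1.1, max_eq_right h1.2, dist_self]
        exact dist_nonneg
    refine (ac_ftc hab hAC ?_).2
    filter_upwards [hVder, hAC.ae_differentiableAt, hPK.ae_differentiableAt_real, hPD]
      with t hVt hdt hPt hPDt hto
    have hcont : Continuous (fun t => U t - V t) := hU.sub hV
    rcases lt_trichotomy (U t - V t) η with h | h | h
    · rw [if_neg (not_lt.mpr h.le)]
      have h1 : (fun t => max (U t - V t - η) 0) =ᶠ[𝓝 t] fun _ => 0 := by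
        filter_upwards [hcont.continuousAt.eventually (gt_mem_nhds h)] with x hx
        exact max_eq_right (by linarith)
      rw [h1.deriv_eq, deriv_const]
    · rw [if_neg (by rw [h]; exact lt_irrefl _)]
      have hmin : IsLocalMin (fun t => max (U t - V t - η) 0) t := by
        refine Filter.Eventually.of_forall fun x => ?_
        simp only [h, sub_self, max_self]
        exact le_max_right _ _
      exact hmin.deriv_eq_zero
    · rw [if_pos h]
      have htI : t ∈ Icc a b := Ioo_subset_Icc_self hto
      have h1 : (fun t => max (U t - V t - η) 0) =ᶠ[𝓝 t] fun t => P t - V t - η := by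
        filter_upwards [hcont.continuousAt.eventually (lt_mem_nhds h),
          Ioo_mem_nhds hto.1 hto.2] with x hx hxo
        rw [← hPU x (Ioo_subset_Icc_self hxo) (by linarith)]
        exact max_eq_left (by linarith)
      rw [h1.deriv_eq]
      have h2 : HasDerivAt (fun t => P t - V t - η) (deriv P t - γ t) t :=
        ((hPt.hasDerivAt.sub (hVt hto)).sub_const η)
      rw [h2.deriv, hPDt htI (by linarith)]
  -- step 2: the limit
  have hlim : Tendsto (fun n : ℕ => ∫ s in a..b,
      (if (1 / ((n : ℝ) + 1)) < U s - V s then D s - γ s else 0)) atTop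
      (𝓝 (∫ s in a..b, (if 0 < U s - V s then D s - γ s else 0))) := by
    refine intervalIntegral.tendsto_integral_filter_of_dominated_convergence
      (fun s => |D s| + |γ s|) ?_ ?_ ?_ ?_
    · refine Eventually.of_forall fun n => ?_
      have hm : MeasurableSet {s | (1 / ((n : ℝ) + 1)) < U s - V s} :=
        measurableSet_lt measurable_const (hU.sub hV).measurable
      have h1 : (fun s => if (1 / ((n : ℝ) + 1)) < U s - V s then D s - γ s else 0) =
          ({s | (1 / ((n : ℝ) + 1)) < U s - V s}).indicator (fun s => D s - γ s) := by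
        ext s
        rw [indicator_apply]
        rfl
      rw [h1]
      exact AEStronglyMeasurable.indicator (hD.sub hγ).aestronglyMeasurable_restrict_uIoc hm
    · refine Eventually.of_forall fun n => Eventually.of_forall fun s _ => ?_
      split_ifs
      · exact abs_sub _ _
      · rw [norm_zero]; positivity
    · exact hD.abs.add hγ.abs
    · refine Eventually.of_forall fun s _ => ?_
      by_cases h : 0 < U s - V s
      · rw [if_pos h]
        refine Tendsto.congr' ?_ tendsto_const_nhds
        have := tendsto_one_div_add_atTop_nhds_zero_nat.eventually (gt_mem_nhds h)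
        filter_upwards [this] with n hn
        rw [if_pos hn]
      · rw [if_neg h]
        refine Tendsto.congr' ?_ tendsto_const_nhds
        refine Eventually.of_forall fun n => ?_
        simp only
        rw [if_neg]
        intro h2
        have : (0 : ℝ) < 1 / ((n : ℝ) + 1) := by positivity
        linarith
  have hlim2 : Tendsto (fun n : ℕ => max (U b - V b - 1 / ((n : ℝ) + 1)) 0 -
      max (U a - V a - 1 / ((n : ℝ) + 1)) 0) atTop (𝓝 ((U b - V b) - (U a - V a))) := by
    have h0 := tendsto_one_div_add_atTop_nhds_zero_nat (𝕜 := ℝ)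
    have h1 : ∀ c : ℝ, 0 ≤ c → Tendsto (fun n : ℕ => max (c - 1 / ((n : ℝ) + 1)) 0) atTop
        (𝓝 c) := by
      intro c hc
      have h2 : Tendsto (fun n : ℕ => max (c - 1 / ((n : ℝ) + 1)) 0) atTop
          (𝓝 (max (c - 0) 0)) := (h0.const_sub c).max tendsto_const_nhds
      rwa [sub_zero, max_eq_left hc] at h2
    exact (h1 _ (by linarith [hVU b])).sub (h1 _ (by linarith [hVU a]))
  have hfinal : (U b - V b) - (U a - V a) =
      ∫ s in a..b, (if 0 < U s - V s then D s - γ s else 0) := by
    refine tendsto_nhds_unique hlim2 ?_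
    refine hlim.congr fun n => ?_
    exact (key _ (by positivity)).symm
  have hVb : V b - V a = ∫ s in a..b, γ s := by
    rw [hVγ b (right_mem_Icc.mpr hab)]; ring
  have hmeas0 : MeasurableSet {s | 0 < U s - V s} :=
    measurableSet_lt measurable_const (hU.sub hV).measurable
  have hint : IntervalIntegrable (fun s => if 0 < U s - V s then D s - γ s else 0)
      volume a b := by
    have h1 : (fun s => if 0 < U s - V s then D s - γ s else 0) =
        ({s | 0 < U s - V s}).indicator (fun s => D s - γ s) := by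
      ext s
      rw [indicator_apply]
      rfl
    rw [h1]
    rw [intervalIntegrable_iff]
    exact (intervalIntegrable_iff.mp (hD.sub hγ)).indicator hmeas0
  have h5 : U b - U a = ((U b - V b) - (U a - V a)) + (V b - V a) := by ring
  rw [h5, hfinal, hVb, ← intervalIntegral.integral_add hint hγ]
  refine intervalIntegral.integral_congr fun s _ => ?_
  by_cases h : V s < U s
  · rw [if_pos h, if_pos (by linarith)]; ring
  · rw [if_neg h, if_neg (by linarith)]; ring

end Vale.Agent.P137
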