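import Vale.Agent.P137.MgeBasic
import Vale.Agent.P137.BallStep
import Vale.Agent.P137.Lsc

/-! One scale of the perimeter type inequality, and its iteration. -/

open MeasureTheory Metric Set Filter Topology
open scoped RealInnerProductSpace ENNReal

namespace Vale.Agent.P137

/-- the caps are Lipschitz -/
theorem hcap_lipschitz {d : ℕ} (c : EuclideanSpace ℝ (Fin d)) {s a L : ℝ} (hs : 0 < s)
    (ha : 0 ≤ a) (hL : (d / s) * a ≤ L) : LipschitzWith (Real.toNNReal L) (hcap c s a) := by
  have hds : (0 : ℝ) ≤ d / s := div_nonneg (Nat.cast_nonneg _) hs.le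
  have hL0 : 0 ≤ L := le_trans (mul_nonneg hds ha) hL
  refine LipschitzWith.of_dist_le_mul fun x y => ?_
  rw [Real.coe_toNNReal _ hL0, Real.dist_eq]
  unfold hcap
  have h1 : |max 0 (dist x c - s) - max 0 (dist y c - s)| ≤ dist x y := by
    refine (abs_max_sub_max_le_max _ _ _ _).trans ?_
    rw [sub_self, abs_zero]
    refine max_le dist_nonneg ?_
    have : dist x c - s - (dist y c - s) = dist x c - dist y c := by ring
    rw [this]
    exact abs_dist_sub_le _ _ _
  have h2 : |max 0 (1 - (d / s) * max 0 (dist x c - s)) -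
      max 0 (1 - (d / s) * max 0 (dist y c - s))| ≤ (d / s) * dist x y := by
    refine (abs_max_sub_max_le_max _ _ _ _).trans ?_
    rw [sub_self, abs_zero]
    refine max_le (mul_nonneg hds dist_nonneg) ?_
    have : 1 - (d / s) * max 0 (dist x c - s) - (1 - (d / s) * max 0 (dist y c - s)) =
        -((d / s) * (max 0 (dist x c - s) - max 0 (dist y c - s))) := by ring
    rw [this, abs_neg, abs_mul, abs_of_nonneg hds]
    exact mul_le_mul_of_nonneg_left h1 hds
  rw [← mul_sub, abs_mul, abs_of_nonneg ha]
  calc a * _ ≤ a * ((d / s) * dist x y) := mul_le_mul_of_nonneg_left h2 ha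
    _ = ((d / s) * a) * dist x y := by ring
    _ ≤ L * dist x y := mul_le_mul_of_nonneg_right hL dist_nonneg

/-- maxima with finitely many caps -/
noncomputable def capSeq {d : ℕ} (f u : EuclideanSpace ℝ (Fin d) → ℝ)
    (p : ℕ → EuclideanSpace ℝ (Fin d) × ℝ) : ℕ → EuclideanSpace ℝ (Fin d) → ℝ
  | 0 => u
  | n + 1 => fun x => max (capSeq f u p n x) (hcap (p n).1 (p n).2 (av f (p n).1 (p n).2) x)

/-- Countable dense family of balls with radii in `(r,2r)`: `v N = max (Mge f (2r)) (max of the
first N caps)` is Lipschitz (common constant), increases to `Mge f r`, and by `ball_step`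
`TV (v N) ≤ TV (Mge f (2r)) + (d/r) ∫ (v N - Mge f (2r))`. Conclude with `TV_le_of_tendsto`. -/
theorem pstep {d : ℕ} (hd : 1 ≤ d) {f : EuclideanSpace ℝ (Fin d) → ℝ} (hf : Continuous f)
    (hfc : HasCompactSupport f) (hf0 : ∀ x, 0 ≤ f x) {r : ℝ} (hr : 0 < r) :
    TV (Mge f r) ≤ TV (Mge f (2 * r)) +
      ENNReal.ofReal ((d / r) * ∫ x, (Mge f r x - Mge f (2 * r) x)) := by
  have hfi : Integrable f := hf.integrable_of_hasCompactSupport hfc
  have h2r : 0 < 2 * r := by linarith
  have hr2 : r ≤ 2 * r := by linarith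
  -- the countable dense family
  let S := {p : EuclideanSpace ℝ (Fin d) × ℝ // r < p.2 ∧ p.2 < 2 * r}
  have : Nonempty S := ⟨⟨(0, 3 / 2 * r), by constructor <;> simp <;> linarith⟩⟩
  let q : ℕ → S := TopologicalSpace.denseSeq S
  let p : ℕ → EuclideanSpace ℝ (Fin d) × ℝ := fun n => (q n).1
  have hp1 : ∀ n, r < (p n).2 := fun n => (q n).2.1
  have hp2 : ∀ n, (p n).2 < 2 * r := fun n => (q n).2.2
  let u := Mge f (2 * r)
  let v := capSeq f u p
  have hvs : ∀ n x, v (n + 1) x =
    max (v n x) (hcap (p n).1 (p n).2 (av f (p n).1 (p n).2) x) := fun n x => rfl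
  have hmono : ∀ x, Monotone (fun n => v n x) := by
    intro x
    refine monotone_nat_of_le_succ fun n => ?_
    rw [hvs]
    exact le_max_left _ _
  have hu_le : ∀ n x, u x ≤ v n x := fun n x => hmono x (Nat.zero_le n)
  have hv_le : ∀ n x, v n x ≤ Mge f r x := by
    intro n x
    induction n with
    | zero => exact Mge_anti hfi hf0 hr hr2 x
    | succ n ih =>
      rw [hvs]
      exact max_le ih (hcap_le_Mge hfi hf0 hr (hp1 n).le _ _)
  have hu0 : ∀ x, 0 ≤ u x := Mge_nonneg hfi hf0 h2r
  -- common Lipschitz constant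
  set A : ℝ := (volume.real (closedBall (0 : EuclideanSpace ℝ (Fin d)) r))⁻¹ * ∫ y, f y with hA
  let K : NNReal := max (Real.toNNReal ((d / (2 * r)) *
      ((volume.real (closedBall (0 : EuclideanSpace ℝ (Fin d)) (2 * r)))⁻¹ * ∫ y, f y)))
      (Real.toNNReal ((d / r) * A))
  have hKv : ∀ n, LipschitzWith K (v n) := by
    intro n
    induction n with
    | zero => exact (Mge_lipschitz hfi hf0 h2r).weaken (le_max_left _ _)
    | succ n ih =>
      have h1 : LipschitzWith K (hcap (p n).1 (p n).2 (av f (p n).1 (p n).2)) := by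
        refine (hcap_lipschitz _ (hr.trans (hp1 n)) (av_nonneg hf0 _ _) ?_).weaken
          (le_max_right _ _)
        refine mul_le_mul ?_ ?_ (av_nonneg hf0 _ _) (by positivity)
        · exact div_le_div_of_nonneg_left (Nat.cast_nonneg _) hr (hp1 n).le
        · exact av_le hfi hf0 _ hr (hp1 n).le
      have h2 := ih.max h1
      rw [max_self] at h2
      exact h2
  have hcont : ∀ n, Continuous (v n) := fun n => (hKv n).continuous
  have hint : Integrable (fun x => Mge f r x - u x) := integrable_Mge_sub hf hfc hf0 hr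
  have hintn : ∀ n, Integrable (fun x => v n x - u x) := by
    intro n
    refine hint.mono' ((hcont n).sub (hcont 0)).aestronglyMeasurable (ae_of_all _ fun x => ?_)
    rw [Real.norm_eq_abs, abs_of_nonneg (sub_nonneg.2 (hu_le n x))]
    exact sub_le_sub_right (hv_le n x) _
  have hdr : (0 : ℝ) ≤ d / r := div_nonneg (Nat.cast_nonneg _) hr.le
  -- the inequality for the finite maxima
  have hTV : ∀ n, TV (v n) ≤ TV u + ENNReal.ofReal ((d / r) * ∫ x, (v n x - u x)) := by
    intro n
    induction n with
    | zero => exact le_self_add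
    | succ n ih =>
      have hv0 : ∀ x, 0 ≤ v n x := fun x => (hu0 x).trans (hu_le n x)
      have hs0 : 0 < (p n).2 := hr.trans (hp1 n)
      have h1 := ball_step (hKv n) hv0 (p n).1 hs0 (av_nonneg hf0 (p n).1 (p n).2)
      have hsplit : ∫ x, (v (n + 1) x - u x) =
          (∫ x, (v n x - u x)) + ∫ x, (v (n + 1) x - v n x) := by
        rw [← integral_add (hintn n)]
        · refine integral_congr_ae (ae_of_all _ fun x => ?_)
          simp only
          ring
        · have := (hintn (n + 1)).sub (hintn n)
          refine this.congr (ae_of_all _ fun x => ?_)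
          simp only [Pi.sub_apply]; ring
      have h0 : 0 ≤ ∫ x, (v (n + 1) x - v n x) :=
        integral_nonneg fun x => sub_nonneg.2 (hmono x (Nat.le_succ n))
      have h00 : 0 ≤ ∫ x, (v n x - u x) :=
        integral_nonneg fun x => sub_nonneg.2 (hu_le n x)
      calc TV (v (n + 1)) ≤ TV (v n) +
            ENNReal.ofReal ((d / (p n).2) * ∫ x, (v (n + 1) x - v n x)) := h1
        _ ≤ (TV u + ENNReal.ofReal ((d / r) * ∫ x, (v n x - u x))) +
            ENNReal.ofReal ((d / r) * ∫ x, (v (n + 1) x - v n x)) := by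
            refine add_le_add ih (ENNReal.ofReal_le_ofReal ?_)
            refine mul_le_mul_of_nonneg_right ?_ h0
            exact div_le_div_of_nonneg_left (Nat.cast_nonneg _) hr (hp1 n).le
        _ = TV u + ENNReal.ofReal ((d / r) * ∫ x, (v (n + 1) x - u x)) := by
            rw [add_assoc, ← ENNReal.ofReal_add (mul_nonneg hdr h00) (mul_nonneg hdr h0),
              ← mul_add, ← hsplit]
  have hB : ∀ n, TV (v n) ≤ TV u + ENNReal.ofReal ((d / r) * ∫ x, (Mge f r x - u x)) := by
    intro n
    refine (hTV n).trans (add_le_add le_rfl (ENNReal.ofReal_le_ofReal ?_))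
    refine mul_le_mul_of_nonneg_left ?_ hdr
    exact integral_mono (hintn n) hint fun x => sub_le_sub_right (hv_le n x) _
  -- pointwise convergence
  have hlim : ∀ x, Tendsto (fun n => v n x) atTop (𝓝 (Mge f r x)) := by
    intro x
    refine tendsto_atTop_isLUB (hmono x) ⟨?_, ?_⟩
    · rintro _ ⟨n, rfl⟩
      exact hv_le n x
    · intro b hb
      by_contra hcon
      rw [not_le] at hcon
      obtain ⟨c, s, hs, hxs, hbs⟩ := exists_av_gt hfi hf0 hr x hcon
      rcases le_or_gt (2 * r) s with h2s | h2s
      · have h1 : av f c s ≤ u x := av_le_Mge hfi hf0 h2r h2s hxs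
        have h2 : v 0 x ≤ b := hb ⟨0, rfl⟩
        exact absurd (hbs.trans_le h1) (not_lt.2 h2)
      · let F : EuclideanSpace ℝ (Fin d) × ℝ → ℝ := fun p => hcap p.1 p.2 (av f p.1 p.2) x
        have hF : ContinuousOn F {p | 0 < p.2} := by
          refine (continuousOn_av hd hfi).mul ?_
          refine ContinuousOn.sup continuousOn_const ?_
          refine continuousOn_const.sub (ContinuousOn.mul ?_ ?_)
          · exact continuousOn_const.div continuous_snd.continuousOn
              (fun p hp => ne_of_gt hp)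
          · exact (continuous_const.max
              ((continuous_const.dist continuous_fst).sub continuous_snd)).continuousOn
        have hUo : IsOpen ({p : EuclideanSpace ℝ (Fin d) × ℝ | 0 < p.2} ∩ F ⁻¹' Ioi b) :=
          hF.isOpen_inter_preimage (isOpen_lt continuous_const continuous_snd) isOpen_Ioi
        have hmem : (c, s) ∈ ({p : EuclideanSpace ℝ (Fin d) × ℝ | 0 < p.2} ∩ F ⁻¹' Ioi b) := by
          refine ⟨hr.trans_le hs, ?_⟩
          have : F (c, s) = av f c s := by
            simp only [F, hcap]
            rw [max_eq_left (sub_nonpos.2 hxs)]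
            simp
          rw [mem_preimage, this]
          exact hbs
        have hcl : (c, s) ∈ closure ((univ : Set (EuclideanSpace ℝ (Fin d))) ×ˢ Ioo r (2 * r)) := by
          rw [closure_prod_eq, closure_univ, closure_Ioo (by linarith)]
          exact ⟨mem_univ _, hs, h2s.le⟩
        obtain ⟨z, hz1, hz2⟩ := mem_closure_iff.1 hcl _ hUo hmem
        have hdense : DenseRange q := TopologicalSpace.denseRange_denseSeq S
        obtain ⟨n, hn⟩ := hdense.exists_mem_open
          (hUo.preimage (continuous_subtype_val : Continuous (Subtype.val : S → _)))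
          ⟨⟨z, hz2.2⟩, hz1⟩
        have h3 : b < F (p n) := hn.2
        have h4 : F (p n) ≤ v (n + 1) x := by rw [hvs]; exact le_max_right _ _
        have h5 : v (n + 1) x ≤ b := hb ⟨n + 1, rfl⟩
        exact absurd (h3.trans_le h4) (not_lt.2 h5)
  exact (TV_le_of_tendsto hKv hlim hB).2

end Vale.Agent.P137
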