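import Vale.Agent.P137.Step
import Vale.Agent.P137.Cube

/-! The tree inequality: iteration of the one step inequality over the dyadic subcubes. -/

open MeasureTheory Metric Set Filter Topology
open scoped RealInnerProductSpace ENNReal

namespace Vale.Agent.P137

variable {d : ℕ}


theorem tr_cont {W : EuclideanSpace ℝ (Fin d) → EuclideanSpace ℝ (Fin d)} {H L : ℝ}
    (hW : ∀ z z' : EuclideanSpace ℝ (Fin d), ‖W z - W z'‖ ≤ H * √(‖z - z'‖ / L)) :
    Continuous W := by
  rw [continuous_iff_continuousAt]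
  intro z
  rw [ContinuousAt, tendsto_iff_norm_sub_tendsto_zero]
  have h1 : Tendsto (fun z' : EuclideanSpace ℝ (Fin d) => H * √(‖z' - z‖ / L)) (𝓝 z) (𝓝 0) := by
    have h2 : Continuous (fun z' : EuclideanSpace ℝ (Fin d) => H * √(‖z' - z‖ / L)) := by
      fun_prop
    have h3 := h2.tendsto z
    simpa using h3
  exact squeeze_zero (fun _ => norm_nonneg _) (fun z' => hW z' z) h1

theorem tr_vol : volume.real (ucube d) = 1 := by
  rw [Measure.real, volume_ucube]; simp

theorem tr_dev {W : EuclideanSpace ℝ (Fin d) → EuclideanSpace ℝ (Fin d)} {H L l : ℝ}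
    (hH : 0 ≤ H) (hL : 0 < L) (hl : 0 < l)
    (hW : ∀ z z' : EuclideanSpace ℝ (Fin d), ‖W z - W z'‖ ≤ H * √(‖z - z'‖ / L))
    (z : EuclideanSpace ℝ (Fin d)) {y : EuclideanSpace ℝ (Fin d)} (hy : y ∈ ucube d) :
    ‖W (z + l • y) - cav W z l‖ ≤ H * √(2 * √d * (l / L)) := by
  have hc := tr_cont hW
  have hi : IntegrableOn (fun y' => W (z + l • y')) (ucube d) :=
    integrableOn_cube hc.locallyIntegrable z hl
  have hfin : IsFiniteMeasure (volume.restrict (ucube d)) :=
    ⟨by rw [Measure.restrict_apply_univ, volume_ucube]; simp⟩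
  have h1 : W (z + l • y) - cav W z l = ∫ y' in ucube d, (W (z + l • y) - W (z + l • y')) := by
    rw [integral_sub (integrable_const _) hi, setIntegral_const, tr_vol, one_smul]
    rfl
  rw [h1]
  have h2 : ‖∫ y' in ucube d, (W (z + l • y) - W (z + l • y'))‖ ≤
      (H * √(2 * √d * (l / L))) * volume.real (ucube d) := by
    apply norm_setIntegral_le_of_norm_le_const
    · rw [volume_ucube]; simp
    · intro y' hy'
      refine (hW _ _).trans ?_
      apply mul_le_mul_of_nonneg_left _ hH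
      apply Real.sqrt_le_sqrt
      have h3 : z + l • y - (z + l • y') = l • (y - y') := by
        rw [smul_sub]; abel
      rw [h3, norm_smul, Real.norm_of_nonneg hl.le]
      have h4 : ‖y - y'‖ ≤ 2 * √d := by
        calc ‖y - y'‖ ≤ ‖y‖ + ‖y'‖ := norm_sub_le _ _
          _ ≤ √d + √d := add_le_add (norm_le_of_mem_ucube hy) (norm_le_of_mem_ucube hy')
          _ = 2 * √d := by ring
      calc l * ‖y - y'‖ / L ≤ l * (2 * √d) / L := by gcongr
        _ = 2 * √d * (l / L) := by ring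
  rwa [tr_vol, mul_one] at h2

theorem tr_child (σ : Fin d → Fin 2) {y : EuclideanSpace ℝ (Fin d)} (hy : y ∈ ucube d) :
    (1 / 2 : ℝ) • (cor σ + y) ∈ ucube d := by
  intro i
  have h1 := hy i
  have h2 : ((1 / 2 : ℝ) • (cor σ + y)) i = 1 / 2 * (((σ i : ℕ) : ℝ) + y i) := by
    simp [cor]
    ring
  have h3 : ((σ i : ℕ) : ℝ) ≤ 1 := by
    have : (σ i : ℕ) ≤ 1 := by omega
    exact_mod_cast this
  have h4 : (0 : ℝ) ≤ ((σ i : ℕ) : ℝ) := Nat.cast_nonneg _
  rw [h2]
  constructor <;> linarith [h1.1, h1.2]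

theorem tr_om {W : EuclideanSpace ℝ (Fin d) → EuclideanSpace ℝ (Fin d)} {H L l : ℝ}
    (hH : 0 ≤ H) (hL : 0 < L) (hl : 0 < l)
    (hW : ∀ z z' : EuclideanSpace ℝ (Fin d), ‖W z - W z'‖ ≤ H * √(‖z - z'‖ / L))
    (z : EuclideanSpace ℝ (Fin d)) (σ : Fin d → Fin 2) :
    ‖cav W (z + (l / 2) • cor σ) (l / 2) - cav W z l‖ ≤ H * √(2 * √d * (l / L)) := by
  have hc := tr_cont hW
  have hi : IntegrableOn (fun y' => W (z + (l / 2) • cor σ + (l / 2) • y')) (ucube d) :=
    integrableOn_cube hc.locallyIntegrable _ (by positivity)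
  have hfin : IsFiniteMeasure (volume.restrict (ucube d)) :=
    ⟨by rw [Measure.restrict_apply_univ, volume_ucube]; simp⟩
  have h1 : cav W (z + (l / 2) • cor σ) (l / 2) - cav W z l =
      ∫ y' in ucube d, (W (z + (l / 2) • cor σ + (l / 2) • y') - cav W z l) := by
    rw [integral_sub hi (integrable_const _), setIntegral_const, tr_vol, one_smul]
    rfl
  rw [h1]
  have h2 : ‖∫ y' in ucube d, (W (z + (l / 2) • cor σ + (l / 2) • y') - cav W z l)‖ ≤
      (H * √(2 * √d * (l / L))) * volume.real (ucube d) := by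
    apply norm_setIntegral_le_of_norm_le_const
    · rw [volume_ucube]; simp
    · intro y' hy'
      have h3 : z + (l / 2) • cor σ + (l / 2) • y' = z + l • ((1 / 2 : ℝ) • (cor σ + y')) := by
        rw [smul_smul, smul_add, add_assoc]
        congr 2 <;> congr 1 <;> ring
      rw [h3]
      exact tr_dev hH hL hl hW z (tr_child σ hy')
  rwa [tr_vol, mul_one] at h2

theorem tr_locint {g W : EuclideanSpace ℝ (Fin d) → EuclideanSpace ℝ (Fin d)}
    (hg : Integrable g) (hW : Continuous W) :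
    LocallyIntegrable (fun y => ⟪g y, W y⟫) := by
  rw [locallyIntegrable_iff]
  intro k hk
  obtain ⟨M, hM⟩ := hk.exists_bound_of_continuousOn hW.continuousOn
  have h1 : IntegrableOn (fun y => M * ‖g y‖) k := (hg.norm.const_mul M).integrableOn
  refine Integrable.mono' h1 ?_ ?_
  · exact (hg.aestronglyMeasurable.inner hW.aestronglyMeasurable).restrict
  · rw [ae_restrict_iff' hk.measurableSet]
    refine ae_of_all _ fun y hy => ?_
    calc ‖⟪g y, W y⟫‖ ≤ ‖g y‖ * ‖W y‖ := norm_inner_le_norm _ _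
      _ ≤ ‖g y‖ * M := mul_le_mul_of_nonneg_left (hM y hy) (norm_nonneg _)
      _ = M * ‖g y‖ := mul_comm _ _

/-- the cone condition passes to averages -/
theorem tr_cone {W : EuclideanSpace ℝ (Fin d) → EuclideanSpace ℝ (Fin d)} {K l : ℝ}
    {e : EuclideanSpace ℝ (Fin d)} (hl : 0 < l) (hWc : Continuous W)
    (hb : ∀ z w : EuclideanSpace ℝ (Fin d), -(K * Exc e w ^ 2) ≤ ⟪w, W z⟫ * ‖w‖)
    (z w : EuclideanSpace ℝ (Fin d)) : -(K * Exc e w ^ 2) ≤ ⟪w, cav W z l⟫ * ‖w‖ := by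
  have hi : IntegrableOn (fun y' => W (z + l • y')) (ucube d) :=
    integrableOn_cube hWc.locallyIntegrable z hl
  have hfin : IsFiniteMeasure (volume.restrict (ucube d)) :=
    ⟨by rw [Measure.restrict_apply_univ, volume_ucube]; simp⟩
  have h1 : ⟪w, cav W z l⟫ * ‖w‖ = ∫ y in ucube d, ⟪w, W (z + l • y)⟫ * ‖w‖ := by
    rw [integral_mul_const, integral_inner hi]
    rfl
  have h2 : -(K * Exc e w ^ 2) = ∫ _y in ucube d, -(K * Exc e w ^ 2) := by
    rw [setIntegral_const, tr_vol, one_smul]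
  rw [h1, h2]
  apply integral_mono (integrable_const _)
  · exact (hi.const_inner w).mul_const _
  · intro y
    exact hb _ _

theorem tr_leaf {g W : EuclideanSpace ℝ (Fin d) → EuclideanSpace ℝ (Fin d)} {l R : ℝ}
    (hl : 0 < l) (hg : Integrable g) (hWc : Continuous W) (z : EuclideanSpace ℝ (Fin d))
    (hR : ∀ y ∈ ucube d, ‖W (z + l • y) - cav W z l‖ ≤ R) :
    cav (fun y => -⟪g y, W y⟫) z l ≤
      -⟪cav g z l, cav W z l⟫ + R * cav (fun y => ‖g y‖) z l := by
  have hgi : IntegrableOn (fun y' => g (z + l • y')) (ucube d) :=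
    integrableOn_cube hg.locallyIntegrable z hl
  have hii : IntegrableOn (fun y' => -⟪g (z + l • y'), W (z + l • y')⟫) (ucube d) :=
    (integrableOn_cube (tr_locint hg hWc) z hl).neg
  have h1 : -⟪cav g z l, cav W z l⟫ + R * cav (fun y => ‖g y‖) z l =
      ∫ y in ucube d, (-⟪cav W z l, g (z + l • y)⟫ + R * ‖g (z + l • y)‖) := by
    have ha : IntegrableOn (fun y => -⟪cav W z l, g (z + l • y)⟫) (ucube d) :=
      (hgi.const_inner _).neg
    have hb : IntegrableOn (fun y => R * ‖g (z + l • y)‖) (ucube d) := hgi.norm.const_mul R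
    rw [integral_add ha hb, integral_neg, integral_inner hgi, integral_const_mul,
      real_inner_comm]
    rfl
  rw [h1]
  apply setIntegral_mono_on hii
  · exact (hgi.const_inner _).neg.add (hgi.norm.const_mul R)
  · exact measurableSet_ucube
  · intro y hy
    have h2 : ⟪g (z + l • y), W (z + l • y)⟫ =
        ⟪cav W z l, g (z + l • y)⟫ + ⟪g (z + l • y), W (z + l • y) - cav W z l⟫ := by
      rw [inner_sub_right, real_inner_comm (cav W z l)]; ring
    have h3 := abs_real_inner_le_norm (g (z + l • y)) (W (z + l • y) - cav W z l)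
    have h4 := (abs_le.mp h3).1
    have h5 : ‖g (z + l • y)‖ * ‖W (z + l • y) - cav W z l‖ ≤ ‖g (z + l • y)‖ * R :=
      mul_le_mul_of_nonneg_left (hR y hy) (norm_nonneg _)
    rw [h2]
    linarith

/-- `2^(-j/2)` -/
noncomputable def trth (j : ℕ) : ℝ := (2 : ℝ) ^ (-(j : ℝ) / 2)

theorem trth_pos (j : ℕ) : 0 < trth j := Real.rpow_pos_of_pos (by norm_num) _

theorem trth_sq (j : ℕ) : trth j ^ 2 = 1 / 2 ^ j := by
  unfold trth
  rw [← Real.rpow_natCast, ← Real.rpow_mul (by norm_num)]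
  have : -(j : ℝ) / 2 * ((2 : ℕ) : ℝ) = -(j : ℝ) := by push_cast; ring
  rw [this, Real.rpow_neg (by norm_num), Real.rpow_natCast, one_div]

theorem trth_succ (j : ℕ) : trth (j + 1) ≤ 3 / 4 * trth j := by
  have h1 := trth_pos j
  have h2 := trth_pos (j + 1)
  have h3 := trth_sq j
  have h4 := trth_sq (j + 1)
  have h5 : trth (j + 1) ^ 2 = trth j ^ 2 / 2 := by
    rw [h3, h4, pow_succ]
    field_simp
  have h6 : trth (j + 1) ^ 2 ≤ (3 / 4 * trth j) ^ 2 := by
    rw [h5]; nlinarith [sq_nonneg (trth j)]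
  exact (pow_le_pow_iff_left₀ h2.le (by positivity) two_ne_zero).mp h6

theorem trth_quarter (j : ℕ) : ((2 : ℝ) ^ (-(j : ℝ) / 4)) ^ 2 = trth j := by
  unfold trth
  rw [← Real.rpow_natCast, ← Real.rpow_mul (by norm_num)]
  congr 1
  push_cast; ring

theorem tr_sqrt {H L : ℝ} (hL : 0 < L) (j : ℕ) :
    H * √(2 * √d * (L / 2 ^ j / L)) = H * √(2 * √d) * trth j := by
  have h1 : L / 2 ^ j / L = trth j ^ 2 := by
    rw [trth_sq]; field_simp
  rw [h1, Real.sqrt_mul (by positivity), Real.sqrt_sq (trth_pos j).le]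
  ring

/-- the quantity of the induction -/
noncomputable def trS (g W : EuclideanSpace ℝ (Fin d) → EuclideanSpace ℝ (Fin d))
    (L C1 H' : ℝ) (N j : ℕ) (z : EuclideanSpace ℝ (Fin d)) : ℝ :=
  cav (fun y => -⟪g y, W y⟫) z (L / 2 ^ j) - C1 * tsm g L N j z -
    H' * trth (N + j) * cav (fun y => ‖g y‖) z (L / 2 ^ j)

theorem tr_main {g W : EuclideanSpace ℝ (Fin d) → EuclideanSpace ℝ (Fin d)}
    {e : EuclideanSpace ℝ (Fin d)} {K H L A C' C1 H' : ℝ} (hK : 0 ≤ K) (hH : 0 ≤ H) (hL : 0 < L)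
    (hg : Integrable g) (he : ‖e‖ = 1)
    (hb : ∀ z w : EuclideanSpace ℝ (Fin d), -(K * Exc e w ^ 2) ≤ ⟪w, W z⟫ * ‖w‖)
    (hW : ∀ z z' : EuclideanSpace ℝ (Fin d), ‖W z - W z'‖ ≤ H * √(‖z - z'‖ / L))
    (hA : 1000 * K ≤ A) (hA0 : 0 < A) (hH' : H' = H * √(2 * √d)) (hC' : C' = 4 * H')
    (hC1 : 0 < C1) (hC1' : C' ≤ C1) (hCC : 1000 * A * C' ≤ C1 ^ 2) (N : ℕ) :
    ∀ (j : ℕ) (z : EuclideanSpace ℝ (Fin d)),
      trS g W L C1 H' N j z ≤ -⟪cav g z (L / 2 ^ j), cav W z (L / 2 ^ j)⟫ +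
        C' * trth j * ‖cav g z (L / 2 ^ j)‖ ∧
      trS g W L C1 H' N j z * ‖cav g z (L / 2 ^ j)‖ ≤ A * Exc e (cav g z (L / 2 ^ j)) ^ 2 := by
  have hWc := tr_cont hW
  have hH'0 : 0 ≤ H' := by rw [hH']; positivity
  have hC'0 : 0 ≤ C' := by rw [hC']; positivity
  induction N with
  | zero =>
    intro j z
    have hl : 0 < L / 2 ^ j := by positivity
    have h1 := tr_leaf (R := H' * trth j) hl hg hWc z (fun y hy => by
      have := tr_dev hH hL hl hW z hy
      rw [tr_sqrt hL j] at this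
      rw [hH']; exact this)
    have h2 : trS g W L C1 H' 0 j z ≤ -⟪cav g z (L / 2 ^ j), cav W z (L / 2 ^ j)⟫ := by
      unfold trS tsm
      rw [Nat.zero_add]
      linarith
    constructor
    · refine h2.trans ?_
      have := trth_pos j
      have : 0 ≤ C' * trth j * ‖cav g z (L / 2 ^ j)‖ := by positivity
      linarith
    · have h3 := tr_cone hl hWc hb z (cav g z (L / 2 ^ j))
      have h4 := mul_le_mul_of_nonneg_right h2 (norm_nonneg (cav g z (L / 2 ^ j)))
      have h5 : K * Exc e (cav g z (L / 2 ^ j)) ^ 2 ≤ A * Exc e (cav g z (L / 2 ^ j)) ^ 2 :=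
        mul_le_mul_of_nonneg_right (by linarith) (sq_nonneg _)
      linarith
  | succ N ih =>
    intro j z
    have hl : 0 < L / 2 ^ j := by positivity
    have hhalf : L / 2 ^ j / 2 = L / 2 ^ (j + 1) := by
      rw [pow_succ]; field_simp
    have hsg := cav_split (hg.locallyIntegrable) z hl
    have hsn := cav_split (hg.norm.locallyIntegrable) z hl
    have hsi := cav_split (tr_locint hg hWc).neg z hl
    rw [hhalf] at hsg hsn hsi
    have hom := fun σ => tr_om hH hL hl hW z σ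
    rw [tr_sqrt hL j, hhalf, ← hH'] at hom
    set zc : (Fin d → Fin 2) → EuclideanSpace ℝ (Fin d) := fun σ => z + (L / 2 ^ (j + 1)) • cor σ
      with hzc
    set v : (Fin d → Fin 2) → EuclideanSpace ℝ (Fin d) := fun σ => cav g (zc σ) (L / 2 ^ (j + 1))
      with hv
    set t : (Fin d → Fin 2) → ℝ := fun σ => trS g W L C1 H' N (j + 1) (zc σ) with ht
    set P : ℝ := ((2 : ℝ) ^ d)⁻¹ with hP
    have hPpos : 0 < P := by positivity
    have hsumg : ∑ σ : Fin d → Fin 2, P • v σ = cav g z (L / 2 ^ j) := by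
      rw [← Finset.smul_sum, hsg]
    have hP1 : ∑ _σ : Fin d → Fin 2, P = 1 := by
      rw [Finset.sum_const, Finset.card_univ]
      simp [hP]
    have hSeq : trS g W L C1 H' (N + 1) j z =
        ∑ σ, P * t σ - C1 * (2 : ℝ) ^ (-(j : ℝ) / 4) *
          (∑ σ, P * ‖v σ‖ - ‖∑ σ : Fin d → Fin 2, P • v σ‖) := by
      have e1 : ∑ σ, P * t σ = P * ∑ σ, cav (fun y => -⟪g y, W y⟫) (zc σ) (L / 2 ^ (j + 1)) -
          C1 * (P * ∑ σ, tsm g L N (j + 1) (zc σ)) -
          H' * trth (N + (j + 1)) * (P * ∑ σ, cav (fun y => ‖g y‖) (zc σ) (L / 2 ^ (j + 1))) := by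
        rw [← Finset.mul_sum]
        simp only [ht, trS, Finset.sum_sub_distrib, ← Finset.mul_sum]
        ring
      have e2 : cav (fun y => -⟪g y, W y⟫) z (L / 2 ^ j) =
          P * ∑ σ, cav (fun y => -⟪g y, W y⟫) (zc σ) (L / 2 ^ (j + 1)) := hsi
      have e3 : cav (fun y => ‖g y‖) z (L / 2 ^ j) =
          P * ∑ σ, cav (fun y => ‖g y‖) (zc σ) (L / 2 ^ (j + 1)) := hsn
      have e4 : tsm g L (N + 1) j z = (2 : ℝ) ^ (-(j : ℝ) / 4) * del g z (L / 2 ^ j) +
          P * ∑ σ, tsm g L N (j + 1) (zc σ) := rfl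
      have e5 : del g z (L / 2 ^ j) = ∑ σ, P * ‖v σ‖ - ‖∑ σ : Fin d → Fin 2, P • v σ‖ := by
        unfold del
        rw [hhalf, hsumg, ← Finset.mul_sum]
      rw [e1, ← e2, ← e3]
      unfold trS
      rw [e4, e5]
      have e6 : N + 1 + j = N + (j + 1) := by ring
      rw [e6]
      ring
    have hth := trth_pos j
    have h4pos : (0 : ℝ) < (2 : ℝ) ^ (-(j : ℝ) / 4) := Real.rpow_pos_of_pos (by norm_num) _
    have h4le : (2 : ℝ) ^ (-(j : ℝ) / 4) ≤ 1 := by
      apply Real.rpow_le_one_of_one_le_of_nonpos (by norm_num)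
      have : (0 : ℝ) ≤ j := Nat.cast_nonneg j
      linarith
    have h4sq := trth_quarter j
    have key := step_ineq (Finset.univ) (fun _ : Fin d → Fin 2 => P) v t e (cav W z (L / 2 ^ j))
      (K := K) (A := A) (ε := C1 * (2 : ℝ) ^ (-(j : ℝ) / 4)) (τ := C' * trth j) he hK
      (by positivity) hA hA0 (by positivity)
      (by
        rw [mul_pow, h4sq]
        calc 1000 * A * (C' * trth j) = 1000 * A * C' * trth j := by ring
          _ ≤ C1 ^ 2 * trth j := mul_le_mul_of_nonneg_right hCC hth.le)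
      (by
        have h5 : trth j ≤ (2 : ℝ) ^ (-(j : ℝ) / 4) := by
          rw [← h4sq]; nlinarith
        exact mul_le_mul hC1' h5 hth.le hC1.le)
      (fun w => tr_cone hl hWc hb z w) (fun _ _ => hPpos.le) hP1
      (by
        intro σ _
        have i1 := (ih (j + 1) (zc σ)).1
        refine i1.trans ?_
        have i2 : -⟪v σ, cav W (zc σ) (L / 2 ^ (j + 1))⟫ ≤ -⟪v σ, cav W z (L / 2 ^ j)⟫ +
            ‖v σ‖ * (H' * trth j) := by
          have i3 := abs_real_inner_le_norm (v σ)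
            (cav W (zc σ) (L / 2 ^ (j + 1)) - cav W z (L / 2 ^ j))
          rw [inner_sub_right] at i3
          have i4 := (abs_le.mp i3).1
          have i5 := mul_le_mul_of_nonneg_left (hom σ) (norm_nonneg (v σ))
          linarith
        have i6 := trth_succ j
        have i7 : C' * trth (j + 1) * ‖v σ‖ ≤ C' * (3 / 4 * trth j) * ‖v σ‖ := by
          apply mul_le_mul_of_nonneg_right _ (norm_nonneg _)
          exact mul_le_mul_of_nonneg_left i6 hC'0
        have i8 : ‖v σ‖ * (H' * trth j) = 1 / 4 * (C' * trth j * ‖v σ‖) := by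
          rw [hC']; ring
        rw [i8] at i2
        have i9 : C' * (3 / 4 * trth j) * ‖v σ‖ = 3 / 4 * (C' * trth j * ‖v σ‖) := by ring
        rw [i9] at i7
        linarith)
      (fun σ _ => (ih (j + 1) (zc σ)).2)
    rw [← hSeq, hsumg] at key
    exact key

/-- Proof. Induction on `N` for all levels `j` and corners `z` (side `l = L/2^j`) of
`S(N,j,z) := cav (-⟪g,W⟫) z l - C1 * tsm g L N j z - H' 2^{-(N+j)/2} cav ‖g‖ z l` with
`S ≤ -⟪cav g z l, cav W z l⟫ + τ_j ‖cav g z l‖` and `S * ‖cav g z l‖ ≤ A * Exc e (cav g z l)^2`,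
`τ_j = C' 2^{-j/2}`, penalty `ε_j = C1 2^{-j/4}`, `A = 1000 K + 1`.
Leaf (`N = 0`): `-⟪g,W⟫ ≤ -⟪g, cav W⟫ + H' 2^{-j/2} ‖g‖` pointwise on the cube.
Step: `step_ineq` with `p = 2^{-d}`, `v σ = cav g (child σ)`, `om = cav W z l`, and
`‖cav W (child) - cav W z l‖ ≤ H' 2^{-j/2}`. -/
theorem tree_ineq (d : ℕ) (K H : ℝ) (hK : 0 ≤ K) (hH : 0 ≤ H) :
    ∃ C : ℝ, 0 ≤ C ∧ ∀ (g W : EuclideanSpace ℝ (Fin d) → EuclideanSpace ℝ (Fin d))
      (e : EuclideanSpace ℝ (Fin d)) (L : ℝ), 0 < L → Integrable g → ‖e‖ = 1 →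
      (∀ z w : EuclideanSpace ℝ (Fin d), -(K * Exc e w ^ 2) ≤ ⟪w, W z⟫ * ‖w‖) →
      (∀ z z' : EuclideanSpace ℝ (Fin d), ‖W z - W z'‖ ≤ H * √(‖z - z'‖ / L)) →
      ∀ z : EuclideanSpace ℝ (Fin d), Exc e (cav g z L) = 0 → ∀ N : ℕ,
        - cav (fun y => ⟪g y, W y⟫) z L ≤
          C * tsm g L N 0 z + C * (2 : ℝ) ^ (-(N : ℝ) / 2) * cav (fun y => ‖g y‖) z L := by
  set H' : ℝ := H * √(2 * √d) with hH'
  have hH'0 : 0 ≤ H' := by rw [hH']; positivity
  set A : ℝ := 1000 * K + 1 with hA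
  set C' : ℝ := 4 * H' with hC'
  set C1 : ℝ := 1000 * A + C' with hC1
  have hA0 : 0 < A := by rw [hA]; positivity
  have hC'0 : 0 ≤ C' := by rw [hC']; positivity
  have hC10 : 0 < C1 := by rw [hC1]; positivity
  refine ⟨C1, hC10.le, ?_⟩
  intro g W e L hL hg he hb hW z hz N
  have h1 := tr_main (g := g) (W := W) (e := e) (K := K) (H := H) (L := L) (A := A) (C' := C')
    (C1 := C1) (H' := H') hK hH hL hg he hb hW (by linarith) hA0 hH' hC' hC10
    (by rw [hC1]; linarith) (by rw [hC1]; nlinarith) N 0 z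
  simp only [pow_zero, div_one] at h1
  rw [hz] at h1
  obtain ⟨h2, h3⟩ := h1
  have h4 : trS g W L C1 H' N 0 z ≤ 0 := by
    rcases eq_or_lt_of_le (norm_nonneg (cav g z L)) with h | h
    · have h5 : cav g z L = 0 := norm_eq_zero.mp h.symm
      rw [h5] at h2
      simpa using h2
    · have h5 : trS g W L C1 H' N 0 z * ‖cav g z L‖ ≤ 0 := by simpa using h3
      by_contra h6
      push Not at h6
      have := mul_pos h6 h
      linarith
  unfold trS at h4
  simp only [pow_zero, div_one, Nat.add_zero] at h4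
  have h5 : cav (fun y => -⟪g y, W y⟫) z L = - cav (fun y => ⟪g y, W y⟫) z L := by
    unfold cav
    exact integral_neg _
  rw [h5] at h4
  have h6 : 0 ≤ cav (fun y => ‖g y‖) z L := by
    unfold cav
    exact integral_nonneg (fun _ => norm_nonneg _)
  have h7 : H' * trth N * cav (fun y => ‖g y‖) z L ≤
      C1 * trth N * cav (fun y => ‖g y‖) z L := by
    apply mul_le_mul_of_nonneg_right _ h6
    apply mul_le_mul_of_nonneg_right _ (trth_pos N).le
    rw [hC1, hC']
    linarith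
  have h8 : (2 : ℝ) ^ (-(N : ℝ) / 2) = trth N := rfl
  rw [h8]
  linarith

end Vale.Agent.P137
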