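import Vale.Agent.P137.CalW
import Vale.Agent.P137.Tree

/-! Combination of the kernel and of the tree inequality. -/

open MeasureTheory Metric Set Filter Topology
open scoped RealInnerProductSpace ENNReal

namespace Vale.Agent.P137

theorem cav_eq_integral {d : ℕ} {φ : EuclideanSpace ℝ (Fin d) → ℝ}
    (z : EuclideanSpace ℝ (Fin d)) {L : ℝ} (hL : 0 < L)
    (h : ∀ u, L / 2 ≤ dist u (z + L • ctr0 d) → φ u = 0) :
    cav φ z L = (L ^ d)⁻¹ * ∫ u, φ u := by
  unfold cav
  rw [setIntegral_eq_integral_of_forall_compl_eq_zero]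
  · have e2 := Measure.integral_comp_smul (volume : Measure (EuclideanSpace ℝ (Fin d)))
      (fun u => φ (z + u)) L
    have e3 := integral_add_left_eq_self (μ := (volume : Measure (EuclideanSpace ℝ (Fin d)))) φ z
    rw [e2, e3, finrank_euclideanSpace_fin, smul_eq_mul, abs_of_pos (by positivity)]
  · intro y hy
    apply h
    have h1 : y ∉ ball (ctr0 d) (1 / 2) := fun hb => hy (ball_subset_ucube hb)
    rw [mem_ball, not_lt] at h1
    have h2 : dist (z + L • y) (z + L • ctr0 d) = L * dist y (ctr0 d) := by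
      rw [dist_add_left, dist_smul₀, Real.norm_of_nonneg hL.le]
    rw [h2]
    nlinarith

/-- `calW` with `ctr = z + (64r) • ctr0 d` (the ball `(ctr, 28 r)` is inside the cube), `tree_ineq`
with `L = 64 r`, `g = gradient f`, and
`cav (⟪g,W⟫) z L = L^{-d} ∫ ⟪g,W⟫` (support of `W` inside the cube). -/
theorem propA (d : ℕ) (hd : 2 ≤ d) : ∃ C : ℝ, 0 ≤ C ∧
    ∀ (f : EuclideanSpace ℝ (Fin d) → ℝ), ContDiff ℝ 1 f → HasCompactSupport f →
      ∀ (r : ℝ), 0 < r → ∀ (z e : EuclideanSpace ℝ (Fin d)), ‖e‖ = 1 →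
      Exc e (cav (gradient f) z (64 * r)) = 0 → ∀ (N n : ℕ)
      (c : Fin n → EuclideanSpace ℝ (Fin d)) (ρ : Fin n → ℝ)
      (X : Fin n → Set (EuclideanSpace ℝ (Fin d))),
      (∀ i, r ≤ ρ i ∧ ρ i ≤ 2 * r) → (∀ i, MeasurableSet (X i)) →
      (∀ i j, i ≠ j → Disjoint (X i) (X j)) → (∀ i, X i ⊆ closedBall (c i) (ρ i)) →
      (∀ i, X i ⊆ ball (z + (64 * r) • ctr0 d) (16 * r)) →
      ∑ i, ∫ x in X i, (av f (c i) (ρ i) - av f (x + (2 * ρ i) • e) (2 * ρ i)) ≤
        C * r ^ (d + 1) * (tsm (gradient f) (64 * r) N 0 z +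
          (2 : ℝ) ^ (-(N : ℝ) / 2) * cav (fun y => ‖gradient f y‖) z (64 * r)) := by
  obtain ⟨K, H, hK, hH, hcal⟩ := calW d hd
  obtain ⟨C, hC, htree⟩ := tree_ineq d K H hK hH
  refine ⟨C * 64 ^ d, by positivity, ?_⟩
  intro f hf hfc r hr z e he hexc N n c ρ X hρ hXm hXd hXc hXY
  have hgi : Integrable (gradient f) := by
    have hc : Continuous (gradient f) := by
      have : Continuous (fderiv ℝ f) := hf.continuous_fderiv (by norm_num)
      exact (InnerProductSpace.toDual ℝ _).symm.continuous.comp this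
    have hs : HasCompactSupport (gradient f) := by
      have : HasCompactSupport (fderiv ℝ f) := hfc.fderiv ℝ
      exact this.comp_left (map_zero _)
    exact hc.integrable_of_hasCompactSupport hs
  obtain ⟨W, hW1, hW2, hW3, hW4⟩ := hcal e (z + (64 * r) • ctr0 d) r n c ρ X he hr hρ hXm hXd hXc
    hXY
  have hL : 0 < 64 * r := by linarith
  have ht := htree (gradient f) W e (64 * r) hL hgi he hW1 hW2 z hexc N
  rw [cav_eq_integral (φ := fun y => ⟪gradient f y, W y⟫) z hL (by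
    intro u hu
    show ⟪gradient f u, W u⟫ = 0
    rw [hW3 u (by linarith), inner_zero_right]), hW4 f hf hfc] at ht
  have hneg : ∑ i, ∫ x in X i, (av f (x + (2 * ρ i) • e) (2 * ρ i) - av f (c i) (ρ i)) =
      -∑ i, ∫ x in X i, (av f (c i) (ρ i) - av f (x + (2 * ρ i) • e) (2 * ρ i)) := by
    rw [← Finset.sum_neg_distrib]
    refine Finset.sum_congr rfl fun i _ => ?_
    rw [← integral_neg]
    refine integral_congr_ae (Eventually.of_forall fun x => ?_)
    show _ = _
    ring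
  rw [hneg] at ht
  set S := ∑ i, ∫ x in X i, (av f (c i) (ρ i) - av f (x + (2 * ρ i) • e) (2 * ρ i)) with hS
  set T := tsm (gradient f) (64 * r) N 0 z with hT
  set A := cav (fun y => ‖gradient f y‖) z (64 * r) with hA
  have h1 : -(((64 * r) ^ d)⁻¹ * (r⁻¹ * -S)) = ((64 * r) ^ d * r)⁻¹ * S := by
    rw [mul_inv]; ring
  rw [h1, inv_mul_le_iff₀ (by positivity)] at ht
  calc S ≤ _ := ht
    _ = _ := by rw [mul_pow, pow_succ]; ring

end Vale.Agent.P137
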