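import Vale.Agent.P137.MgeBasic

/-! From finite families of balls to the maximal function. -/

open MeasureTheory Metric Set Filter Topology
open scoped RealInnerProductSpace ENNReal

namespace Vale.Agent.P137

section sel

variable {E : Type*}

open Classical in
/-- running maximum of the functions `a i - M` on the sets `Bs i` and of `0` -/
noncomputable def selF (a : ℕ → ℝ) (Bs : ℕ → Set E) (M : E → ℝ) : ℕ → E → ℝ
  | 0, _ => 0
  | N + 1, x => max (selF a Bs M N x) ((Bs N).indicator (fun x => a N - M x) x)

theorem selF_nonneg (a : ℕ → ℝ) (Bs : ℕ → Set E) (M : E → ℝ) (N : ℕ) (x : E) :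
    0 ≤ selF a Bs M N x := by
  induction N with
  | zero => exact le_rfl
  | succ N ih => exact ih.trans (le_max_left _ _)

theorem selF_mono (a : ℕ → ℝ) (Bs : ℕ → Set E) (M : E → ℝ) (x : E) :
    Monotone fun N => selF a Bs M N x :=
  monotone_nat_of_le_succ fun _ => le_max_left _ _

theorem le_selF (a : ℕ → ℝ) (Bs : ℕ → Set E) (M : E → ℝ) {x : E} {i : ℕ} (hx : x ∈ Bs i) :
    a i - M x ≤ selF a Bs M (i + 1) x := by
  refine le_trans ?_ (le_max_right _ _)
  rw [indicator_of_mem hx]

theorem selF_le {a : ℕ → ℝ} {Bs : ℕ → Set E} {M : E → ℝ} {x : E} {b : ℝ} (hb : 0 ≤ b)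
    (h : ∀ i, x ∈ Bs i → a i - M x ≤ b) (N : ℕ) : selF a Bs M N x ≤ b := by
  induction N with
  | zero => exact hb
  | succ N ih =>
    refine max_le ih ?_
    by_cases hx : x ∈ Bs N
    · rw [indicator_of_mem hx]
      exact h N hx
    · rw [indicator_of_notMem hx]
      exact hb

variable [MeasurableSpace E]

theorem measurable_selF {a : ℕ → ℝ} {Bs : ℕ → Set E} {M : E → ℝ} (hB : ∀ i, MeasurableSet (Bs i))
    (hM : Measurable M) (N : ℕ) : Measurable (selF a Bs M N) := by
  induction N with
  | zero => exact measurable_const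
  | succ N ih => exact ih.max ((measurable_const.sub hM).indicator (hB N))

open Classical in
/-- measurable selection of the maximal index -/
theorem exists_sel {a : ℕ → ℝ} {Bs : ℕ → Set E} {M : E → ℝ} (hB : ∀ i, MeasurableSet (Bs i))
    (hM : Measurable M) {Y : Set E} (hY : MeasurableSet Y) (N : ℕ) :
    ∃ X : ℕ → Set E, (∀ i, MeasurableSet (X i)) ∧ (∀ i j, i ≠ j → Disjoint (X i) (X j)) ∧
      (∀ i, X i ⊆ Bs i) ∧ (∀ i, X i ⊆ Y) ∧
      ∀ x ∈ Y, selF a Bs M N x = ∑ i ∈ Finset.range N, (X i).indicator (fun x => a i - M x) x := by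
  induction N with
  | zero =>
    exact ⟨fun _ => ∅, fun _ => MeasurableSet.empty, fun _ _ _ => disjoint_bot_left,
      fun _ => empty_subset _, fun _ => empty_subset _, fun x _ => by simp [selF]⟩
  | succ N ih =>
    obtain ⟨X, h1, h2, h3, h4, h5⟩ := ih
    set Z : Set E := (Y ∩ Bs N) ∩ {x | selF a Bs M N x < a N - M x} with hZ
    have hZm : MeasurableSet Z :=
      (hY.inter (hB N)).inter (measurableSet_lt (measurable_selF hB hM N) (measurable_const.sub hM))
    refine ⟨fun i => if i = N then Z else X i \ Z, fun i => ?_, fun i j hij => ?_, fun i => ?_,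
      fun i => ?_, fun x hx => ?_⟩
    · dsimp only
      split_ifs
      · exact hZm
      · exact (h1 i).diff hZm
    · dsimp only
      split_ifs with hi hj hj
      · exact absurd (hi.trans hj.symm) hij
      · exact disjoint_sdiff_right
      · exact disjoint_sdiff_left
      · exact (h2 i j hij).mono sdiff_subset sdiff_subset
    · dsimp only
      split_ifs with hi
      · rw [hi]
        exact fun x hx => hx.1.2
      · exact sdiff_subset.trans (h3 i)
    · dsimp only
      split_ifs with hi
      · exact fun x hx => hx.1.1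
      · exact sdiff_subset.trans (h4 i)
    · rw [Finset.sum_range_succ]
      dsimp only
      rw [if_pos rfl]
      have e : ∀ i ∈ Finset.range N, (if i = N then Z else X i \ Z).indicator
          (fun x => a i - M x) x = (X i \ Z).indicator (fun x => a i - M x) x := by
        intro i hi
        rw [if_neg (Finset.mem_range.1 hi).ne]
      rw [Finset.sum_congr rfl e]
      by_cases hxZ : x ∈ Z
      · have e2 : ∀ i ∈ Finset.range N, (X i \ Z).indicator (fun x => a i - M x) x = 0 :=
          fun i _ => indicator_of_notMem (fun h => h.2 hxZ) _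
        rw [Finset.sum_eq_zero e2, zero_add, indicator_of_mem hxZ]
        show max _ _ = _
        rw [indicator_of_mem hxZ.1.2]
        exact max_eq_right (le_of_lt hxZ.2)
      · have e2 : ∀ i ∈ Finset.range N, (X i \ Z).indicator (fun x => a i - M x) x =
            (X i).indicator (fun x => a i - M x) x := by
          intro i _
          by_cases hxi : x ∈ X i
          · rw [indicator_of_mem hxi, indicator_of_mem (show x ∈ X i \ Z from ⟨hxi, hxZ⟩)]
          · rw [indicator_of_notMem hxi, indicator_of_notMem fun h => hxi h.1]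
        rw [Finset.sum_congr rfl e2, indicator_of_notMem hxZ, add_zero, ← h5 x hx]
        show max _ _ = _
        apply max_eq_left
        by_cases hxB : x ∈ Bs N
        · rw [indicator_of_mem hxB]
          by_contra h
          exact hxZ ⟨⟨hx, hxB⟩, not_le.1 h⟩
        · rw [indicator_of_notMem hxB]
          exact selF_nonneg _ _ _ _ _

end sel

theorem select {d : ℕ} (hd : 1 ≤ d) {f : EuclideanSpace ℝ (Fin d) → ℝ} (hf : Continuous f)
    (hfc : HasCompactSupport f) (hf0 : ∀ x, 0 ≤ f x) {r : ℝ} (hr : 0 < r)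
    {Y : Set (EuclideanSpace ℝ (Fin d))} (hY : MeasurableSet Y) {B : ℝ}
    (hB : ∀ (n : ℕ) (c : Fin n → EuclideanSpace ℝ (Fin d)) (ρ : Fin n → ℝ)
      (X : Fin n → Set (EuclideanSpace ℝ (Fin d))),
      (∀ i, r ≤ ρ i ∧ ρ i ≤ 2 * r) → (∀ i, MeasurableSet (X i)) →
      (∀ i j, i ≠ j → Disjoint (X i) (X j)) → (∀ i, X i ⊆ closedBall (c i) (ρ i)) →
      (∀ i, X i ⊆ Y) →
      ∑ i, ∫ x in X i, (av f (c i) (ρ i) - Mge f (2 * r) x) ≤ B) :
    ∫ x in Y, (Mge f r x - Mge f (2 * r) x) ≤ B := by
  have hfi : Integrable f := hf.integrable_of_hasCompactSupport hfc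
  have h2r : 0 < 2 * r := by linarith
  have hr2 : r < 2 * r := by linarith
  have hne : Nonempty (Set.Ioo r (2 * r)) := ⟨⟨3 / 2 * r, by constructor <;> linarith⟩⟩
  set p : ℕ → EuclideanSpace ℝ (Fin d) × Set.Ioo r (2 * r) :=
    TopologicalSpace.denseSeq _ with hp
  set a : ℕ → ℝ := fun i => av f (p i).1 (p i).2 with ha
  set Bs : ℕ → Set (EuclideanSpace ℝ (Fin d)) := fun i => closedBall (p i).1 (p i).2 with hBs
  set M : EuclideanSpace ℝ (Fin d) → ℝ := Mge f (2 * r) with hM
  have hMc : Continuous M := (Mge_lipschitz hfi hf0 h2r).continuous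
  have hBm : ∀ i, MeasurableSet (Bs i) := fun i => isClosed_closedBall.measurableSet
  have hint : ∀ N, ∫ x in Y, selF a Bs M N x ≤ B := by
    intro N
    obtain ⟨X, h1, h2, h3, h4, h5⟩ := exists_sel (a := a) hBm hMc.measurable hY N
    have hI : ∀ i, IntegrableOn (fun x => a i - M x) (X i) := fun i =>
      ((continuous_const.sub hMc).continuousOn.integrableOn_compact
        (isCompact_closedBall _ _)).mono_set (h3 i)
    rw [setIntegral_congr_fun hY h5, integral_finsetSum]
    · have e : ∀ i ∈ Finset.range N, ∫ x in Y, (X i).indicator (fun x => a i - M x) x =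
          ∫ x in X i, (a i - M x) := by
        intro i _
        rw [setIntegral_indicator (h1 i), inter_eq_self_of_subset_right (h4 i)]
      rw [Finset.sum_congr rfl e, Finset.sum_range]
      exact hB N (fun i => (p i).1) (fun i => (p i).2) (fun i => X i)
        (fun i => ⟨(p i).2.2.1.le, (p i).2.2.2.le⟩) (fun i => h1 i)
        (fun i j hij => h2 i j fun h => hij (Fin.ext h)) (fun i => h3 i) (fun i => h4 i)
    · intro i _
      exact ((integrable_indicator_iff (h1 i)).2 (hI i)).restrict
  have hg0 : ∀ x, 0 ≤ Mge f r x - M x := fun x => sub_nonneg.2 (Mge_anti hfi hf0 hr hr2.le x)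
  have hle : ∀ N x, selF a Bs M N x ≤ Mge f r x - M x := fun N x =>
    selF_le (hg0 x) (fun i hx => by
      have : a i ≤ Mge f r x := av_le_Mge hfi hf0 hr (p i).2.2.1.le hx
      linarith) N
  have hlim : ∀ x, Tendsto (fun N => selF a Bs M N x) atTop (𝓝 (Mge f r x - M x)) := by
    intro x
    rw [tendsto_order]
    refine ⟨fun b hb => ?_, fun b hb => Eventually.of_forall fun N => (hle N x).trans_lt hb⟩
    rcases lt_or_ge b 0 with hb0 | hb0
    · exact Eventually.of_forall fun N => hb0.trans_le (selF_nonneg _ _ _ _ _)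
    · obtain ⟨c, s, hs1, hs2, hs3⟩ := exists_av_gt hfi hf0 hr x (b := b + M x) (by linarith)
      have hs4 : s < 2 * r := by
        by_contra h
        have := av_le_Mge hfi hf0 h2r (not_lt.1 h) hs2
        linarith
      have hs0 : 0 < s := hr.trans_le hs1
      have hca := continuousOn_av (d := d) (f := f) hd hfi
      have hopen : IsOpen {q : EuclideanSpace ℝ (Fin d) × ℝ | 0 < q.2} :=
        isOpen_lt continuous_const continuous_snd
      -- a slightly larger radius
      have h6 : ∀ᶠ s' in 𝓝 s, b + M x < av f c s' := by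
        have h7 : ContinuousAt (fun q : EuclideanSpace ℝ (Fin d) × ℝ => av f q.1 q.2) (c, s) :=
          hca.continuousAt (hopen.mem_nhds hs0)
        have h8 : ContinuousAt (fun s' : ℝ => av f c s') s :=
          ContinuousAt.comp (f := fun s' : ℝ => ((c, s') : EuclideanSpace ℝ (Fin d) × ℝ)) h7
            (Continuous.prodMk_right c).continuousAt
        exact h8.eventually (lt_mem_nhds hs3)
      have h9 : ∃ s', s < s' ∧ s' < 2 * r ∧ b + M x < av f c s' := by
        have h10 : ∀ᶠ s' in 𝓝[>] s, b + M x < av f c s' := h6.filter_mono nhdsWithin_le_nhds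
        have h11 : ∀ᶠ s' in 𝓝[>] s, s' < 2 * r :=
          (gt_mem_nhds hs4).filter_mono nhdsWithin_le_nhds
        have h12 : ∀ᶠ s' in 𝓝[>] s, s < s' := self_mem_nhdsWithin
        obtain ⟨s', h⟩ := (h12.and (h11.and h10)).exists
        exact ⟨s', h.1, h.2.1, h.2.2⟩
      obtain ⟨s', h13, h14, h15⟩ := h9
      set U : Set (EuclideanSpace ℝ (Fin d) × Set.Ioo r (2 * r)) :=
        {q | dist x q.1 < q.2 ∧ b + M x < av f q.1 q.2} with hU
      have hcont : Continuous fun q : EuclideanSpace ℝ (Fin d) × Set.Ioo r (2 * r) =>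
          av f q.1 q.2 := by
        have := hca.comp_continuous
          (f := fun q : EuclideanSpace ℝ (Fin d) × Set.Ioo r (2 * r) => (q.1, (q.2 : ℝ)))
          (continuous_fst.prodMk (continuous_subtype_val.comp continuous_snd))
          (fun q => hr.trans q.2.2.1)
        exact this
      have hUo : IsOpen U :=
        (isOpen_lt (continuous_const.dist continuous_fst)
          (continuous_subtype_val.comp continuous_snd)).inter (isOpen_lt continuous_const hcont)
      have hUn : U.Nonempty :=
        ⟨(c, ⟨s', hs1.trans_lt h13, h14⟩), ⟨lt_of_le_of_lt hs2 h13, h15⟩⟩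
      obtain ⟨i, hi⟩ := (TopologicalSpace.denseRange_denseSeq
        (EuclideanSpace ℝ (Fin d) × Set.Ioo r (2 * r))).exists_mem_open hUo hUn
      have hi1 : x ∈ Bs i := by
        rw [hBs]
        exact mem_closedBall.2 hi.1.le
      have hi2 : b < a i - M x := by
        have : b + M x < a i := hi.2
        linarith
      filter_upwards [eventually_ge_atTop (i + 1)] with N hN
      exact hi2.trans_le ((le_selF a Bs M hi1).trans (selF_mono a Bs M x hN))
  have hgi : Integrable (fun x => Mge f r x - M x) := integrable_Mge_sub hf hfc hf0 hr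
  have hconv : Tendsto (fun N => ∫ x in Y, selF a Bs M N x) atTop
      (𝓝 (∫ x in Y, (Mge f r x - M x))) := by
    refine tendsto_integral_of_dominated_convergence (fun x => Mge f r x - M x) ?_ hgi.restrict ?_ ?_
    · exact fun N => (measurable_selF hBm hMc.measurable N).aestronglyMeasurable
    · intro N
      refine Eventually.of_forall fun x => ?_
      rw [Real.norm_eq_abs, abs_of_nonneg (selF_nonneg _ _ _ _ _)]
      exact hle N x
    · exact Eventually.of_forall hlim
  exact le_of_tendsto' hconv hint

end Vale.Agent.P137
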