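import Vale.Agent.P137.Cube

/-! Telescoping: `∫ del g z l dz = F(l/2) - F(l)` with `F(l) = ∫ ‖cav g z l‖ dz ≤ ∫ ‖g‖`. -/

open MeasureTheory Metric Set Filter Topology
open scoped RealInnerProductSpace ENNReal

namespace Vale.Agent.P137

variable {d : ℕ}

theorem del_nonneg {g : EuclideanSpace ℝ (Fin d) → EuclideanSpace ℝ (Fin d)} (hg : Integrable g)
    (z : EuclideanSpace ℝ (Fin d)) {l : ℝ} (hl : 0 < l) : 0 ≤ del g z l := by
  unfold del
  rw [sub_nonneg, cav_split hg.locallyIntegrable z hl, norm_smul,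
    Real.norm_of_nonneg (by positivity)]
  exact mul_le_mul_of_nonneg_left (norm_sum_le _ _) (by positivity)

theorem tsm_nonneg {g : EuclideanSpace ℝ (Fin d) → EuclideanSpace ℝ (Fin d)} (hg : Integrable g)
    {L : ℝ} (hL : 0 < L) (N j : ℕ) (z : EuclideanSpace ℝ (Fin d)) : 0 ≤ tsm g L N j z := by
  induction N generalizing j z with
  | zero => simp [tsm]
  | succ N ih =>
    rw [tsm]
    have h1 : 0 ≤ (2 : ℝ) ^ (-(j : ℝ) / 4) * del g z (L / 2 ^ j) :=
      mul_nonneg (by positivity) (del_nonneg hg z (by positivity))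
    have h2 : 0 ≤ ((2 : ℝ) ^ d)⁻¹ *
        ∑ σ : Fin d → Fin 2, tsm g L N (j + 1) (z + (L / 2 ^ (j + 1)) • cor σ) :=
      mul_nonneg (by positivity) (Finset.sum_nonneg fun σ _ => ih _ _)
    linarith

/-- the shear is measure preserving -/
theorem shear_mp (l : ℝ) : MeasurePreserving
    (fun p : EuclideanSpace ℝ (Fin d) × EuclideanSpace ℝ (Fin d) => (p.1, p.2 + l • p.1))
    ((volume.restrict (ucube d)).prod volume) ((volume.restrict (ucube d)).prod volume) := by
  refine MeasurePreserving.skew_product (f := id)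
    (g := fun (y x : EuclideanSpace ℝ (Fin d)) => x + l • y)
    (MeasurePreserving.id _) ?_ ?_
  · have : Continuous (Function.uncurry fun (y x : EuclideanSpace ℝ (Fin d)) => x + l • y) := by
      unfold Function.uncurry; fun_prop
    exact this.measurable
  · refine Eventually.of_forall fun y => ?_
    exact (measurePreserving_add_right volume (l • y)).map_eq

theorem finite_ucube : IsFiniteMeasure (volume.restrict (ucube d)) :=
  ⟨by rw [Measure.restrict_apply_univ, volume_ucube]; exact ENNReal.one_lt_top⟩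

theorem integrable_shear {F : Type*} [NormedAddCommGroup F] [NormedSpace ℝ F]
    {g : EuclideanSpace ℝ (Fin d) → F} (hg : Integrable g) (l : ℝ) :
    Integrable (fun p : EuclideanSpace ℝ (Fin d) × EuclideanSpace ℝ (Fin d) => g (p.2 + l • p.1))
      ((volume.restrict (ucube d)).prod volume) := by
  have := finite_ucube (d := d)
  have h1 : Integrable (fun p : EuclideanSpace ℝ (Fin d) × EuclideanSpace ℝ (Fin d) => g p.2)
      ((volume.restrict (ucube d)).prod volume) := hg.comp_snd _
  exact ((shear_mp (d := d) l).integrable_comp h1.aestronglyMeasurable).2 h1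

theorem integrable_cav {F : Type*} [NormedAddCommGroup F] [NormedSpace ℝ F]
    {g : EuclideanSpace ℝ (Fin d) → F} (hg : Integrable g)
    {l : ℝ} (hl : 0 < l) : Integrable (fun z => cav g z l) := by
  have := finite_ucube (d := d)
  exact (integrable_shear hg l).integral_prod_right

/-- for `g = ‖G‖` -/
theorem integral_cav {F : Type*} [NormedAddCommGroup F] [NormedSpace ℝ F] [CompleteSpace F]
    {g : EuclideanSpace ℝ (Fin d) → F} (hg : Integrable g)
    {l : ℝ} (hl : 0 < l) : ∫ z, cav g z l = ∫ z, g z := by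
  have := finite_ucube (d := d)
  have h1 := integral_integral_swap (μ := volume.restrict (ucube d)) (ν := volume)
    (f := fun (y x : EuclideanSpace ℝ (Fin d)) => g (x + l • y)) (integrable_shear hg l)
  unfold cav
  rw [← h1]
  have h2 : ∀ y : EuclideanSpace ℝ (Fin d), ∫ x, g (x + l • y) = ∫ x, g x := fun y =>
    integral_add_right_eq_self g (l • y)
  simp only [h2]
  rw [integral_const]
  simp [Measure.real, volume_ucube]

/-- the total mass of the averages -/
noncomputable def tF (g : EuclideanSpace ℝ (Fin d) → EuclideanSpace ℝ (Fin d)) (l : ℝ) : ℝ :=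
  ∫ z, ‖cav g z l‖

theorem tF_nonneg (g : EuclideanSpace ℝ (Fin d) → EuclideanSpace ℝ (Fin d)) (l : ℝ) :
    0 ≤ tF g l := integral_nonneg fun _ => norm_nonneg _

theorem tF_le {g : EuclideanSpace ℝ (Fin d) → EuclideanSpace ℝ (Fin d)} (hg : Integrable g)
    {l : ℝ} (hl : 0 < l) : tF g l ≤ ∫ z, ‖g z‖ := by
  rw [← integral_cav hg.norm hl]
  refine integral_mono (integrable_cav hg hl).norm (integrable_cav hg.norm hl) fun z => ?_
  exact norm_integral_le_integral_norm _

theorem integrable_del {g : EuclideanSpace ℝ (Fin d) → EuclideanSpace ℝ (Fin d)}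
    (hg : Integrable g) {l : ℝ} (hl : 0 < l) : Integrable (fun z => del g z l) := by
  unfold del
  refine Integrable.sub (Integrable.const_mul ?_ _) (integrable_cav hg hl).norm
  refine integrable_finset_sum _ fun σ _ => ?_
  exact ((integrable_cav hg (half_pos hl)).norm).comp_add_right ((l / 2) • cor σ)

theorem integral_del {g : EuclideanSpace ℝ (Fin d) → EuclideanSpace ℝ (Fin d)}
    (hg : Integrable g) {l : ℝ} (hl : 0 < l) :
    ∫ z, del g z l = tF g (l / 2) - tF g l := by
  unfold del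
  have hi : ∀ σ : Fin d → Fin 2, Integrable
      (fun z => ‖cav g (z + (l / 2) • cor σ) (l / 2)‖) := fun σ =>
    ((integrable_cav hg (half_pos hl)).norm).comp_add_right ((l / 2) • cor σ)
  rw [integral_sub (Integrable.const_mul (integrable_finset_sum _ fun σ _ => hi σ) _)
    (integrable_cav hg hl).norm, integral_const_mul, integral_finset_sum _ fun σ _ => hi σ]
  have h2 : ∀ σ : Fin d → Fin 2, ∫ z, ‖cav g (z + (l / 2) • cor σ) (l / 2)‖ = tF g (l / 2) :=
    fun σ => integral_add_right_eq_self (fun z => ‖cav g z (l / 2)‖) ((l / 2) • cor σ)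
  rw [Finset.sum_congr rfl fun σ _ => h2 σ, Finset.sum_const]
  simp only [Finset.card_univ, Fintype.card_fun, Fintype.card_fin, nsmul_eq_mul]
  push_cast
  rw [← mul_assoc, inv_mul_cancel₀ (by positivity), one_mul]
  rfl

theorem integrable_tsm {g : EuclideanSpace ℝ (Fin d) → EuclideanSpace ℝ (Fin d)}
    (hg : Integrable g) {L : ℝ} (hL : 0 < L) (N j : ℕ) : Integrable (fun z => tsm g L N j z) := by
  induction N generalizing j with
  | zero => simp only [tsm]; exact integrable_zero _ _ _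
  | succ N ih =>
    simp only [tsm]
    refine Integrable.add ((integrable_del hg (by positivity)).const_mul _)
      (Integrable.const_mul ?_ _)
    refine integrable_finset_sum _ fun σ _ => ?_
    exact (ih (j + 1)).comp_add_right _

theorem integral_tsm_succ {g : EuclideanSpace ℝ (Fin d) → EuclideanSpace ℝ (Fin d)}
    (hg : Integrable g) {L : ℝ} (hL : 0 < L) (N j : ℕ) :
    ∫ z, tsm g L (N + 1) j z = (2 : ℝ) ^ (-(j : ℝ) / 4) *
      (tF g (L / 2 ^ (j + 1)) - tF g (L / 2 ^ j)) + ∫ z, tsm g L N (j + 1) z := by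
  simp only [tsm]
  have hi : ∀ σ : Fin d → Fin 2, Integrable
      (fun z => tsm g L N (j + 1) (z + (L / 2 ^ (j + 1)) • cor σ)) := fun σ =>
    (integrable_tsm hg hL N (j + 1)).comp_add_right _
  rw [integral_add ((integrable_del hg (by positivity)).const_mul _)
    (Integrable.const_mul (integrable_finset_sum _ fun σ _ => hi σ) _), integral_const_mul,
    integral_const_mul, integral_del hg (by positivity), integral_finset_sum _ fun σ _ => hi σ]
  have h2 : ∀ σ : Fin d → Fin 2, ∫ z, tsm g L N (j + 1) (z + (L / 2 ^ (j + 1)) • cor σ) =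
      ∫ z, tsm g L N (j + 1) z :=
    fun σ => integral_add_right_eq_self (fun z => tsm g L N (j + 1) z) _
  rw [Finset.sum_congr rfl fun σ _ => h2 σ, Finset.sum_const]
  simp only [Finset.card_univ, Fintype.card_fun, Fintype.card_fin, nsmul_eq_mul]
  push_cast
  rw [← mul_assoc, inv_mul_cancel₀ (by positivity), one_mul]
  have e : L / 2 ^ j / 2 = L / 2 ^ (j + 1) := by rw [pow_succ]; field_simp
  rw [e]

theorem integral_tsm {g : EuclideanSpace ℝ (Fin d) → EuclideanSpace ℝ (Fin d)}
    (hg : Integrable g) {L : ℝ} (hL : 0 < L) (N j : ℕ) :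
    ∫ z, tsm g L N j z = ∑ i ∈ Finset.range N, (2 : ℝ) ^ (-((j + i : ℕ) : ℝ) / 4) *
      (tF g (L / 2 ^ (j + i + 1)) - tF g (L / 2 ^ (j + i))) := by
  induction N generalizing j with
  | zero => simp [tsm]
  | succ N ih =>
    rw [integral_tsm_succ hg hL, ih, Finset.sum_range_succ']
    rw [add_comm]
    congr 1
    refine Finset.sum_congr rfl fun i _ => ?_
    have e : j + (i + 1) = j + 1 + i := by ring
    rw [e]

theorem tele_Z {G : ℤ → ℝ} {B : ℝ} (h0 : ∀ k, 0 ≤ G k) (h1 : ∀ k, G k ≤ B) (m n : ℤ) :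
    ∑ k ∈ Finset.Icc m n, (G (k + 1) - G k) ≤ B := by
  rcases lt_or_ge n m with h | h
  · rw [Finset.Icc_eq_empty (by omega), Finset.sum_empty]
    exact (h0 0).trans (h1 0)
  have key : ∑ k ∈ Finset.Icc m n, (G (k + 1) - G k) = G (n + 1) - G m := by
    induction n, h using Int.le_induction with
    | base => simp
    | succ n hn ih =>
      have : Finset.Icc m (n + 1) = insert (n + 1) (Finset.Icc m n) := by
        ext k; simp only [Finset.mem_Icc, Finset.mem_insert]; omega
      rw [this, Finset.sum_insert (by simp), ih]; ring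
  rw [key]
  linarith [h0 m, h1 (n + 1)]

/-- sum over the scales: `L = 2^(6-k)`, `k` from `m` to `n`.
`∫ tsm g L N 0 z dz = ∑_{i<N} 2^{-i/4} (F(L/2^{i+1}) - F(L/2^i))`; sum over `k` telescopes. -/
theorem sum_tsm (d : ℕ) : ∃ C : ℝ, 0 ≤ C ∧
    ∀ g : EuclideanSpace ℝ (Fin d) → EuclideanSpace ℝ (Fin d), Integrable g →
      ∀ (m n : ℤ) (N : ℕ),
        ∑ k ∈ Finset.Icc m n, ∫ z, tsm g ((2 : ℝ) ^ (6 - k)) N 0 z ≤ C * ∫ z, ‖g z‖ := by
  set q : ℝ := (2 : ℝ) ^ (-(1 : ℝ) / 4) with hq
  have hq0 : 0 ≤ q := by positivity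
  have hq1 : q < 1 := Real.rpow_lt_one_of_one_lt_of_neg (by norm_num) (by norm_num)
  refine ⟨(1 - q)⁻¹, inv_nonneg.2 (by linarith), fun g hg m n N => ?_⟩
  have h1 : ∀ k : ℤ, ∫ z, tsm g ((2 : ℝ) ^ (6 - k)) N 0 z =
      ∑ i ∈ Finset.range N, q ^ i * (tF g ((2 : ℝ) ^ (6 - (k + 1)) / 2 ^ i) -
        tF g ((2 : ℝ) ^ (6 - k) / 2 ^ i)) := by
    intro k
    rw [integral_tsm hg (by positivity)]
    refine Finset.sum_congr rfl fun i _ => ?_
    have e1 : (2 : ℝ) ^ (-((0 + i : ℕ) : ℝ) / 4) = q ^ i := by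
      rw [hq, ← Real.rpow_natCast, ← Real.rpow_mul (by norm_num)]
      congr 1; push_cast; ring
    have e2 : (2 : ℝ) ^ (6 - k) / 2 ^ (0 + i + 1) = (2 : ℝ) ^ (6 - (k + 1)) / 2 ^ i := by
      have : (2 : ℝ) ^ (6 - k) = (2 : ℝ) ^ (6 - (k + 1)) * 2 := by
        rw [← zpow_add_one₀ (by norm_num)]; congr 1; ring
      rw [this, zero_add, pow_succ]; field_simp
    rw [e1, e2, zero_add]
  rw [Finset.sum_congr rfl fun k _ => h1 k, Finset.sum_comm]
  have h2 : ∀ i ∈ Finset.range N, ∑ k ∈ Finset.Icc m n, q ^ i *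
      (tF g ((2 : ℝ) ^ (6 - (k + 1)) / 2 ^ i) - tF g ((2 : ℝ) ^ (6 - k) / 2 ^ i)) ≤
      q ^ i * ∫ z, ‖g z‖ := by
    intro i _
    rw [← Finset.mul_sum]
    refine mul_le_mul_of_nonneg_left ?_ (by positivity)
    exact tele_Z (G := fun k => tF g ((2 : ℝ) ^ (6 - k) / 2 ^ i)) (fun k => tF_nonneg _ _)
      (fun k => tF_le hg (by positivity)) m n
  refine (Finset.sum_le_sum h2).trans ?_
  rw [← Finset.sum_mul]
  refine mul_le_mul_of_nonneg_right ?_ (integral_nonneg fun _ => norm_nonneg _)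
  rw [← tsum_geometric_of_lt_one hq0 hq1]
  exact (summable_geometric_of_lt_one hq0 hq1).sum_le_tsum _ fun i _ => by positivity

end Vale.Agent.P137
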