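import Vale.Agent.P137.PropA
import Vale.Agent.P137.Select
import Vale.Agent.P137.Tele

/-! From finite families to the maximal function, one scale and one cube. -/

open MeasureTheory Metric Set Filter Topology
open scoped RealInnerProductSpace ENNReal

namespace Vale.Agent.P137

theorem exists_unit_exc {d : ℕ} (hd : 1 ≤ d) (v : EuclideanSpace ℝ (Fin d)) :
    ∃ e : EuclideanSpace ℝ (Fin d), ‖e‖ = 1 ∧ Exc e v = 0 := by
  by_cases hv : v = 0
  · refine ⟨EuclideanSpace.single ⟨0, hd⟩ 1, by simp, ?_⟩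
    simp [Exc, hv]
  · have hn : ‖v‖ ≠ 0 := norm_ne_zero_iff.2 hv
    refine ⟨‖v‖⁻¹ • v, by rw [norm_smul, norm_inv, norm_norm, inv_mul_cancel₀ hn], ?_⟩
    unfold Exc
    rw [real_inner_smul_right, real_inner_self_eq_norm_sq]
    field_simp
    ring

theorem cont_av_shift {d : ℕ} (hd1 : 1 ≤ d) {f : EuclideanSpace ℝ (Fin d) → ℝ} (hfi : Integrable f)
    (w : EuclideanSpace ℝ (Fin d)) {s : ℝ} (hs : 0 < s) :
    Continuous fun x : EuclideanSpace ℝ (Fin d) => av f (x + w) s := by
  rw [continuous_iff_continuousAt]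
  intro x
  have h1 : ContinuousAt (fun p : EuclideanSpace ℝ (Fin d) × ℝ => av f p.1 p.2) (x + w, s) :=
    (continuousOn_av hd1 hfi).continuousAt (IsOpen.mem_nhds (isOpen_lt continuous_const continuous_snd) hs)
  have h2 : ContinuousAt (fun x : EuclideanSpace ℝ (Fin d) => ((x + w, s) : EuclideanSpace ℝ (Fin d) × ℝ)) x := by
    fun_prop
  exact ContinuousAt.comp (f := fun x : EuclideanSpace ℝ (Fin d) => ((x + w, s) : EuclideanSpace ℝ (Fin d) × ℝ)) h1 h2

/-- `propA` and `select` with `Y = ball (z + 64r • ctr0 d) (16r)`,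
`av f (x + 2ρe) (2ρ) ≤ Mge f (2r) x`; a unit `e` with zero excess exists since `d ≥ 1`. -/
theorem propB (d : ℕ) (hd : 2 ≤ d) : ∃ C : ℝ, 0 ≤ C ∧
    ∀ (f : EuclideanSpace ℝ (Fin d) → ℝ), ContDiff ℝ 1 f → HasCompactSupport f →
      (∀ x, 0 ≤ f x) → ∀ (r : ℝ), 0 < r → ∀ (z : EuclideanSpace ℝ (Fin d)) (N : ℕ),
      ∫ x in ball (z + (64 * r) • ctr0 d) (16 * r), (Mge f r x - Mge f (2 * r) x) ≤
        C * r ^ (d + 1) * (tsm (gradient f) (64 * r) N 0 z +
          (2 : ℝ) ^ (-(N : ℝ) / 2) * cav (fun y => ‖gradient f y‖) z (64 * r)) := by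
  obtain ⟨C, hC, h1⟩ := propA d hd
  refine ⟨C, hC, fun f hf hfc hf0 r hr z N => ?_⟩
  have hd1 : 1 ≤ d := by omega
  obtain ⟨e, he, hexc⟩ := exists_unit_exc hd1 (cav (gradient f) z (64 * r))
  have hfi : Integrable f := hf.continuous.integrable_of_hasCompactSupport hfc
  refine select hd1 hf.continuous hfc hf0 hr measurableSet_ball ?_
  intro n c ρ X hρ hXm hXd hXc hXY
  refine le_trans ?_ (h1 f hf hfc r hr z e he hexc N n c ρ X hρ hXm hXd hXc hXY)
  refine Finset.sum_le_sum fun i _ => ?_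
  have hρ0 : 0 < ρ i := lt_of_lt_of_le hr (hρ i).1
  have hMc : Continuous (Mge f (2 * r)) :=
    (Mge_lipschitz hfi hf0 (by linarith : (0 : ℝ) < 2 * r)).continuous
  have hav : Continuous fun x : EuclideanSpace ℝ (Fin d) =>
      av f (x + (2 * ρ i) • e) (2 * ρ i) :=
    cont_av_shift hd1 hfi _ (by linarith)
  have hX : X i ⊆ closedBall (c i) (ρ i) := hXc i
  have hi1 : IntegrableOn (fun x => av f (c i) (ρ i) - Mge f (2 * r) x) (X i) :=
    (((continuous_const.sub hMc).continuousOn (s := closedBall (c i) (ρ i))).integrableOn_compact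
        (isCompact_closedBall _ _)).mono_set hX
  have hi2 : IntegrableOn (fun x => av f (c i) (ρ i) - av f (x + (2 * ρ i) • e) (2 * ρ i))
      (X i) :=
    (((continuous_const.sub hav).continuousOn (s := closedBall (c i) (ρ i))).integrableOn_compact
        (isCompact_closedBall _ _)).mono_set hX
  refine setIntegral_mono_on hi1 hi2 (hXm i) fun x hx => ?_
  · have : av f (x + (2 * ρ i) • e) (2 * ρ i) ≤ Mge f (2 * r) x := by
      refine av_le_Mge hfi hf0 (by linarith) (by linarith [(hρ i).1]) ?_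
      rw [dist_eq_norm, sub_add_cancel_left, norm_neg, norm_smul, he, mul_one,
        Real.norm_of_nonneg (by linarith)]
    linarith

end Vale.Agent.P137
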