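import Vale.Agent.P137.PropA
import Vale.Agent.P137.Select
import Vale.Agent.P137.Tele

/-! Core of the scale inequality: Tonelli in `z`. -/

open MeasureTheory Metric Set Filter Topology
open scoped RealInnerProductSpace ENNReal

namespace Vale.Agent.P137

variable {d : ℕ}

theorem scaleB_integrable {u : EuclideanSpace ℝ (Fin d) → ℝ} (hu : Integrable u)
    (a : EuclideanSpace ℝ (Fin d)) (R : ℝ) :
    Integrable (fun p : EuclideanSpace ℝ (Fin d) × EuclideanSpace ℝ (Fin d) =>
      u ((p.2 + p.1) + a))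
      ((volume.restrict (ball (0 : EuclideanSpace ℝ (Fin d)) R)).prod volume) := by
  have : IsFiniteMeasure (volume.restrict (ball (0 : EuclideanSpace ℝ (Fin d)) R)) :=
    ⟨by rw [Measure.restrict_apply_univ]; exact measure_ball_lt_top⟩
  have h1 : Integrable (fun z => u (z + a)) := hu.comp_add_right a
  have h2 := h1.comp_snd (volume.restrict (ball (0 : EuclideanSpace ℝ (Fin d)) R))
  have h3 := measurePreserving_prod_add_right
    (volume.restrict (ball (0 : EuclideanSpace ℝ (Fin d)) R))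
    (volume : Measure (EuclideanSpace ℝ (Fin d)))
  exact h3.integrable_comp_of_integrable h2

theorem scaleB_shift (u : EuclideanSpace ℝ (Fin d) → ℝ) (b : EuclideanSpace ℝ (Fin d))
    (R : ℝ) : ∫ x in ball b R, u x = ∫ y in ball (0 : EuclideanSpace ℝ (Fin d)) R, u (y + b) := by
  have h := (measurePreserving_add_right
    (volume : Measure (EuclideanSpace ℝ (Fin d))) b).setIntegral_preimage_emb
    (measurableEmbedding_addRight b) u (ball b R)
  rw [← h]
  congr 2
  ext y
  simp [mem_ball, dist_eq_norm]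

theorem scaleB_tonelli {u : EuclideanSpace ℝ (Fin d) → ℝ} (hu : Integrable u)
    (a : EuclideanSpace ℝ (Fin d)) (R : ℝ) :
    Integrable (fun z => ∫ x in ball (z + a) R, u x) ∧
    ∫ z, ∫ x in ball (z + a) R, u x =
      volume.real (ball (0 : EuclideanSpace ℝ (Fin d)) R) * ∫ x, u x := by
  have hi := scaleB_integrable hu a R
  have e : (fun z => ∫ x in ball (z + a) R, u x) =
      fun z => ∫ y in ball (0 : EuclideanSpace ℝ (Fin d)) R, u ((z + y) + a) := by
    funext z
    rw [scaleB_shift]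
    apply integral_congr_ae
    filter_upwards with y
    congr 1
    abel
  rw [e]
  constructor
  · exact hi.integral_prod_right
  · rw [integral_integral_swap (f := fun z y => u ((z + y) + a)) hi.swap]
    have h1 : ∀ y : EuclideanSpace ℝ (Fin d), ∫ z, u ((z + y) + a) = ∫ x, u x := by
      intro y
      have := integral_add_right_eq_self (μ := (volume : Measure (EuclideanSpace ℝ (Fin d))))
        u (y + a)
      rw [← this]
      congr 1
      funext z
      rw [add_assoc]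
    simp only [h1]
    rw [setIntegral_const, smul_eq_mul]

theorem scaleB_core {C : ℝ} {f : EuclideanSpace ℝ (Fin d) → ℝ}
    (hf : ContDiff ℝ 1 f) (hfc : HasCompactSupport f) (hf0 : ∀ x, 0 ≤ f x) {r : ℝ} (hr : 0 < r)
    (N : ℕ)
    (hB : ∀ z : EuclideanSpace ℝ (Fin d),
      ∫ x in ball (z + (64 * r) • ctr0 d) (16 * r), (Mge f r x - Mge f (2 * r) x) ≤
        C * r ^ (d + 1) * (tsm (gradient f) (64 * r) N 0 z +
          (2 : ℝ) ^ (-(N : ℝ) / 2) * cav (fun y => ‖gradient f y‖) z (64 * r))) :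
    volume.real (ball (0 : EuclideanSpace ℝ (Fin d)) (16 * r)) *
      ∫ x, (Mge f r x - Mge f (2 * r) x) ≤
        C * r ^ (d + 1) * ((∫ z, tsm (gradient f) (64 * r) N 0 z) +
          (2 : ℝ) ^ (-(N : ℝ) / 2) * ∫ y, ‖gradient f y‖) := by
  have hu := integrable_Mge_sub hf.continuous hfc hf0 hr
  have hgc : Continuous (gradient f) := by
    have h1 : Continuous (fun x => fderiv ℝ f x) := hf.continuous_fderiv one_ne_zero
    exact (InnerProductSpace.toDual ℝ (EuclideanSpace ℝ (Fin d))).symm.continuous.comp h1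
  have hgs : HasCompactSupport (gradient f) := by
    have h1 : HasCompactSupport (fderiv ℝ f) := hfc.fderiv ℝ
    exact h1.comp_left (g := (InnerProductSpace.toDual ℝ (EuclideanSpace ℝ (Fin d))).symm)
      (map_zero _)
  have hg : Integrable (gradient f) := hgc.integrable_of_hasCompactSupport hgs
  obtain ⟨t1, t2⟩ := scaleB_tonelli hu ((64 * r) • ctr0 d) (16 * r)
  have hL : 0 < 64 * r := by positivity
  have i1 := integrable_tsm hg hL N 0
  have i2 := integrable_cav hg.norm hL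
  rw [← t2, ← integral_cav hg.norm hL, ← integral_const_mul, ← integral_add i1 (i2.const_mul _),
    ← integral_const_mul]
  exact integral_mono t1 ((i1.add (i2.const_mul _)).const_mul _) hB

theorem scaleB_final {C : ℝ} {f : EuclideanSpace ℝ (Fin d) → ℝ}
    (hf : ContDiff ℝ 1 f) (hfc : HasCompactSupport f) (hf0 : ∀ x, 0 ≤ f x) (k : ℤ)
    (N : ℕ)
    (hB : ∀ r : ℝ, 0 < r → ∀ z : EuclideanSpace ℝ (Fin d),
      ∫ x in ball (z + (64 * r) • ctr0 d) (16 * r), (Mge f r x - Mge f (2 * r) x) ≤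
        C * r ^ (d + 1) * (tsm (gradient f) (64 * r) N 0 z +
          (2 : ℝ) ^ (-(N : ℝ) / 2) * cav (fun y => ‖gradient f y‖) z (64 * r))) :
    (2 : ℝ) ^ k * ∫ x, (Mge f ((2 : ℝ) ^ (-k)) x - Mge f ((2 : ℝ) ^ (1 - k)) x) ≤
      (C / volume.real (ball (0 : EuclideanSpace ℝ (Fin d)) 16)) *
        (∫ z, tsm (gradient f) ((2 : ℝ) ^ (6 - k)) N 0 z) +
      (C / volume.real (ball (0 : EuclideanSpace ℝ (Fin d)) 16)) *
        (2 : ℝ) ^ (-(N : ℝ) / 2) * ∫ y, ‖gradient f y‖ := by
  have hr : (0 : ℝ) < (2 : ℝ) ^ (-k) := by positivity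
  have h := scaleB_core hf hfc hf0 hr N (hB _ hr)
  have e1 : (2 : ℝ) * (2 : ℝ) ^ (-k) = (2 : ℝ) ^ (1 - k) := by
    rw [sub_eq_add_neg, zpow_add₀ (by norm_num), zpow_one]
  have e2 : (64 : ℝ) * (2 : ℝ) ^ (-k) = (2 : ℝ) ^ (6 - k) := by
    rw [sub_eq_add_neg, zpow_add₀ (by norm_num)]
    norm_num
  rw [e1, e2] at h
  have e3 : volume.real (ball (0 : EuclideanSpace ℝ (Fin d)) (16 * (2 : ℝ) ^ (-k))) =
      ((2 : ℝ) ^ (-k)) ^ d * volume.real (ball (0 : EuclideanSpace ℝ (Fin d)) 16) := by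
    have h7 := Measure.addHaar_ball_mul_of_pos (volume : Measure (EuclideanSpace ℝ (Fin d)))
      (0 : EuclideanSpace ℝ (Fin d)) hr 16
    rw [mul_comm (16 : ℝ), measureReal_def, h7, finrank_euclideanSpace_fin, ENNReal.toReal_mul,
      ENNReal.toReal_ofReal (by positivity), measureReal_def]
  rw [e3] at h
  have hv : 0 < volume.real (ball (0 : EuclideanSpace ℝ (Fin d)) 16) := by
    rw [measureReal_def]
    exact ENNReal.toReal_pos (measure_ball_pos _ _ (by norm_num)).ne' measure_ball_lt_top.ne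
  set v := volume.real (ball (0 : EuclideanSpace ℝ (Fin d)) 16) with hvdef
  set A := ∫ x, (Mge f ((2 : ℝ) ^ (-k)) x - Mge f ((2 : ℝ) ^ (1 - k)) x) with hA
  set I := ∫ z, tsm (gradient f) ((2 : ℝ) ^ (6 - k)) N 0 z with hI
  set G := ∫ y, ‖gradient f y‖ with hG
  set r : ℝ := (2 : ℝ) ^ (-k) with hrdef
  have hk : (2 : ℝ) ^ k = r⁻¹ := by rw [hrdef, zpow_neg, inv_inv]
  rw [hk]
  have h4 : r ^ d * (v * A) ≤ r ^ d * (C * r * (I + (2 : ℝ) ^ (-(N : ℝ) / 2) * G)) := by
    calc r ^ d * (v * A) = r ^ d * v * A := by ring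
      _ ≤ _ := h
      _ = _ := by ring
  have h5 : v * A ≤ C * r * (I + (2 : ℝ) ^ (-(N : ℝ) / 2) * G) :=
    le_of_mul_le_mul_left h4 (by positivity)
  rw [inv_mul_le_iff₀ hr]
  have h6 : A ≤ (C * r * (I + (2 : ℝ) ^ (-(N : ℝ) / 2) * G)) / v := by
    rw [le_div_iff₀ hv]; linarith
  calc A ≤ (C * r * (I + (2 : ℝ) ^ (-(N : ℝ) / 2) * G)) / v := h6
    _ = _ := by ring

end Vale.Agent.P137
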