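import Vale.Agent.P137.PropB
import Vale.Agent.P137.ScaleB

/-! The scale inequality. -/

open MeasureTheory Metric Set Filter Topology
open scoped RealInnerProductSpace ENNReal

namespace Vale.Agent.P137

/-- integrate `propB` in `z` (Tonelli: the left side is `|B_{16r}| ∫ (Mge f r - Mge f (2r))`,
the last term is `∫ ‖∇f‖` by `integral_cav`), with `r = 2^(-k)`. -/
theorem scale_ineq (d : ℕ) (hd : 2 ≤ d) : ∃ C : ℝ, 0 ≤ C ∧
    ∀ (f : EuclideanSpace ℝ (Fin d) → ℝ), ContDiff ℝ 1 f → HasCompactSupport f →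
      (∀ x, 0 ≤ f x) → ∀ (k : ℤ) (N : ℕ),
      (2 : ℝ) ^ k * ∫ x, (Mge f ((2 : ℝ) ^ (-k)) x - Mge f ((2 : ℝ) ^ (1 - k)) x) ≤
        C * (∫ z, tsm (gradient f) ((2 : ℝ) ^ (6 - k)) N 0 z) +
          C * (2 : ℝ) ^ (-(N : ℝ) / 2) * ∫ y, ‖gradient f y‖ := by
  obtain ⟨C, hC, h⟩ := propB d hd
  refine ⟨C / volume.real (ball (0 : EuclideanSpace ℝ (Fin d)) 16),
    div_nonneg hC measureReal_nonneg, ?_⟩
  intro f hf hfc hf0 k N
  exact scaleB_final hf hfc hf0 k N (fun r hr z => h f hf hfc hf0 r hr z N)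

end Vale.Agent.P137
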