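import Vale.Agent.P137.Star
import Vale.Agent.P137.PStep
import Vale.Agent.P137.Decay

/-! The main inequality for nonnegative functions of class `C¹` with compact support. -/

open MeasureTheory Metric Set Filter Topology
open scoped RealInnerProductSpace ENNReal

namespace Vale.Agent.P137

theorem TV_smooth (d : ℕ) (hd : 2 ≤ d) : ∃ C : ℝ, 0 ≤ C ∧
    ∀ (f : EuclideanSpace ℝ (Fin d) → ℝ), ContDiff ℝ 1 f → HasCompactSupport f →
      (∀ x, 0 ≤ f x) → ∀ (k : ℤ),
      TV (Mge f ((2 : ℝ) ^ (-k))) ≤ ENNReal.ofReal (C * ∫ y, ‖gradient f y‖) := by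
  obtain ⟨C, hC, h1⟩ := star d hd
  refine ⟨d * C, by positivity, fun f hf hfc hf0 k => ?_⟩
  have hd1 : 1 ≤ d := by omega
  have hfi : Integrable f := hf.continuous.integrable_of_hasCompactSupport hfc
  set I : ℤ → ℝ := fun j => (2 : ℝ) ^ j *
    ∫ x, (Mge f ((2 : ℝ) ^ (-j)) x - Mge f ((2 : ℝ) ^ (1 - j)) x) with hI
  have hI0 : ∀ j, 0 ≤ I j := by
    intro j
    refine mul_nonneg (by positivity) (integral_nonneg fun x => ?_)
    have : (2 : ℝ) ^ (-j) ≤ (2 : ℝ) ^ (1 - j) :=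
      zpow_le_zpow_right₀ (by norm_num) (by omega)
    have h2 := Mge_anti hfi hf0 (by positivity) this x
    show 0 ≤ Mge f ((2 : ℝ) ^ (-j)) x - Mge f ((2 : ℝ) ^ (1 - j)) x
    linarith
  have hstep : ∀ j : ℤ, TV (Mge f ((2 : ℝ) ^ (-j))) ≤ TV (Mge f ((2 : ℝ) ^ (1 - j))) +
      ENNReal.ofReal (d * I j) := by
    intro j
    have h2 := pstep hd1 hf.continuous hfc hf0 (r := (2 : ℝ) ^ (-j)) (by positivity)
    have e1 : 2 * (2 : ℝ) ^ (-j) = (2 : ℝ) ^ (1 - j) := by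
      rw [← zpow_one_add₀ (by norm_num)]; congr 1
    have e2 : (d : ℝ) / (2 : ℝ) ^ (-j) = d * (2 : ℝ) ^ j := by
      rw [zpow_neg, div_inv_eq_mul]
    rw [e1, e2, mul_assoc] at h2
    exact h2
  have hiter : ∀ n : ℕ, TV (Mge f ((2 : ℝ) ^ (-k))) ≤ TV (Mge f ((2 : ℝ) ^ ((n : ℤ) - k))) +
      ENNReal.ofReal (d * ∑ j ∈ Finset.Icc (k - n + 1) k, I j) := by
    intro n
    induction n with
    | zero => simp
    | succ n ih =>
      refine ih.trans ?_
      have h2 := hstep (k - n)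
      have e1 : -(k - (n : ℤ)) = (n : ℤ) - k := by ring
      have e2 : 1 - (k - (n : ℤ)) = ((n + 1 : ℕ) : ℤ) - k := by push_cast; ring
      rw [e1, e2] at h2
      have e3 : Finset.Icc (k - ((n + 1 : ℕ) : ℤ) + 1) k =
          insert (k - (n : ℤ)) (Finset.Icc (k - n + 1) k) := by
        ext j; simp only [Finset.mem_Icc, Finset.mem_insert]; push_cast; omega
      rw [e3, Finset.sum_insert (by simp), mul_add, ENNReal.ofReal_add
        (mul_nonneg (Nat.cast_nonneg _) (hI0 _))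
        (mul_nonneg (Nat.cast_nonneg _) (Finset.sum_nonneg fun j _ => hI0 j)), ← add_assoc]
      exact add_le_add_left h2 _
  have hb : ∀ n : ℕ, TV (Mge f ((2 : ℝ) ^ (-k))) ≤ TV (Mge f ((2 : ℝ) ^ ((n : ℤ) - k))) +
      ENNReal.ofReal (d * C * ∫ y, ‖gradient f y‖) := by
    intro n
    refine (hiter n).trans (add_le_add_right (ENNReal.ofReal_le_ofReal ?_) _)
    rw [mul_assoc]
    exact mul_le_mul_of_nonneg_left (h1 f hf hfc hf0 _ _) (Nat.cast_nonneg _)
  have hlim : Tendsto (fun n : ℕ => TV (Mge f ((2 : ℝ) ^ ((n : ℤ) - k))) +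
      ENNReal.ofReal (d * C * ∫ y, ‖gradient f y‖)) atTop
      (𝓝 (0 + ENNReal.ofReal (d * C * ∫ y, ‖gradient f y‖))) := by
    refine Tendsto.add ?_ tendsto_const_nhds
    have h3 : Tendsto (fun n : ℕ => (2 : ℝ) ^ ((n : ℤ) - k)) atTop atTop := by
      have e : (fun n : ℕ => (2 : ℝ) ^ ((n : ℤ) - k)) =
          fun n : ℕ => (2 : ℝ) ^ n * (2 : ℝ) ^ (-k) := by
        funext n
        rw [sub_eq_add_neg, zpow_add₀ (by norm_num), zpow_natCast]
      rw [e]
      exact (tendsto_pow_atTop_atTop_of_one_lt (by norm_num)).atTop_mul_const (by positivity)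
    exact (TV_Mge_tendsto hd1 hf.continuous hfc hf0).comp h3
  rw [zero_add] at hlim
  exact ge_of_tendsto' hlim hb

end Vale.Agent.P137
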