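import Vale.Agent.P137.Scale

/-! The sum of the scale inequality over the scales. -/

open MeasureTheory Metric Set Filter Topology
open scoped RealInnerProductSpace ENNReal

namespace Vale.Agent.P137

/-- sum over `k` by `sum_tsm` and `N → ∞` -/
theorem star (d : ℕ) (hd : 2 ≤ d) : ∃ C : ℝ, 0 ≤ C ∧
    ∀ (f : EuclideanSpace ℝ (Fin d) → ℝ), ContDiff ℝ 1 f → HasCompactSupport f →
      (∀ x, 0 ≤ f x) → ∀ (m n : ℤ),
      ∑ k ∈ Finset.Icc m n, (2 : ℝ) ^ k *
        ∫ x, (Mge f ((2 : ℝ) ^ (-k)) x - Mge f ((2 : ℝ) ^ (1 - k)) x) ≤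
        C * ∫ y, ‖gradient f y‖ := by
  obtain ⟨C1, hC1, h1⟩ := scale_ineq d hd
  obtain ⟨C2, hC2, h2⟩ := sum_tsm d
  refine ⟨C1 * C2, by positivity, fun f hf hfc hf0 m n => ?_⟩
  have hgi : Integrable (gradient f) := by
    have hc : Continuous (gradient f) := by
      have : Continuous (fderiv ℝ f) := hf.continuous_fderiv (by norm_num)
      exact (InnerProductSpace.toDual ℝ _).symm.continuous.comp this
    have hs : HasCompactSupport (gradient f) := by
      have : HasCompactSupport (fderiv ℝ f) := hfc.fderiv ℝ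
      exact this.comp_left (map_zero _)
    exact hc.integrable_of_hasCompactSupport hs
  set A := ∫ y, ‖gradient f y‖ with hA
  set S := ∑ k ∈ Finset.Icc m n, (2 : ℝ) ^ k *
        ∫ x, (Mge f ((2 : ℝ) ^ (-k)) x - Mge f ((2 : ℝ) ^ (1 - k)) x) with hS
  have hb : ∀ N : ℕ, S ≤ C1 * (C2 * A) +
      (Finset.Icc m n).card * (C1 * (2 : ℝ) ^ (-(N : ℝ) / 2) * A) := by
    intro N
    calc S ≤ ∑ k ∈ Finset.Icc m n, (C1 * (∫ z, tsm (gradient f) ((2 : ℝ) ^ (6 - k)) N 0 z) +
          C1 * (2 : ℝ) ^ (-(N : ℝ) / 2) * A) :=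
          Finset.sum_le_sum fun k _ => h1 f hf hfc hf0 k N
      _ = C1 * (∑ k ∈ Finset.Icc m n, ∫ z, tsm (gradient f) ((2 : ℝ) ^ (6 - k)) N 0 z) +
          (Finset.Icc m n).card * (C1 * (2 : ℝ) ^ (-(N : ℝ) / 2) * A) := by
          rw [Finset.sum_add_distrib, Finset.mul_sum, Finset.sum_const, nsmul_eq_mul]
      _ ≤ _ := by
          have := mul_le_mul_of_nonneg_left (h2 (gradient f) hgi m n N) hC1
          linarith
  have hlim : Tendsto (fun N : ℕ => C1 * (C2 * A) +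
      (Finset.Icc m n).card * (C1 * (2 : ℝ) ^ (-(N : ℝ) / 2) * A)) atTop
      (𝓝 (C1 * (C2 * A) + (Finset.Icc m n).card * (C1 * 0 * A))) := by
    refine Tendsto.add tendsto_const_nhds (Tendsto.const_mul _ (Tendsto.mul_const _
      (Tendsto.const_mul _ ?_)))
    have hq : (fun N : ℕ => (2 : ℝ) ^ (-(N : ℝ) / 2)) =
        fun N : ℕ => ((2 : ℝ) ^ (-(1 : ℝ) / 2)) ^ N := by
      funext N
      rw [← Real.rpow_natCast, ← Real.rpow_mul (by norm_num)]
      congr 1; ring
    rw [hq]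
    exact tendsto_pow_atTop_nhds_zero_of_lt_one (by positivity)
      (Real.rpow_lt_one_of_one_lt_of_neg (by norm_num) (by norm_num))
  have := ge_of_tendsto' hlim hb
  calc S ≤ _ := this
    _ = _ := by ring

end Vale.Agent.P137
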