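import Mathlib
import Vale.Agent.P137.Basic

/-! One step inequality (Bellman).  See notes/P137_proof.md, STEP LEMMA. -/

open MeasureTheory Metric Set Filter Topology
open scoped RealInnerProductSpace ENNReal

namespace Vale.Agent.P137

variable {E : Type*} [NormedAddCommGroup E] [InnerProductSpace ℝ E]

theorem Exc_nonneg {e : E} (he : ‖e‖ = 1) (w : E) : 0 ≤ Exc e w := by
  unfold Exc
  have := real_inner_le_norm w e
  rw [he, mul_one] at this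
  linarith

theorem Exc_smul {e : E} (w : E) {t : ℝ} (ht : 0 ≤ t) : Exc e (t • w) = t * Exc e w := by
  unfold Exc
  rw [norm_smul, Real.norm_of_nonneg ht, inner_smul_left]
  simp only [conj_trivial]
  ring

theorem Exc_add_le (e v w : E) : Exc e (v + w) ≤ Exc e v + Exc e w := by
  unfold Exc
  rw [inner_add_left]
  have := norm_add_le v w
  linarith

/-- difference of the deviations of two unit vectors from `e` -/
theorem dev_sub {e n m : E} (he : ‖e‖ = 1) (hn : ‖n‖ = 1) (hm : ‖m‖ = 1) :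
    ((1 - ⟪m, e⟫) - (1 - ⟪n, e⟫) - (1 - ⟪m, n⟫)) ^ 2 ≤ 4 * (1 - ⟪m, n⟫) * (1 - ⟪n, e⟫) := by
  have h1 : (1 - ⟪m, e⟫) - (1 - ⟪n, e⟫) - (1 - ⟪m, n⟫) = ⟪n - m, e - n⟫ := by
    rw [inner_sub_left, inner_sub_right, inner_sub_right, real_inner_self_eq_norm_sq, hn]
    ring
  have h2 : ‖n - m‖ ^ 2 = 2 * (1 - ⟪m, n⟫) := by
    rw [norm_sub_sq_real, hn, hm, real_inner_comm]
    ring
  have h3 : ‖e - n‖ ^ 2 = 2 * (1 - ⟪n, e⟫) := by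
    rw [norm_sub_sq_real, hn, he, real_inner_comm]
    ring
  rw [h1]
  have h4 := abs_real_inner_le_norm (n - m) (e - n)
  calc ⟪n - m, e - n⟫ ^ 2 = |⟪n - m, e - n⟫| ^ 2 := (sq_abs _).symm
    _ ≤ (‖n - m‖ * ‖e - n‖) ^ 2 := pow_le_pow_left₀ (abs_nonneg _) h4 2
    _ = 4 * (1 - ⟪m, n⟫) * (1 - ⟪n, e⟫) := by rw [mul_pow, h2, h3]; ring

theorem near_real {A ε η β σ : ℝ} (hA0 : 0 < A) (hη0 : 0 ≤ η) (hσ0 : 0 ≤ σ)
    (hη : 20 * A * η ≤ ε) (hsq : (β - η) ^ 2 ≤ 8 * σ * η + 2 * σ ^ 2) (hc : 4 * A * σ ≤ ε) :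
    A * β ^ 2 ≤ ε * σ + A * (2 * η * (β - σ) - η ^ 2 * (1 - σ)) := by
  have h3 : A * (β - η) ^ 2 ≤ σ * (ε - 2 * A * η) := by
    have h4 : A * (β - η) ^ 2 ≤ A * (8 * σ * η + 2 * σ ^ 2) :=
      mul_le_mul_of_nonneg_left hsq hA0.le
    have h5 : 0 ≤ σ * (ε - A * (10 * η + 2 * σ)) := by
      apply mul_nonneg hσ0
      linarith
    have h6 : A * (8 * σ * η + 2 * σ ^ 2) + σ * (ε - A * (10 * η + 2 * σ))
        = σ * (ε - 2 * A * η) := by ring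
    linarith
  have h6 : 0 ≤ A * η ^ 2 * σ := by positivity
  have h7 : ε * σ + A * (2 * η * (β - σ) - η ^ 2 * (1 - σ)) - A * β ^ 2
      = σ * (ε - 2 * A * η) - A * (β - η) ^ 2 + A * η ^ 2 * σ := by ring
  linarith

theorem far_R {A ε η β σ : ℝ} (hA0 : 0 < A) (hη0 : 0 ≤ η) (hσ0 : 0 ≤ σ) (hβ0 : 0 ≤ β)
    (hε0 : 0 < ε) (hη : 20 * A * η ≤ ε) (hησ : 5 * η ≤ σ) :
    (4 / 5) * ε * σ ≤ ε * σ + A * (2 * η * (β - σ) - η ^ 2 * (1 - σ)) := by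
  have h9 : A * η ^ 2 ≤ ε * σ / 100 := by
    have h1 : 20 * A * η * η ≤ ε * η := mul_le_mul_of_nonneg_right hη hη0
    have h2 : ε * (5 * η) ≤ ε * σ := mul_le_mul_of_nonneg_left hησ hε0.le
    have h3 : A * η ^ 2 = 20 * A * η * η / 20 := by ring
    rw [h3]
    linarith
  have h10 : 2 * A * η * σ ≤ ε * σ / 10 := by
    have : 20 * A * η * σ ≤ ε * σ := mul_le_mul_of_nonneg_right hη hσ0
    linarith
  have h11 : 0 ≤ A * η * β := by positivity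
  have h12 : 0 ≤ A * η ^ 2 * σ := by positivity
  have h13 : ε * σ + A * (2 * η * (β - σ) - η ^ 2 * (1 - σ))
      = ε * σ + 2 * (A * η * β) - 2 * A * η * σ - A * η ^ 2 + A * η ^ 2 * σ := by ring
  have h14 : 0 ≤ ε * σ := by positivity
  rw [h13]
  linarith

theorem far_q {K A ε τ σ s0 s q : ℝ} (hK : 0 ≤ K) (hτ : 0 ≤ τ)
    (hA : 1000 * K ≤ A) (hA0 : 0 < A) (hε0 : 0 < ε) (hε : 1000 * A * τ ≤ ε ^ 2)
    (hσpos : 0 < σ) (hs0 : s0 = ε / (4 * A)) (hs : s = s0 / (4 * σ)) (hs0σ : s0 < σ)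
    (h22 : -(s * q) ≤ 2 * K * s0 ^ 2 + τ) : -q + τ ≤ (4 / 5) * ε * σ := by
  have hs0pos : 0 < s0 := by rw [hs0]; positivity
  have hspos : 0 < s := by rw [hs]; positivity
  have h23 : s * (-q) ≤ s * (8 * K * s0 * σ + 4 * τ * σ / s0) := by
    have e1 : s * (8 * K * s0 * σ + 4 * τ * σ / s0) = 2 * K * s0 ^ 2 + τ := by
      rw [hs]; field_simp; ring
    rw [e1]; linarith
  have h24 : -q ≤ 8 * K * s0 * σ + 4 * τ * σ / s0 := le_of_mul_le_mul_left h23 hspos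
  have h25 : 8 * K * s0 ≤ ε / 100 := by
    have e2 : 8 * K * s0 = 2 * (K / A) * ε := by rw [hs0]; field_simp; ring
    rw [e2]
    have : K / A ≤ 1 / 1000 := by
      rw [div_le_iff₀ hA0]; linarith
    nlinarith
  have h26 : 4 * τ / s0 ≤ ε / 50 := by
    have e3 : 4 * τ / s0 = 16 * (A * τ) / ε := by rw [hs0]; field_simp; ring
    rw [e3, div_le_iff₀ hε0]
    nlinarith
  have h27 : τ ≤ ε * s0 / 100 := by
    have e4 : ε * s0 / 100 = ε ^ 2 / (400 * A) := by rw [hs0]; field_simp; ring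
    rw [e4, le_div_iff₀ (by positivity)]
    nlinarith [mul_nonneg hA0.le hτ]
  have h28 : 8 * K * s0 * σ ≤ ε / 100 * σ := mul_le_mul_of_nonneg_right h25 hσpos.le
  have h29 : 4 * τ * σ / s0 ≤ ε / 50 * σ := by
    have : 4 * τ * σ / s0 = 4 * τ / s0 * σ := by ring
    rw [this]
    exact mul_le_mul_of_nonneg_right h26 hσpos.le
  have h30 : ε * s0 ≤ ε * σ := mul_le_mul_of_nonneg_left hs0σ.le hε0.le
  have h31 : 0 ≤ ε * σ := by positivity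
  linarith

/-- lower bound for `⟪m, om⟫` -/
theorem far_om {e om n m : E} {K τ s0 s : ℝ} (he : ‖e‖ = 1) (hn : ‖n‖ = 1)
    (hm : ‖m‖ = 1) (hK : 0 ≤ K) (hτ : 0 ≤ τ)
    (hom : ∀ w : E, -(K * Exc e w ^ 2) ≤ ⟪w, om⟫ * ‖w‖)
    (hnom : ⟪n, om⟫ < τ) (hspos : 0 < s) (hs4 : s ≤ 1 / 4) (hs0pos : 0 < s0)
    (hη5 : 5 * (1 - ⟪n, e⟫) ≤ s0) (hη0 : 0 ≤ 1 - ⟪n, e⟫)
    (hsβ : s * (1 - ⟪m, e⟫) ≤ 3 / 4 * s0) :
    -(s * ⟪m, om⟫) ≤ 2 * K * s0 ^ 2 + τ := by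
  have hE1 : Exc e ((1 - s) • n + s • m) ≤ (1 - s) * (1 - ⟪n, e⟫) + s * (1 - ⟪m, e⟫) := by
    refine (Exc_add_le e _ _).trans ?_
    rw [Exc_smul _ (by linarith), Exc_smul _ hspos.le]
    unfold Exc
    rw [hn, hm]
  have hEs : Exc e ((1 - s) • n + s • m) ≤ s0 := by
    refine hE1.trans ?_
    have h14 : (1 - s) * (1 - ⟪n, e⟫) ≤ (1 - ⟪n, e⟫) := by
      have := mul_nonneg hspos.le hη0
      linarith
    linarith
  have hE0 := Exc_nonneg he ((1 - s) • n + s • m)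
  have hwn : 1 / 2 ≤ ‖(1 - s) • n + s • m‖ := by
    have h15 : ‖(1 - s) • n‖ - ‖s • m‖ ≤ ‖(1 - s) • n + s • m‖ := by
      have := norm_sub_norm_le ((1 - s) • n) (-(s • m))
      rw [norm_neg, sub_neg_eq_add] at this
      exact this
    rw [norm_smul, norm_smul, hn, hm, Real.norm_of_nonneg (by linarith),
      Real.norm_of_nonneg hspos.le] at h15
    linarith
  have hw := hom ((1 - s) • n + s • m)
  have hip : ⟪(1 - s) • n + s • m, om⟫ = (1 - s) * ⟪n, om⟫ + s * ⟪m, om⟫ := by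
    rw [inner_add_left, inner_smul_left, inner_smul_left]
    simp
  rw [hip] at hw
  have h17 : -(K * s0 ^ 2) ≤ ((1 - s) * ⟪n, om⟫ + s * ⟪m, om⟫) *
      ‖(1 - s) • n + s • m‖ := by
    refine le_trans ?_ hw
    have : Exc e ((1 - s) • n + s • m) ^ 2 ≤ s0 ^ 2 := pow_le_pow_left₀ hE0 hEs 2
    have := mul_le_mul_of_nonneg_left this hK
    linarith
  have h16 : -(2 * K * s0 ^ 2) ≤ (1 - s) * ⟪n, om⟫ + s * ⟪m, om⟫ := by
    by_contra hcon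
    push Not at hcon
    have h18 : 0 ≤ K * s0 ^ 2 := by positivity
    have h19 : ((1 - s) * ⟪n, om⟫ + s * ⟪m, om⟫) * ‖(1 - s) • n + s • m‖
        ≤ ((1 - s) * ⟪n, om⟫ + s * ⟪m, om⟫) * (1 / 2) := by
      apply mul_le_mul_of_nonpos_left hwn
      linarith
    linarith
  have h20 : (1 - s) * ⟪n, om⟫ ≤ τ := by
    have h21 : (1 - s) * ⟪n, om⟫ ≤ (1 - s) * τ :=
      mul_le_mul_of_nonneg_left hnom.le (by linarith)
    have := mul_nonneg hspos.le hτ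
    linarith
  linarith

/-- the supporting hyperplane inequality for unit vectors -/
theorem support_unit {e om n m : E} {K A ε τ t : ℝ} (he : ‖e‖ = 1) (hn : ‖n‖ = 1)
    (hm : ‖m‖ = 1) (hK : 0 ≤ K) (hτ : 0 ≤ τ) (hA : 1000 * K ≤ A) (hA0 : 0 < A)
    (hε0 : 0 < ε) (hε : 1000 * A * τ ≤ ε ^ 2)
    (hom : ∀ w : E, -(K * Exc e w ^ 2) ≤ ⟪w, om⟫ * ‖w‖)
    (hη : 20 * A * (1 - ⟪n, e⟫) ≤ ε) (hnom : ⟪n, om⟫ < τ)
    (h1 : t ≤ -⟪m, om⟫ + τ) (h2 : t ≤ A * (1 - ⟪m, e⟫) ^ 2) :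
    t ≤ ε * (1 - ⟪m, n⟫) + A * (2 * (1 - ⟪n, e⟫) * ((1 - ⟪m, e⟫) - (1 - ⟪m, n⟫))
      - (1 - ⟪n, e⟫) ^ 2 * (1 - (1 - ⟪m, n⟫))) := by
  have hdev := dev_sub he hn hm
  have hη0 : 0 ≤ 1 - ⟪n, e⟫ := by
    have := real_inner_le_norm n e
    rw [he, hn] at this
    linarith
  have hβ0 : 0 ≤ 1 - ⟪m, e⟫ := by
    have := real_inner_le_norm m e
    rw [he, hm] at this
    linarith
  have hσ0 : 0 ≤ 1 - ⟪m, n⟫ := by
    have := real_inner_le_norm m n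
    rw [hn, hm] at this
    linarith
  have hsq : ((1 - ⟪m, e⟫) - (1 - ⟪n, e⟫)) ^ 2 ≤
      8 * (1 - ⟪m, n⟫) * (1 - ⟪n, e⟫) + 2 * (1 - ⟪m, n⟫) ^ 2 := by
    nlinarith [sq_nonneg ((1 - ⟪m, e⟫) - (1 - ⟪n, e⟫) - 2 * (1 - ⟪m, n⟫))]
  by_cases hc : 4 * A * (1 - ⟪m, n⟫) ≤ ε
  · exact h2.trans (near_real hA0 hη0 hσ0 hη hsq hc)
  · push Not at hc
    have hσpos : 0 < 1 - ⟪m, n⟫ := by
      by_contra h
      have h0 : 1 - ⟪m, n⟫ = 0 := le_antisymm (not_lt.mp h) hσ0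
      rw [h0] at hc
      linarith
    have hησ : 5 * (1 - ⟪n, e⟫) ≤ 1 - ⟪m, n⟫ := by
      have h0 : 4 * A * (5 * (1 - ⟪n, e⟫)) ≤ 4 * A * (1 - ⟪m, n⟫) := by linarith
      exact le_of_mul_le_mul_left h0 (by positivity)
    have hβσ : 1 - ⟪m, e⟫ ≤ 3 * (1 - ⟪m, n⟫) := by
      have h7 : ((1 - ⟪m, e⟫) - (1 - ⟪n, e⟫)) ^ 2 ≤ (2 * (1 - ⟪m, n⟫)) ^ 2 := by
        have := mul_le_mul_of_nonneg_left hησ hσ0
        nlinarith
      have h8 := (abs_le_of_sq_le_sq' h7 (by linarith)).2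
      linarith
    refine le_trans ?_ (far_R hA0 hη0 hσ0 hβ0 hε0 hη hησ)
    refine h1.trans ?_
    have hs0pos : 0 < ε / (4 * A) := by positivity
    have hs0σ : ε / (4 * A) < 1 - ⟪m, n⟫ := by
      rw [div_lt_iff₀ (by positivity)]
      linarith
    have hspos : 0 < ε / (4 * A) / (4 * (1 - ⟪m, n⟫)) := by positivity
    have hs4 : ε / (4 * A) / (4 * (1 - ⟪m, n⟫)) ≤ 1 / 4 := by
      rw [div_le_iff₀ (by positivity)]
      linarith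
    have hη5 : 5 * (1 - ⟪n, e⟫) ≤ ε / (4 * A) := by
      rw [le_div_iff₀ (by positivity)]
      linarith
    have hsβ : ε / (4 * A) / (4 * (1 - ⟪m, n⟫)) * (1 - ⟪m, e⟫) ≤ 3 / 4 * (ε / (4 * A)) := by
      have h0 : ε / (4 * A) / (4 * (1 - ⟪m, n⟫)) * (1 - ⟪m, e⟫) ≤
          ε / (4 * A) / (4 * (1 - ⟪m, n⟫)) * (3 * (1 - ⟪m, n⟫)) :=
        mul_le_mul_of_nonneg_left hβσ hspos.le
      refine h0.trans (le_of_eq ?_)
      field_simp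
    exact far_q hK hτ hA hA0 hε0 hε hσpos rfl rfl hs0σ
      (far_om he hn hm hK hτ hom hnom hspos hs4 hs0pos hη5 hη0 hsβ)

/-- the supporting hyperplane inequality for vectors -/
theorem support_vec {e om n w : E} {K A ε τ t : ℝ} (he : ‖e‖ = 1) (hn : ‖n‖ = 1)
    (hK : 0 ≤ K) (hτ : 0 ≤ τ) (hA : 1000 * K ≤ A) (hA0 : 0 < A)
    (hε0 : 0 < ε) (hε : 1000 * A * τ ≤ ε ^ 2)
    (hom : ∀ w : E, -(K * Exc e w ^ 2) ≤ ⟪w, om⟫ * ‖w‖)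
    (hη : 20 * A * (1 - ⟪n, e⟫) ≤ ε) (hnom : ⟪n, om⟫ < τ)
    (h1 : t ≤ -⟪w, om⟫ + τ * ‖w‖) (h2 : t * ‖w‖ ≤ A * Exc e w ^ 2) :
    t ≤ ε * ‖w‖ + ⟪w, A • ((2 * (1 - ⟪n, e⟫)) • (n - e) - (1 - ⟪n, e⟫) ^ 2 • n) - ε • n⟫ := by
  by_cases hw : w = 0
  · subst hw
    simpa using h1
  · have hwn : 0 < ‖w‖ := norm_pos_iff.mpr hw
    have hm : ‖(‖w‖)⁻¹ • w‖ = 1 := by
      rw [norm_smul, norm_inv, norm_norm]
      field_simp
    have hwe : w = ‖w‖ • ((‖w‖)⁻¹ • w) := by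
      rw [smul_smul, mul_inv_cancel₀ hwn.ne', one_smul]
    set m := (‖w‖)⁻¹ • w with hmdef
    set r := ‖w‖ with hr
    have i1 : ⟪w, om⟫ = r * ⟪m, om⟫ := by
      rw [hwe, inner_smul_left]; simp
    have i2 : ⟪w, e⟫ = r * ⟪m, e⟫ := by
      rw [hwe, inner_smul_left]; simp
    have h1' : t / r ≤ -⟪m, om⟫ + τ := by
      rw [div_le_iff₀ hwn]
      rw [i1] at h1
      linarith
    have h2' : t / r ≤ A * (1 - ⟪m, e⟫) ^ 2 := by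
      rw [div_le_iff₀ hwn]
      have e1 : Exc e w = r * (1 - ⟪m, e⟫) := by
        unfold Exc
        rw [i2, ← hr]; ring
      rw [e1] at h2
      have h3 : t * r ≤ (A * (1 - ⟪m, e⟫) ^ 2 * r) * r := by
        calc t * r ≤ A * (r * (1 - ⟪m, e⟫)) ^ 2 := h2
          _ = (A * (1 - ⟪m, e⟫) ^ 2 * r) * r := by ring
      exact le_of_mul_le_mul_right h3 hwn
    have h4 := support_unit he hn hm hK hτ hA hA0 hε0 hε hom hη hnom h1' h2'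
    rw [div_le_iff₀ hwn] at h4
    refine h4.trans (le_of_eq ?_)
    have i3 : ⟪w, n⟫ = r * ⟪m, n⟫ := by
      rw [hwe, inner_smul_left]; simp
    rw [inner_sub_right, inner_smul_right, inner_sub_right,
      inner_smul_right, inner_smul_right, inner_smul_right, inner_sub_right, i2, i3]
    ring

theorem inner_lam {n e : E} {A ε : ℝ} (hn : ‖n‖ = 1) :
    ⟪n, A • ((2 * (1 - ⟪n, e⟫)) • (n - e) - (1 - ⟪n, e⟫) ^ 2 • n) - ε • n⟫ =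
      A * (1 - ⟪n, e⟫) ^ 2 - ε := by
  simp only [inner_sub_right, inner_smul_right]
  rw [real_inner_self_eq_norm_sq, hn]
  ring

theorem step_ineq {ι : Type*} (s : Finset ι) (p : ι → ℝ) (v : ι → E) (t : ι → ℝ) (e om : E)
    {K A ε τ : ℝ} (he : ‖e‖ = 1) (hK : 0 ≤ K) (hτ : 0 ≤ τ) (hA : 1000 * K ≤ A) (hA0 : 0 < A)
    (hε0 : 0 < ε) (hε : 1000 * A * τ ≤ ε ^ 2) (hετ : τ ≤ ε)
    (hom : ∀ w : E, -(K * Exc e w ^ 2) ≤ ⟪w, om⟫ * ‖w‖)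
    (hp : ∀ i ∈ s, 0 ≤ p i) (_hp1 : ∑ i ∈ s, p i = 1)
    (h1 : ∀ i ∈ s, t i ≤ -⟪v i, om⟫ + τ * ‖v i‖)
    (h2 : ∀ i ∈ s, t i * ‖v i‖ ≤ A * Exc e (v i) ^ 2) :
    (∑ i ∈ s, p i * t i - ε * (∑ i ∈ s, p i * ‖v i‖ - ‖∑ i ∈ s, p i • v i‖)
        ≤ -⟪∑ i ∈ s, p i • v i, om⟫ + τ * ‖∑ i ∈ s, p i • v i‖) ∧
      (∑ i ∈ s, p i * t i - ε * (∑ i ∈ s, p i * ‖v i‖ - ‖∑ i ∈ s, p i • v i‖)) *
          ‖∑ i ∈ s, p i • v i‖ ≤ A * Exc e (∑ i ∈ s, p i • v i) ^ 2 := by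
  have hnorm : ‖∑ i ∈ s, p i • v i‖ ≤ ∑ i ∈ s, p i * ‖v i‖ := by
    refine (norm_sum_le _ _).trans (Finset.sum_le_sum fun i hi => ?_)
    rw [norm_smul, Real.norm_of_nonneg (hp i hi)]
  have hinner : ∀ lam : E, ∑ i ∈ s, p i * ⟪v i, lam⟫ = ⟪∑ i ∈ s, p i • v i, lam⟫ := by
    intro lam
    rw [sum_inner]
    refine Finset.sum_congr rfl fun i _ => ?_
    rw [inner_smul_left]; simp
  have hfirst : ∑ i ∈ s, p i * t i - ε * (∑ i ∈ s, p i * ‖v i‖ - ‖∑ i ∈ s, p i • v i‖)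
        ≤ -⟪∑ i ∈ s, p i • v i, om⟫ + τ * ‖∑ i ∈ s, p i • v i‖ := by
    have h3 : ∑ i ∈ s, p i * t i ≤ ∑ i ∈ s, (-(p i * ⟪v i, om⟫) + τ * (p i * ‖v i‖)) := by
      refine Finset.sum_le_sum fun i hi => ?_
      have := mul_le_mul_of_nonneg_left (h1 i hi) (hp i hi)
      linarith
    rw [Finset.sum_add_distrib, Finset.sum_neg_distrib, ← Finset.mul_sum, hinner] at h3
    have h4 := mul_le_mul_of_nonneg_right hετ (sub_nonneg.mpr hnorm)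
    linarith
  refine ⟨hfirst, ?_⟩
  set V := ∑ i ∈ s, p i • v i with hV
  set T := ∑ i ∈ s, p i * t i - ε * (∑ i ∈ s, p i * ‖v i‖ - ‖V‖) with hT
  by_cases hV0 : V = 0
  · rw [hV0, norm_zero, mul_zero]
    positivity
  have hVn : 0 < ‖V‖ := norm_pos_iff.mpr hV0
  have hn : ‖(‖V‖)⁻¹ • V‖ = 1 := by
    rw [norm_smul, norm_inv, norm_norm]
    field_simp
  have hVe : V = ‖V‖ • ((‖V‖)⁻¹ • V) := by
    rw [smul_smul, mul_inv_cancel₀ hVn.ne', one_smul]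
  have igen : ∀ x : E, ⟪V, x⟫ = ‖V‖ * ⟪(‖V‖)⁻¹ • V, x⟫ := by
    intro x
    rw [inner_smul_left]
    simp only [conj_trivial]
    field_simp
  have iom := igen om
  have ie := igen e
  set n := (‖V‖)⁻¹ • V with hndef
  have hExc : Exc e V = ‖V‖ * (1 - ⟪n, e⟫) := by
    unfold Exc
    rw [ie]; ring
  have hη0 : 0 ≤ 1 - ⟪n, e⟫ := by
    have := real_inner_le_norm n e
    rw [he, hn] at this
    linarith
  by_cases hA1 : τ ≤ ⟪n, om⟫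
  · have h5 : T ≤ 0 := by
      refine hfirst.trans ?_
      rw [iom]
      have := mul_le_mul_of_nonneg_left hA1 hVn.le
      linarith
    have h6 : T * ‖V‖ ≤ 0 := mul_nonpos_of_nonpos_of_nonneg h5 hVn.le
    have h7 : 0 ≤ A * Exc e V ^ 2 := by positivity
    linarith
  push Not at hA1
  by_cases hA2 : 20 * A * (1 - ⟪n, e⟫) ≤ ε
  · -- main case
    set lam := A • ((2 * (1 - ⟪n, e⟫)) • (n - e) - (1 - ⟪n, e⟫) ^ 2 • n) - ε • n with hlam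
    have h8 : ∑ i ∈ s, p i * t i ≤ ε * ∑ i ∈ s, p i * ‖v i‖ + ⟪V, lam⟫ := by
      rw [hV, ← hinner, Finset.mul_sum, ← Finset.sum_add_distrib]
      refine Finset.sum_le_sum fun i hi => ?_
      have h9 := support_vec he hn hK hτ hA hA0 hε0 hε hom hA2 hA1 (h1 i hi) (h2 i hi)
      have h10 := mul_le_mul_of_nonneg_left h9 (hp i hi)
      linarith
    have h11 : ⟪V, lam⟫ = ‖V‖ * (A * (1 - ⟪n, e⟫) ^ 2 - ε) := by
      have h12 : ⟪n, lam⟫ = A * (1 - ⟪n, e⟫) ^ 2 - ε := inner_lam hn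
      rw [← h12]
      exact igen lam
    have h13 : T ≤ ‖V‖ * (A * (1 - ⟪n, e⟫) ^ 2) := by
      rw [hT]
      linarith
    calc T * ‖V‖ ≤ ‖V‖ * (A * (1 - ⟪n, e⟫) ^ 2) * ‖V‖ :=
          mul_le_mul_of_nonneg_right h13 hVn.le
      _ = A * Exc e V ^ 2 := by rw [hExc]; ring
  · push Not at hA2
    have h14 := hom V
    have h15 : T * ‖V‖ ≤ (-⟪V, om⟫ + τ * ‖V‖) * ‖V‖ :=
      mul_le_mul_of_nonneg_right hfirst hVn.le
    have h16 : τ ≤ A / 2 * (1 - ⟪n, e⟫) ^ 2 := by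
      have h17 : ε ^ 2 ≤ (20 * A * (1 - ⟪n, e⟫)) ^ 2 := pow_le_pow_left₀ hε0.le hA2.le 2
      have h18 : 1000 * A * τ ≤ 1000 * A * (A / 2 * (1 - ⟪n, e⟫) ^ 2) := by
        refine hε.trans (h17.trans ?_)
        have h19 : 0 ≤ A ^ 2 * (1 - ⟪n, e⟫) ^ 2 := by positivity
        nlinarith
      exact le_of_mul_le_mul_left h18 (by positivity)
    have h20 : τ * ‖V‖ * ‖V‖ ≤ A / 2 * Exc e V ^ 2 := by
      rw [hExc]
      have h21 := mul_le_mul_of_nonneg_right h16 (mul_nonneg hVn.le hVn.le)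
      calc τ * ‖V‖ * ‖V‖ = τ * (‖V‖ * ‖V‖) := by ring
        _ ≤ A / 2 * (1 - ⟪n, e⟫) ^ 2 * (‖V‖ * ‖V‖) := h21
        _ = A / 2 * (‖V‖ * (1 - ⟪n, e⟫)) ^ 2 := by ring
    have h22 : K * Exc e V ^ 2 ≤ A / 2 * Exc e V ^ 2 :=
      mul_le_mul_of_nonneg_right (by linarith) (sq_nonneg _)
    linarith

end Vale.Agent.P137
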