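import Vale.Agent.P137.WUmLine

/-! The maximal function of `f ∈ W^{1,1}` belongs to `W^{1,1}_loc`. -/

open MeasureTheory Metric Set Filter Topology
open scoped RealInnerProductSpace ENNReal

namespace Vale.Agent.P137

/-- approximating data exist -/
theorem exists_appr {d : ℕ} {f : EuclideanSpace ℝ (Fin d) → ℝ}
    {g : EuclideanSpace ℝ (Fin d) → EuclideanSpace ℝ (Fin d)} (hf : Integrable f)
    (hg : Integrable g) (hfg : IsWeakGradient f g) : ∃ F, Appr f g F := by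
  have h : ∀ n : ℕ, ∃ h : EuclideanSpace ℝ (Fin d) → ℝ, ContDiff ℝ (⊤ : ℕ∞) h ∧
      HasCompactSupport h ∧ ∫ x, |h x - f x| < (1 / 4 : ℝ) ^ n ∧
      ∫ x, ‖gradient h x - g x‖ < (1 / 4 : ℝ) ^ n :=
    fun n => exists_smooth_approx hf hg hfg (by positivity)
  choose F h1 h2 h3 h4 using h
  exact ⟨F, hf, hg, hfg, h1, h2, fun n => (h3 n).le, fun n => (h4 n).le⟩

theorem W11 (d : ℕ) (hd : 2 ≤ d) : ∃ C : ℝ, 0 ≤ C ∧
    ∀ (f : EuclideanSpace ℝ (Fin d) → ℝ) (g : EuclideanSpace ℝ (Fin d) → EuclideanSpace ℝ (Fin d)),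
      Integrable f → Integrable g → IsWeakGradient f g →
      (∀ᵐ x, uM f x ≠ ⊤) ∧ LocallyIntegrable (fun x => (uM f x).toReal) ∧
      ∃ G : EuclideanSpace ℝ (Fin d) → EuclideanSpace ℝ (Fin d), Integrable G ∧
        IsWeakGradient (fun x => (uM f x).toReal) G ∧ ∫ x, ‖G x‖ ≤ C * ∫ x, ‖g x‖ := by
  obtain ⟨C, hC, hGM⟩ := integrable_GM d hd
  refine ⟨C, hC, fun f g hf hg hfg => ?_⟩
  obtain ⟨F, hF⟩ := exists_appr hf hg hfg
  have hloc : ∀ R : ℝ, ∫⁻ x in closedBall 0 R, uM f x < ⊤ :=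
    uM_lintegral_lt_top d hd f g hf hg hfg
  have hm : Measurable (uM f) := measurable_uM
  have hae : ∀ᵐ x, uM f x ≠ ⊤ := by
    have h1 : ∀ n : ℕ, ∀ᵐ x, x ∈ closedBall (0 : EuclideanSpace ℝ (Fin d)) n → uM f x < ⊤ := by
      intro n
      have := ae_lt_top hm (hloc n).ne
      rwa [ae_restrict_iff' measurableSet_closedBall] at this
    filter_upwards [ae_all_iff.mpr h1] with x hx
    obtain ⟨n, hn⟩ := exists_nat_ge ‖x‖
    exact (hx n (by simpa using hn)).ne
  have hLI : LocallyIntegrable (fun x => (uM f x).toReal) := by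
    rw [locallyIntegrable_iff]
    intro K hK
    obtain ⟨R, hR⟩ := hK.isBounded.subset_closedBall 0
    have : IntegrableOn (fun x => (uM f x).toReal) (closedBall 0 R) :=
      integrable_toReal_of_lintegral_ne_top hm.aemeasurable (hloc R).ne
    exact this.mono_set hR
  refine ⟨hae, hLI, GM f g F, (hGM f g F hF).1, ?_, (hGM f g F hF).2⟩
  exact weak_of_lines hLI (hGM f g F hF).1 (fun i => ae_uM_line hd hF i)

end Vale.Agent.P137
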