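import Vale.Agent.P137.General
import Vale.Agent.P137.OneDim
import Vale.Agent.P137.LineLemmas

/-! Definitions for the Sobolev part of P137. -/

open MeasureTheory Metric Set Filter Topology
open scoped RealInnerProductSpace ENNReal

namespace Vale.Agent.P137

/-- approximating data -/
structure Appr {d : ℕ} (f : EuclideanSpace ℝ (Fin d) → ℝ)
    (g : EuclideanSpace ℝ (Fin d) → EuclideanSpace ℝ (Fin d))
    (F : ℕ → EuclideanSpace ℝ (Fin d) → ℝ) : Prop where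
  hf : Integrable f
  hg : Integrable g
  hfg : IsWeakGradient f g
  hF : ∀ n, ContDiff ℝ (⊤ : ℕ∞) (F n)
  hFc : ∀ n, HasCompactSupport (F n)
  h1 : ∀ n, ∫ x, |F n x - f x| ≤ (1 / 4 : ℝ) ^ n
  h2 : ∀ n, ∫ x, ‖gradient (F n) x - g x‖ ≤ (1 / 4 : ℝ) ^ n

/-- the precise representative -/
noncomputable def fs {d : ℕ} (F : ℕ → EuclideanSpace ℝ (Fin d) → ℝ)
    (x : EuclideanSpace ℝ (Fin d)) : ℝ := limUnder atTop (fun n => F n x)

/-- `x` is good for the direction `e` -/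
def GoodLine {d : ℕ} (f : EuclideanSpace ℝ (Fin d) → ℝ)
    (F : ℕ → EuclideanSpace ℝ (Fin d) → ℝ) (e x : EuclideanSpace ℝ (Fin d)) : Prop :=
  ∃ ζ : ℕ → ℝ, Tendsto ζ atTop (𝓝 0) ∧
    (∀ (n : ℕ) (s : ℝ), uM (fun y => f y - F n y) (x + s • e) ≤ ENNReal.ofReal (ζ n)) ∧
    (∀ (n m : ℕ) (s : ℝ), n ≤ m → |F m (x + s • e) - F n (x + s • e)| ≤ ζ n)

open Classical in
/-- first scale at which `uM f` is attained -/
noncomputable def kk {d : ℕ} (f : EuclideanSpace ℝ (Fin d) → ℝ)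
    (y : EuclideanSpace ℝ (Fin d)) : ℕ :=
  if h : ∃ k : ℕ, (uM f y).toReal = Mge (fun y => |f y|) ((2 : ℝ) ^ (-(k : ℤ))) y
    then Nat.find h else 0

open Classical in
/-- the weak gradient of the maximal function -/
noncomputable def GM {d : ℕ} (f : EuclideanSpace ℝ (Fin d) → ℝ)
    (g : EuclideanSpace ℝ (Fin d) → EuclideanSpace ℝ (Fin d))
    (F : ℕ → EuclideanSpace ℝ (Fin d) → ℝ) (y : EuclideanSpace ℝ (Fin d)) :
    EuclideanSpace ℝ (Fin d) :=
  if |fs F y| < (uM f y).toReal then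
    gradient (Mge (fun y => |f y|) ((2 : ℝ) ^ (-(kk f y : ℤ)))) y
  else (SignType.sign (fs F y) : ℝ) • g y

end Vale.Agent.P137
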