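import Vale.Agent.P137.WGoodC

/-! Only large radii matter where the maximal function exceeds the function (module EQM). -/

open MeasureTheory Metric Set Filter Topology
open scoped RealInnerProductSpace ENNReal

namespace Vale.Agent.P137

variable {d : ℕ} {f : EuclideanSpace ℝ (Fin d) → ℝ}
  {g : EuclideanSpace ℝ (Fin d) → EuclideanSpace ℝ (Fin d)}
  {F : ℕ → EuclideanSpace ℝ (Fin d) → ℝ}

/-- averages of `|f|` over small balls containing `y` -/
theorem avg_small_le {f F : EuclideanSpace ℝ (Fin d) → ℝ} {K : NNReal} (hF : LipschitzWith K F)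
    {c y : EuclideanSpace ℝ (Fin d)} {r ζ : ℝ} (hr : 0 < r) (hy : y ∈ ball c r) (hζ : 0 ≤ ζ)
    (h : uM (fun z => f z - F z) y ≤ ENNReal.ofReal ζ) :
    (∫⁻ z in ball c r, ‖f z‖ₑ) / volume (ball c r) ≤
      ENNReal.ofReal (|F y| + K * (2 * r) + ζ) := by
  have h1 : ∫⁻ z in ball c r, ‖f z‖ₑ ≤
      (∫⁻ z in ball c r, ‖F z‖ₑ) + ∫⁻ z in ball c r, ‖f z - F z‖ₑ := by
    rw [← lintegral_add_left' hF.continuous.aestronglyMeasurable.enorm.restrict]
    refine lintegral_mono fun z => ?_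
    have h2 : f z = F z + (f z - F z) := by ring
    calc ‖f z‖ₑ = ‖F z + (f z - F z)‖ₑ := by rw [← h2]
      _ ≤ _ := enorm_add_le _ _
  have h3 : (∫⁻ z in ball c r, ‖F z‖ₑ) / volume (ball c r) ≤
      ENNReal.ofReal (|F y| + K * (2 * r)) := by
    refine avg_le_of_bdd hr fun z hz => ?_
    have h4 := hF.dist_le_mul z y
    have h5 : dist z y ≤ 2 * r := by
      have := dist_triangle_right z y c
      rw [mem_ball] at hz hy
      linarith
    have h6 : (K : ℝ) * dist z y ≤ K * (2 * r) := mul_le_mul_of_nonneg_left h5 K.coe_nonneg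
    rw [Real.dist_eq] at h4
    have h7 := abs_sub_abs_le_abs_sub (F z) (F y)
    linarith
  calc (∫⁻ z in ball c r, ‖f z‖ₑ) / volume (ball c r)
      ≤ ((∫⁻ z in ball c r, ‖F z‖ₑ) + ∫⁻ z in ball c r, ‖f z - F z‖ₑ) / volume (ball c r) :=
        ENNReal.div_le_div_right h1 _
    _ = (∫⁻ z in ball c r, ‖F z‖ₑ) / volume (ball c r) +
          (∫⁻ z in ball c r, ‖f z - F z‖ₑ) / volume (ball c r) := ENNReal.add_div
    _ ≤ ENNReal.ofReal (|F y| + K * (2 * r)) + ENNReal.ofReal ζ :=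
        add_le_add h3 ((avg_le_uM hr hy).trans h)
    _ = ENNReal.ofReal (|F y| + K * (2 * r) + ζ) := by
        rw [← ENNReal.ofReal_add (by positivity) hζ]

/-- where `uM f > |fs| + η` only radii `≥ 2^(-k)` matter, uniformly on a good line: averages of
`|f|` over balls of radius `δ` containing `y` are `≤ |F n y| + 2 δ Lip(F n) + uM (f - F n) y` -/
theorem GoodLine.eq_Mge (_hd : 2 ≤ d) (h : Appr f g F) {e x : EuclideanSpace ℝ (Fin d)}
    (hx : GoodLine f F e x) {η : ℝ} (hη : 0 < η) : ∃ k0 : ℕ, ∀ k : ℕ, k0 ≤ k → ∀ s : ℝ,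
      |fs F (x + s • e)| + η < (uM f (x + s • e)).toReal →
      (uM f (x + s • e)).toReal = Mge (fun y => |f y|) ((2 : ℝ) ^ (-(k : ℤ))) (x + s • e) := by
  obtain ⟨ζ, hζ, h1, h2⟩ := id hx
  have hζ0 : ∀ n, 0 ≤ ζ n := GoodLine.spec h2
  obtain ⟨n, hn⟩ := (hζ.eventually (gt_mem_nhds (show (0 : ℝ) < η / 4 by linarith))).exists
  obtain ⟨K, hK⟩ := (h.hF n).lipschitzWith_of_hasCompactSupport (h.hFc n) (by simp)
  obtain ⟨k0, hk0⟩ := exists_pow_lt_of_lt_one (show (0 : ℝ) < η / (8 * (K + 1)) by positivity)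
    (show (1 / 2 : ℝ) < 1 by norm_num)
  refine ⟨k0, fun k hk s hs => ?_⟩
  set y := x + s • e with hy
  have ht : uM f y ≠ ⊤ := hx.ne_top h s
  have hr0 : (0 : ℝ) < (2 : ℝ) ^ (-(k : ℤ)) := by positivity
  have hrk : (2 : ℝ) ^ (-(k : ℤ)) < η / (8 * (K + 1)) := by
    rw [zpow_neg, zpow_natCast, ← inv_pow, ← one_div]
    exact (pow_le_pow_of_le_one (by norm_num) (by norm_num) hk).trans_lt hk0
  have hKr : (K : ℝ) * (2 * (2 : ℝ) ^ (-(k : ℤ))) ≤ η / 4 := by
    rw [lt_div_iff₀ (by positivity)] at hrk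
    nlinarith [K.coe_nonneg]
  have hle : uM f y ≤ ENNReal.ofReal
      (max (Mge (fun y => |f y|) ((2 : ℝ) ^ (-(k : ℤ))) y) (|fs F y| + 3 * η / 4)) := by
    refine uM_le fun c ρ hρ hyc => ?_
    rcases le_or_gt ((2 : ℝ) ^ (-(k : ℤ))) ρ with hρk | hρk
    · rw [avg_eq_ofReal_av h.hf c hρ]
      refine ENNReal.ofReal_le_ofReal ((av_le_Mge h.hf.abs (fun _ => abs_nonneg _) hr0 hρk
        (mem_ball.1 hyc).le).trans (le_max_left _ _))
    · refine (avg_small_le hK hρ hyc (hζ0 n) (h1 n s)).trans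
        (ENNReal.ofReal_le_ofReal (le_trans ?_ (le_max_right _ _)))
      have h5 := hx.fs_close h2 n s
      have h6 := abs_sub_abs_le_abs_sub (F n y) (fs F y)
      rw [abs_sub_comm] at h6
      have h7 : (K : ℝ) * (2 * ρ) ≤ K * (2 * (2 : ℝ) ^ (-(k : ℤ))) :=
        mul_le_mul_of_nonneg_left (by linarith) K.coe_nonneg
      linarith
  have hge := Mge_le_uM h.hf hr0 (x := y)
  rw [ENNReal.ofReal_le_iff_le_toReal ht] at hge
  refine le_antisymm ?_ hge
  have hM0 : 0 ≤ Mge (fun y => |f y|) ((2 : ℝ) ^ (-(k : ℤ))) y :=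
    Mge_nonneg h.hf.abs (fun _ => abs_nonneg _) hr0 y
  have h8 := ENNReal.toReal_mono ENNReal.ofReal_ne_top hle
  rw [ENNReal.toReal_ofReal (hM0.trans (le_max_left _ _))] at h8
  rcases le_max_iff.1 h8 with h9 | h9
  · exact h9
  · linarith

end Vale.Agent.P137
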