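import Vale.Agent.P137.WGoodC
import Vale.Agent.P137.FsLine

/-! The precise representative is absolutely continuous on almost every line (module FSLINE). -/

open MeasureTheory Metric Set Filter Topology
open scoped RealInnerProductSpace ENNReal

namespace Vale.Agent.P137

variable {d : ℕ} {f : EuclideanSpace ℝ (Fin d) → ℝ}
  {g : EuclideanSpace ℝ (Fin d) → EuclideanSpace ℝ (Fin d)}
  {F : ℕ → EuclideanSpace ℝ (Fin d) → ℝ}

/-- `fs` is absolutely continuous on almost every line, with derivative `⟪g,e⟫` -/
theorem ae_fs_line (h : Appr f g F) {e : EuclideanSpace ℝ (Fin d)} (he : ‖e‖ = 1) :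
    ∀ᵐ x, GoodLine f F e x → ∀ a b : ℝ,
      IntervalIntegrable (fun s => ⟪g (x + s • e), e⟫) volume a b ∧
      fs F (x + b • e) = fs F (x + a • e) + ∫ s in a..b, ⟪g (x + s • e), e⟫ := by
  filter_upwards [fs_line_aux h.hg h.hF h.hFc h.h2 he] with x hx hgood a b
  exact hx (fs F) (GoodLine.continuous_fs h hgood).2.1 a b

end Vale.Agent.P137
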