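import Vale.Agent.P137.W11Defs
import Vale.Agent.P137.GoodA

/-! Almost every line is good (module GOOD). -/

open MeasureTheory Metric Set Filter Topology
open scoped RealInnerProductSpace ENNReal

namespace Vale.Agent.P137

variable {d : ℕ} {f : EuclideanSpace ℝ (Fin d) → ℝ}
  {g : EuclideanSpace ℝ (Fin d) → EuclideanSpace ℝ (Fin d)}
  {F : ℕ → EuclideanSpace ℝ (Fin d) → ℝ}

/-- `uM_smooth` for `F (n+1) - F n`, `line_sup`, `ae_line_tsum`, `uM_sub_le_tsum`;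
`ζ n = ∑_{m ≥ n} ∫_t ‖∇ Y_m‖(x+te) dt` -/
theorem ae_goodLine (hd : 2 ≤ d) (h : Appr f g F) {e : EuclideanSpace ℝ (Fin d)}
    (he : ‖e‖ = 1) : ∀ᵐ x, GoodLine f F e x :=
  goodA_line hd h.hf h.hg h.hF h.hFc h.h1 h.h2 he

end Vale.Agent.P137
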