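import Vale.Agent.P137.WEqM
import Vale.Agent.P137.WGood

/-! Integrability of the gradient of the maximal function (module GMINT). -/

open MeasureTheory Metric Set Filter Topology
open scoped RealInnerProductSpace ENNReal

namespace Vale.Agent.P137

variable {d : ℕ} {f : EuclideanSpace ℝ (Fin d) → ℝ}
  {g : EuclideanSpace ℝ (Fin d) → EuclideanSpace ℝ (Fin d)}
  {F : ℕ → EuclideanSpace ℝ (Fin d) → ℝ}

theorem gmi_meas_fs {F : ℕ → EuclideanSpace ℝ (Fin d) → ℝ} (hF : ∀ n, Continuous (F n)) :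
    Measurable (fs F) :=
  (StronglyMeasurable.limUnder (fun n => (hF n).stronglyMeasurable)).measurable

theorem gmi_le (hd : 2 ≤ d) (h : Appr f g F) {y : EuclideanSpace ℝ (Fin d)} (hy : uM f y ≠ ⊤)
    (k : ℕ) : Mge (fun y => |f y|) ((2 : ℝ) ^ (-(k : ℤ))) y ≤ (uM f y).toReal := by
  have h1 := uM_eq_iSup (by omega) h.hf y
  rw [← ENNReal.ofReal_le_iff_le_toReal hy, h1]
  exact le_iSup (fun n : ℕ => ENNReal.ofReal (Mge (fun y => |f y|) ((2 : ℝ) ^ (-(n : ℤ))) y)) k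

/-- eventually constant gradients -/
theorem gmi_eventually (hd : 2 ≤ d) (h : Appr f g F) {e y : EuclideanSpace ℝ (Fin d)}
    (hy : GoodLine f F e y) (hlt : |fs F y| < (uM f y).toReal)
    (hdiff : ∀ k : ℕ, DifferentiableAt ℝ (Mge (fun y => |f y|) ((2 : ℝ) ^ (-(k : ℤ)))) y) :
    ∀ j : ℕ, kk f y ≤ j → gradient (Mge (fun y => |f y|) ((2 : ℝ) ^ (-(j : ℤ)))) y =
      gradient (Mge (fun y => |f y|) ((2 : ℝ) ^ (-(kk f y : ℤ)))) y := by
  classical
  have hfa : Integrable (fun y => |f y|) := h.hf.abs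
  have hfa0 : ∀ x, 0 ≤ (fun y => |f y|) x := fun x => abs_nonneg _
  have hne : uM f y ≠ ⊤ := by
    intro htop
    rw [htop, ENNReal.toReal_top] at hlt
    exact absurd hlt (not_lt.2 (abs_nonneg _))
  obtain ⟨k0, hk0⟩ := hy.eq_Mge hd h (η := ((uM f y).toReal - |fs F y|) / 2) (by linarith)
  have hex : ∃ k : ℕ, (uM f y).toReal = Mge (fun y => |f y|) ((2 : ℝ) ^ (-(k : ℤ))) y := by
    refine ⟨k0, ?_⟩
    have := hk0 k0 le_rfl 0
    simp only [zero_smul, add_zero] at this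
    exact this (by linarith)
  have hK : (uM f y).toReal = Mge (fun y => |f y|) ((2 : ℝ) ^ (-(kk f y : ℤ))) y := by
    rw [kk, dif_pos hex]
    exact Nat.find_spec hex
  intro j hj
  set K := kk f y with hKdef
  have hpow : (2 : ℝ) ^ (-(j : ℤ)) ≤ (2 : ℝ) ^ (-(K : ℤ)) := by
    apply zpow_le_zpow_right₀ one_le_two
    omega
  have hmono : ∀ x, Mge (fun y => |f y|) ((2 : ℝ) ^ (-(K : ℤ))) x ≤
      Mge (fun y => |f y|) ((2 : ℝ) ^ (-(j : ℤ))) x := fun x =>
    Mge_anti hfa hfa0 (by positivity) hpow x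
  have heq : Mge (fun y => |f y|) ((2 : ℝ) ^ (-(j : ℤ))) y =
      Mge (fun y => |f y|) ((2 : ℝ) ^ (-(K : ℤ))) y := by
    apply le_antisymm _ (hmono y)
    rw [← hK]
    exact gmi_le hd h hne j
  have hmin : IsLocalMin (fun x => Mge (fun y => |f y|) ((2 : ℝ) ^ (-(j : ℤ))) x -
      Mge (fun y => |f y|) ((2 : ℝ) ^ (-(K : ℤ))) x) y := by
    refine Eventually.of_forall fun x => ?_
    simp only
    rw [heq, sub_self]
    linarith [hmono x]
  have h0 := hmin.fderiv_eq_zero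
  rw [fderiv_fun_sub (hdiff j) (hdiff K), sub_eq_zero] at h0
  rw [gradient, gradient, h0]

theorem gmi_meas_sign {u : EuclideanSpace ℝ (Fin d) → ℝ} (hu : Measurable u) :
    Measurable (fun y => (SignType.sign (u y) : ℝ)) := by
  have h1 : (fun y => (SignType.sign (u y) : ℝ)) =
      fun y => if 0 < u y then (1 : ℝ) else if u y < 0 then -1 else 0 := by
    funext y
    rw [sign_apply]
    split_ifs <;> simp
  rw [h1]
  exact Measurable.ite (measurableSet_lt measurable_const hu) measurable_const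
    (Measurable.ite (measurableSet_lt hu measurable_const) measurable_const measurable_const)

theorem gmi_fatou {v : ℕ → EuclideanSpace ℝ (Fin d) → ℝ}
    {G g : EuclideanSpace ℝ (Fin d) → EuclideanSpace ℝ (Fin d)} {A : ℝ≥0∞}
    (hpt : ∀ᵐ y, ‖G y‖ₑ ≤ liminf (fun j : ℕ => ‖fderiv ℝ (v j) y‖ₑ) atTop + ‖g y‖ₑ)
    (hTV : ∀ j, TV (v j) ≤ A) : ∫⁻ y, ‖G y‖ₑ ≤ A + ∫⁻ y, ‖g y‖ₑ := by
  have hm : ∀ j, Measurable (fun y => ‖fderiv ℝ (v j) y‖ₑ) := fun j =>
    (measurable_fderiv ℝ (v j)).enorm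
  have h1 : ∫⁻ y, liminf (fun j : ℕ => ‖fderiv ℝ (v j) y‖ₑ) atTop ≤ A := by
    refine (lintegral_liminf_le hm).trans ?_
    have h2 : liminf (fun j : ℕ => ∫⁻ y, ‖fderiv ℝ (v j) y‖ₑ) atTop ≤
        liminf (fun _ : ℕ => A) atTop :=
      liminf_le_liminf (Eventually.of_forall fun j => hTV j)
    rw [liminf_const] at h2
    exact h2
  calc ∫⁻ y, ‖G y‖ₑ
      ≤ ∫⁻ y, (liminf (fun j : ℕ => ‖fderiv ℝ (v j) y‖ₑ) atTop + ‖g y‖ₑ) :=
        lintegral_mono_ae hpt
    _ = (∫⁻ y, liminf (fun j : ℕ => ‖fderiv ℝ (v j) y‖ₑ) atTop) + ∫⁻ y, ‖g y‖ₑ :=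
        lintegral_add_left' (Measurable.liminf hm).aemeasurable _
    _ ≤ A + ∫⁻ y, ‖g y‖ₑ := by gcongr

theorem gmi_sign_smul (a : ℝ) (w : EuclideanSpace ℝ (Fin d)) :
    ‖(SignType.sign a : ℝ) • w‖ₑ ≤ ‖w‖ₑ := by
  rw [← ofReal_norm, ← ofReal_norm]
  apply ENNReal.ofReal_le_ofReal
  rw [norm_smul]
  have h1 : ‖(SignType.sign a : ℝ)‖ ≤ 1 := by
    rw [sign_apply]
    split_ifs <;> simp
  calc ‖(SignType.sign a : ℝ)‖ * ‖w‖ ≤ 1 * ‖w‖ :=
        mul_le_mul_of_nonneg_right h1 (norm_nonneg _)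
    _ = ‖w‖ := one_mul _

/-- Fatou: a.e. on `{|fs| < uM f}` the gradients of `Mge |f| 2^-j` are eventually constant -/
theorem integrable_GM (d : ℕ) (hd : 2 ≤ d) : ∃ C : ℝ, 0 ≤ C ∧
    ∀ (f : EuclideanSpace ℝ (Fin d) → ℝ) (g : EuclideanSpace ℝ (Fin d) → EuclideanSpace ℝ (Fin d))
      (F : ℕ → EuclideanSpace ℝ (Fin d) → ℝ), Appr f g F →
      Integrable (GM f g F) ∧ ∫ y, ‖GM f g F y‖ ≤ C * ∫ y, ‖g y‖ := by
  classical
  obtain ⟨C, hC0, hC⟩ := TV_general d hd
  refine ⟨C + 1, by linarith, ?_⟩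
  intro f g F h
  have hfa : Integrable (fun y => |f y|) := h.hf.abs
  have hfa0 : ∀ x, 0 ≤ (fun y => |f y|) x := fun x => abs_nonneg _
  have hlip := fun k : ℕ => Mge_lipschitz hfa hfa0 (r := (2 : ℝ) ^ (-(k : ℤ))) (by positivity)
  have hdiff : ∀ᵐ y, ∀ k : ℕ,
      DifferentiableAt ℝ (Mge (fun y => |f y|) ((2 : ℝ) ^ (-(k : ℤ)))) y := by
    rw [ae_all_iff]
    intro k
    exact (hlip k).ae_differentiableAt
  set e : EuclideanSpace ℝ (Fin d) := EuclideanSpace.single ⟨0, by omega⟩ 1 with he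
  have hen : ‖e‖ = 1 := by rw [he]; simp
  have hgood := ae_goodLine hd h hen
  have hfsm : Measurable (fs F) := gmi_meas_fs fun n => (h.hF n).continuous
  have hSm : MeasurableSet {y : EuclideanSpace ℝ (Fin d) | |fs F y| < (uM f y).toReal} :=
    measurableSet_lt hfsm.abs measurable_uM.ennreal_toReal
  -- the approximants
  set Φ : ℕ → EuclideanSpace ℝ (Fin d) → EuclideanSpace ℝ (Fin d) := fun j y =>
    if |fs F y| < (uM f y).toReal then gradient (Mge (fun y => |f y|) ((2 : ℝ) ^ (-(j : ℤ)))) y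
    else (SignType.sign (fs F y) : ℝ) • g y with hΦ
  have hgradm : ∀ j : ℕ, Measurable (gradient (Mge (fun y => |f y|) ((2 : ℝ) ^ (-(j : ℤ))))) := by
    intro j
    exact (LinearIsometryEquiv.continuous _).measurable.comp (measurable_fderiv ℝ _)
  have hsgm : Measurable (fun y => (SignType.sign (fs F y) : ℝ)) := gmi_meas_sign hfsm
  have hΦm : ∀ j, AEStronglyMeasurable (Φ j) volume := by
    intro j
    exact AEStronglyMeasurable.piecewise (s := {y | |fs F y| < (uM f y).toReal}) hSm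
      (hgradm j).aestronglyMeasurable
      (hsgm.aestronglyMeasurable.smul h.hg.1).restrict
  have hev : ∀ᵐ y, ∀ᶠ j in atTop, Φ j y = GM f g F y := by
    filter_upwards [hgood, hdiff] with y hy hdy
    by_cases hlt : |fs F y| < (uM f y).toReal
    · filter_upwards [eventually_ge_atTop (kk f y)] with j hj
      rw [hΦ]
      simp only [GM, if_pos hlt]
      exact gmi_eventually hd h hy hlt hdy j hj
    · refine Eventually.of_forall fun j => ?_
      rw [hΦ]
      simp only [GM, if_neg hlt]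
  have hGMm : AEStronglyMeasurable (GM f g F) volume := by
    refine aestronglyMeasurable_of_tendsto_ae atTop hΦm ?_
    filter_upwards [hev] with y hy
    exact tendsto_const_nhds.congr' (hy.mono fun j hj => hj.symm)
  have hpt : ∀ᵐ y, ‖GM f g F y‖ₑ ≤ liminf (fun j : ℕ =>
      ‖fderiv ℝ (Mge (fun y => |f y|) ((2 : ℝ) ^ (-(j : ℤ)))) y‖ₑ) atTop + ‖g y‖ₑ := by
    filter_upwards [hgood, hdiff] with y hy hdy
    by_cases hlt : |fs F y| < (uM f y).toReal
    · have h1 : liminf (fun j : ℕ =>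
          ‖fderiv ℝ (Mge (fun y => |f y|) ((2 : ℝ) ^ (-(j : ℤ)))) y‖ₑ) atTop =
          ‖GM f g F y‖ₑ := by
        apply Tendsto.liminf_eq
        apply tendsto_const_nhds.congr'
        filter_upwards [eventually_ge_atTop (kk f y)] with j hj
        have h2 := gmi_eventually hd h hy hlt hdy j hj
        simp only [GM, if_pos hlt]
        rw [← h2, gradient, ← ofReal_norm, ← ofReal_norm, LinearIsometryEquiv.norm_map]
      rw [h1]
      exact le_self_add
    · refine le_trans ?_ le_add_self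
      simp only [GM, if_neg hlt]
      exact gmi_sign_smul _ _
  have hbound0 := gmi_fatou hpt (A := ENNReal.ofReal (C * ∫ y, ‖g y‖))
    (fun j => hC f g h.hf h.hg h.hfg j)
  have hI0 : 0 ≤ ∫ y, ‖g y‖ := integral_nonneg fun y => norm_nonneg _
  have hbound : ∫⁻ y, ‖GM f g F y‖ₑ ≤ ENNReal.ofReal ((C + 1) * ∫ y, ‖g y‖) := by
    rw [← ofReal_integral_norm_eq_lintegral_enorm h.hg,
      ← ENNReal.ofReal_add (mul_nonneg hC0 hI0) hI0] at hbound0
    have : C * (∫ y, ‖g y‖) + ∫ y, ‖g y‖ = (C + 1) * ∫ y, ‖g y‖ := by ring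
    rwa [this] at hbound0
  have hint : Integrable (GM f g F) :=
    ⟨hGMm, hasFiniteIntegral_iff_enorm.2 (hbound.trans_lt ENNReal.ofReal_lt_top)⟩
  refine ⟨hint, ?_⟩
  rw [← ofReal_integral_norm_eq_lintegral_enorm hint] at hbound
  exact (ENNReal.ofReal_le_ofReal_iff (mul_nonneg (by linarith) hI0)).1 hbound

end Vale.Agent.P137
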