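import Vale.Agent.P137.W11Defs

/-! Uniform limits on a good line (module GOODC). -/

open MeasureTheory Metric Set Filter Topology
open scoped RealInnerProductSpace ENNReal

namespace Vale.Agent.P137

variable {d : ℕ} {f : EuclideanSpace ℝ (Fin d) → ℝ}
  {g : EuclideanSpace ℝ (Fin d) → EuclideanSpace ℝ (Fin d)}
  {F : ℕ → EuclideanSpace ℝ (Fin d) → ℝ}

/-- averages of bounded functions -/
theorem avg_le_of_bdd {F : EuclideanSpace ℝ (Fin d) → ℝ} {c : EuclideanSpace ℝ (Fin d)}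
    {r K : ℝ} (hr : 0 < r) (hK : ∀ y ∈ ball c r, |F y| ≤ K) :
    (∫⁻ y in ball c r, ‖F y‖ₑ) / volume (ball c r) ≤ ENNReal.ofReal K := by
  refine ENNReal.div_le_of_le_mul ?_
  calc ∫⁻ y in ball c r, ‖F y‖ₑ ≤ ∫⁻ _ in ball c r, ENNReal.ofReal K := by
        refine setLIntegral_mono' measurableSet_ball fun y hy => ?_
        rw [← ofReal_norm]
        exact ENNReal.ofReal_le_ofReal (hK y hy)
    _ = ENNReal.ofReal K * volume (ball c r) := by rw [setLIntegral_const]

theorem uM_le_of_bdd {F : EuclideanSpace ℝ (Fin d) → ℝ} {K : ℝ} (hK : ∀ y, |F y| ≤ K)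
    (x : EuclideanSpace ℝ (Fin d)) : uM F x ≤ ENNReal.ofReal K :=
  uM_le fun _ _ hr _ => avg_le_of_bdd hr fun y _ => hK y

theorem uM_ne_top_of_smooth {F : EuclideanSpace ℝ (Fin d) → ℝ} (hF : Continuous F)
    (hFc : HasCompactSupport F) (x : EuclideanSpace ℝ (Fin d)) : uM F x ≠ ⊤ := by
  obtain ⟨K, hK⟩ := hFc.exists_bound_of_continuous hF
  exact ((uM_le_of_bdd hK x).trans_lt ENNReal.ofReal_lt_top).ne

theorem uM_sub_comm (f f' : EuclideanSpace ℝ (Fin d) → ℝ) (x : EuclideanSpace ℝ (Fin d)) :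
    uM (fun y => f y - f' y) x = uM (fun y => f' y - f y) x := by
  unfold uM
  simp_rw [fun y => enorm_sub_rev (f y) (f' y)]

theorem uM_le_add_sub {f f' : EuclideanSpace ℝ (Fin d) → ℝ} (hf' : AEStronglyMeasurable f')
    (x : EuclideanSpace ℝ (Fin d)) : uM f x ≤ uM f' x + uM (fun y => f y - f' y) x := by
  have h := uM_add_le f' (fun y => f y - f' y) hf' x
  have e : (fun y => f' y + (f y - f' y)) = f := by funext y; ring
  rwa [e] at h

theorem Appr.cont (h : Appr f g F) (n : ℕ) : Continuous (F n) := (h.hF n).continuous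

theorem GoodLine.spec {e x : EuclideanSpace ℝ (Fin d)} {ζ : ℕ → ℝ}
    (h2 : ∀ (n m : ℕ) (s : ℝ), n ≤ m → |F m (x + s • e) - F n (x + s • e)| ≤ ζ n) (n : ℕ) :
    0 ≤ ζ n := by
  have := h2 n n 0 le_rfl
  rw [sub_self, abs_zero] at this
  exact this

theorem GoodLine.ne_top (h : Appr f g F) {e x : EuclideanSpace ℝ (Fin d)}
    (hx : GoodLine f F e x) (s : ℝ) : uM f (x + s • e) ≠ ⊤ := by
  obtain ⟨ζ, -, h1, -⟩ := hx
  refine ((uM_le_add_sub (h.cont 0).aestronglyMeasurable (x + s • e)).trans_lt ?_).ne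
  exact ENNReal.add_lt_top.2 ⟨(uM_ne_top_of_smooth (h.cont 0) (h.hFc 0) _).lt_top,
    (h1 0 s).trans_lt ENNReal.ofReal_lt_top⟩

/-- on a good line the maximal functions of the approximations converge uniformly -/
theorem GoodLine.uM_close (h : Appr f g F) {e x : EuclideanSpace ℝ (Fin d)}
    (hx : GoodLine f F e x) {ζ : ℕ → ℝ} (hζ : ∀ n, 0 ≤ ζ n)
    (h1 : ∀ (n : ℕ) (s : ℝ), uM (fun y => f y - F n y) (x + s • e) ≤ ENNReal.ofReal (ζ n))
    (n : ℕ) (s : ℝ) :
    |(uM f (x + s • e)).toReal - (uM (F n) (x + s • e)).toReal| ≤ ζ n := by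
  have ht := hx.ne_top h s
  have htn := uM_ne_top_of_smooth (h.cont n) (h.hFc n) (x + s • e)
  have ha : (uM f (x + s • e)).toReal ≤ (uM (F n) (x + s • e)).toReal + ζ n := by
    have h3 := (uM_le_add_sub (h.cont n).aestronglyMeasurable (x + s • e)).trans
      (add_le_add_right (h1 n s) (uM (F n) (x + s • e)))
    have h4 := ENNReal.toReal_mono (ENNReal.add_ne_top.2 ⟨htn, ENNReal.ofReal_ne_top⟩) h3
    rwa [ENNReal.toReal_add htn ENNReal.ofReal_ne_top, ENNReal.toReal_ofReal (hζ n)] at h4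
  have hb : (uM (F n) (x + s • e)).toReal ≤ (uM f (x + s • e)).toReal + ζ n := by
    have h3 := (uM_le_add_sub (f := F n) h.hf.aestronglyMeasurable (x + s • e))
    rw [uM_sub_comm] at h3
    have h4 := h3.trans (add_le_add_right (h1 n s) (uM f (x + s • e)))
    have h5 := ENNReal.toReal_mono (ENNReal.add_ne_top.2 ⟨ht, ENNReal.ofReal_ne_top⟩) h4
    rwa [ENNReal.toReal_add ht ENNReal.ofReal_ne_top, ENNReal.toReal_ofReal (hζ n)] at h5
  rw [abs_sub_le_iff]
  constructor <;> linarith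

theorem continuous_of_uniform {u : ℝ → ℝ} {v : ℕ → ℝ → ℝ} {ζ : ℕ → ℝ}
    (hζ : Tendsto ζ atTop (𝓝 0)) (hv : ∀ n, Continuous (v n))
    (h : ∀ n s, |u s - v n s| ≤ ζ n) : Continuous u := by
  have h1 : TendstoUniformly v u atTop := by
    rw [Metric.tendstoUniformly_iff]
    intro ε hε
    filter_upwards [hζ.eventually (gt_mem_nhds hε)] with n hn s
    rw [Real.dist_eq]
    exact (h n s).trans_lt hn
  exact h1.continuous (Eventually.of_forall hv).frequently

/-- on a good line the maximal function is finite and continuous -/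
theorem GoodLine.continuous_uM (hd : 2 ≤ d) (h : Appr f g F) {e x : EuclideanSpace ℝ (Fin d)}
    (hx : GoodLine f F e x) : (∀ s : ℝ, uM f (x + s • e) ≠ ⊤) ∧
      Continuous (fun s : ℝ => (uM f (x + s • e)).toReal) := by
  refine ⟨fun s => hx.ne_top h s, ?_⟩
  obtain ⟨ζ, hζ, h1, h2⟩ := id hx
  obtain ⟨C, -, hC⟩ := uM_smooth d hd
  have hζ0 : ∀ n, 0 ≤ ζ n := GoodLine.spec h2
  refine continuous_of_uniform (v := fun n s => (uM (F n) (x + s • e)).toReal) hζ (fun n => ?_)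
    fun n s => hx.uM_close h hζ0 h1 n s
  obtain ⟨-, ⟨K, hK⟩, -⟩ := hC (F n) (h.hF n) (h.hFc n)
  exact hK.continuous.comp (by fun_prop)

theorem GoodLine.tendsto_fs {e x : EuclideanSpace ℝ (Fin d)}
    (hx : GoodLine f F e x) (s : ℝ) :
    Tendsto (fun n => F n (x + s • e)) atTop (𝓝 (fs F (x + s • e))) := by
  obtain ⟨ζ, hζ, -, h2⟩ := hx
  have hc : CauchySeq (fun n => F n (x + s • e)) := by
    rw [Metric.cauchySeq_iff']
    intro ε hε
    obtain ⟨N, hN⟩ := (hζ.eventually (gt_mem_nhds hε)).exists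
    refine ⟨N, fun n hn => ?_⟩
    rw [Real.dist_eq]
    exact (h2 N n s hn).trans_lt hN
  obtain ⟨l, hl⟩ := cauchySeq_tendsto_of_complete hc
  have hl2 : fs F (x + s • e) = l := hl.limUnder_eq
  rw [hl2]
  exact hl

theorem GoodLine.fs_close {e x : EuclideanSpace ℝ (Fin d)}
    (hx : GoodLine f F e x) {ζ : ℕ → ℝ}
    (h2 : ∀ (n m : ℕ) (s : ℝ), n ≤ m → |F m (x + s • e) - F n (x + s • e)| ≤ ζ n)
    (n : ℕ) (s : ℝ) : |fs F (x + s • e) - F n (x + s • e)| ≤ ζ n := by
  have h3 : Tendsto (fun m => |F m (x + s • e) - F n (x + s • e)|) atTop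
      (𝓝 |fs F (x + s • e) - F n (x + s • e)|) := ((hx.tendsto_fs s).sub_const _).abs
  refine le_of_tendsto h3 ?_
  filter_upwards [eventually_ge_atTop n] with m hm
  exact h2 n m s hm

theorem GoodLine.continuous_fs (h : Appr f g F) {e x : EuclideanSpace ℝ (Fin d)}
    (hx : GoodLine f F e x) : Continuous (fun s : ℝ => fs F (x + s • e)) ∧
      (∀ s : ℝ, Tendsto (fun n => F n (x + s • e)) atTop (𝓝 (fs F (x + s • e)))) ∧
      (∀ s : ℝ, |fs F (x + s • e)| ≤ (uM f (x + s • e)).toReal) := by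
  obtain ⟨ζ, hζ, h1, h2⟩ := id hx
  have hζ0 : ∀ n, 0 ≤ ζ n := GoodLine.spec h2
  refine ⟨?_, fun s => hx.tendsto_fs s, fun s => ?_⟩
  · refine continuous_of_uniform (v := fun n s => F n (x + s • e)) hζ (fun n => ?_)
      fun n s => hx.fs_close h2 n s
    exact (h.cont n).comp (by fun_prop)
  · have h3 : Tendsto (fun n => |F n (x + s • e)|) atTop (𝓝 |fs F (x + s • e)|) :=
      (hx.tendsto_fs s).abs
    have h4 : Tendsto (fun n => (uM f (x + s • e)).toReal + ζ n) atTop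
        (𝓝 ((uM f (x + s • e)).toReal + 0)) := hζ.const_add _
    rw [add_zero] at h4
    refine le_of_tendsto_of_tendsto' h3 h4 fun n => ?_
    have h5 := (abs_sub_le_iff.1 (hx.uM_close h hζ0 h1 n s)).2
    have h6 := enorm_le_uM (h.cont n) (x + s • e)
    have h7 := ENNReal.toReal_mono (uM_ne_top_of_smooth (h.cont n) (h.hFc n) (x + s • e)) h6
    rw [toReal_enorm, Real.norm_eq_abs] at h7
    linarith

end Vale.Agent.P137
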