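import Vale.Agent.P137.WGmint
import Vale.Agent.P137.WGood
import Vale.Agent.P137.WFs

/-! Glueing on almost every line (module UMLINE). -/

open MeasureTheory Metric Set Filter Topology
open scoped RealInnerProductSpace ENNReal

namespace Vale.Agent.P137

variable {d : ℕ} {f : EuclideanSpace ℝ (Fin d) → ℝ}
  {g : EuclideanSpace ℝ (Fin d) → EuclideanSpace ℝ (Fin d)}
  {F : ℕ → EuclideanSpace ℝ (Fin d) → ℝ}

/-- an integrable function is integrable on the unit segment of almost every line -/
theorem ae_integrableOn_line {Ψ : EuclideanSpace ℝ (Fin d) → ℝ} (hΨ : Integrable Ψ)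
    (e : EuclideanSpace ℝ (Fin d)) :
    ∀ᵐ x, IntegrableOn (fun s : ℝ => Ψ (x + s • e)) (Icc 0 1) := by
  have hmp : MeasurePreserving (fun p : ℝ × EuclideanSpace ℝ (Fin d) =>
      (p.1, p.2 + p.1 • e))
      ((volume.restrict (Icc (0 : ℝ) 1)).prod (volume : Measure (EuclideanSpace ℝ (Fin d))))
      ((volume.restrict (Icc (0 : ℝ) 1)).prod (volume : Measure (EuclideanSpace ℝ (Fin d)))) := by
    refine MeasurePreserving.skew_product (MeasurePreserving.id _)
      (g := fun s x => x + s • e) ?_ ?_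
    · have : Continuous (Function.uncurry fun (s : ℝ) (x : EuclideanSpace ℝ (Fin d)) =>
          x + s • e) := by
        simp only [Function.uncurry_def]
        fun_prop
      exact this.measurable
    · exact Eventually.of_forall fun s => (measurePreserving_add_right volume (s • e)).map_eq
  have h1 : Integrable (fun p : ℝ × EuclideanSpace ℝ (Fin d) => Ψ p.2)
      ((volume.restrict (Icc (0 : ℝ) 1)).prod (volume : Measure (EuclideanSpace ℝ (Fin d)))) :=
    hΨ.comp_snd _
  have h2 := hmp.integrable_comp_of_integrable h1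
  exact h2.prod_left_ae

theorem fderiv_eq_of_le_of_eq {u v : EuclideanSpace ℝ (Fin d) → ℝ}
    {y : EuclideanSpace ℝ (Fin d)} (hu : DifferentiableAt ℝ u y) (hv : DifferentiableAt ℝ v y)
    (hle : ∀ z, u z ≤ v z) (heq : u y = v y) : fderiv ℝ u y = fderiv ℝ v y := by
  have hmin : IsLocalMin (fun z => v z - u z) y := by
    refine Eventually.of_forall fun z => ?_
    simp only [heq, sub_self]
    exact sub_nonneg.mpr (hle z)
  have h1 := hmin.fderiv_eq_zero
  have h2 : fderiv ℝ (fun z => v z - u z) y = fderiv ℝ v y - fderiv ℝ u y := fderiv_fun_sub hv hu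
  rw [h2] at h1
  exact (sub_eq_zero.mp h1).symm

theorem inner_single_one (v : EuclideanSpace ℝ (Fin d)) (i : Fin d) :
    ⟪v, EuclideanSpace.single i (1 : ℝ)⟫ = v i := by
  rw [real_inner_comm, EuclideanSpace.inner_single_left]
  simp

theorem gradient_apply_eq {u : EuclideanSpace ℝ (Fin d) → ℝ}
    {y : EuclideanSpace ℝ (Fin d)} (i : Fin d) :
    (gradient u y) i = fderiv ℝ u y (EuclideanSpace.single i (1 : ℝ)) := by
  rw [← inner_single_one]
  unfold gradient
  rw [InnerProductSpace.toDual_symm_apply]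

/-- `ac_glue` on almost every line -/
theorem ae_uM_line (hd : 2 ≤ d) (h : Appr f g F) (i : Fin d) : ∀ᵐ x, ∀ t ∈ Icc (0 : ℝ) 1,
      (uM f (x + t • EuclideanSpace.single i 1)).toReal - (uM f x).toReal =
        ∫ s in (0 : ℝ)..t, (GM f g F (x + s • EuclideanSpace.single i 1)) i := by
  obtain ⟨C, -, hC⟩ := integrable_GM d hd
  have hGM := (hC f g F h).1
  set e : EuclideanSpace ℝ (Fin d) := EuclideanSpace.single i 1 with he_def
  have he : ‖e‖ = 1 := by rw [he_def]; simp
  have habs : Integrable (fun y => |f y|) := h.hf.abs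
  have habs0 : ∀ y, 0 ≤ |f y| := fun y => abs_nonneg _
  have hGMi : Integrable (fun y => (GM f g F y) i) := by
    have h1 : Integrable (fun y => ⟪GM f g F y, e⟫) := hGM.inner_const e
    refine h1.congr (Eventually.of_forall fun y => ?_)
    exact inner_single_one _ i
  have hLip : ∀ k : ℕ, ∃ K : NNReal, LipschitzWith K
      (Mge (fun y => |f y|) ((2 : ℝ) ^ (-(k : ℤ)))) := fun k =>
    ⟨_, Mge_lipschitz habs habs0 (by positivity)⟩
  have hdiff : ∀ᵐ y : EuclideanSpace ℝ (Fin d), ∀ k : ℕ,
      DifferentiableAt ℝ (Mge (fun y => |f y|) ((2 : ℝ) ^ (-(k : ℤ)))) y := by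
    rw [ae_all_iff]
    intro k
    obtain ⟨K, hK⟩ := hLip k
    exact hK.ae_differentiableAt
  filter_upwards [ae_goodLine hd h he, ae_fs_line h he, ae_line hdiff e,
    ae_integrableOn_line hGMi e] with x hgood hfsx hdiffx hGMx t ht
  have hfs := hfsx hgood
  obtain ⟨hfin, hUc⟩ := GoodLine.continuous_uM hd h hgood
  obtain ⟨hfsc, -, hfsle⟩ := GoodLine.continuous_fs h hgood
  have ht0 : (0 : ℝ) ≤ t := ht.1
  have hq : ∀ s ∈ Icc (0 : ℝ) t, fs F (x + s • e) = fs F (x + (0 : ℝ) • e) +
      ∫ r in (0 : ℝ)..s, ⟪g (x + r • e), e⟫ := fun s _ => (hfs 0 s).2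
  have hγ0 : IntervalIntegrable (fun s => ⟪g (x + s • e), e⟫) volume 0 t := (hfs 0 t).1
  have hγ : IntervalIntegrable (fun s => (SignType.sign (fs F (x + s • e)) : ℝ) *
      ⟪g (x + s • e), e⟫) volume 0 t := by
    rw [intervalIntegrable_iff] at hγ0 ⊢
    refine Integrable.bdd_mul (c := 1) hγ0 ?_ ?_
    · have h1 : Measurable (fun r : ℝ => (SignType.sign r : ℝ)) := by
        have : (fun r : ℝ => (SignType.sign r : ℝ)) =
            fun r => if 0 < r then 1 else if r < 0 then -1 else 0 := by
          ext r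
          rcases lt_trichotomy r 0 with hr | hr | hr
          · rw [sign_neg hr, if_neg (not_lt.mpr hr.le), if_pos hr]; simp
          · rw [hr]; simp
          · rw [sign_pos hr, if_pos hr]; simp
        rw [this]
        exact Measurable.ite measurableSet_Ioi measurable_const
          (Measurable.ite measurableSet_Iio measurable_const measurable_const)
      exact (h1.comp hfsc.measurable).aestronglyMeasurable
    · refine Eventually.of_forall fun s => ?_
      rcases lt_trichotomy (fs F (x + s • e)) 0 with hr | hr | hr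
      · rw [sign_neg hr]; simp
      · rw [hr]; simp
      · rw [sign_pos hr]; simp
  have hVγ : ∀ s ∈ Icc (0 : ℝ) t, |fs F (x + s • e)| = |fs F (x + (0 : ℝ) • e)| +
      ∫ r in (0 : ℝ)..s, (SignType.sign (fs F (x + r • e)) : ℝ) * ⟪g (x + r • e), e⟫ := by
    intro s hs
    have h1 := ac_abs (q := fun r => fs F (x + r • e)) (κ := fun r => ⟪g (x + r • e), e⟫)
      hs.1 (hfs 0 s).1 (fun r hr => (hfs 0 r).2)
    linarith
  have hD : IntervalIntegrable (fun s => (GM f g F (x + s • e)) i) volume 0 t := by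
    rw [intervalIntegrable_iff_integrableOn_Icc_of_le ht0]
    exact hGMx.mono_set (Icc_subset_Icc_right ht.2)
  have hglue := ac_glue (U := fun s => (uM f (x + s • e)).toReal)
    (V := fun s => |fs F (x + s • e)|)
    (γ := fun s => (SignType.sign (fs F (x + s • e)) : ℝ) * ⟪g (x + s • e), e⟫)
    (D := fun s => (GM f g F (x + s • e)) i) ht0 hUc hfsc.abs hfsle hγ hVγ hD ?_
  · simp only [zero_smul, add_zero] at hglue
    rw [hglue]
    refine intervalIntegral.integral_congr fun s _ => ?_
    split_ifs with hlt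
    · rfl
    · rw [GM, if_neg hlt, PiLp.smul_apply, smul_eq_mul, inner_single_one]
  · intro η hη
    obtain ⟨k0, hk0⟩ := GoodLine.eq_Mge hd h hgood hη
    obtain ⟨K, hK⟩ := hLip k0
    refine ⟨fun s => Mge (fun y => |f y|) ((2 : ℝ) ^ (-(k0 : ℤ))) (x + s • e), K, ?_, ?_, ?_⟩
    · refine LipschitzWith.of_dist_le_mul fun s s' => ?_
      refine (hK.dist_le_mul _ _).trans (le_of_eq ?_)
      rw [dist_add_left, dist_eq_norm, dist_eq_norm, ← sub_smul, norm_smul, he, mul_one]
    · intro s _ hs
      exact hk0 k0 le_rfl s hs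
    · filter_upwards [hdiffx] with s hds _ hs
      -- the point
      have hkey : (uM f (x + s • e)).toReal =
          Mge (fun y => |f y|) ((2 : ℝ) ^ (-(k0 : ℤ))) (x + s • e) := hk0 k0 le_rfl s hs
      have hex : ∃ k : ℕ, (uM f (x + s • e)).toReal =
          Mge (fun y => |f y|) ((2 : ℝ) ^ (-(k : ℤ))) (x + s • e) := ⟨k0, hkey⟩
      have hkk : (uM f (x + s • e)).toReal =
          Mge (fun y => |f y|) ((2 : ℝ) ^ (-(kk f (x + s • e) : ℤ))) (x + s • e) := by
        rw [kk, dif_pos hex]
        exact Nat.find_spec hex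
      have hkk0 : kk f (x + s • e) ≤ k0 := by
        rw [kk, dif_pos hex]
        exact Nat.find_min' hex hkey
      have hlt : |fs F (x + s • e)| < (uM f (x + s • e)).toReal := by linarith
      have hfd : fderiv ℝ (Mge (fun y => |f y|) ((2 : ℝ) ^ (-(kk f (x + s • e) : ℤ))))
          (x + s • e) = fderiv ℝ (Mge (fun y => |f y|) ((2 : ℝ) ^ (-(k0 : ℤ)))) (x + s • e) := by
        refine fderiv_eq_of_le_of_eq (hds _) (hds _) (fun z => ?_) (hkk.symm.trans hkey)
        refine Mge_anti habs habs0 (by positivity) ?_ z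
        exact zpow_le_zpow_right₀ (by norm_num) (by omega)
      have hderiv : HasDerivAt (fun s => Mge (fun y => |f y|) ((2 : ℝ) ^ (-(k0 : ℤ)))
          (x + s • e)) (fderiv ℝ (Mge (fun y => |f y|) ((2 : ℝ) ^ (-(k0 : ℤ)))) (x + s • e) e)
          s := by
        have h1 : HasDerivAt (fun s : ℝ => x + s • e) e s := by
          simpa using ((hasDerivAt_id s).smul_const e).const_add x
        exact (hds k0).hasFDerivAt.comp_hasDerivAt s h1
      rw [hderiv.deriv, GM, if_pos hlt, gradient_apply_eq, hfd]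

end Vale.Agent.P137
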